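/-
ROW 123 (S0163).  Base: rotation number `al = √2`, the function `s t = sin²(π t)`.
Definitions only (pieces are in the other files).
-/
import Mathlib

set_option autoImplicit false

namespace Crest.Agent.R123

noncomputable section

/-- The rotation number `α = √2`. -/
def al : ℝ := Real.sqrt 2

/-- `s t = sin² (π t)`, vanishing exactly on the integers. -/
def s (t : ℝ) : ℝ := Real.sin (Real.pi * t) ^ 2

/-- Ambient space of the local model: `z = (x, y)`, with its sup norm; the Euclidean gauge is `nrm`. -/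
abbrev E := ℂ × ℂ

/-- Euclidean norm of `z = (x, y) ∈ ℂ²`. -/
def nrm (z : E) : ℝ := Real.sqrt (‖z.1‖ ^ 2 + ‖z.2‖ ^ 2)

/-- The model map `g (x,y) = (4 (x²/‖z‖ - y), x/16)` (`g 0 = 0`). -/
def g (z : E) : E := (4 * (z.1 ^ 2 / (nrm z : ℂ) - z.2), z.1 / 16)

end

end Crest.Agent.R123
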