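/-
ROW 123 (S0163), piece BaseS: elementary facts about `s t = sin²(π t)` and `nrm`.
All easy.
* `sqrt (s t) = |sin π t|`; `Real.mul_le_sin` gives `|sin (π d)| ≥ 2 |d|` for `|d| ≤ 1/2`, `m = round t`.
* `s t ≤ π² (t-m)²`: `|sin(π t)| = |sin (π (t - m))| ≤ π |t-m|`.
-/
import Crest.Agent.R123.Base

set_option autoImplicit false

namespace Crest.Agent.R123

theorem al_pos : 0 < al := by unfold al; positivity

theorem s_nonneg (t : ℝ) : 0 ≤ s t := by unfold s; positivity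

theorem s_le_one (t : ℝ) : s t ≤ 1 := by unfold s; exact Real.sin_sq_le_one _

theorem s_add_one (t : ℝ) : s (t + 1) = s t := by
  unfold s
  rw [mul_add, mul_one, Real.sin_add_pi, neg_sq]

theorem s_add_int (t : ℝ) (m : ℤ) : s (t + m) = s t := by
  unfold s
  rw [mul_add, mul_comm Real.pi (m : ℝ), Real.sin_add_int_mul_pi, mul_pow]
  have h : ((-1 : ℝ) ^ m) ^ 2 = 1 := by
    rw [← zpow_natCast, ← zpow_mul, mul_comm, zpow_mul]
    norm_num
  rw [h, one_mul]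

theorem s_contDiff {n : WithTop ℕ∞} : ContDiff ℝ n s := by
  unfold s
  exact (Real.contDiff_sin.comp (contDiff_const.mul contDiff_id)).pow 2

theorem s_eq_zero_iff (t : ℝ) : s t = 0 ↔ ∃ m : ℤ, t = m := by
  unfold s
  rw [pow_eq_zero_iff two_ne_zero, Real.sin_eq_zero_iff]
  constructor
  · rintro ⟨n, hn⟩
    refine ⟨n, ?_⟩
    have := Real.pi_pos.ne'
    have h2 : (n : ℝ) * Real.pi = t * Real.pi := by rw [hn]; ring
    exact (mul_right_cancel₀ this h2).symm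
  · rintro ⟨m, hm⟩
    exact ⟨m, by rw [hm]; ring⟩

theorem s_lip (t t' : ℝ) : |s t - s t'| ≤ 7 * |t - t'| := by
  have h1 : s t - s t' = (Real.sin (Real.pi * t) - Real.sin (Real.pi * t')) *
      (Real.sin (Real.pi * t) + Real.sin (Real.pi * t')) := by
    unfold s; ring
  have h2 : |Real.sin (Real.pi * t) - Real.sin (Real.pi * t')| ≤ |Real.pi * t - Real.pi * t'| :=
    Real.abs_sin_sub_sin_le _ _
  have h3 : |Real.sin (Real.pi * t) + Real.sin (Real.pi * t')| ≤ 2 := by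
    calc _ ≤ |Real.sin (Real.pi * t)| + |Real.sin (Real.pi * t')| := abs_add_le _ _
      _ ≤ 1 + 1 := add_le_add (Real.abs_sin_le_one _) (Real.abs_sin_le_one _)
      _ = 2 := by norm_num
  have h4 : |Real.pi * t - Real.pi * t'| = Real.pi * |t - t'| := by
    rw [← mul_sub, abs_mul, abs_of_pos Real.pi_pos]
  rw [h1, abs_mul]
  have hpi : Real.pi ≤ 3.15 := Real.pi_lt_d2.le
  calc _ ≤ (Real.pi * |t - t'|) * 2 := by
        apply mul_le_mul _ h3 (abs_nonneg _) (by positivity)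
        rw [← h4]; exact h2
    _ = (2 * Real.pi) * |t - t'| := by ring
    _ ≤ 7 * |t - t'| := by
        apply mul_le_mul_of_nonneg_right _ (abs_nonneg _)
        linarith

theorem s_le_of_int (t : ℝ) (m : ℤ) : s t ≤ 10 * (t - m) ^ 2 := by
  have h0 : s t = s (t - m) := by
    have := s_add_int (t - m) m
    rw [← this]; congr 1; ring
  rw [h0]
  unfold s
  have h1 : |Real.sin (Real.pi * (t - m))| ≤ |Real.pi * (t - m)| := Real.abs_sin_le_abs
  have h2 : Real.sin (Real.pi * (t - m)) ^ 2 ≤ (Real.pi * (t - m)) ^ 2 := sq_le_sq.mpr h1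
  have hpi : Real.pi ≤ 3.15 := Real.pi_lt_d2.le
  have hpi0 := Real.pi_pos
  calc _ ≤ (Real.pi * (t - m)) ^ 2 := h2
    _ = Real.pi ^ 2 * (t - m) ^ 2 := by ring
    _ ≤ 10 * (t - m) ^ 2 := by
        apply mul_le_mul_of_nonneg_right _ (sq_nonneg _)
        nlinarith

theorem exists_int_near (t : ℝ) : ∃ m : ℤ, 2 * |t - m| ≤ Real.sqrt (s t) := by
  refine ⟨round t, ?_⟩
  have h0 : s t = s (t - round t) := by
    have := s_add_int (t - round t) (round t)
    rw [← this]; congr 1; ring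
  rw [h0]
  unfold s
  rw [Real.sqrt_sq_eq_abs]
  set d := t - round t with hd
  have hd2 : |d| ≤ 1 / 2 := abs_sub_round t
  have h1 : |Real.sin (Real.pi * d)| = Real.sin (Real.pi * |d|) := by
    rcases le_total 0 d with h | h
    · rw [abs_of_nonneg h, abs_of_nonneg]
      apply Real.sin_nonneg_of_nonneg_of_le_pi (by positivity)
      rw [abs_of_nonneg h] at hd2
      nlinarith [Real.pi_pos]
    · rw [abs_of_nonpos h, mul_neg, Real.sin_neg, abs_of_nonpos]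
      have : 0 ≤ Real.sin (Real.pi * (-d)) := by
        apply Real.sin_nonneg_of_nonneg_of_le_pi
        · apply mul_nonneg Real.pi_pos.le; linarith
        · rw [abs_of_nonpos h] at hd2
          nlinarith [Real.pi_pos]
      rw [mul_neg, Real.sin_neg] at this
      linarith
  rw [h1]
  have h2 := Real.mul_le_sin (x := Real.pi * |d|) (by positivity)
    (by nlinarith [Real.pi_pos])
  calc 2 * |d| = 2 / Real.pi * (Real.pi * |d|) := by
        field_simp
    _ ≤ _ := h2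

theorem nrm_nonneg (z : E) : 0 ≤ nrm z := Real.sqrt_nonneg _

theorem nrm_sq (z : E) : nrm z ^ 2 = ‖z.1‖ ^ 2 + ‖z.2‖ ^ 2 := by
  unfold nrm; rw [Real.sq_sqrt (by positivity)]

theorem nrm_eq_zero_iff (z : E) : nrm z = 0 ↔ z = 0 := by
  constructor
  · intro h
    have h2 := nrm_sq z
    rw [h] at h2
    have h3 : ‖z.1‖ ^ 2 = 0 := by nlinarith [sq_nonneg ‖z.1‖, sq_nonneg ‖z.2‖]
    have h4 : ‖z.2‖ ^ 2 = 0 := by nlinarith [sq_nonneg ‖z.1‖, sq_nonneg ‖z.2‖]
    have h5 : z.1 = 0 := by simpa using h3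
    have h6 : z.2 = 0 := by simpa using h4
    exact Prod.ext h5 h6
  · rintro rfl
    simp [nrm]

theorem nrm_pos {z : E} (hz : z ≠ 0) : 0 < nrm z :=
  lt_of_le_of_ne (nrm_nonneg z) (fun h => hz ((nrm_eq_zero_iff z).1 h.symm))

theorem norm_le_nrm (z : E) : ‖z‖ ≤ nrm z := by
  rw [Prod.norm_def]
  apply max_le
  · apply Real.le_sqrt_of_sq_le; nlinarith [sq_nonneg ‖z.2‖]
  · apply Real.le_sqrt_of_sq_le; nlinarith [sq_nonneg ‖z.1‖]

theorem nrm_le_norm (z : E) : nrm z ≤ Real.sqrt 2 * ‖z‖ := by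
  have h : Real.sqrt 2 * ‖z‖ = Real.sqrt (2 * ‖z‖ ^ 2) := by
    rw [Real.sqrt_mul (by norm_num), Real.sqrt_sq (norm_nonneg _)]
  rw [h]
  unfold nrm
  apply Real.sqrt_le_sqrt
  have h1 : ‖z.1‖ ≤ ‖z‖ := norm_fst_le z
  have h2 : ‖z.2‖ ≤ ‖z‖ := norm_snd_le z
  nlinarith [norm_nonneg z.1, norm_nonneg z.2]

theorem nrm_smul (r : ℝ) (z : E) : nrm (r • z) = |r| * nrm z := by
  unfold nrm
  have h1 : ‖(r • z).1‖ ^ 2 + ‖(r • z).2‖ ^ 2 = r ^ 2 * (‖z.1‖ ^ 2 + ‖z.2‖ ^ 2) := by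
    rw [Prod.smul_fst, Prod.smul_snd, norm_smul, norm_smul, mul_pow, mul_pow, Real.norm_eq_abs,
      sq_abs]
    ring
  rw [h1, Real.sqrt_mul (sq_nonneg r), Real.sqrt_sq_eq_abs]

/-- `nrm` is the norm in `WithLp 2`. -/
theorem nrm_eq_toLp (z : E) : nrm z = ‖WithLp.toLp 2 z‖ := by
  rw [WithLp.prod_norm_eq_of_L2]
  rfl

theorem nrm_add_le (z w : E) : nrm (z + w) ≤ nrm z + nrm w := by
  rw [nrm_eq_toLp, nrm_eq_toLp, nrm_eq_toLp, WithLp.toLp_add]
  exact norm_add_le _ _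

theorem nrm_contDiffAt {n : WithTop ℕ∞} {z : E} (hz : z ≠ 0) : ContDiffAt ℝ n nrm z := by
  unfold nrm
  have h1 : ContDiff ℝ n (fun z : E => ‖z.1‖ ^ 2 + ‖z.2‖ ^ 2) :=
    ((contDiff_norm_sq ℝ).comp contDiff_fst).add ((contDiff_norm_sq ℝ).comp contDiff_snd)
  apply ContDiffAt.sqrt h1.contDiffAt
  rw [← nrm_sq]
  exact pow_ne_zero 2 (nrm_pos hz).ne'

theorem nrm_continuous : Continuous nrm := by
  unfold nrm
  fun_prop

theorem abs_nrm_sub_le (z w : E) : |nrm z - nrm w| ≤ nrm (z - w) := by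
  rw [nrm_eq_toLp, nrm_eq_toLp, nrm_eq_toLp, WithLp.toLp_sub]
  exact abs_norm_sub_norm_le _ _

end Crest.Agent.R123
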