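/-
ROW 123 (S0163), piece Sol: solutions of the twisted cohomological equation
`x(t+α) = L(t) + (1-β(t)) x(t)`.

`sol β L t = Σ_j (∏_{i<j} (1-β(t-(i+1)α))) L(t-(j+1)α)`.  If `β(t-(j₀+1)α) = 1` then all products with
`j > j₀` vanish, so the sum is finite (`tsum_eq_sum`).
`sol_rec`: separate the `j = 0` term (`Finset.prod_range_succ'`, `Finset.sum_range_succ'`): the `j`-th term at
`t+α` is `(1-β t)` times the `(j-1)`-th term at `t` for `j ≥ 1` (choose `N` large for both).
-/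
import Crest.Agent.R123.BaseS

set_option autoImplicit false

namespace Crest.Agent.R123

noncomputable section

/-- backward products -/
def prd (β : ℝ → ℝ) (j : ℕ) (t : ℝ) : ℝ := ∏ i ∈ Finset.range j, (1 - β (t - ((i : ℝ) + 1) * al))

/-- the backward solution of `x(t+α) = L(t) + (1-β(t)) x(t)` -/
def sol (β L : ℝ → ℝ) (t : ℝ) : ℝ := ∑' j : ℕ, prd β j t * L (t - ((j : ℝ) + 1) * al)

end

theorem prd_eq_zero_of {β : ℝ → ℝ} {t : ℝ} {j k : ℕ} (hjk : j < k)
    (hj : β (t - ((j : ℝ) + 1) * al) = 1) : prd β k t = 0 := by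
  unfold prd
  apply Finset.prod_eq_zero (Finset.mem_range.mpr hjk)
  rw [hj, sub_self]

theorem sol_eq_sum {β L : ℝ → ℝ} {t : ℝ} {N : ℕ}
    (h : ∃ j < N, β (t - ((j : ℝ) + 1) * al) = 1) :
    sol β L t = ∑ j ∈ Finset.range N, prd β j t * L (t - ((j : ℝ) + 1) * al) := by
  obtain ⟨j, hjN, hj⟩ := h
  unfold sol
  apply tsum_eq_sum
  intro k hk
  have hk' : N ≤ k := by simpa using hk
  rw [prd_eq_zero_of (lt_of_lt_of_le hjN hk') hj, zero_mul]

theorem prd_succ_add {β : ℝ → ℝ} (t : ℝ) (k : ℕ) :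
    prd β (k + 1) (t + al) = (1 - β t) * prd β k t := by
  unfold prd
  rw [Finset.prod_range_succ', mul_comm]
  congr 1
  · congr 2
    push_cast
    ring
  · apply Finset.prod_congr rfl
    intro i _
    congr 2
    push_cast
    ring

theorem sol_rec {β L : ℝ → ℝ} {t : ℝ} (h : ∃ j : ℕ, β (t - ((j : ℝ) + 1) * al) = 1) :
    sol β L (t + al) = L t + (1 - β t) * sol β L t := by
  obtain ⟨j, hj⟩ := h
  have h1 : ∃ i < j + 1, β (t - ((i : ℝ) + 1) * al) = 1 := ⟨j, Nat.lt_succ_self j, hj⟩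
  have h2 : ∃ i < j + 2, β (t + al - ((i : ℝ) + 1) * al) = 1 := by
    refine ⟨j + 1, by omega, ?_⟩
    have e : t + al - (((j + 1 : ℕ) : ℝ) + 1) * al = t - ((j : ℝ) + 1) * al := by
      push_cast
      ring
    rw [e, hj]
  rw [sol_eq_sum h2, sol_eq_sum h1, Finset.sum_range_succ', Finset.mul_sum]
  rw [add_comm]
  congr 1
  · have : prd β 0 (t + al) = 1 := by simp [prd]
    rw [this, one_mul]
    congr 1
    push_cast
    ring
  · apply Finset.sum_congr rfl
    intro k _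
    rw [prd_succ_add, mul_assoc]
    congr 3
    push_cast
    ring

theorem sol_add_one {β L : ℝ → ℝ} (hβ : ∀ t, β (t + 1) = β t) (hL : ∀ t, L (t + 1) = L t) (t : ℝ) :
    sol β L (t + 1) = sol β L t := by
  unfold sol
  congr 1
  funext k
  have e1 : ∀ i : ℝ, t + 1 - i = (t - i) + 1 := fun i => by ring
  unfold prd
  rw [e1, hL]
  congr 1
  apply Finset.prod_congr rfl
  intro i _
  rw [e1, hβ]

/-- all terms are between `0` and `M`, at most `N` of them are nonzero -/
theorem abs_sol_le {β L : ℝ → ℝ} {t M : ℝ} {N : ℕ} (hβ0 : ∀ u, 0 ≤ β u) (hβ1 : ∀ u, β u ≤ 1)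
    (hL : ∀ u, |L u| ≤ M) (h : ∃ j < N, β (t - ((j : ℝ) + 1) * al) = 1) :
    |sol β L t| ≤ N * M := by
  rw [sol_eq_sum h]
  refine (Finset.abs_sum_le_sum_abs _ _).trans ?_
  have : ∀ j ∈ Finset.range N, |prd β j t * L (t - ((j : ℝ) + 1) * al)| ≤ M := by
    intro j _
    rw [abs_mul]
    have hp0 : 0 ≤ prd β j t := Finset.prod_nonneg fun i _ => by
      have := hβ1 (t - ((i : ℝ) + 1) * al)
      linarith
    have hp1 : prd β j t ≤ 1 := Finset.prod_le_one
      (fun i _ => by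
        have := hβ1 (t - ((i : ℝ) + 1) * al)
        linarith)
      (fun i _ => by
        have := hβ0 (t - ((i : ℝ) + 1) * al)
        linarith)
    rw [abs_of_nonneg hp0]
    calc prd β j t * |L (t - ((j : ℝ) + 1) * al)| ≤ 1 * |L (t - ((j : ℝ) + 1) * al)| :=
          mul_le_mul_of_nonneg_right hp1 (abs_nonneg _)
      _ ≤ M := by rw [one_mul]; exact hL _
  refine (Finset.sum_le_sum this).trans ?_
  simp

theorem sol_nonneg {β L : ℝ → ℝ} {t : ℝ} (hβ1 : ∀ u, β u ≤ 1) (hL : ∀ u, 0 ≤ L u) :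
    0 ≤ sol β L t := by
  unfold sol
  apply tsum_nonneg
  intro k
  apply mul_nonneg
  · exact Finset.prod_nonneg fun i _ => by
      have := hβ1 (t - ((i : ℝ) + 1) * al)
      linarith
  · exact hL _

end Crest.Agent.R123
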