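/-
ROW 123 (S0163): definitions of the cutoffs `bb`, `bt`, the age function `age` and the logarithmic
conformal correction `ell`.
-/
import Crest.Agent.R123.Sol

set_option autoImplicit false

namespace Crest.Agent.R123

noncomputable section

/-- `bb t e = 1` if `s t ≤ e/2`, `= 0` if `s t ≥ e` -/
def bb (t e : ℝ) : ℝ := Real.smoothTransition (2 - 2 * (s t / e))

/-- `bt t e = 1` if `s t ≤ 2e`, `= 0` if `s t ≥ 3e` -/
def bt (t e : ℝ) : ℝ := Real.smoothTransition (3 - s t / e)

/-- age: `age (t+α) e = (1 - bb t e) (1 + age t e)` -/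
def age (t e : ℝ) : ℝ := sol (fun u => bb u e) (fun u => 1 - bb u e) t

/-- `ell Λ (t+α) e = (1 - bt t e) (ell Λ t e + log (Λ s t))` -/
def ell (Λ t e : ℝ) : ℝ :=
  sol (fun u => bt u e) (fun u => (1 - bt u e) * Real.log (Λ * s u)) t

end

end Crest.Agent.R123
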