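/-
ROW 123 (S0163), piece NT1: `√2` is badly approximable; separation of close returns.

* `nt1`: `|j√2 - m| ≥ c₁/j`: `|2j² - m²| ≥ 1` (irrationality), and `j√2 + m ≤ 4 j` when `|j√2 - m| ≤ 1`.
* `sep`: from `exists_int_near` (BaseS), `s t ≤ 4e` gives `|t - m| ≤ √e`, `|t - jα - m'| ≤ √e`, so
  `|jα - (m - m')| ≤ 2√e`, and `nt1` gives `j ≥ c₁/(2√e)`.
-/
import Crest.Agent.R123.BaseS

set_option autoImplicit false

namespace Crest.Agent.R123

theorem nt1_ne (j : ℕ) (hj : 1 ≤ j) (m : ℤ) : (2 * (j : ℤ) ^ 2 - m ^ 2) ≠ 0 := by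
  intro h
  have h1 : Irrational (Real.sqrt 2) := irrational_sqrt_two
  apply h1
  refine ⟨(|m| : ℤ) / (j : ℕ), ?_⟩
  have hj0 : (0 : ℝ) < j := by exact_mod_cast hj
  have h2 : (2 : ℝ) * (j : ℝ) ^ 2 = (m : ℝ) ^ 2 := by
    have : (2 * (j : ℤ) ^ 2) = m ^ 2 := by linarith
    exact_mod_cast this
  push_cast
  rw [div_eq_iff hj0.ne', eq_comm]
  have h3 : |(m : ℝ)| = Real.sqrt ((m : ℝ) ^ 2) := (Real.sqrt_sq_eq_abs _).symm
  rw [h3, ← h2, Real.sqrt_mul (by norm_num), Real.sqrt_sq hj0.le]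

theorem nt1 : ∃ c₁ : ℝ, 0 < c₁ ∧ ∀ j : ℕ, 1 ≤ j → ∀ m : ℤ, c₁ / j ≤ |(j : ℝ) * al - m| := by
  refine ⟨1 / 4, by norm_num, fun j hj m => ?_⟩
  have hj1 : (1 : ℝ) ≤ j := by exact_mod_cast hj
  have hj0 : (0 : ℝ) < j := by linarith
  have hal : al ^ 2 = 2 := Real.sq_sqrt (by norm_num)
  have hal0 : 0 ≤ al := Real.sqrt_nonneg _
  have hal15 : al ≤ 3 / 2 := by nlinarith
  have hprod : 1 ≤ |(j : ℝ) * al - m| * |(j : ℝ) * al + m| := by
    rw [← abs_mul]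
    have h1 : ((j : ℝ) * al - m) * ((j : ℝ) * al + m) = ((2 * (j : ℤ) ^ 2 - m ^ 2 : ℤ) : ℝ) := by
      push_cast
      have : ((j : ℝ) * al - m) * ((j : ℝ) * al + m) = (j : ℝ) ^ 2 * al ^ 2 - (m : ℝ) ^ 2 := by ring
      rw [this, hal]
      ring
    rw [h1]
    have h2 : 1 ≤ |(2 * (j : ℤ) ^ 2 - m ^ 2)| := Int.one_le_abs (nt1_ne j hj m)
    exact_mod_cast h2
  by_cases h : |(j : ℝ) * al - m| ≤ 1
  · have h3 : |(j : ℝ) * al + m| ≤ 4 * j := by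
      have h4 := abs_le.1 h
      rw [abs_le]
      constructor <;> nlinarith
    rw [div_le_iff₀ hj0]
    have h5 : |(j : ℝ) * al - m| * |(j : ℝ) * al + m| ≤ |(j : ℝ) * al - m| * (4 * j) :=
      mul_le_mul_of_nonneg_left h3 (abs_nonneg _)
    linarith
  · push Not at h
    refine le_trans ?_ h.le
    rw [div_le_iff₀ hj0]
    linarith

theorem sep : ∃ c : ℝ, 0 < c ∧ ∀ e : ℝ, 0 < e → ∀ t : ℝ, ∀ j : ℕ, 1 ≤ j →
    s t ≤ 4 * e → s (t - j * al) ≤ 4 * e → c / Real.sqrt e ≤ j := by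
  obtain ⟨c₁, hc₁, h⟩ := nt1
  refine ⟨c₁ / 2, by positivity, fun e he t j hj h1 h2 => ?_⟩
  have hs : 0 < Real.sqrt e := Real.sqrt_pos.2 he
  have hj0 : (0 : ℝ) < j := by exact_mod_cast hj
  have h4 : Real.sqrt (4 * e) = 2 * Real.sqrt e := by
    rw [Real.sqrt_mul (by norm_num)]
    congr 1
    rw [show (4 : ℝ) = 2 ^ 2 by norm_num, Real.sqrt_sq (by norm_num)]
  obtain ⟨m, hm⟩ := exists_int_near t
  obtain ⟨m', hm'⟩ := exists_int_near (t - j * al)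
  have h5 : |t - m| ≤ Real.sqrt e := by
    have := hm.trans (Real.sqrt_le_sqrt h1)
    rw [h4] at this
    linarith
  have h6 : |t - j * al - m'| ≤ Real.sqrt e := by
    have := hm'.trans (Real.sqrt_le_sqrt h2)
    rw [h4] at this
    linarith
  have h7 := h j hj (m - m')
  push_cast at h7
  have h8 : |(j : ℝ) * al - (m - m')| ≤ 2 * Real.sqrt e := by
    have : (j : ℝ) * al - (m - m') = (t - m) - (t - j * al - m') := by ring
    rw [this]
    refine (abs_sub _ _).trans ?_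
    linarith
  have h9 := h7.trans h8
  rw [div_le_iff₀ hj0] at h9
  rw [div_le_iff₀ hs]
  linarith

end Crest.Agent.R123
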