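/-
ROW 123 (S0163), piece NT2: uniform hitting times of the rotation by `√2`.

* `nt2` (every arc of radius `δ` is hit within `C/δ` backward steps).  Proof: Dirichlet
  (`Real.exists_int_int_abs_mul_sub_le` or `Real.exists_rat_abs_sub_le_and_den_le`) with `Q = ⌈2/δ⌉`:
  a reduced fraction `p/q` with `1 ≤ q ≤ Q`, `|q α - p| ≤ 1/(Q+1)`; by `nt1` also `q ≥ c₁ Q`
  (`c₁/q ≤ |qα - p| ≤ 1/Q`).  Since `p,q` are coprime, `{j p mod q : 1 ≤ j ≤ q}` is everything; choose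
  `j ∈ [1,q]` with `j p ≡ round (q t) mod q`; then `|t - j p/q - m| ≤ 1/(2q)` and
  `|j α - j p/q| ≤ j/(q Q) ≤ 1/Q`, so `|t - jα - m| ≤ 1/(2 q) + 1/Q ≤ (1/(2c₁) + 1)/Q ≤ C' δ`.
  Rescale `δ` by the constant `C'` at the start.
* `hit`: apply `nt2` to `t` with `δ = c √e`, `10 δ² ≤ e/2` (`s_le_of_int`), index `j+1`.
-/
import Crest.Agent.R123.NT1

set_option autoImplicit false

namespace Crest.Agent.R123

theorem nt2 : ∃ C : ℝ, 0 < C ∧ ∀ δ : ℝ, 0 < δ → δ ≤ 1 → ∀ t : ℝ,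
    ∃ j : ℕ, 1 ≤ j ∧ (j : ℝ) ≤ C / δ ∧ ∃ m : ℤ, |t - j * al - m| ≤ δ := by
  obtain ⟨c₁, hc₁, hnt⟩ := nt1
  set K : ℝ := 1 / (2 * c₁) + 1 with hK
  have hK0 : 0 < K := by positivity
  refine ⟨K + 1, by positivity, ?_⟩
  intro δ hδ hδ1 t
  set Q : ℕ := ⌈K / δ⌉₊ with hQ
  have hKδ : 0 < K / δ := by positivity
  have hQ1 : K / δ ≤ Q := Nat.le_ceil _
  have hQ0 : 0 < Q := by
    have : (0 : ℝ) < Q := lt_of_lt_of_le hKδ hQ1
    exact_mod_cast this
  have hQ2 : (Q : ℝ) ≤ (K + 1) / δ := by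
    have h1 : (Q : ℝ) < K / δ + 1 := Nat.ceil_lt_add_one hKδ.le
    have h2 : (1 : ℝ) ≤ 1 / δ := by rw [le_div_iff₀ hδ]; linarith
    rw [add_div]
    linarith
  obtain ⟨x, hx1, hx2⟩ := Real.exists_rat_abs_sub_le_and_den_le al hQ0
  set d : ℕ := x.den with hd
  have hd0 : 0 < d := x.den_pos
  have hdR : (0 : ℝ) < d := by exact_mod_cast hd0
  have hxd : (x : ℝ) = x.num / d := by
    rw [hd]
    exact_mod_cast (Rat.num_div_den x).symm
  have hQ1' : (0 : ℝ) < (Q : ℝ) + 1 := by positivity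
  have hclose : |(d : ℝ) * al - x.num| ≤ 1 / ((Q : ℝ) + 1) := by
    have h1 : (d : ℝ) * al - x.num = d * (al - x) := by
      rw [hxd]; field_simp
    rw [h1, abs_mul, abs_of_pos hdR]
    calc (d : ℝ) * |al - x| ≤ d * (1 / (((Q : ℝ) + 1) * d)) := by gcongr
      _ = 1 / ((Q : ℝ) + 1) := by field_simp
  have hdlow : c₁ * ((Q : ℝ) + 1) ≤ d := by
    have h1 := (hnt d hd0 x.num).trans hclose
    rw [div_le_div_iff₀ hdR hQ1'] at h1
    linarith
  -- the residue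
  set r : ℤ := round ((d : ℝ) * t) with hr
  have hcop : IsCoprime x.num (d : ℤ) := by
    rw [Int.isCoprime_iff_gcd_eq_one]
    have := x.reduced
    rw [Nat.Coprime] at this
    rw [Int.gcd, Int.natAbs_natCast]
    exact this
  obtain ⟨a, b, hab⟩ := hcop
  set j0 : ℤ := a * r with hj0
  have hdZ : (0 : ℤ) < d := by exact_mod_cast hd0
  set j1 : ℤ := (j0 - 1) % d + 1 with hj1
  have h1 : 0 ≤ (j0 - 1) % d := Int.emod_nonneg _ hdZ.ne'
  have h2 : (j0 - 1) % d < d := Int.emod_lt_of_pos _ hdZ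
  have hj1pos : 1 ≤ j1 := by omega
  have hj1le : j1 ≤ d := by omega
  have hmod : ∃ m' : ℤ, j1 * x.num = r + d * m' := by
    have h3 : (j0 - 1) % d = j0 - 1 - d * ((j0 - 1) / d) := Int.emod_def _ _
    refine ⟨-(b * r) - ((j0 - 1) / d) * x.num, ?_⟩
    rw [hj1, h3, hj0]
    linear_combination r * hab
  obtain ⟨m', hm'⟩ := hmod
  obtain ⟨j, hj⟩ : ∃ j : ℕ, (j : ℤ) = j1 := ⟨j1.toNat, Int.toNat_of_nonneg (by omega)⟩
  have hjR : (j : ℝ) = (j1 : ℝ) := by exact_mod_cast hj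
  have hj1' : (1 : ℤ) ≤ j := by omega
  have hjd : (j : ℝ) ≤ d := by
    have : (j : ℤ) ≤ d := by omega
    exact_mod_cast this
  refine ⟨j, by exact_mod_cast hj1', ?_, -m', ?_⟩
  · refine hjd.trans (le_trans ?_ hQ2)
    exact_mod_cast hx2
  · have hm'R : (j : ℝ) * x.num = r + d * m' := by
      rw [hjR]; exact_mod_cast hm'
    have e1 : t - j * al - ((-m' : ℤ) : ℝ) = (t - r / d) - (j / d) * (d * al - x.num) := by
      have : (m' : ℝ) = (j * x.num - r) / d := by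
        rw [hm'R]; field_simp; ring
      push_cast
      rw [this]
      field_simp
      ring
    rw [e1]
    have b1 : |t - r / d| ≤ 1 / (2 * d) := by
      have h3 : t - r / d = ((d : ℝ) * t - r) / d := by field_simp
      rw [h3, abs_div, abs_of_pos hdR]
      have h4 : |(d : ℝ) * t - r| ≤ 1 / 2 := abs_sub_round _
      calc |(d : ℝ) * t - r| / d ≤ (1 / 2) / d := by gcongr
        _ = 1 / (2 * d) := by field_simp
    have b2 : |(j / d) * ((d : ℝ) * al - x.num)| ≤ 1 / ((Q : ℝ) + 1) := by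
      rw [abs_mul, abs_of_nonneg (by positivity)]
      have h3 : (j : ℝ) / d ≤ 1 := by rw [div_le_one hdR]; exact hjd
      calc (j : ℝ) / d * |(d : ℝ) * al - x.num| ≤ 1 * (1 / ((Q : ℝ) + 1)) := by gcongr
        _ = _ := one_mul _
    have b3 : 1 / (2 * (d : ℝ)) ≤ 1 / (2 * c₁) * (1 / ((Q : ℝ) + 1)) := by
      rw [div_mul_div_comm, one_mul]
      apply one_div_le_one_div_of_le (by positivity)
      nlinarith
    have b4 : K * (1 / ((Q : ℝ) + 1)) ≤ δ := by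
      rw [mul_one_div, div_le_iff₀ hQ1']
      rw [div_le_iff₀ hδ] at hQ1
      nlinarith
    calc |t - r / d - (j / d) * ((d : ℝ) * al - x.num)|
        ≤ |t - r / d| + |(j / d) * ((d : ℝ) * al - x.num)| := abs_sub _ _
      _ ≤ 1 / (2 * c₁) * (1 / ((Q : ℝ) + 1)) + 1 / ((Q : ℝ) + 1) :=
          add_le_add (b1.trans b3) b2
      _ = K * (1 / ((Q : ℝ) + 1)) := by rw [hK]; ring
      _ ≤ δ := b4

theorem hit : ∃ C : ℝ, 0 < C ∧ ∀ e : ℝ, 0 < e → e ≤ 3 → ∀ t : ℝ,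
    ∃ j : ℕ, (j : ℝ) + 1 ≤ C / Real.sqrt e ∧ s (t - ((j : ℝ) + 1) * al) ≤ e / 2 := by
  obtain ⟨C, hC, h⟩ := nt2
  refine ⟨5 * C, by positivity, ?_⟩
  intro e he he3 t
  have hs : 0 < Real.sqrt e := Real.sqrt_pos.2 he
  have hs2 : Real.sqrt e ^ 2 = e := Real.sq_sqrt he.le
  have hs3 : Real.sqrt e ≤ 2 := by nlinarith
  obtain ⟨j, hj1, hj2, m, hm⟩ := h (Real.sqrt e / 5) (by positivity) (by linarith) t
  obtain ⟨k, rfl⟩ : ∃ k, j = k + 1 := ⟨j - 1, by omega⟩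
  refine ⟨k, ?_, ?_⟩
  · have h1 : ((k + 1 : ℕ) : ℝ) = (k : ℝ) + 1 := by push_cast; ring
    rw [h1] at hj2
    refine hj2.trans (le_of_eq ?_)
    field_simp
  · have h1 : ((k + 1 : ℕ) : ℝ) = (k : ℝ) + 1 := by push_cast; ring
    rw [h1] at hm
    refine (s_le_of_int _ m).trans ?_
    have h2 : (t - ((k : ℝ) + 1) * al - m) ^ 2 ≤ (Real.sqrt e / 5) ^ 2 := by
      rw [← sq_abs (t - ((k : ℝ) + 1) * al - m)]
      exact pow_le_pow_left₀ (abs_nonneg _) hm 2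
    have h3 : (Real.sqrt e / 5) ^ 2 = e / 25 := by rw [div_pow, hs2]; norm_num
    rw [h3] at h2
    linarith

end Crest.Agent.R123
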