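/-
ROW 123 (S0163), piece Age: algebraic facts and size bounds for `age` and `ell`.

`bb t e = 1` when `s t ≤ e/2` (`Real.smoothTransition.one_of_one_le`), `= 0` when `s t ≥ e`
(`zero_of_nonpos`); `bt t e = 1` when `s t ≤ 2e`, `= 0` when `s t ≥ 3e`.  By `hit`, for `0 < e ≤ 3` there is
`j`, `j+1 ≤ C/√e`, with `s(t-(j+1)α) ≤ e/2`, so `sol_rec`, `sol_eq_sum`, `abs_sol_le` apply (for `e > 3`: all
`bb = bt = 1`, since `s ≤ 1`).  `|(1-bt) log(Λ s)| ≤ log Λ + log (1/(2e))⁺`, as `1-bt ≠ 0` only if `s > 2e`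
(so `2 e < 1`), and `log(1/(2e)) ≤ C/√e`.
-/
import Crest.Agent.R123.AgeDefs
import Crest.Agent.R123.NT2

set_option autoImplicit false

namespace Crest.Agent.R123

theorem bb_mem (t e : ℝ) : 0 ≤ bb t e ∧ bb t e ≤ 1 :=
  ⟨Real.smoothTransition.nonneg _, Real.smoothTransition.le_one _⟩

theorem bt_mem (t e : ℝ) : 0 ≤ bt t e ∧ bt t e ≤ 1 :=
  ⟨Real.smoothTransition.nonneg _, Real.smoothTransition.le_one _⟩

theorem bb_eq_one {t e : ℝ} (he : 0 < e) (h : s t ≤ e / 2) : bb t e = 1 := by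
  refine Real.smoothTransition.one_of_one_le ?_
  have : s t / e ≤ 1 / 2 := by
    rw [div_le_iff₀ he]; linarith
  linarith

theorem bb_eq_zero {t e : ℝ} (he : 0 < e) (h : e ≤ s t) : bb t e = 0 := by
  refine Real.smoothTransition.zero_of_nonpos ?_
  have : 1 ≤ s t / e := by
    rw [le_div_iff₀ he]; linarith
  linarith

theorem bt_eq_one {t e : ℝ} (he : 0 < e) (h : s t ≤ 2 * e) : bt t e = 1 := by
  refine Real.smoothTransition.one_of_one_le ?_
  have : s t / e ≤ 2 := by
    rw [div_le_iff₀ he]; linarith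
  linarith

theorem bt_eq_zero {t e : ℝ} (he : 0 < e) (h : 3 * e ≤ s t) : bt t e = 0 := by
  refine Real.smoothTransition.zero_of_nonpos ?_
  have : 3 ≤ s t / e := by
    rw [le_div_iff₀ he]; linarith
  linarith

namespace Ageaux

theorem hit' {e : ℝ} (he : 0 < e) (t : ℝ) :
    ∃ j : ℕ, s (t - ((j : ℝ) + 1) * al) ≤ e / 2 := by
  obtain ⟨C, -, hC⟩ := hit
  by_cases h3 : e ≤ 3
  · obtain ⟨j, -, hj⟩ := hC e he h3 t
    exact ⟨j, hj⟩
  · refine ⟨0, ?_⟩
    push Not at h3
    exact (s_le_one _).trans (by linarith)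

theorem sol_zero {β L : ℝ → ℝ} (hL : ∀ u, L u = 0) (t : ℝ) : sol β L t = 0 := by
  unfold sol
  simp [hL]

end Ageaux

theorem age_rec {e : ℝ} (he : 0 < e) (t : ℝ) : age (t + al) e = (1 - bb t e) * (1 + age t e) := by
  obtain ⟨j, hj⟩ := Ageaux.hit' he t
  unfold age
  rw [sol_rec (β := fun u => bb u e) (t := t) ⟨j, bb_eq_one he hj⟩]
  ring

theorem age_add_one (t e : ℝ) : age (t + 1) e = age t e := by
  unfold age
  refine sol_add_one (fun u => ?_) (fun u => ?_) t
  · simp only [bb, s_add_one]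
  · simp only [bb, s_add_one]

theorem age_nonneg (t e : ℝ) : 0 ≤ age t e :=
  sol_nonneg (fun u => (bb_mem u e).2) (fun u => sub_nonneg.2 (bb_mem u e).2)

theorem age_le : ∃ C : ℝ, 0 < C ∧ ∀ t e : ℝ, 0 < e → e ≤ 3 → age t e ≤ C / Real.sqrt e := by
  obtain ⟨C, hC0, hC⟩ := hit
  refine ⟨C, hC0, fun t e he h3 => ?_⟩
  obtain ⟨j, hj, hj'⟩ := hC e he h3 t
  have h1 := abs_sol_le (β := fun u => bb u e) (L := fun u => 1 - bb u e) (t := t) (M := 1)
    (N := j + 1) (fun u => (bb_mem u e).1) (fun u => (bb_mem u e).2)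
    (fun u => by
      have := bb_mem u e
      rw [abs_le]; constructor <;> linarith)
    ⟨j, Nat.lt_succ_self j, bb_eq_one he hj'⟩
  have h2 : age t e ≤ ((j + 1 : ℕ) : ℝ) * 1 := (le_abs_self _).trans h1
  push_cast at h2
  linarith

theorem age_eq_zero {e : ℝ} (he : 2 ≤ e) (t : ℝ) : age t e = 0 := by
  unfold age
  refine Ageaux.sol_zero (fun u => ?_) t
  rw [bb_eq_one (by linarith) (by have := s_le_one u; linarith), sub_self]

theorem ell_rec {e : ℝ} (he : 0 < e) (Λ t : ℝ) :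
    ell Λ (t + al) e = (1 - bt t e) * (ell Λ t e + Real.log (Λ * s t)) := by
  obtain ⟨j, hj⟩ := Ageaux.hit' he t
  unfold ell
  rw [sol_rec (β := fun u => bt u e) (t := t) ⟨j, bt_eq_one he (by linarith)⟩]
  ring

theorem ell_add_one (Λ t e : ℝ) : ell Λ (t + 1) e = ell Λ t e := by
  unfold ell
  refine sol_add_one (fun u => ?_) (fun u => ?_) t
  · simp only [bt, s_add_one]
  · simp only [bt, s_add_one]

theorem ell_le {Λ : ℝ} (hΛ : 1 ≤ Λ) : ∃ C : ℝ, 0 < C ∧ ∀ t e : ℝ, 0 < e → e ≤ 3 →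
    |ell Λ t e| ≤ C / e := by
  obtain ⟨C, hC0, hC⟩ := hit
  have hlΛ : 0 ≤ Real.log Λ := Real.log_nonneg hΛ
  refine ⟨C * (2 * Real.log Λ + 2), by positivity, fun t e he h3 => ?_⟩
  obtain ⟨j, hj, hj'⟩ := hC e he h3 t
  have hse : 0 < Real.sqrt e := Real.sqrt_pos.2 he
  have hse2 : Real.sqrt e ≤ 2 := by
    rw [show (2 : ℝ) = Real.sqrt 4 by
      rw [show (4 : ℝ) = 2 ^ 2 by norm_num, Real.sqrt_sq (by norm_num)]]
    exact Real.sqrt_le_sqrt (by linarith)
  have hee : Real.sqrt e * Real.sqrt e = e := Real.mul_self_sqrt he.le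
  have hM : ∀ u, |(1 - bt u e) * Real.log (Λ * s u)| ≤ (2 * Real.log Λ + 2) / Real.sqrt e := by
    intro u
    by_cases hs : s u ≤ 2 * e
    · rw [bt_eq_one he hs]
      simp only [sub_self, zero_mul, abs_zero]
      positivity
    · push Not at hs
      have hs0 : 0 < s u := by linarith
      have hs1 := s_le_one u
      have hb := bt_mem u e
      rw [abs_mul]
      have h1 : |1 - bt u e| ≤ 1 := by rw [abs_le]; constructor <;> linarith
      have h2 : |Real.log (Λ * s u)| ≤ (2 * Real.log Λ + 2) / Real.sqrt e := by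
        rw [Real.log_mul (by linarith) hs0.ne']
        have h3 : |Real.log (s u)| ≤ 2 / Real.sqrt e := by
          rw [abs_of_nonpos (Real.log_nonpos hs0.le hs1)]
          have h4 : Real.log e ≤ Real.log (s u) := Real.log_le_log he (by linarith)
          have h5 : Real.log e = 2 * Real.log (Real.sqrt e) := by
            rw [Real.log_sqrt he.le]; ring
          have h6 : - Real.log (Real.sqrt e) ≤ 1 / Real.sqrt e := by
            rw [← Real.log_inv]
            have := Real.log_le_sub_one_of_pos (inv_pos.2 hse)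
            rw [one_div]; linarith
          have h7 : 2 / Real.sqrt e = 2 * (1 / Real.sqrt e) := by ring
          rw [h7]; linarith
        have h8 : Real.log Λ ≤ 2 * Real.log Λ / Real.sqrt e := by
          rw [le_div_iff₀ hse]
          nlinarith
        calc |Real.log Λ + Real.log (s u)| ≤ |Real.log Λ| + |Real.log (s u)| := abs_add_le _ _
          _ ≤ 2 * Real.log Λ / Real.sqrt e + 2 / Real.sqrt e := by
              rw [abs_of_nonneg hlΛ]; exact add_le_add h8 h3
          _ = _ := by ring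
      calc |1 - bt u e| * |Real.log (Λ * s u)| ≤ 1 * ((2 * Real.log Λ + 2) / Real.sqrt e) :=
            mul_le_mul h1 h2 (abs_nonneg _) zero_le_one
        _ = _ := one_mul _
  have h1 := abs_sol_le (β := fun u => bt u e)
    (L := fun u => (1 - bt u e) * Real.log (Λ * s u)) (t := t)
    (M := (2 * Real.log Λ + 2) / Real.sqrt e) (N := j + 1) (fun u => (bt_mem u e).1)
    (fun u => (bt_mem u e).2) hM ⟨j, Nat.lt_succ_self j, bt_eq_one he (by linarith)⟩
  have h2 : |ell Λ t e| ≤ ((j : ℝ) + 1) * ((2 * Real.log Λ + 2) / Real.sqrt e) := by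
    have : ((j + 1 : ℕ) : ℝ) = (j : ℝ) + 1 := by push_cast; rfl
    rw [← this]
    exact h1
  refine h2.trans ?_
  calc ((j : ℝ) + 1) * ((2 * Real.log Λ + 2) / Real.sqrt e)
      ≤ (C / Real.sqrt e) * ((2 * Real.log Λ + 2) / Real.sqrt e) :=
        mul_le_mul_of_nonneg_right hj (by positivity)
    _ = C * (2 * Real.log Λ + 2) / e := by
        rw [div_mul_div_comm, hee]

theorem ell_eq_zero {e : ℝ} (he : 1 / 2 ≤ e) (Λ t : ℝ) : ell Λ t e = 0 := by
  unfold ell
  refine Ageaux.sol_zero (fun u => ?_) t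
  rw [bt_eq_one (by linarith) (by have := s_le_one u; linarith), sub_self, zero_mul]

end Crest.Agent.R123
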