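/-
ROW 123 (S0163), helper for the pieces AgeReg and EllReg: joint regularity of the finite sums `sol`,
and bounds for the cutoffs `smoothTransition (a - b * (s t / e))`.
-/
import Crest.Agent.R123.AgeDefs

set_option autoImplicit false

namespace Crest.Agent.R123

open Topology

theorem hasFDerivAt_shift (c : ℝ) (p : ℝ × ℝ) :
    HasFDerivAt (fun q : ℝ × ℝ => (q.1 - c, q.2)) (ContinuousLinearMap.id ℝ (ℝ × ℝ)) p := by
  have h1 : HasFDerivAt (fun q : ℝ × ℝ => (q.1 - c, q.2))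
      ((ContinuousLinearMap.fst ℝ ℝ ℝ).prod (ContinuousLinearMap.snd ℝ ℝ ℝ)) p :=
    (hasFDerivAt_fst.sub_const c).prodMk hasFDerivAt_snd
  rwa [ContinuousLinearMap.fst_prod_snd] at h1

theorem contDiff_shift {n : WithTop ℕ∞} (c : ℝ) :
    ContDiff ℝ n (fun q : ℝ × ℝ => (q.1 - c, q.2)) :=
  (contDiff_fst.sub contDiff_const).prodMk contDiff_snd

/-- product rule bound for the backward products -/
theorem prd_hasFDerivAt {B : ℝ → ℝ → ℝ} {t e DB : ℝ}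
    (hB0 : ∀ u, 0 ≤ B u e) (hB1 : ∀ u, B u e ≤ 1)
    (hB : ∀ u, DifferentiableAt ℝ (fun p : ℝ × ℝ => B p.1 p.2) (u, e))
    (hDB : ∀ u, ‖fderiv ℝ (fun p : ℝ × ℝ => B p.1 p.2) (u, e)‖ ≤ DB) (j : ℕ) :
    ∃ F' : ℝ × ℝ →L[ℝ] ℝ,
      HasFDerivAt (fun p : ℝ × ℝ => prd (fun u => B u p.2) j p.1) F' (t, e) ∧ ‖F'‖ ≤ j * DB := by
  have hDB0 : 0 ≤ DB := (norm_nonneg _).trans (hDB t)
  induction j with
  | zero =>
    refine ⟨0, ?_, by simp⟩
    have : (fun p : ℝ × ℝ => prd (fun u => B u p.2) 0 p.1) = fun _ => (1 : ℝ) := by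
      funext p; simp [prd]
    rw [this]
    exact hasFDerivAt_const _ _
  | succ j ih =>
    obtain ⟨F', hF, hFn⟩ := ih
    set c : ℝ := ((j : ℝ) + 1) * al with hc
    have hBs : HasFDerivAt (fun p : ℝ × ℝ => B (p.1 - c) p.2)
        (fderiv ℝ (fun p : ℝ × ℝ => B p.1 p.2) (t - c, e)) (t, e) := by
      have h1 := HasFDerivAt.comp (t, e) (g := fun p : ℝ × ℝ => B p.1 p.2)
        (f := fun q : ℝ × ℝ => (q.1 - c, q.2)) (hB (t - c)).hasFDerivAt (hasFDerivAt_shift c (t, e))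
      rw [ContinuousLinearMap.comp_id] at h1
      exact h1
    have h2 : (fun p : ℝ × ℝ => prd (fun u => B u p.2) (j + 1) p.1)
        = fun p : ℝ × ℝ => prd (fun u => B u p.2) j p.1 * (1 - B (p.1 - c) p.2) := by
      funext p
      simp only [prd, Finset.prod_range_succ, hc]
    rw [h2]
    refine ⟨_, hF.mul (hBs.const_sub 1), ?_⟩
    have hp0 : 0 ≤ prd (fun u => B u e) j t := Finset.prod_nonneg fun i _ => by
      linarith [hB1 (t - ((i : ℝ) + 1) * al)]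
    have hp1 : prd (fun u => B u e) j t ≤ 1 := Finset.prod_le_one (fun i _ => by
      linarith [hB1 (t - ((i : ℝ) + 1) * al)]) (fun i _ => by
      linarith [hB0 (t - ((i : ℝ) + 1) * al)])
    have hb0 : 0 ≤ 1 - B (t - c) e := by linarith [hB1 (t - c)]
    have hb1 : 1 - B (t - c) e ≤ 1 := by linarith [hB0 (t - c)]
    refine (norm_add_le _ _).trans ?_
    rw [norm_smul, norm_smul, norm_neg, Real.norm_eq_abs, Real.norm_eq_abs, abs_of_nonneg hp0,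
      abs_of_nonneg hb0]
    have h3 := hDB (t - c)
    have h4 : prd (fun u => B u e) j t * ‖fderiv ℝ (fun p : ℝ × ℝ => B p.1 p.2) (t - c, e)‖ ≤ DB := by
      calc _ ≤ 1 * DB := mul_le_mul hp1 h3 (norm_nonneg _) zero_le_one
        _ = DB := one_mul _
    have h5 : (1 - B (t - c) e) * ‖F'‖ ≤ j * DB := by
      calc _ ≤ 1 * (j * DB) := mul_le_mul hb1 hFn (norm_nonneg _) zero_le_one
        _ = _ := one_mul _
    push_cast
    linarith

theorem sol_eventually_eq {B L : ℝ → ℝ → ℝ} {t e : ℝ} {N : ℕ}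
    (h : ∀ᶠ p : ℝ × ℝ in 𝓝 (t, e), ∃ j < N, B (p.1 - ((j : ℝ) + 1) * al) p.2 = 1) :
    (fun p : ℝ × ℝ => sol (fun u => B u p.2) (fun u => L u p.2) p.1) =ᶠ[𝓝 (t, e)]
      fun p : ℝ × ℝ => ∑ j ∈ Finset.range N,
        prd (fun u => B u p.2) j p.1 * L (p.1 - ((j : ℝ) + 1) * al) p.2 := by
  filter_upwards [h] with p hp
  exact sol_eq_sum (β := fun u => B u p.2) (L := fun u => L u p.2) hp

theorem sol_contDiffAt {B L : ℝ → ℝ → ℝ} {t e : ℝ} {N : ℕ}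
    (hB : ∀ u, ContDiffAt ℝ 1 (fun p : ℝ × ℝ => B p.1 p.2) (u, e))
    (hL : ∀ u, ContDiffAt ℝ 1 (fun p : ℝ × ℝ => L p.1 p.2) (u, e))
    (h : ∀ᶠ p : ℝ × ℝ in 𝓝 (t, e), ∃ j < N, B (p.1 - ((j : ℝ) + 1) * al) p.2 = 1) :
    ContDiffAt ℝ 1 (fun p : ℝ × ℝ => sol (fun u => B u p.2) (fun u => L u p.2) p.1) (t, e) := by
  refine ContDiffAt.congr_of_eventuallyEq ?_ (sol_eventually_eq h)
  have hsh : ∀ (F : ℝ → ℝ → ℝ), (∀ u, ContDiffAt ℝ 1 (fun p : ℝ × ℝ => F p.1 p.2) (u, e)) → ∀ c : ℝ,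
      ContDiffAt ℝ 1 (fun p : ℝ × ℝ => F (p.1 - c) p.2) (t, e) := by
    intro F hF c
    exact ContDiffAt.comp (g := fun p : ℝ × ℝ => F p.1 p.2)
      (f := fun q : ℝ × ℝ => (q.1 - c, q.2)) (t, e) (hF (t - c)) (contDiff_shift c).contDiffAt
  refine ContDiffAt.sum fun j _ => ContDiffAt.mul ?_ (hsh L hL _)
  simp only [prd]
  refine contDiffAt_prod fun i _ => ?_
  exact contDiffAt_const.sub (hsh B hB _)

theorem sol_fderiv_le {B L : ℝ → ℝ → ℝ} {t e DB DL M : ℝ} {N : ℕ}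
    (hB0 : ∀ u, 0 ≤ B u e) (hB1 : ∀ u, B u e ≤ 1)
    (hB : ∀ u, DifferentiableAt ℝ (fun p : ℝ × ℝ => B p.1 p.2) (u, e))
    (hDB : ∀ u, ‖fderiv ℝ (fun p : ℝ × ℝ => B p.1 p.2) (u, e)‖ ≤ DB)
    (hL : ∀ u, DifferentiableAt ℝ (fun p : ℝ × ℝ => L p.1 p.2) (u, e))
    (hDL : ∀ u, ‖fderiv ℝ (fun p : ℝ × ℝ => L p.1 p.2) (u, e)‖ ≤ DL)
    (hM : ∀ u, |L u e| ≤ M)
    (h : ∀ᶠ p : ℝ × ℝ in 𝓝 (t, e), ∃ j < N, B (p.1 - ((j : ℝ) + 1) * al) p.2 = 1) :
    ‖fderiv ℝ (fun p : ℝ × ℝ => sol (fun u => B u p.2) (fun u => L u p.2) p.1) (t, e)‖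
      ≤ N ^ 2 * DB * M + N * DL := by
  have hDB0 : 0 ≤ DB := (norm_nonneg _).trans (hDB t)
  have hDL0 : 0 ≤ DL := (norm_nonneg _).trans (hDL t)
  have hM0 : 0 ≤ M := (abs_nonneg _).trans (hM t)
  rw [(sol_eventually_eq h).fderiv_eq]
  choose F' hF hFn using prd_hasFDerivAt (t := t) hB0 hB1 hB hDB
  have hLs : ∀ c : ℝ, HasFDerivAt (fun p : ℝ × ℝ => L (p.1 - c) p.2)
      (fderiv ℝ (fun p : ℝ × ℝ => L p.1 p.2) (t - c, e)) (t, e) := by
    intro c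
    have h1 := HasFDerivAt.comp (t, e) (g := fun p : ℝ × ℝ => L p.1 p.2)
      (f := fun q : ℝ × ℝ => (q.1 - c, q.2)) (hL (t - c)).hasFDerivAt (hasFDerivAt_shift c (t, e))
    rw [ContinuousLinearMap.comp_id] at h1
    exact h1
  have hsum := HasFDerivAt.fun_sum (u := Finset.range N) (x := (t, e))
    (A := fun (j : ℕ) (p : ℝ × ℝ) =>
      prd (fun u => B u p.2) j p.1 * L (p.1 - ((j : ℝ) + 1) * al) p.2)
    (fun j _ => (hF j).mul (hLs (((j : ℝ) + 1) * al)))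
  rw [hsum.fderiv]
  refine (norm_sum_le _ _).trans ?_
  have hterm : ∀ j ∈ Finset.range N, ‖prd (fun u => B u e) j t •
        fderiv ℝ (fun p : ℝ × ℝ => L p.1 p.2) (t - ((j : ℝ) + 1) * al, e)
      + L (t - ((j : ℝ) + 1) * al) e • F' j‖ ≤ DL + M * (N * DB) := by
    intro j hj
    have hjN : (j : ℝ) ≤ N := by exact_mod_cast (Finset.mem_range.1 hj).le
    have hp0 : 0 ≤ prd (fun u => B u e) j t := Finset.prod_nonneg fun i _ => by
      linarith [hB1 (t - ((i : ℝ) + 1) * al)]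
    have hp1 : prd (fun u => B u e) j t ≤ 1 := Finset.prod_le_one (fun i _ => by
      linarith [hB1 (t - ((i : ℝ) + 1) * al)]) (fun i _ => by
      linarith [hB0 (t - ((i : ℝ) + 1) * al)])
    refine (norm_add_le _ _).trans ?_
    rw [norm_smul, norm_smul, Real.norm_eq_abs, Real.norm_eq_abs, abs_of_nonneg hp0]
    refine add_le_add ?_ ?_
    · calc _ ≤ 1 * DL := mul_le_mul hp1 (hDL _) (norm_nonneg _) zero_le_one
        _ = DL := one_mul _
    · refine mul_le_mul (hM _) ((hFn j).trans ?_) (norm_nonneg _) hM0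
      exact mul_le_mul_of_nonneg_right hjN hDB0
  refine (Finset.sum_le_sum hterm).trans ?_
  rw [Finset.sum_const, Finset.card_range, nsmul_eq_mul]
  apply le_of_eq
  ring

/-! ### the cutoffs -/

theorem deriv_smoothTransition_bound : ∃ K : ℝ, 0 < K ∧ ∀ x : ℝ,
    |deriv Real.smoothTransition x| ≤ K := by
  have hcont : Continuous (deriv Real.smoothTransition) :=
    (Real.smoothTransition.contDiff (n := 1)).continuous_deriv le_rfl
  obtain ⟨K, hK⟩ := (isCompact_Icc (a := (0 : ℝ)) (b := 1)).exists_bound_of_continuousOn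
    hcont.continuousOn
  refine ⟨max K 1, lt_of_lt_of_le one_pos (le_max_right _ _), fun x => ?_⟩
  rcases lt_or_ge x 0 with hx | hx
  · have h1 : Real.smoothTransition =ᶠ[𝓝 x] fun _ => (0 : ℝ) := by
      filter_upwards [gt_mem_nhds hx] with y hy
      exact Real.smoothTransition.zero_of_nonpos hy.le
    rw [h1.deriv_eq]
    simp
  · rcases le_or_gt x 1 with hx1 | hx1
    · have := hK x ⟨hx, hx1⟩
      rw [Real.norm_eq_abs] at this
      exact this.trans (le_max_left _ _)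
    · have h1 : Real.smoothTransition =ᶠ[𝓝 x] fun _ => (1 : ℝ) := by
        filter_upwards [lt_mem_nhds hx1] with y hy
        exact Real.smoothTransition.one_of_one_le hy.le
      rw [h1.deriv_eq]
      simp

theorem abs_deriv_s_le (t : ℝ) : |deriv s t| ≤ 7 := by
  have := norm_deriv_le_of_lip' (f := s) (x₀ := t) (C := 7) (by norm_num)
    (Filter.Eventually.of_forall fun x => by
      rw [Real.norm_eq_abs, Real.norm_eq_abs]; exact s_lip x t)
  rwa [Real.norm_eq_abs] at this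

theorem cut_contDiffAt {n : ℕ∞} (a b : ℝ) {e : ℝ} (he : 0 < e) (t : ℝ) :
    ContDiffAt ℝ n (fun p : ℝ × ℝ => Real.smoothTransition (a - b * (s p.1 / p.2))) (t, e) := by
  have h1 : ContDiffAt ℝ n (fun p : ℝ × ℝ => a - b * (s p.1 / p.2)) (t, e) := by
    refine contDiffAt_const.sub (contDiffAt_const.mul ?_)
    refine ContDiffAt.div ?_ contDiffAt_snd he.ne'
    exact ContDiffAt.comp (g := s) (f := fun p : ℝ × ℝ => p.1) (t, e) s_contDiff.contDiffAt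
      contDiffAt_fst
  exact ContDiffAt.comp (g := Real.smoothTransition)
    (f := fun p : ℝ × ℝ => a - b * (s p.1 / p.2)) (t, e)
    Real.smoothTransition.contDiff.contDiffAt h1

theorem cut_fderiv_le (a b : ℝ) : ∃ C : ℝ, 0 < C ∧ ∀ t e : ℝ, 0 < e → e ≤ 3 →
    ‖fderiv ℝ (fun p : ℝ × ℝ => Real.smoothTransition (a - b * (s p.1 / p.2))) (t, e)‖
      ≤ C / e ^ 2 := by
  obtain ⟨K, hK0, hK⟩ := deriv_smoothTransition_bound
  refine ⟨K * (|b| + 1) * 22, by positivity, fun t e he he3 => ?_⟩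
  have hs : HasFDerivAt (fun p : ℝ × ℝ => s p.1) (deriv s t • ContinuousLinearMap.fst ℝ ℝ ℝ) (t, e) := by
    have h1 : HasDerivAt s (deriv s t) t :=
      ((s_contDiff (n := 1)).differentiable (by norm_num)).differentiableAt.hasDerivAt
    exact HasDerivAt.comp_hasFDerivAt (h₂ := s) (f := fun p : ℝ × ℝ => p.1) (t, e) h1 hasFDerivAt_fst
  have hinv : HasFDerivAt (fun p : ℝ × ℝ => (p.2)⁻¹)
      ((-(e ^ 2)⁻¹) • ContinuousLinearMap.snd ℝ ℝ ℝ) (t, e) := by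
    have h1 : HasDerivAt (fun x : ℝ => x⁻¹) (-(e ^ 2)⁻¹) e := hasDerivAt_inv he.ne'
    exact HasDerivAt.comp_hasFDerivAt (h₂ := fun x : ℝ => x⁻¹) (f := fun p : ℝ × ℝ => p.2) (t, e) h1
      hasFDerivAt_snd
  have hr : HasFDerivAt (fun p : ℝ × ℝ => a - b * (s p.1 / p.2))
      (-(b • (s t • (-(e ^ 2)⁻¹ • (ContinuousLinearMap.snd ℝ ℝ ℝ : ℝ × ℝ →L[ℝ] ℝ))
      + (e)⁻¹ • (deriv s t • (ContinuousLinearMap.fst ℝ ℝ ℝ : ℝ × ℝ →L[ℝ] ℝ))))) (t, e) := by
    have h1 := ((hs.mul hinv).const_mul b).const_sub a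
    simp only [div_eq_mul_inv]
    exact h1
  have hst : HasDerivAt Real.smoothTransition (deriv Real.smoothTransition (a - b * (s t / e)))
      (a - b * (s t / e)) :=
    ((Real.smoothTransition.contDiff (n := 1)).differentiable
      (by norm_num)).differentiableAt.hasDerivAt
  have hcomp := HasDerivAt.comp_hasFDerivAt (h₂ := Real.smoothTransition)
    (f := fun p : ℝ × ℝ => a - b * (s p.1 / p.2)) (t, e) hst hr
  have hfd := hcomp.fderiv
  simp only [Function.comp_def] at hfd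
  rw [hfd, norm_smul, norm_neg, norm_smul, Real.norm_eq_abs, Real.norm_eq_abs]
  have h2 : ‖s t • (-(e ^ 2)⁻¹ • (ContinuousLinearMap.snd ℝ ℝ ℝ : ℝ × ℝ →L[ℝ] ℝ))
      + (e)⁻¹ • (deriv s t • (ContinuousLinearMap.fst ℝ ℝ ℝ : ℝ × ℝ →L[ℝ] ℝ))‖ ≤ 22 / e ^ 2 := by
    refine (norm_add_le _ _).trans ?_
    rw [norm_smul, norm_smul, norm_smul, norm_smul]
    simp only [Real.norm_eq_abs]
    have hs0 := s_nonneg t
    have hs1 := s_le_one t
    have hd := abs_deriv_s_le t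
    have hsn : ‖(ContinuousLinearMap.snd ℝ ℝ ℝ : ℝ × ℝ →L[ℝ] ℝ)‖ ≤ 1 := ContinuousLinearMap.norm_snd_le ℝ ℝ ℝ
    have hfn : ‖(ContinuousLinearMap.fst ℝ ℝ ℝ : ℝ × ℝ →L[ℝ] ℝ)‖ ≤ 1 := ContinuousLinearMap.norm_fst_le ℝ ℝ ℝ
    have e2 : 0 < e ^ 2 := by positivity
    rw [abs_of_nonneg hs0, abs_neg, abs_of_pos (inv_pos.2 e2), abs_of_pos (inv_pos.2 he)]
    have h3 : s t * ((e ^ 2)⁻¹ * ‖(ContinuousLinearMap.snd ℝ ℝ ℝ : ℝ × ℝ →L[ℝ] ℝ)‖) ≤ 1 * ((e ^ 2)⁻¹ * 1) := by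
      refine mul_le_mul hs1 ?_ (by positivity) zero_le_one
      exact mul_le_mul_of_nonneg_left hsn (by positivity)
    have h4 : e⁻¹ * (|deriv s t| * ‖(ContinuousLinearMap.fst ℝ ℝ ℝ : ℝ × ℝ →L[ℝ] ℝ)‖) ≤ e⁻¹ * (7 * 1) := by
      refine mul_le_mul_of_nonneg_left ?_ (by positivity)
      exact mul_le_mul hd hfn (norm_nonneg _) (by norm_num)
    have h5 : e⁻¹ * (7 * 1) ≤ 21 * (e ^ 2)⁻¹ := by
      have : e⁻¹ = e * (e ^ 2)⁻¹ := by field_simp
      rw [this]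
      have : 0 < (e ^ 2)⁻¹ := by positivity
      nlinarith
    rw [div_eq_mul_inv]
    linarith
  have hb : |b| ≤ |b| + 1 := by linarith
  calc _ ≤ K * ((|b| + 1) * (22 / e ^ 2)) := by
        refine mul_le_mul (hK _) ?_ (by positivity) hK0.le
        exact mul_le_mul hb h2 (norm_nonneg _) (by positivity)
    _ = _ := by ring

end Crest.Agent.R123
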