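/-
ROW 123 (S0163), piece AgeReg: joint `C¹` regularity of `age` in `(t,e)`, `e > 0`, and derivative bounds.

Near `(t₀,e₀)` with `0 < e₀ ≤ 3` choose `N` with `N ≤ C/√(e₀/2)`: for every `e` in a neighbourhood
(`e ≥ e₀/2`, monotonicity: `s ≤ (e₀/2)/2 ≤ e/2`) and EVERY `t` one of the first `N` factors is `1` (`hit` at
`e₀/2`), so `age t e` is the FINITE sum `Σ_{j<N}` (`sol_eq_sum`) near the point: `ContDiffAt`.
Derivative: for `e` near `e₀`, `bb` has derivative (in `(t,e)`, sup norm) bounded by `C/e` (on the set where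
the derivative does not vanish, `e/2 ≤ s ≤ e`; `|∂_e (2 s/e)| = 2s/e² ≤ 2/e`, `|∂_t (2s/e)| ≤ 14/e`, and
`smoothTransition` has bounded derivative: it is `C¹` and constant outside `[0,1]`).  Product rule: the `j`-th
term has derivative `≤ (j+1) C/e`, sum over `j < N`: `N² C/e ≤ C'/e²`.  For `e > 3`, `age = 0` near.
(Equivalently prove a Lipschitz bound and use `norm_fderiv_le_of_lip'`.)
-/
import Crest.Agent.R123.Age
import Crest.Agent.R123.SolReg

set_option autoImplicit false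

namespace Crest.Agent.R123

open Topology

/-- uniform hitting, valid for all nearby `e'` -/
theorem hit_nhds : ∃ C : ℝ, 0 < C ∧ ∀ e : ℝ, 0 < e → ∃ N : ℕ, (e ≤ 3 → (N : ℝ) ≤ C / Real.sqrt e) ∧
    ∀ t : ℝ, ∀ᶠ p : ℝ × ℝ in 𝓝 (t, e), ∃ j < N, 0 < p.2 ∧ s (p.1 - ((j : ℝ) + 1) * al) ≤ p.2 / 2 := by
  obtain ⟨C, hC0, hC⟩ := hit
  refine ⟨2 * C, by positivity, fun e he => ?_⟩
  set e₁ : ℝ := min e 3 / 2 with he₁
  have hm : 0 < min e 3 := lt_min he (by norm_num)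
  have he₁0 : 0 < e₁ := by positivity
  have he₁3 : e₁ ≤ 3 := by
    have := min_le_right e 3
    rw [he₁]; linarith
  have he₁e : e₁ < e := by
    have := min_le_left e 3
    rw [he₁]; linarith
  refine ⟨⌊C / Real.sqrt e₁⌋₊, ?_, ?_⟩
  · intro he3
    refine (Nat.floor_le (by positivity)).trans ?_
    have h1 : e₁ = e / 2 := by rw [he₁, min_eq_left he3]
    have h2 : Real.sqrt e / 2 ≤ Real.sqrt e₁ := by
      rw [h1]
      have h3 : Real.sqrt e / 2 = Real.sqrt (e / 4) := by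
        rw [show e / 4 = e / 2 ^ 2 by norm_num, Real.sqrt_div he.le, Real.sqrt_sq (by norm_num)]
      rw [h3]
      exact Real.sqrt_le_sqrt (by linarith)
    have h4 : 0 < Real.sqrt e := Real.sqrt_pos.2 he
    calc C / Real.sqrt e₁ ≤ C / (Real.sqrt e / 2) :=
          div_le_div_of_nonneg_left hC0.le (by positivity) h2
      _ = 2 * C / Real.sqrt e := by field_simp
  · intro t
    have h1 : ∀ᶠ p : ℝ × ℝ in 𝓝 (t, e), e₁ < p.2 :=
      (continuous_snd.tendsto (t, e)).eventually (lt_mem_nhds he₁e)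
    filter_upwards [h1] with p hp
    obtain ⟨j, hj1, hj2⟩ := hC e₁ he₁0 he₁3 p.1
    refine ⟨j, ?_, by linarith, by linarith⟩
    have h2 : ((j + 1 : ℕ) : ℝ) ≤ C / Real.sqrt e₁ := by push_cast; exact hj1
    exact Nat.lt_of_succ_le (Nat.le_floor h2)

theorem bb_contDiffAt {n : ℕ∞} {e : ℝ} (he : 0 < e) (t : ℝ) :
    ContDiffAt ℝ n (fun p : ℝ × ℝ => bb p.1 p.2) (t, e) := cut_contDiffAt 2 2 he t

theorem age_contDiffAt {e : ℝ} (he : 0 < e) (t : ℝ) :
    ContDiffAt ℝ 1 (fun p : ℝ × ℝ => age p.1 p.2) (t, e) := by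
  obtain ⟨C, hC0, hC⟩ := hit_nhds
  obtain ⟨N, -, hN⟩ := hC e he
  refine sol_contDiffAt (B := bb) (L := fun u e => 1 - bb u e) (N := N)
    (fun u => bb_contDiffAt he u) (fun u => contDiffAt_const.sub (bb_contDiffAt he u)) ?_
  filter_upwards [hN t] with p hp
  obtain ⟨j, hj, hp0, hs⟩ := hp
  exact ⟨j, hj, bb_eq_one hp0 hs⟩

theorem age_fderiv_le : ∃ C : ℝ, 0 < C ∧ ∀ t e : ℝ, 0 < e → e ≤ 3 →
    ‖fderiv ℝ (fun p : ℝ × ℝ => age p.1 p.2) (t, e)‖ ≤ C / e ^ 4 := by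
  obtain ⟨C, hC0, hC⟩ := hit_nhds
  obtain ⟨K, hK0, hK⟩ := cut_fderiv_le 2 2
  refine ⟨C ^ 2 * K * 3 + C * K * 6, by positivity, fun t e he he3 => ?_⟩
  obtain ⟨N, hNe, hN⟩ := hC e he
  have hbd : ∀ u, DifferentiableAt ℝ (fun p : ℝ × ℝ => bb p.1 p.2) (u, e) := fun u =>
    (bb_contDiffAt (n := 1) he u).differentiableAt (by norm_num)
  have hbn : ∀ u, ‖fderiv ℝ (fun p : ℝ × ℝ => bb p.1 p.2) (u, e)‖ ≤ K / e ^ 2 := fun u =>
    hK u e he he3
  have h := sol_fderiv_le (B := bb) (L := fun u e => 1 - bb u e) (t := t) (e := e) (N := N)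
    (DB := K / e ^ 2) (DL := K / e ^ 2) (M := 1)
    (fun u => (bb_mem u e).1) (fun u => (bb_mem u e).2) hbd hbn
    (fun u => (differentiableAt_const _).sub (hbd u))
    (fun u => by
      rw [fderiv_const_sub, norm_neg]
      exact hbn u)
    (fun u => by
      rw [abs_le]
      constructor <;> linarith [(bb_mem u e).1, (bb_mem u e).2])
    (by
      filter_upwards [hN t] with p hp
      obtain ⟨j, hj, hp0, hs⟩ := hp
      exact ⟨j, hj, bb_eq_one hp0 hs⟩)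
  refine h.trans ?_
  have hNN := hNe he3
  have hse : 0 < Real.sqrt e := Real.sqrt_pos.2 he
  have hsq : Real.sqrt e ^ 2 = e := Real.sq_sqrt he.le
  have hN2 : (N : ℝ) ^ 2 ≤ C ^ 2 / e := by
    calc (N : ℝ) ^ 2 ≤ (C / Real.sqrt e) ^ 2 := pow_le_pow_left₀ (Nat.cast_nonneg _) hNN 2
      _ = C ^ 2 / e := by rw [div_pow, hsq]
  have hs2 : Real.sqrt e ≤ 2 := by
    rw [show (2 : ℝ) = Real.sqrt 4 by
      rw [show (4 : ℝ) = 2 ^ 2 by norm_num, Real.sqrt_sq (by norm_num)]]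
    exact Real.sqrt_le_sqrt (by linarith)
  have hN1 : (N : ℝ) ≤ 2 * C / e := by
    refine hNN.trans ?_
    rw [div_le_div_iff₀ hse he]
    nlinarith [mul_pos hC0 hse]
  have hKe : 0 ≤ K / e ^ 2 := by positivity
  calc (N : ℝ) ^ 2 * (K / e ^ 2) * 1 + N * (K / e ^ 2)
      ≤ C ^ 2 / e * (K / e ^ 2) * 1 + 2 * C / e * (K / e ^ 2) := by
        have := mul_le_mul_of_nonneg_right hN2 hKe
        have := mul_le_mul_of_nonneg_right hN1 hKe
        linarith
    _ = (C ^ 2 * K + 2 * C * K) * e / e ^ 4 := by field_simp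
    _ ≤ (C ^ 2 * K * 3 + C * K * 6) / e ^ 4 := by
        refine div_le_div_of_nonneg_right ?_ (by positivity)
        have : 0 ≤ C ^ 2 * K + 2 * C * K := by positivity
        nlinarith

end Crest.Agent.R123
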