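/-
ROW 123 (S0163), piece EntA: zero entropy from polynomially many codes.

Mathlib: `Dynamics.coverEntropy`, `Dynamics.coverMincard`, `Dynamics.IsDynCoverOf`,
`Dynamics.coverEntropyEntourage`, `Dynamics.coverEntropy_eq_iSup_basis` / `iSup`, `Dynamics.coverEntropy_nonneg`.
For an entourage `U ⊇ {dist < ε}` and `n`, pick one point in every nonempty code class: a finite set `S` of at most
`A (n+1)^D` points, `IsDynCoverOf T univ U n S`, hence `coverMincard T univ U n ≤ A (n+1)^D` and
`log (coverMincard)/n → 0` in `EReal`.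
-/
import Mathlib

set_option autoImplicit false

namespace Crest.Agent.R123

namespace EntAaux

open Filter Asymptotics in
theorem poly_le_exp (A D : ℕ) {c : ℝ} (hc : 0 < c) :
    ∀ᶠ n : ℕ in atTop, (A : ℝ) * ((n : ℝ) + 1) ^ D ≤ Real.exp (c * n) := by
  have h1 := isLittleO_pow_exp_pos_mul_atTop D hc
  have hA : (0 : ℝ) < Real.exp (-c) / ((A : ℝ) + 1) := by positivity
  have h2 := h1.bound hA
  have h3 : Tendsto (fun n : ℕ => (n : ℝ) + 1) atTop atTop :=
    tendsto_natCast_atTop_atTop.atTop_add tendsto_const_nhds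
  filter_upwards [h3.eventually h2] with n hn
  have hn0 : (0 : ℝ) ≤ (n : ℝ) + 1 := by positivity
  rw [Real.norm_of_nonneg (by positivity), Real.norm_of_nonneg (Real.exp_pos _).le] at hn
  have hA0 : (0 : ℝ) ≤ A := Nat.cast_nonneg _
  calc (A : ℝ) * ((n : ℝ) + 1) ^ D ≤ ((A : ℝ) + 1) * ((n : ℝ) + 1) ^ D := by
        gcongr; linarith
    _ ≤ ((A : ℝ) + 1) * (Real.exp (-c) / ((A : ℝ) + 1) * Real.exp (c * ((n : ℝ) + 1))) := by
        gcongr
    _ = Real.exp (-c) * Real.exp (c * ((n : ℝ) + 1)) := by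
        field_simp
    _ = Real.exp (c * n) := by
        rw [← Real.exp_add]; congr 1; ring

end EntAaux

theorem coverEntropy_eq_zero_of_codes {M : Type*} [MetricSpace M] [CompactSpace M] [Nonempty M]
    (T : M → M)
    (h : ∀ ε : ℝ, 0 < ε → ∃ A D : ℕ, ∀ n : ℕ, ∃ code : M → Fin (A * (n + 1) ^ D),
      ∀ x y : M, code x = code y → ∀ k < n, dist (T^[k] x) (T^[k] y) < ε) :
    Dynamics.coverEntropy T Set.univ = 0 := by
  classical
  refine le_antisymm ?_ (Dynamics.coverEntropy_nonneg T Set.univ_nonempty)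
  refine iSup₂_le fun U hU => ?_
  obtain ⟨ε, hε, hεU⟩ := Metric.mem_uniformity_dist.1 hU
  obtain ⟨A, D, hAD⟩ := h ε hε
  have hcard : ∀ n : ℕ, Dynamics.coverMincard T Set.univ U n ≤ ((A * (n + 1) ^ D : ℕ) : ℕ∞) := by
    intro n
    obtain ⟨code, hcode⟩ := hAD n
    set rep : Fin (A * (n + 1) ^ D) → M := fun c =>
      if hc : ∃ x, code x = c then hc.choose else Classical.arbitrary M with hrep
    have hrep' : ∀ y, code (rep (code y)) = code y := by
      intro y
      have hc : ∃ x, code x = code y := ⟨y, rfl⟩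
      simp only [hrep, dif_pos hc]
      exact hc.choose_spec
    have hcov : Dynamics.IsDynCoverOf T Set.univ U n
        ((Finset.univ.image rep : Finset M) : Set M) := by
      intro y _
      refine ⟨rep (code y), by simp, ?_⟩
      rw [Dynamics.mem_dynEntourage]
      intro k hk
      exact hεU (hcode _ _ (hrep' y).symm k hk)
    refine hcov.coverMincard_le_card.trans ?_
    have := Finset.card_image_le (s := (Finset.univ : Finset (Fin (A * (n + 1) ^ D)))) (f := rep)
    rw [Finset.card_univ, Fintype.card_fin] at this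
    exact_mod_cast this
  unfold Dynamics.coverEntropyEntourage
  rw [ExpGrowth.expGrowthSup_le_iff]
  intro b hb
  obtain ⟨c, hc1, hc2⟩ := EReal.lt_iff_exists_real_btwn.1 hb
  have hc : 0 < c := by exact_mod_cast hc1
  filter_upwards [EntAaux.poly_le_exp A D hc] with n hn
  calc ((Dynamics.coverMincard T Set.univ U n : ℕ∞) : ENNReal)
      ≤ (((A * (n + 1) ^ D : ℕ) : ℕ∞) : ENNReal) := by exact_mod_cast hcard n
    _ = ENNReal.ofReal ((A : ℝ) * ((n : ℝ) + 1) ^ D) := by
        rw [ENat.toENNReal_coe, ← ENNReal.ofReal_natCast]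
        push_cast
        rfl
    _ ≤ ENNReal.ofReal (Real.exp (c * n)) := ENNReal.ofReal_le_ofReal hn
    _ = EReal.exp (((c * n : ℝ)) : EReal) := (EReal.exp_coe _).symm
    _ = EReal.exp ((c : EReal) * (n : EReal)) := by
        congr 1
    _ ≤ EReal.exp (b * (n : EReal)) := by
        gcongr

end Crest.Agent.R123
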