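/-
ROW 123 (S0163), piece EntC: words with few changes are polynomially many.

`code_few_changes`: words `w : ℕ → S` (`S` finite) with at most `J` changes `w (k+1) ≠ w k` among `k < n`
are determined on `{0..n}` by `w 0` and the (at most `J`) pairs (position, new value).
Proof by induction on `J` (or: code = the map `Fin J → Fin (n+1) × S` listing the changes in order, padded).
A convenient induction: if there is a change, let `p` be the LAST change position; `w` on `{0..p}` has one change
less; consider `w' k = w (min k p)`; the code is (code of `w'`, `p`, `w (p+1)`).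
-/
import Mathlib

set_option autoImplicit false

namespace Crest.Agent.R123

namespace EntCaux

variable {S : Type} [DecidableEq S]

/-- set of change positions -/
def Ch (n : ℕ) (w : ℕ → S) : Finset ℕ := (Finset.range n).filter (fun k => w (k + 1) ≠ w k)

/-- last change, or `n` if there is none -/
def lastCh (n : ℕ) (w : ℕ → S) : ℕ := if h : (Ch n w).Nonempty then (Ch n w).max' h else n

theorem lastCh_le (n : ℕ) (w : ℕ → S) : lastCh n w ≤ n := by
  unfold lastCh
  split_ifs with h
  · have := (Ch n w).max'_mem h
    simp only [Ch, Finset.mem_filter, Finset.mem_range] at this ⊢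
    exact this.1.le
  · exact le_rfl

theorem after_lastCh (n : ℕ) (w : ℕ → S) (k : ℕ) (hk : lastCh n w < k) (hkn : k ≤ n) :
    w k = w (lastCh n w + 1) := by
  have hne : (Ch n w).Nonempty := by
    by_contra h
    unfold lastCh at hk
    rw [dif_neg h] at hk
    omega
  have key : ∀ j, lastCh n w + 1 + j ≤ n → w (lastCh n w + 1 + j) = w (lastCh n w + 1) := by
    intro j
    induction j with
    | zero => intro _; rfl
    | succ j ih =>
      intro hj
      rw [← ih (by omega)]
      by_contra hc
      have hmem : lastCh n w + 1 + j ∈ Ch n w := by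
        simp only [Ch, Finset.mem_filter, Finset.mem_range]
        exact ⟨by omega, hc⟩
      have hle := (Ch n w).le_max' _ hmem
      have : lastCh n w = (Ch n w).max' hne := by
        unfold lastCh; rw [dif_pos hne]
      omega
  obtain ⟨j, rfl⟩ : ∃ j, k = lastCh n w + 1 + j := ⟨k - (lastCh n w + 1), by omega⟩
  exact key j hkn

theorem card_trunc (n J : ℕ) (w : ℕ → S) (h : (Ch n w).card ≤ J + 1) :
    (Ch n (fun k => w (min k (lastCh n w)))).card ≤ J := by
  by_cases hne : (Ch n w).Nonempty
  · have hl : lastCh n w = (Ch n w).max' hne := by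
      unfold lastCh; rw [dif_pos hne]
    have hsub : Ch n (fun k => w (min k (lastCh n w))) ⊆ (Ch n w).erase (lastCh n w) := by
      intro k hk
      simp only [Ch, Finset.mem_filter, Finset.mem_range, Finset.mem_erase] at hk ⊢
      by_cases hkl : k < lastCh n w
      · rw [min_eq_left (by omega : k + 1 ≤ lastCh n w), min_eq_left hkl.le] at hk
        exact ⟨by omega, hk⟩
      · exfalso
        apply hk.2
        rw [min_eq_right (by omega : lastCh n w ≤ k + 1), min_eq_right (by omega : lastCh n w ≤ k)]
    have h1 := Finset.card_le_card hsub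
    have hmem : lastCh n w ∈ Ch n w := by rw [hl]; exact (Ch n w).max'_mem hne
    rw [Finset.card_erase_of_mem hmem] at h1
    omega
  · have he : Ch n w = ∅ := Finset.not_nonempty_iff_eq_empty.mp hne
    have hl : lastCh n w = n := by unfold lastCh; rw [dif_neg hne]
    have : Ch n (fun k => w (min k (lastCh n w))) ⊆ Ch n w := by
      intro k hk
      simp only [Ch, Finset.mem_filter, Finset.mem_range] at hk ⊢
      rw [hl, min_eq_left (by omega : k + 1 ≤ n), min_eq_left (by omega : k ≤ n)] at hk
      exact hk
    rw [he, Finset.subset_empty] at this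
    rw [this]; simp

theorem main (S : Type) [Fintype S] [DecidableEq S] (J : ℕ) :
    ∃ A D : ℕ, ∀ n : ℕ, ∃ code : (ℕ → S) → Fin (A * (n + 1) ^ D),
      ∀ w w' : ℕ → S, (Ch n w).card ≤ J → (Ch n w').card ≤ J →
        code w = code w' → ∀ k ≤ n, w k = w' k := by
  induction J with
  | zero =>
    refine ⟨Fintype.card S, 0, fun n => ?_⟩
    refine ⟨fun w => Fin.cast (by simp) (Fintype.equivFin S (w 0)), ?_⟩
    intro w w' hw hw' hc
    have h0 : w 0 = w' 0 := by
      have := Fin.cast_injective _ hc
      exact (Fintype.equivFin S).injective this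
    have hconst : ∀ v : ℕ → S, (Ch n v).card ≤ 0 → ∀ k ≤ n, v k = v 0 := by
      intro v hv k
      induction k with
      | zero => intro _; rfl
      | succ k ih =>
        intro hk
        rw [← ih (by omega)]
        by_contra hne
        have hmem : k ∈ Ch n v := by
          simp only [Ch, Finset.mem_filter, Finset.mem_range]
          exact ⟨by omega, hne⟩
        have := Finset.card_pos.mpr ⟨k, hmem⟩
        omega
    intro k hk
    rw [hconst w hw k hk, hconst w' hw' k hk, h0]
  | succ J ih =>
    obtain ⟨A, D, hAD⟩ := ih
    refine ⟨A * Fintype.card S, D + 1, fun n => ?_⟩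
    obtain ⟨code, hcode⟩ := hAD n
    have hcard : (A * (n + 1) ^ D) * ((n + 1) * Fintype.card S) =
        A * Fintype.card S * (n + 1) ^ (D + 1) := by ring
    refine ⟨fun w => Fin.cast hcard (finProdFinEquiv (code (fun k => w (min k (lastCh n w))),
      finProdFinEquiv (⟨lastCh n w, Nat.lt_succ_of_le (lastCh_le n w)⟩,
        Fintype.equivFin S (w (lastCh n w + 1))))), ?_⟩
    intro w w' hw hw' hc k hk
    have h1 := finProdFinEquiv.injective (Fin.cast_injective _ hc)
    rw [Prod.mk.injEq] at h1
    obtain ⟨h1, h2⟩ := h1
    have h3 := finProdFinEquiv.injective h2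
    rw [Prod.mk.injEq] at h3
    obtain ⟨h3, h4⟩ := h3
    have h3' : lastCh n w = lastCh n w' := by simpa using h3
    have h4' := (Fintype.equivFin S).injective h4
    have h5 := hcode _ _ (card_trunc n J w hw) (card_trunc n J w' hw') h1
    by_cases hkl : k ≤ lastCh n w
    · have h6 := h5 k hk
      rw [min_eq_left hkl, min_eq_left (h3' ▸ hkl)] at h6
      exact h6
    · rw [after_lastCh n w k (by omega) hk, after_lastCh n w' k (by omega) hk, h4']

end EntCaux

open EntCaux

theorem code_few_changes (S : Type) [Fintype S] [DecidableEq S] [Nonempty S] (J : ℕ) :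
    ∃ A D : ℕ, ∀ n : ℕ, ∃ code : (ℕ → S) → Fin (A * (n + 1) ^ D),
      ∀ w w' : ℕ → S,
        ((Finset.range n).filter (fun k => w (k + 1) ≠ w k)).card ≤ J →
        ((Finset.range n).filter (fun k => w' (k + 1) ≠ w' k)).card ≤ J →
        code w = code w' → ∀ k < n, w k = w' k := by
  obtain ⟨A, D, h⟩ := EntCaux.main S J
  refine ⟨A, D, fun n => ?_⟩
  obtain ⟨code, hc⟩ := h n
  exact ⟨code, fun w w' hw hw' he k hk => hc w w' hw hw' he k hk.le⟩

end Crest.Agent.R123
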