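/-
ROW 123 (S0163), piece EntB: entropy zero for isometric extensions with finitely many excursions from two
equivariant sections.

Proof.  Fix `ε`.  `d₀ = min_b dist (s₀ b) (s₁ b) > 0` (compactness; if `B` is empty then so is `M`).
Choose `δ ≤ ε/4`, `δ ≤ d₀/4` such that `dist p q < δ → dist (T p) (T q) < d₀/4`.  Time `k` of the orbit of `x`
is BAD if both distances `dist (T^k x) (s_i (π (T^k x))) ≥ δ`, otherwise of type `0` if
`dist (T^k x) (s₀ …) < δ` and else of type `1`.  If `k` has type `i` and `k+1` is not bad then `k+1` has the same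
type: `dist (T^{k+1} x) (s_i (π T^{k+1} x)) = dist (T (T^k x)) (T (s_i (π T^k x))) < d₀/4`, so it can not be
`δ`-close to the other section.  At most `K` bad times (`hbad` with `ε := δ`), so the word
`w k = (type i, or at a bad time the index of a cell of diameter `< ε` of `M` containing `T^k x`)` over the finite
alphabet `Bool ⊕ Fin m` has at most `2K` changes: `code_few_changes`.  Add the index of a small cell of `B`
containing `π x`, of diameter so small that `dist b b' < η → dist (s_i b) (s_i b') < ε/4`: if codes of `x, y` agree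
then at a bad time `dist < ε`; at a good time of type `i`,
`dist ≤ δ + dist (s_i (π T^k x)) (s_i (π T^k y)) + δ < ε`, as `dist (π T^k x) (π T^k y) = dist (R^k π x) (R^k π y)
= dist (π x) (π y) < η`.  Conclude by `coverEntropy_eq_zero_of_codes`.
-/
import Crest.Agent.R123.EntA
import Crest.Agent.R123.EntC

set_option autoImplicit false

namespace Crest.Agent.R123

namespace EntBaux

theorem exists_cells (X : Type*) [MetricSpace X] [CompactSpace X] {ε : ℝ} (hε : 0 < ε) :
    ∃ (m : ℕ) (c : X → Fin m), ∀ x y, c x = c y → dist x y < ε := by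
  classical
  obtain ⟨t, -, htf, ht⟩ := finite_cover_balls_of_compact (isCompact_univ (X := X)) (half_pos hε)
  have h1 : ∀ x : X, ∃ y : t, dist x y.1 < ε / 2 := by
    intro x
    have := ht (Set.mem_univ x)
    simp only [Set.mem_iUnion, exists_prop, Metric.mem_ball] at this
    obtain ⟨y, hy, hxy⟩ := this
    exact ⟨⟨y, hy⟩, hxy⟩
  choose f hf using h1
  have : Fintype t := htf.fintype
  refine ⟨Fintype.card t, fun x => Fintype.equivFin t (f x), fun x y hxy => ?_⟩
  have h2 : f x = f y := (Fintype.equivFin t).injective hxy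
  have h3 := hf x
  have h4 := hf y
  rw [← h2] at h4
  calc dist x y ≤ dist x (f x).1 + dist y (f x).1 := dist_triangle_right _ _ _
    _ < ε := by linarith

end EntBaux

open EntBaux in
theorem entropy_zero {M B : Type*} [MetricSpace M] [CompactSpace M] [Nonempty M] [MetricSpace B]
    [CompactSpace B] {T : M → M} (hT : Continuous T) {R : B → B} (hR : Isometry R)
    {π : M → B} (hπ : Continuous π) (hπT : ∀ x, π (T x) = R (π x))
    {s₀ s₁ : B → M} (hs₀ : Continuous s₀) (hs₁ : Continuous s₁)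
    (h₀ : ∀ b, T (s₀ b) = s₀ (R b)) (h₁ : ∀ b, T (s₁ b) = s₁ (R b)) (hd : ∀ b, s₀ b ≠ s₁ b)
    (hbad : ∀ ε : ℝ, 0 < ε → ∃ K : ℕ, ∀ x : M, ∀ F : Finset ℕ,
      (∀ k ∈ F, ε ≤ dist (T^[k] x) (s₀ (π (T^[k] x))) ∧ ε ≤ dist (T^[k] x) (s₁ (π (T^[k] x)))) →
      F.card ≤ K) :
    Dynamics.coverEntropy T Set.univ = 0 := by
  classical
  refine coverEntropy_eq_zero_of_codes T fun ε hε => ?_
  have hBne : Nonempty B := ⟨π (Classical.arbitrary M)⟩
  -- the distance of the sections
  obtain ⟨b₀, -, hb₀⟩ := (isCompact_univ (X := B)).exists_isMinOn Set.univ_nonempty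
    (hs₀.dist hs₁).continuousOn
  have hd₀ : 0 < dist (s₀ b₀) (s₁ b₀) := dist_pos.2 (hd b₀)
  set d₀ := dist (s₀ b₀) (s₁ b₀) with hd₀def
  have hmin : ∀ b, d₀ ≤ dist (s₀ b) (s₁ b) := fun b => hb₀ (Set.mem_univ b)
  have hTu := Metric.uniformContinuous_iff.1 (CompactSpace.uniformContinuous_of_continuous hT)
  obtain ⟨δ₁, hδ₁, hTδ⟩ := hTu (d₀ / 4) (by positivity)
  set δ := min (ε / 4) (min (d₀ / 4) δ₁) with hδdef
  have hδ : 0 < δ := by positivity
  have hδε : δ ≤ ε / 4 := min_le_left _ _
  have hδd : δ ≤ d₀ / 4 := (min_le_right _ _).trans (min_le_left _ _)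
  have hδδ : δ ≤ δ₁ := (min_le_right _ _).trans (min_le_right _ _)
  obtain ⟨K, hK⟩ := hbad δ hδ
  have hs₀u := Metric.uniformContinuous_iff.1 (CompactSpace.uniformContinuous_of_continuous hs₀)
  have hs₁u := Metric.uniformContinuous_iff.1 (CompactSpace.uniformContinuous_of_continuous hs₁)
  obtain ⟨η₀, hη₀, hsη₀⟩ := hs₀u (ε / 4) (by positivity)
  obtain ⟨η₁, hη₁, hsη₁⟩ := hs₁u (ε / 4) (by positivity)
  obtain ⟨m, cM, hcM⟩ := exists_cells M hε
  obtain ⟨m', cB, hcB⟩ := exists_cells B (lt_min hη₀ hη₁)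
  -- iterates and the projection
  have hπk : ∀ (k : ℕ) (x : M), π (T^[k] x) = R^[k] (π x) := by
    intro k
    induction k with
    | zero => intro x; rfl
    | succ k ih =>
      intro x
      rw [Function.iterate_succ_apply, ih, hπT, Function.iterate_succ_apply]
  have hRk : ∀ k : ℕ, Isometry (R^[k]) := by
    intro k
    induction k with
    | zero => exact isometry_id
    | succ k ih =>
      rw [Function.iterate_succ]
      exact ih.comp hR
  -- the types
  let P0 : M → Prop := fun p => dist p (s₀ (π p)) < δ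
  let P1 : M → Prop := fun p => dist p (s₁ (π p)) < δ
  have hnext0 : ∀ p, P0 p → dist (T p) (s₀ (π (T p))) < d₀ / 4 := by
    intro p hp
    rw [hπT, ← h₀]
    exact hTδ (lt_of_lt_of_le hp hδδ)
  have hnext1 : ∀ p, P1 p → dist (T p) (s₁ (π (T p))) < d₀ / 4 := by
    intro p hp
    rw [hπT, ← h₁]
    exact hTδ (lt_of_lt_of_le hp hδδ)
  have hexcl : ∀ p, dist p (s₀ (π p)) < d₀ / 4 → dist p (s₁ (π p)) < d₀ / 4 → False := by
    intro p h1 h2
    have h3 := hmin (π p)
    have h4 := dist_triangle_left (s₀ (π p)) (s₁ (π p)) p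
    linarith
  let W : M → Bool ⊕ Fin m := fun p =>
    if P0 p then Sum.inl false else if P1 p then Sum.inl true else Sum.inr (cM p)
  have hW : ∀ p, (P0 p ∨ P1 p) → (P0 (T p) ∨ P1 (T p)) → W (T p) = W p := by
    intro p hp hTp
    by_cases h0 : P0 p
    · have h1 : P0 (T p) := by
        rcases hTp with h | h
        · exact h
        · exact (hexcl (T p) (hnext0 p h0) (lt_of_lt_of_le h hδd)).elim
      simp only [W, if_pos h0, if_pos h1]
    · have h1 : P1 p := hp.resolve_left h0
      have h2 : ¬ P0 (T p) := fun h =>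
        hexcl (T p) (lt_of_lt_of_le h hδd) (hnext1 p h1)
      have h3 : P1 (T p) := hTp.resolve_left h2
      simp only [W, if_neg h0, if_neg h2, if_pos h1, if_pos h3]
  let w : M → ℕ → Bool ⊕ Fin m := fun x k => W (T^[k] x)
  have hbadcard : ∀ (x : M) (F : Finset ℕ), (∀ k ∈ F, ¬ (P0 (T^[k] x) ∨ P1 (T^[k] x))) →
      F.card ≤ K := by
    intro x F hF
    refine hK x F fun k hk => ?_
    have := hF k hk
    rw [not_or] at this
    exact ⟨not_lt.1 this.1, not_lt.1 this.2⟩
  have hchg : ∀ (x : M) (n : ℕ),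
      ((Finset.range n).filter (fun k => w x (k + 1) ≠ w x k)).card ≤ 2 * K := by
    intro x n
    set F1 := (Finset.range n).filter (fun k => ¬ (P0 (T^[k] x) ∨ P1 (T^[k] x))) with hF1
    set F2 := (Finset.range n).filter (fun k => ¬ (P0 (T^[k + 1] x) ∨ P1 (T^[k + 1] x))) with hF2
    have h1 : F1.card ≤ K := hbadcard x F1 fun k hk => (Finset.mem_filter.1 hk).2
    have h2 : F2.card ≤ K := by
      rw [← Finset.card_image_of_injective F2 (Nat.succ_injective)]
      refine hbadcard x _ fun k hk => ?_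
      obtain ⟨k', hk', rfl⟩ := Finset.mem_image.1 hk
      exact (Finset.mem_filter.1 hk').2
    have h3 : (Finset.range n).filter (fun k => w x (k + 1) ≠ w x k) ⊆ F1 ∪ F2 := by
      intro k hk
      obtain ⟨hk1, hk2⟩ := Finset.mem_filter.1 hk
      by_contra hne
      rw [Finset.mem_union, not_or] at hne
      apply hk2
      have h4 : P0 (T^[k] x) ∨ P1 (T^[k] x) := by
        by_contra h; exact hne.1 (Finset.mem_filter.2 ⟨hk1, h⟩)
      have h5 : P0 (T^[k + 1] x) ∨ P1 (T^[k + 1] x) := by
        by_contra h; exact hne.2 (Finset.mem_filter.2 ⟨hk1, h⟩)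
      show W (T^[k + 1] x) = W (T^[k] x)
      rw [Function.iterate_succ_apply'] at h5 ⊢
      exact hW _ h4 h5
    calc _ ≤ (F1 ∪ F2).card := Finset.card_le_card h3
      _ ≤ F1.card + F2.card := Finset.card_union_le _ _
      _ ≤ 2 * K := by omega
  obtain ⟨A, D, hcode⟩ := code_few_changes (Bool ⊕ Fin m) (2 * K)
  refine ⟨A * m', D, fun n => ?_⟩
  obtain ⟨code, hc⟩ := hcode n
  have hA : A * (n + 1) ^ D * m' = A * m' * (n + 1) ^ D := by ring
  refine ⟨fun x => Fin.cast hA (finProdFinEquiv (code (w x), cB (π x))), ?_⟩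
  intro x y hxy k hk
  have h1 := finProdFinEquiv.injective (Fin.cast_injective hA hxy)
  rw [Prod.mk.injEq] at h1
  have h2 : w x k = w y k := hc (w x) (w y) (hchg x n) (hchg y n) h1.1 k hk
  have h3 := hcB _ _ h1.2
  have h4 : dist (π (T^[k] x)) (π (T^[k] y)) = dist (π x) (π y) := by
    rw [hπk, hπk, (hRk k).dist_eq]
  have h5 : W (T^[k] x) = W (T^[k] y) := h2
  by_cases hx0 : P0 (T^[k] x)
  · have hy0 : P0 (T^[k] y) := by
      by_contra hy0
      simp only [W, if_pos hx0, if_neg hy0] at h5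
      split_ifs at h5
      simp at h5
    have h6 : dist (s₀ (π (T^[k] x))) (s₀ (π (T^[k] y))) < ε / 4 :=
      hsη₀ (by rw [h4]; exact lt_of_lt_of_le h3 (min_le_left _ _))
    have h7 : dist (T^[k] x) (s₀ (π (T^[k] x))) < δ := hx0
    have h8 : dist (T^[k] y) (s₀ (π (T^[k] y))) < δ := hy0
    rw [dist_comm] at h8
    have h9 := dist_triangle4 (T^[k] x) (s₀ (π (T^[k] x))) (s₀ (π (T^[k] y))) (T^[k] y)
    linarith
  · by_cases hx1 : P1 (T^[k] x)
    · have hy0 : ¬ P0 (T^[k] y) := by
        intro hy0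
        simp only [W, if_neg hx0, if_pos hx1, if_pos hy0] at h5
        simp at h5
      have hy1 : P1 (T^[k] y) := by
        by_contra hy1
        simp only [W, if_neg hx0, if_pos hx1, if_neg hy0, if_neg hy1] at h5
        simp at h5
      have h6 : dist (s₁ (π (T^[k] x))) (s₁ (π (T^[k] y))) < ε / 4 :=
        hsη₁ (by rw [h4]; exact lt_of_lt_of_le h3 (min_le_right _ _))
      have h7 : dist (T^[k] x) (s₁ (π (T^[k] x))) < δ := hx1
      have h8 : dist (T^[k] y) (s₁ (π (T^[k] y))) < δ := hy1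
      rw [dist_comm] at h8
      have h9 := dist_triangle4 (T^[k] x) (s₁ (π (T^[k] x))) (s₁ (π (T^[k] y))) (T^[k] y)
      linarith
    · have hy0 : ¬ P0 (T^[k] y) := by
        intro hy0
        simp only [W, if_neg hx0, if_neg hx1, if_pos hy0] at h5
        simp at h5
      have hy1 : ¬ P1 (T^[k] y) := by
        intro hy1
        simp only [W, if_neg hx0, if_neg hx1, if_neg hy0, if_pos hy1] at h5
        simp at h5
      simp only [W, if_neg hx0, if_neg hx1, if_neg hy0, if_neg hy1] at h5
      exact hcM _ _ (by simpa using h5)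

end Crest.Agent.R123
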