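/-
ROW 123 (S0163): the manifold `Mf = S² × S² × S¹`, its ambient space, coordinates, and the degree-two map `psi0`.
-/
import Mathlib

set_option autoImplicit false

namespace Crest.Agent.R123

noncomputable section

/-- Euclidean 3-space -/
abbrev R3 := EuclideanSpace ℝ (Fin 3)

/-- the 2-sphere -/
abbrev S2 := Metric.sphere (0 : R3) 1

/-- the 5-manifold -/
abbrev Mf := S2 × S2 × Circle

/-- its ambient space -/
abbrev Amb := R3 × R3 × ℂ

/-- inclusion -/
def iota (p : Mf) : Amb := ((p.1 : R3), (p.2.1 : R3), (p.2.2 : ℂ))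

/-- horizontal coordinate `X₀ + i X₁` -/
def hz (X : R3) : ℂ := ⟨X 0, X 1⟩

/-- the vector with horizontal coordinate `w` and height `h` -/
def mk3 (w : ℂ) (h : ℝ) : R3 := !₂[w.re, w.im, h]

@[simp] theorem hz_mk3 (w : ℂ) (h : ℝ) : hz (mk3 w h) = w := by
  simp [hz, mk3]

@[simp] theorem mk3_two (w : ℂ) (h : ℝ) : (mk3 w h) 2 = h := by
  simp [mk3]

@[simp] theorem mk3_hz (X : R3) : mk3 (hz X) (X 2) = X := by
  ext i; fin_cases i <;> simp [hz, mk3]

theorem norm_sq_R3 (X : R3) : ‖X‖ ^ 2 = ‖hz X‖ ^ 2 + (X 2) ^ 2 := by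
  rw [EuclideanSpace.norm_sq_eq, Fin.sum_univ_three, Complex.sq_norm, Complex.normSq_apply]
  simp [hz, sq]

theorem norm_sq_mk3 (w : ℂ) (h : ℝ) : ‖mk3 w h‖ ^ 2 = ‖w‖ ^ 2 + h ^ 2 := by
  rw [norm_sq_R3]; simp

theorem mk3_mem {w : ℂ} {h : ℝ} (hw : ‖w‖ ^ 2 + h ^ 2 = 1) : mk3 w h ∈ Metric.sphere (0 : R3) 1 := by
  rw [mem_sphere_zero_iff_norm]
  have h1 := norm_sq_mk3 w h
  rw [hw] at h1
  nlinarith [norm_nonneg (mk3 w h)]

theorem S2_norm_sq (X : S2) : ‖hz (X : R3)‖ ^ 2 + ((X : R3) 2) ^ 2 = 1 := by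
  rw [← norm_sq_R3]
  have := mem_sphere_zero_iff_norm.1 X.2
  rw [this]; norm_num

theorem continuous_hz : Continuous hz := by
  have h : hz = fun X : R3 => (Complex.equivRealProdCLM.symm (X 0, X 1) : ℂ) := by
    funext X; rfl
  rw [h]
  fun_prop

theorem continuous_mk3 : Continuous (fun p : ℂ × ℝ => mk3 p.1 p.2) := by
  unfold mk3
  refine (PiLp.continuous_toLp 2 _).comp ?_
  refine continuous_pi (fun i => ?_)
  fin_cases i
  · exact Complex.continuous_re.comp continuous_fst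
  · exact Complex.continuous_im.comp continuous_fst
  · exact continuous_snd

/-- squaring divided by the norm: `w ↦ w²/|w|` -/
def sqn (w : ℂ) : ℂ := w ^ 2 / (‖w‖ : ℂ)

theorem norm_sqn (w : ℂ) : ‖sqn w‖ = ‖w‖ := by
  unfold sqn
  by_cases hw : w = 0
  · simp [hw]
  · have : ‖w‖ ≠ 0 := norm_ne_zero_iff.2 hw
    rw [norm_div, norm_pow, Complex.norm_real, norm_norm]
    field_simp

theorem continuous_sqn : Continuous sqn := by
  rw [continuous_iff_continuousAt]
  intro w
  by_cases hw : w = 0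
  · subst hw
    have h0 : sqn 0 = 0 := by simp [sqn]
    rw [ContinuousAt, h0, tendsto_zero_iff_norm_tendsto_zero]
    simp only [norm_sqn]
    simpa using (continuous_norm (E := ℂ)).tendsto 0
  · unfold sqn
    have : (‖w‖ : ℂ) ≠ 0 := by exact_mod_cast norm_ne_zero_iff.2 hw
    exact ContinuousAt.div (by fun_prop) (by fun_prop) this

/-- `psi0 (x, X₃) = (x²/|x|, X₃)`: suspension of squaring, degree two -/
def psi0 : C(S2, S2) where
  toFun X := ⟨mk3 (sqn (hz (X : R3))) ((X : R3) 2), mk3_mem (by rw [norm_sqn]; exact S2_norm_sq X)⟩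
  continuous_toFun := by
    refine Continuous.subtype_mk ?_ _
    have h1 : Continuous (fun X : S2 => (X : R3)) := continuous_subtype_val
    exact continuous_mk3.comp ((continuous_sqn.comp (continuous_hz.comp h1)).prodMk
      (by fun_prop))

theorem psi0_coe (X : S2) : (psi0 X : R3) = mk3 (sqn (hz (X : R3))) ((X : R3) 2) := rfl

/-- north pole -/
def npole : S2 := ⟨mk3 0 1, mk3_mem (by simp)⟩

/-- south pole -/
def spole : S2 := ⟨mk3 0 (-1), mk3_mem (by simp)⟩

end

end Crest.Agent.R123
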