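/-
ROW 123 (S0163): the global map `fmap F : Mf → Mf` built from a local model `F`.
-/
import Crest.Agent.R123.MfDefs
import Crest.Agent.R123.Base

set_option autoImplicit false

namespace Crest.Agent.R123

/-- properties of the local model (`Model.lean`) -/
structure IsModel (F H : E → ℝ → E) : Prop where
  cd : ContDiff ℝ 1 (fun q : E × ℝ => F q.1 q.2)
  Hc : Continuous (fun q : E × ℝ => H q.1 q.2)
  per : ∀ z t, F z (t + 1) = F z t
  Hper : ∀ z t, H z (t + 1) = H z t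
  zero : ∀ t, F 0 t = 0
  Hzero : ∀ z t, H z t = 0 ↔ z = 0
  semi : ∀ z t, H (F z t) (t + al) = g (H z t)
  large : ∀ z t, 1 / 1000 ≤ nrm z → F z t = g z ∧ H z t = z
  small : ∀ z t, nrm z ≤ 1 / 1000 → nrm (F z t) ≤ 1 / 64 ∧ nrm (H z t) ≤ 1 / 64

noncomputable section

open Classical in
/-- retraction of `R3` onto the sphere as a set-theoretic map (junk outside the sphere) -/
def toS2 (v : R3) : S2 := if h : v ∈ Metric.sphere (0 : R3) 1 then ⟨v, h⟩ else spole

/-- cutoff: `1` for `q ≤ 1/4`, `0` for `q ≥ 1/2` -/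
def chi (q : ℝ) : ℝ := Real.smoothTransition (2 - 4 * q)

/-- unnormalised `Psi` -/
def PsV (v : ℂ) : R3 :=
  mk3 ((chi (‖v‖ ^ 2) : ℂ) * v)
    (-(chi (‖v‖ ^ 2) * Real.sqrt (1 - ‖v‖ ^ 2)) + (1 - chi (‖v‖ ^ 2)))

/-- smooth map `ℂ → S²`: inverse of the southern disc chart for `|v| ≤ 1/2`, north pole for `|v| ≥ 1` -/
def Psi (v : ℂ) : R3 := ‖PsV v‖⁻¹ • PsV v

/-- southern cap chart -/
def capv (w : ℂ) : R3 := mk3 w (-Real.sqrt (1 - ‖w‖ ^ 2))

/-- cutoff in the second factor: `1` if `Y 2 ≤ -1/2`, `|y| ≤ 1/32`; `0` if `|y| ≥ 1/16` or `Y 2 ≥ 0` -/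
def mcut (Y : R3) : ℝ :=
  Real.smoothTransition ((1 / 256 - ‖hz Y‖ ^ 2) * (1024 / 3)) * Real.smoothTransition (-2 * Y 2)

/-- cut off horizontal coordinate of the second factor -/
def ytil (Y : R3) : ℂ := (mcut Y : ℂ) * hz Y

/-- angle in `(-1/2, 1/2]` -/
def ang (τ : ℂ) : ℝ := Complex.arg τ / (2 * Real.pi)

/-- local coordinates -/
def zc (X Y : R3) : E := (hz X, ytil Y)

/-- first component of the map -/
def fX (F : E → ℝ → E) (X Y : R3) (τ : ℂ) : R3 :=
  if X 2 < -(1 / 2) then Psi (F (zc X Y) (ang τ)).1 else mk3 0 1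

/-- horizontal coordinate of the second component of the map -/
def fY (F : E → ℝ → E) (X Y : R3) (τ : ℂ) : ℂ :=
  if X 2 < -(1 / 2) then (F (zc X Y) (ang τ)).2 else hz X / 16

/-- rotation `e^{2π i α}` -/
def e0 : Circle := Circle.exp (2 * Real.pi * al)

/-- the global map -/
def fmap (F : E → ℝ → E) (p : Mf) : Mf :=
  (toS2 (fX F p.1 p.2.1 p.2.2), toS2 (capv (fY F p.1 p.2.1 p.2.2)), p.2.2 * e0)

/-- the point `p` is in the local region -/
def inside (p : Mf) : Prop := (p.1 : R3) 2 < -(Real.sqrt 3 / 2)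

/-- the semiconjugacy in global coordinates -/
def Pc (H : E → ℝ → E) (p : Mf) : E := H (zc p.1 p.2.1) (ang p.2.2)

/-- core section -/
def core (b : Circle) : Mf := (spole, spole, b)

/-- sink section -/
def sink (b : Circle) : Mf := (npole, spole, b)

end

end Crest.Agent.R123
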