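/-
ROW 123 (S0163), piece GlobA: facts on `Psi` and `capv`.

`q = |v|²`.  `|v| ≤ 1/2`: `chi = 1`, `PsV v = mk3 v (-√(1-q))` has norm one.  `q ≥ 1/2`: `chi = 0`, `PsV v = mk3 0 1`.
* `PsV_ne_zero`: if `chi v = 0` then `v = 0` or `chi = 0`; in both cases the height is nonzero.
* `Psi_contDiff`: `chi (‖v‖²) √(1-‖v‖²)` is smooth: near points with `q < 1` the root is smooth; near points with
  `q > 1/2` it vanishes identically.  `mk3` is linear.
* `Psi_inside`: suppose `|v| ≥ 1/2`.  If `chi = 0` the height is `1`.  Otherwise height `h ≥ -χ√(1-q)`, horizontal part of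
  norm `r = χ√q`, `√(1-q) ≤ √3 √q`: `h ≥ -√3 r`, so `h/√(h²+r²) ≥ -√3/2`.
* `hz_Psi`: `hz (Psi v) = ‖PsV v‖⁻¹ χ v`.
-/
import Crest.Agent.R123.GlobDefs

set_option autoImplicit false

namespace Crest.Agent.R123

theorem mk3_contDiff {n : WithTop ℕ∞} : ContDiff ℝ n (fun p : ℂ × ℝ => mk3 p.1 p.2) := by
  rw [contDiff_euclidean]
  intro i
  fin_cases i
  · exact Complex.reCLM.contDiff.comp contDiff_fst
  · exact Complex.imCLM.contDiff.comp contDiff_fst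
  · exact contDiff_snd

theorem hz_contDiff {n : WithTop ℕ∞} : ContDiff ℝ n hz := by
  have h : hz = fun X : R3 => (Complex.equivRealProdCLM.symm (X 0, X 1) : ℂ) := by
    funext X; rfl
  rw [h]
  refine Complex.equivRealProdCLM.symm.contDiff.comp (ContDiff.prodMk ?_ ?_)
  · exact (contDiff_euclidean.1 contDiff_id) 0
  · exact (contDiff_euclidean.1 contDiff_id) 1

namespace GlobA

theorem chi_one {q : ℝ} (h : q ≤ 1 / 4) : chi q = 1 :=
  Real.smoothTransition.one_of_one_le (by linarith)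

theorem chi_zero {q : ℝ} (h : 1 / 2 ≤ q) : chi q = 0 :=
  Real.smoothTransition.zero_of_nonpos (by linarith)

theorem chi_nonneg (q : ℝ) : 0 ≤ chi q := Real.smoothTransition.nonneg _

theorem chi_le_one (q : ℝ) : chi q ≤ 1 := Real.smoothTransition.le_one _

theorem chi_contDiff {n : ℕ∞} : ContDiff ℝ n (fun v : ℂ => chi (‖v‖ ^ 2)) := by
  unfold chi
  exact Real.smoothTransition.contDiff.comp
    (contDiff_const.sub (contDiff_const.mul (contDiff_norm_sq ℝ)))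

theorem phi_contDiff : ContDiff ℝ 1 (fun v : ℂ => chi (‖v‖ ^ 2) * Real.sqrt (1 - ‖v‖ ^ 2)) := by
  rw [contDiff_iff_contDiffAt]
  intro v
  by_cases hv : ‖v‖ ^ 2 < 1
  · refine (chi_contDiff (n := 1)).contDiffAt.mul (ContDiffAt.sqrt ?_ ?_)
    · exact (contDiff_const.sub (contDiff_norm_sq ℝ)).contDiffAt
    · linarith
  · have hopen : IsOpen {w : ℂ | 1 / 2 < ‖w‖ ^ 2} := isOpen_lt (by fun_prop) (by fun_prop)
    have hmem : v ∈ {w : ℂ | 1 / 2 < ‖w‖ ^ 2} := by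
      simp only [Set.mem_ofPred_eq]
      linarith
    have heq : (fun v : ℂ => chi (‖v‖ ^ 2) * Real.sqrt (1 - ‖v‖ ^ 2)) =ᶠ[nhds v] fun _ => 0 := by
      filter_upwards [hopen.mem_nhds hmem] with w hw
      rw [chi_zero (le_of_lt hw), zero_mul]
    exact contDiffAt_const.congr_of_eventuallyEq heq

theorem PsV_contDiff : ContDiff ℝ 1 PsV := by
  unfold PsV
  refine mk3_contDiff.comp (ContDiff.prodMk ?_ ?_)
  · have h : (fun v : ℂ => ((chi (‖v‖ ^ 2) : ℝ) : ℂ) * v) = fun v : ℂ => chi (‖v‖ ^ 2) • v := by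
      funext v
      rw [Complex.real_smul]
    rw [h]
    exact (chi_contDiff (n := 1)).smul contDiff_id
  · exact phi_contDiff.neg.add (contDiff_const.sub (chi_contDiff (n := 1)))

theorem hz_smul (r : ℝ) (X : R3) : hz (r • X) = (r : ℂ) * hz X := by
  apply Complex.ext <;> simp [hz]

end GlobA

open GlobA

theorem PsV_ne_zero (v : ℂ) : PsV v ≠ 0 := by
  intro h
  have h1 : hz (PsV v) = 0 := by rw [h]; simp [hz]; rfl
  have h2 : (PsV v) 2 = 0 := by rw [h]; rfl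
  unfold PsV at h1 h2
  rw [hz_mk3] at h1
  rw [mk3_two] at h2
  rcases mul_eq_zero.1 h1 with h3 | h3
  · have h4 : chi (‖v‖ ^ 2) = 0 := by exact_mod_cast h3
    rw [h4] at h2
    norm_num at h2
  · rw [h3] at h2
    rw [chi_one (by norm_num)] at h2
    norm_num at h2

theorem norm_Psi (v : ℂ) : ‖Psi v‖ = 1 := by
  unfold Psi
  rw [norm_smul, norm_inv, norm_norm]
  exact inv_mul_cancel₀ (norm_ne_zero_iff.2 (PsV_ne_zero v))

theorem Psi_contDiff : ContDiff ℝ 1 Psi := by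
  unfold Psi
  refine ContDiff.smul (ContDiff.inv (PsV_contDiff.norm ℝ PsV_ne_zero) ?_) PsV_contDiff
  intro v
  exact norm_ne_zero_iff.2 (PsV_ne_zero v)

theorem norm_capv {w : ℂ} (hw : ‖w‖ ≤ 1) : ‖capv w‖ = 1 := by
  have h1 : 0 ≤ 1 - ‖w‖ ^ 2 := by nlinarith [norm_nonneg w]
  have h2 := norm_sq_mk3 w (-Real.sqrt (1 - ‖w‖ ^ 2))
  rw [neg_sq, Real.sq_sqrt h1] at h2
  unfold capv
  nlinarith [norm_nonneg (mk3 w (-Real.sqrt (1 - ‖w‖ ^ 2)))]

theorem Psi_small {v : ℂ} (hv : ‖v‖ ≤ 1 / 2) : Psi v = capv v := by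
  have hq : ‖v‖ ^ 2 ≤ 1 / 4 := by nlinarith [norm_nonneg v]
  have h1 : PsV v = capv v := by
    unfold PsV capv
    rw [chi_one hq]
    simp
  unfold Psi
  rw [h1, norm_capv (by linarith)]
  simp

theorem Psi_large {v : ℂ} (hv : 1 ≤ ‖v‖) : Psi v = mk3 0 1 := by
  have hq : 1 / 2 ≤ ‖v‖ ^ 2 := by nlinarith [norm_nonneg v]
  have h1 : PsV v = mk3 0 1 := by
    unfold PsV
    rw [chi_zero hq]
    simp
  have h2 : ‖mk3 0 1‖ = 1 := by
    have := norm_sq_mk3 0 1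
    rw [norm_zero] at this
    nlinarith [norm_nonneg (mk3 0 1)]
  unfold Psi
  rw [h1, h2]
  simp

theorem Psi_inside {v : ℂ} (hv : (Psi v) 2 < -(Real.sqrt 3 / 2)) : ‖v‖ < 1 / 2 := by
  by_contra hcon
  push Not at hcon
  have hq : 1 / 4 ≤ ‖v‖ ^ 2 := by nlinarith [norm_nonneg v]
  set N := ‖PsV v‖ with hN
  have hN0 : 0 < N := norm_pos_iff.2 (PsV_ne_zero v)
  set χ := chi (‖v‖ ^ 2) with hχ
  have hχ0 : 0 ≤ χ := chi_nonneg _
  have hχ1 : χ ≤ 1 := chi_le_one _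
  set h := -(χ * Real.sqrt (1 - ‖v‖ ^ 2)) + (1 - χ) with hh
  have hN2 : N ^ 2 = χ ^ 2 * ‖v‖ ^ 2 + h ^ 2 := by
    rw [hN]
    unfold PsV
    rw [norm_sq_mk3, norm_mul, Complex.norm_real, mul_pow, Real.norm_eq_abs, sq_abs]
  have hP2 : (Psi v) 2 = N⁻¹ * h := by
    unfold Psi
    rw [← hN]
    change N⁻¹ * (PsV v) 2 = _
    unfold PsV
    rw [mk3_two]
  rw [hP2] at hv
  have h3 : 0 < Real.sqrt 3 := by positivity
  have h33 : Real.sqrt 3 ^ 2 = 3 := Real.sq_sqrt (by norm_num)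
  have hv' : h < -(Real.sqrt 3 / 2) * N := by
    have := mul_lt_mul_of_pos_right hv hN0
    rwa [mul_comm N⁻¹, mul_assoc, inv_mul_cancel₀ hN0.ne', mul_one] at this
  set r := Real.sqrt (1 - ‖v‖ ^ 2) with hr
  have hr0 : 0 ≤ r := Real.sqrt_nonneg _
  have hr2 : r ^ 2 ≤ 3 * ‖v‖ ^ 2 := by
    by_cases h1 : 0 ≤ 1 - ‖v‖ ^ 2
    · rw [hr, Real.sq_sqrt h1]
      linarith
    · rw [hr, Real.sqrt_eq_zero_of_nonpos (by linarith)]
      nlinarith [norm_nonneg v]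
  have hneg : h < 0 := by nlinarith
  have h4 : -h ≤ χ * r := by rw [hh]; linarith
  have h5 : h ^ 2 ≤ χ ^ 2 * r ^ 2 := by nlinarith [mul_nonneg hχ0 hr0]
  have h6 : h ^ 2 ≤ 3 * (χ ^ 2 * ‖v‖ ^ 2) := by nlinarith [sq_nonneg χ]
  have h7 : (Real.sqrt 3 / 2) * N < -h := by linarith
  have h8 : ((Real.sqrt 3 / 2) * N) ^ 2 < (-h) ^ 2 := by
    apply pow_lt_pow_left₀ h7 (by positivity) (by norm_num)
  nlinarith

theorem hz_Psi (v : ℂ) : ∃ c : ℝ, 0 ≤ c ∧ hz (Psi v) = (c : ℂ) * v := by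
  refine ⟨‖PsV v‖⁻¹ * chi (‖v‖ ^ 2), mul_nonneg (by positivity) (chi_nonneg _), ?_⟩
  unfold Psi
  rw [hz_smul]
  conv_lhs => rw [PsV]
  rw [hz_mk3]
  unfold PsV
  push_cast
  ring

theorem capv_contDiffAt {w : ℂ} (hw : ‖w‖ < 1) : ContDiffAt ℝ 1 capv w := by
  unfold capv
  refine mk3_contDiff.contDiffAt.comp w (ContDiffAt.prodMk contDiffAt_id ?_)
  refine (ContDiffAt.sqrt ?_ ?_).neg
  · exact (contDiff_const.sub (contDiff_norm_sq ℝ)).contDiffAt
  · nlinarith [norm_nonneg w]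

theorem capv_continuous : Continuous capv := by
  unfold capv
  exact continuous_mk3.comp (continuous_id.prodMk (by fun_prop))

theorem capv_zero : capv 0 = mk3 0 (-1) := by
  unfold capv
  simp

theorem hz_capv (w : ℂ) : hz (capv w) = w := by
  unfold capv
  exact hz_mk3 _ _

end Crest.Agent.R123
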