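/-
ROW 123 (S0163), piece GlobB: cutoff in the second factor, `toS2`, the angle.

* `ytil_capv`: `‖w‖ ≤ 1/32`: both smooth transitions are `1` (`(1/256 - 1/1024)·1024/3 = 1`; height
  `-√(1-‖w‖²) ≤ -1/2`).  `norm_ytil_le`: if `‖hz Y‖ ≥ 1/16` the cutoff vanishes.
* `ang_exp`: `Complex.arg (exp (2π t i)) = 2π t - 2π k`.
* `per_ang`: `τ = Circle.exp (2π ang τ)`, `τ * e0 = Circle.exp (2π (ang τ + al))`.
* `exists_branch`: if `τ₀ ≠ -1` take `θ = ang` (`Complex.arg` is `C¹` on the slit plane: `Complex.log` is,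
  `arg = im log`); if `τ₀ = -1` take `θ τ = ang (-τ) + 1/2`.
-/
import Crest.Agent.R123.GlobDefs

set_option autoImplicit false

namespace Crest.Agent.R123

open Topology

theorem toS2_coe {v : R3} (hv : ‖v‖ = 1) : ((toS2 v : S2) : R3) = v := by
  unfold toS2
  rw [dif_pos (mem_sphere_zero_iff_norm.mpr hv)]

theorem toS2_coe_self (X : S2) : toS2 (X : R3) = X := by
  apply Subtype.ext
  exact toS2_coe (mem_sphere_zero_iff_norm.1 X.2)

theorem mcut_mem (Y : R3) : 0 ≤ mcut Y ∧ mcut Y ≤ 1 := by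
  unfold mcut
  exact ⟨mul_nonneg (Real.smoothTransition.nonneg _) (Real.smoothTransition.nonneg _),
    mul_le_one₀ (Real.smoothTransition.le_one _) (Real.smoothTransition.nonneg _)
      (Real.smoothTransition.le_one _)⟩

namespace GlobBaux

theorem hz_contDiff' {n : WithTop ℕ∞} : ContDiff ℝ n hz := by
  have h : hz = fun X : R3 => (Complex.equivRealProdCLM.symm (X 0, X 1) : ℂ) := by
    funext X; rfl
  rw [h]
  apply Complex.equivRealProdCLM.symm.contDiff.comp
  fun_prop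

end GlobBaux

open GlobBaux

theorem ytil_contDiff : ContDiff ℝ 1 ytil := by
  unfold ytil mcut
  have h1 : ContDiff ℝ 1 hz := hz_contDiff'
  have h2 : ContDiff ℝ 1 (fun Y : R3 => ‖hz Y‖ ^ 2) := h1.norm_sq ℝ
  have h3 : ContDiff ℝ 1 (fun Y : R3 =>
      Real.smoothTransition ((1 / 256 - ‖hz Y‖ ^ 2) * (1024 / 3))) :=
    (Real.smoothTransition.contDiff (n := 1)).comp
      ((contDiff_const.sub h2).mul contDiff_const)
  have h4 : ContDiff ℝ 1 (fun Y : R3 => Real.smoothTransition (-2 * Y 2)) :=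
    (Real.smoothTransition.contDiff (n := 1)).comp (by fun_prop)
  exact (Complex.ofRealCLM.contDiff.comp (h3.mul h4)).mul h1

theorem norm_ytil_le (Y : R3) : ‖ytil Y‖ ≤ 1 / 16 := by
  unfold ytil
  rw [norm_mul, Complex.norm_real, Real.norm_eq_abs, abs_of_nonneg (mcut_mem Y).1]
  by_cases h : ‖hz Y‖ ≤ 1 / 16
  · calc mcut Y * ‖hz Y‖ ≤ 1 * (1 / 16) :=
          mul_le_mul (mcut_mem Y).2 h (norm_nonneg _) zero_le_one
      _ = 1 / 16 := one_mul _
  · push Not at h
    have h1 : mcut Y = 0 := by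
      unfold mcut
      rw [Real.smoothTransition.zero_of_nonpos, zero_mul]
      nlinarith
    rw [h1, zero_mul]
    norm_num

theorem ytil_capv {w : ℂ} (hw : ‖w‖ ≤ 1 / 32) : ytil (capv w) = w := by
  have h0 := norm_nonneg w
  have h1 : mcut (capv w) = 1 := by
    unfold mcut capv
    rw [hz_mk3, mk3_two, Real.smoothTransition.one_of_one_le, Real.smoothTransition.one_of_one_le,
      one_mul]
    · have h2 : (1 / 2 : ℝ) ≤ Real.sqrt (1 - ‖w‖ ^ 2) := by
        apply Real.le_sqrt_of_sq_le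
        nlinarith
      linarith
    · nlinarith
  unfold ytil
  rw [h1]
  unfold capv
  rw [hz_mk3]
  simp

theorem ytil_npole : ytil (npole : R3) = 0 := by
  unfold ytil npole
  simp

theorem ytil_spole : ytil (spole : R3) = 0 := by
  unfold ytil spole
  simp

theorem ang_exp (t : ℝ) : ∃ m : ℤ, ang (Circle.exp (2 * Real.pi * t) : ℂ) = t + m := by
  refine ⟨-toIocDiv Real.two_pi_pos (-Real.pi) (2 * Real.pi * t), ?_⟩
  unfold ang
  rw [Circle.coe_exp, Complex.arg_exp_mul_I, ← self_sub_toIocDiv_zsmul, zsmul_eq_mul]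
  have hpi : Real.pi ≠ 0 := Real.pi_ne_zero
  push_cast
  field_simp
  ring

theorem per_int {V : Type*} {F : ℝ → V} (hF : ∀ t, F (t + 1) = F t) (t : ℝ) (m : ℤ) :
    F (t + m) = F t := by
  have h : Function.Periodic F 1 := hF
  have h1 := h.int_mul m t
  rwa [mul_one] at h1

theorem exp_ang (τ : Circle) : Circle.exp (2 * Real.pi * ang (τ : ℂ)) = τ := by
  unfold ang
  rw [mul_div_cancel₀ _ Real.two_pi_pos.ne', Circle.exp_arg]

theorem per_ang {V : Type*} {F : ℝ → V} (hF : ∀ t, F (t + 1) = F t) (τ : Circle) :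
    F (ang ((τ * e0 : Circle) : ℂ)) = F (ang (τ : ℂ) + al) := by
  have h1 : τ * e0 = Circle.exp (2 * Real.pi * (ang (τ : ℂ) + al)) := by
    rw [mul_add, Circle.exp_add, exp_ang]
    rfl
  obtain ⟨m, hm⟩ := ang_exp (ang (τ : ℂ) + al)
  rw [h1, hm, per_int hF]

theorem exists_branch (τ₀ : Circle) : ∃ θ : ℂ → ℝ, ContDiffAt ℝ 1 θ (τ₀ : ℂ) ∧
    ∀ᶠ τ : Circle in 𝓝 τ₀, ∃ m : ℤ, ang (τ : ℂ) = θ (τ : ℂ) + m := by
  have hsm : ∀ z : ℂ, z ∈ Complex.slitPlane → ContDiffAt ℝ 1 ang z := by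
    intro z hz
    have h1 : ContDiffAt ℝ 1 Complex.log z := (Complex.contDiffAt_log hz (n := 1)).restrict_scalars ℝ
    have h2 : ContDiffAt ℝ 1 (fun z : ℂ => (Complex.log z).im / (2 * Real.pi)) z :=
      (Complex.imCLM.contDiff.contDiffAt.comp z h1).div_const _
    have h3 : ang = fun z : ℂ => (Complex.log z).im / (2 * Real.pi) := by
      funext z
      unfold ang
      rw [Complex.log_im]
    rw [h3]
    exact h2
  by_cases h : (τ₀ : ℂ) ∈ Complex.slitPlane
  · exact ⟨ang, hsm _ h, Filter.Eventually.of_forall fun τ => ⟨0, by simp⟩⟩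
  · refine ⟨fun z => ang (-z) + 1 / 2, ?_, Filter.Eventually.of_forall fun τ => ?_⟩
    · have h1 : -(τ₀ : ℂ) ∈ Complex.slitPlane := by
        rw [Complex.mem_slitPlane_iff] at h ⊢
        push Not at h
        left
        rw [Complex.neg_re]
        rcases h.1.lt_or_eq with h2 | h2
        · linarith
        · exfalso
          have h3 : (τ₀ : ℂ) = 0 := Complex.ext h2 h.2
          exact τ₀.coe_ne_zero h3
      have h2 : ContDiffAt ℝ 1 (fun z : ℂ => ang (-z)) (τ₀ : ℂ) :=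
        ContDiffAt.comp (τ₀ : ℂ) (hsm _ h1) contDiff_neg.contDiffAt
      exact h2.add contDiffAt_const
    · let τ' : Circle := τ * Circle.exp Real.pi
      have h1 : (τ' : ℂ) = -(τ : ℂ) := by
        simp [τ']
      have h2 : τ = Circle.exp (2 * Real.pi * (ang (τ' : ℂ) + 1 / 2)) := by
        have h3 : 2 * Real.pi * (ang (τ' : ℂ) + 1 / 2) = 2 * Real.pi * ang (τ' : ℂ) + Real.pi := by
          ring
        rw [h3, Circle.exp_add, exp_ang]
        apply Circle.ext
        simp [τ']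
      obtain ⟨m, hm⟩ := ang_exp (ang (τ' : ℂ) + 1 / 2)
      rw [← h2, h1] at hm
      exact ⟨m, hm⟩

end Crest.Agent.R123
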