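/-
ROW 123 (S0163), piece HenD: cone dynamics and size estimates of the model map `g`.

* `g_cone`: if `4|y| ≤ |x|` then `nrm z ≤ 1.031 |x|`, `|x²/nrm z| ≥ 0.97 |x|`, minus `|y| ≤ 0.25|x|`: `≥ 0.72|x|`,
  times 4: `≥ 2.88 |x|`.  `|y'| = |x|/16`.
* `g_outside`: `|y'| = |x|/16 < |y|/4`.
* `g_big`: `|x| ≥ 1/2`, `|y| ≤ 1/16`: `|x|²/nrm z ≥ 0.496` (increasing in `|x|`, decreasing in `|y|`), minus `1/16`,
  times 4: `≥ 1.73`.
* `g_lower`: if `|x| ≥ nrm z/2` then `|x|/16 ≥ nrm z/32`; else `|y| ≥ 0.86 nrm z`, `|x²/nrm z| ≤ nrm z/4`.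
-/
import Crest.Agent.R123.BaseS

set_option autoImplicit false

namespace Crest.Agent.R123

theorem g_zero : g 0 = 0 := by
  simp [g]

theorem g_snd (z : E) : ‖(g z).2‖ = ‖z.1‖ / 16 := by
  simp [g]

theorem norm_quad (z : E) : ‖z.1 ^ 2 / (nrm z : ℂ)‖ = ‖z.1‖ ^ 2 / nrm z := by
  rw [norm_div, norm_pow, Complex.norm_real, Real.norm_of_nonneg (nrm_nonneg z)]

theorem g_fst_ge1 (z : E) : 4 * (‖z.1‖ ^ 2 / nrm z - ‖z.2‖) ≤ ‖(g z).1‖ := by
  have h : ‖(g z).1‖ = 4 * ‖z.1 ^ 2 / (nrm z : ℂ) - z.2‖ := by simp [g]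
  rw [h, ← norm_quad]
  have := norm_sub_norm_le (z.1 ^ 2 / (nrm z : ℂ)) z.2
  linarith

theorem g_fst_ge2 (z : E) : 4 * (‖z.2‖ - ‖z.1‖ ^ 2 / nrm z) ≤ ‖(g z).1‖ := by
  have h : ‖(g z).1‖ = 4 * ‖z.1 ^ 2 / (nrm z : ℂ) - z.2‖ := by simp [g]
  rw [h, ← norm_quad, norm_sub_rev]
  have := norm_sub_norm_le z.2 (z.1 ^ 2 / (nrm z : ℂ))
  linarith

theorem g_fst_le (z : E) : ‖(g z).1‖ ≤ 4 * (‖z.1‖ ^ 2 / nrm z + ‖z.2‖) := by
  have h : ‖(g z).1‖ = 4 * ‖z.1 ^ 2 / (nrm z : ℂ) - z.2‖ := by simp [g]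
  rw [h, ← norm_quad]
  have := norm_sub_le (z.1 ^ 2 / (nrm z : ℂ)) z.2
  linarith

theorem g_cone {z : E} (h : 4 * ‖z.2‖ ≤ ‖z.1‖) :
    4 * ‖(g z).2‖ ≤ ‖(g z).1‖ ∧ 2 * ‖z.1‖ ≤ ‖(g z).1‖ := by
  have h2 : 2 * ‖z.1‖ ≤ ‖(g z).1‖ := by
    rcases eq_or_ne z 0 with hz | hz
    · subst hz; simp [g_zero]
    · have h1 := g_fst_ge1 z
      have h0 := nrm_pos hz
      have hsq := nrm_sq z
      have ha := norm_nonneg z.1
      have hb := norm_nonneg z.2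
      have h3 : 3 / 4 * ‖z.1‖ ≤ ‖z.1‖ ^ 2 / nrm z := by
        rw [le_div_iff₀ h0]
        have h4 : nrm z * 3 ≤ 4 * ‖z.1‖ := by
          have : (nrm z * 3) ^ 2 ≤ (4 * ‖z.1‖) ^ 2 := by nlinarith
          exact (sq_le_sq₀ (by positivity) (by positivity)).1 this
        nlinarith
      linarith
  refine ⟨?_, h2⟩
  rw [g_snd]
  have := norm_nonneg z.1
  linarith

theorem g_outside {z : E} (h : ‖z.1‖ < 4 * ‖z.2‖) : ‖(g z).2‖ ≤ ‖z.2‖ / 4 := by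
  rw [g_snd]; linarith

theorem g_big {z : E} (h1 : 1 / 2 ≤ ‖z.1‖) (h2 : ‖z.2‖ ≤ 1 / 16) : 3 / 2 ≤ ‖(g z).1‖ := by
  have hz : z ≠ 0 := by
    rintro rfl
    simp at h1
    linarith
  have h0 := nrm_pos hz
  have hsq := nrm_sq z
  have h3 := g_fst_ge1 z
  have hb := norm_nonneg z.2
  have h4 : 7 / 16 ≤ ‖z.1‖ ^ 2 / nrm z := by
    rw [le_div_iff₀ h0]
    have ha2 : 1 / 4 ≤ ‖z.1‖ ^ 2 := by nlinarith
    have hb2 : ‖z.2‖ ^ 2 ≤ 1 / 256 := by nlinarith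
    have : (7 / 16 * nrm z) ^ 2 ≤ (‖z.1‖ ^ 2) ^ 2 := by
      rw [mul_pow, hsq]
      nlinarith
    exact (sq_le_sq₀ (by positivity) (by positivity)).1 this
  linarith

theorem quad_le (z : E) : ‖z.1‖ ^ 2 / nrm z + ‖z.2‖ ≤ 5 / 4 * nrm z := by
  rcases eq_or_ne z 0 with hz | hz
  · subst hz
    have : nrm 0 = 0 := (nrm_eq_zero_iff 0).2 rfl
    simp [this]
  · have h0 := nrm_pos hz
    have hsq := nrm_sq z
    rw [div_add' _ _ _ h0.ne', div_le_iff₀ h0]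
    nlinarith [sq_nonneg (nrm z / 2 - ‖z.2‖)]

theorem nrm_g_le (z : E) : nrm (g z) ≤ 6 * nrm z := by
  have h0 := nrm_nonneg z
  have h1 := g_fst_le z
  have h2 := quad_le z
  have h3 : ‖(g z).1‖ ≤ 5 * nrm z := by linarith
  have h4 : ‖(g z).2‖ ≤ nrm z := by
    rw [g_snd]
    have := norm_le_nrm z
    have := norm_fst_le z
    have := norm_nonneg z.1
    linarith
  have hsq := nrm_sq (g z)
  have h5 := norm_nonneg (g z).1
  have h6 := norm_nonneg (g z).2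
  refine (sq_le_sq₀ (nrm_nonneg _) (by positivity)).1 ?_
  rw [hsq]
  nlinarith

theorem g_lower (z : E) : nrm z / 100 ≤ nrm (g z) := by
  have h0 := nrm_nonneg z
  have hn := norm_le_nrm (g z)
  rcases le_or_gt (nrm z / 2) ‖z.1‖ with h | h
  · have h1 := norm_snd_le (g z)
    rw [g_snd] at h1
    linarith
  · have h1 := g_fst_ge2 z
    have h2 := norm_fst_le (g z)
    have hz : z ≠ 0 := by
      rintro rfl
      have : nrm 0 = 0 := (nrm_eq_zero_iff 0).2 rfl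
      simp [this] at h
    have h3 := nrm_pos hz
    have hsq := nrm_sq z
    have ha := norm_nonneg z.1
    have hb := norm_nonneg z.2
    have h4 : ‖z.1‖ ^ 2 / nrm z ≤ nrm z / 4 := by
      rw [div_le_iff₀ h3]
      nlinarith
    have h5 : nrm z / 2 ≤ ‖z.2‖ := by
      refine (sq_le_sq₀ (by positivity) hb).1 ?_
      nlinarith
    linarith

theorem g_contDiffAt {z : E} (hz : z ≠ 0) : ContDiffAt ℝ 1 g z := by
  have h0 : nrm z ≠ 0 := (nrm_pos hz).ne'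
  have h1 : ContDiffAt ℝ 1 (fun w : E => (nrm w : ℂ)) z :=
    Complex.ofRealCLM.contDiff.contDiffAt.comp z (nrm_contDiffAt hz)
  have h2 : ContDiffAt ℝ 1 (fun w : E => ((nrm w : ℂ))⁻¹) z :=
    h1.inv (by exact_mod_cast h0)
  have hf : ContDiffAt ℝ 1 (fun w : E => w.1) z := contDiff_fst.contDiffAt
  have hs : ContDiffAt ℝ 1 (fun w : E => w.2) z := contDiff_snd.contDiffAt
  unfold g
  refine ContDiffAt.prodMk ?_ ?_
  · simp only [div_eq_mul_inv]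
    exact contDiffAt_const.mul (((hf.pow 2).mul h2).sub hs)
  · simp only [div_eq_mul_inv]
    exact hf.mul contDiffAt_const

theorem g_continuous : Continuous g := by
  rw [continuous_iff_continuousAt]
  intro z
  rcases eq_or_ne z 0 with hz | hz
  · subst hz
    unfold ContinuousAt
    rw [g_zero, tendsto_zero_iff_norm_tendsto_zero]
    have h1 : Filter.Tendsto (fun w : E => 6 * nrm w) (nhds 0) (nhds 0) := by
      have := (nrm_continuous.tendsto 0).const_mul (6 : ℝ)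
      have h0 : nrm 0 = 0 := (nrm_eq_zero_iff 0).2 rfl
      rw [h0, mul_zero] at this
      exact this
    refine squeeze_zero (fun w => norm_nonneg _) (fun w => ?_) h1
    exact (norm_le_nrm _).trans (nrm_g_le w)
  · exact (g_contDiffAt hz).continuousAt

theorem g_ne_zero {z : E} (hz : z ≠ 0) : g z ≠ 0 := by
  intro h
  have h1 := g_lower z
  have h2 := nrm_pos hz
  rw [h, (nrm_eq_zero_iff 0).2 rfl] at h1
  linarith

end Crest.Agent.R123
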