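/-
ROW 123 (S0163), piece GlobC: elementary properties of the global map; agreement of the two formulas.

`X ∈ S²`: `‖hz X‖² = 1 - (X 2)²` (`S2_norm_sq`).
* `F_big`: `nrm (x,y) ≥ 1/2 ≥ 1/1000` so `F = g` (`large`), `g_big`.
* `fX_out`, `fY_out`: if `-√3/2 ≤ X 2 < -1/2` then `‖hz X‖ ≥ 1/2`, `F_big` gives `‖(F z t).1‖ ≥ 3/2`: `Psi = mk3 0 1`
  (`Psi_large`), `(g z).2 = x/16`.
* `norm_fY_le`: if `nrm z ≥ 1/1000`: `‖x/16‖ ≤ 1/16` (`≤ 1/32` when inside since then `‖x‖ < 1/2`), else `nrm (F z t) ≤ 1/64`.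
-/
import Crest.Agent.R123.GlobA
import Crest.Agent.R123.GlobB
import Crest.Agent.R123.HenD

set_option autoImplicit false

namespace Crest.Agent.R123

variable {F H : E → ℝ → E}

theorem F_big (M : IsModel F H) {x y : ℂ} (hx : 1 / 2 ≤ ‖x‖) (hy : ‖y‖ ≤ 1 / 16) (t : ℝ) :
    F (x, y) t = g (x, y) ∧ 3 / 2 ≤ ‖(F (x, y) t).1‖ := by
  have h1 : ‖x‖ ≤ nrm (x, y) := (norm_fst_le (x, y)).trans (norm_le_nrm _)
  have h2 := (M.large (x, y) t (by linarith)).1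
  exact ⟨h2, by rw [h2]; exact g_big (z := (x, y)) hx hy⟩

namespace GlobCaux

theorem sqrt3_lt : (1 : ℝ) / 2 < Real.sqrt 3 / 2 := by
  have : (1 : ℝ) < Real.sqrt 3 := by
    rw [show (1 : ℝ) = Real.sqrt 1 by simp]
    exact Real.sqrt_lt_sqrt (by norm_num) (by norm_num)
  linarith

theorem sqrt3_sq : (Real.sqrt 3 / 2) ^ 2 = 3 / 4 := by
  rw [div_pow, Real.sq_sqrt (by norm_num)]; norm_num

theorem hz_ge (X : S2) (h1 : -(Real.sqrt 3 / 2) ≤ (X : R3) 2) (h2 : (X : R3) 2 < -(1 / 2)) :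
    1 / 2 ≤ ‖hz (X : R3)‖ := by
  have h := S2_norm_sq X
  have h3 := sqrt3_sq
  have h4 : ((X : R3) 2) ^ 2 ≤ 3 / 4 := by
    rw [← h3]
    apply sq_le_sq'
    · exact h1
    · have := sqrt3_lt
      linarith
  refine (sq_le_sq₀ (by norm_num) (norm_nonneg _)).1 ?_
  linarith

theorem hz_le (X : S2) : ‖hz (X : R3)‖ ≤ 1 := by
  have h := S2_norm_sq X
  refine (sq_le_sq₀ (norm_nonneg _) (by norm_num)).1 ?_
  have := sq_nonneg ((X : R3) 2)
  linarith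

theorem hz_lt (X : S2) (hX : (X : R3) 2 < -(Real.sqrt 3 / 2)) : ‖hz (X : R3)‖ ≤ 1 / 2 := by
  have h := S2_norm_sq X
  have h3 := sqrt3_sq
  have h5 := sqrt3_lt
  have h4 : 3 / 4 ≤ ((X : R3) 2) ^ 2 := by
    rw [← h3, ← neg_sq ((X : R3) 2)]
    exact pow_le_pow_left₀ (by positivity) (by linarith) 2
  refine (sq_le_sq₀ (norm_nonneg _) (by norm_num)).1 ?_
  linarith

end GlobCaux

open GlobCaux

theorem fX_out (M : IsModel F H) (X : S2) (Y : R3) (τ : ℂ) (hX : -(Real.sqrt 3 / 2) ≤ (X : R3) 2) :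
    fX F X Y τ = mk3 0 1 := by
  unfold fX
  split_ifs with h
  · have h1 := (F_big M (hz_ge X hX h) (norm_ytil_le Y) (ang τ)).2
    exact Psi_large (le_trans (by norm_num) h1)
  · rfl

theorem fY_out (M : IsModel F H) (X : S2) (Y : R3) (τ : ℂ) (hX : -(Real.sqrt 3 / 2) ≤ (X : R3) 2) :
    fY F X Y τ = hz (X : R3) / 16 := by
  unfold fY
  split_ifs with h
  · have h1 := (F_big M (hz_ge X hX h) (norm_ytil_le Y) (ang τ)).1
    unfold zc
    rw [h1]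
    rfl
  · rfl

theorem norm_fX (F : E → ℝ → E) (X Y : R3) (τ : ℂ) : ‖fX F X Y τ‖ = 1 := by
  unfold fX
  split_ifs
  · exact norm_Psi _
  · exact mem_sphere_zero_iff_norm.1 (mk3_mem (by simp))

theorem GlobCaux.norm_snd {z : E} : ‖z.2‖ ≤ nrm z := (norm_snd_le z).trans (norm_le_nrm _)

theorem norm_fY_le (M : IsModel F H) (X : S2) (Y : R3) (τ : ℂ) : ‖fY F X Y τ‖ ≤ 1 / 16 := by
  have h0 := hz_le X
  have h16 : ‖hz (X : R3) / 16‖ = ‖hz (X : R3)‖ / 16 := by simp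
  unfold fY
  split_ifs with h
  · rcases le_total (1 / 1000) (nrm (zc X Y)) with h1 | h1
    · rw [(M.large _ _ h1).1]
      change ‖hz (X : R3) / 16‖ ≤ 1 / 16
      rw [h16]
      linarith
    · have h2 := (M.small _ (ang τ) h1).1
      have h3 := GlobCaux.norm_snd (z := F (zc X Y) (ang τ))
      linarith
  · rw [h16]
    linarith

theorem norm_fY_inside (M : IsModel F H) (X : S2) (Y : R3) (τ : ℂ)
    (hX : (X : R3) 2 < -(Real.sqrt 3 / 2)) : ‖fY F X Y τ‖ ≤ 1 / 32 := by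
  have h0 := hz_lt X hX
  have h16 : ‖hz (X : R3) / 16‖ = ‖hz (X : R3)‖ / 16 := by simp
  have h5 := sqrt3_lt
  unfold fY
  rw [if_pos (by linarith)]
  rcases le_total (1 / 1000) (nrm (zc X Y)) with h1 | h1
  · rw [(M.large _ _ h1).1]
    change ‖hz (X : R3) / 16‖ ≤ 1 / 32
    rw [h16]
    linarith
  · have h2 := (M.small _ (ang τ) h1).1
    have h3 := GlobCaux.norm_snd (z := F (zc X Y) (ang τ))
    linarith

theorem fmap_fst (F : E → ℝ → E) (p : Mf) : (((fmap F p).1 : S2) : R3) = fX F p.1 p.2.1 p.2.2 :=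
  toS2_coe (norm_fX F _ _ _)

theorem fmap_snd (M : IsModel F H) (p : Mf) :
    (((fmap F p).2.1 : S2) : R3) = capv (fY F p.1 p.2.1 p.2.2) :=
  toS2_coe (norm_capv ((norm_fY_le M p.1 p.2.1 p.2.2).trans (by norm_num)))

theorem fmap_thd (F : E → ℝ → E) (p : Mf) : (fmap F p).2.2 = p.2.2 * e0 := rfl

end Crest.Agent.R123
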