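/-
ROW 123 (S0163), piece GlobD: the global map is continuous and has local ambient `C¹` extensions.

At `p` with `X 2 < -1/2` (open condition): extension
`(X,Y,τ) ↦ (Psi (F (zc X Y) (θ τ)).1, capv (F (zc X Y) (θ τ)).2, τ e0)` with the local branch `θ` (`exists_branch`;
`F` is 1-periodic: `per_int`); `capv` is `C¹` at the relevant point since `‖fY‖ ≤ 1/16 < 1` (`norm_fY_le`).
At `p` with `X 2 > -√3/2` (open): extension `(X,Y,τ) ↦ (mk3 0 1, capv (hz X/16), τ e0)` (`fX_out`, `fY_out`).
The two cases cover everything.  `zc` is `C¹` (`hz_contDiff`, `ytil_contDiff`).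
`Continuous (fmap F)`: the inclusion `iota` is an embedding and `iota ∘ fmap F` is continuous at every point, being
eventually equal to `Fx ∘ iota`.
-/
import Crest.Agent.R123.GlobC

set_option autoImplicit false

namespace Crest.Agent.R123

open Topology

variable {F H : E → ℝ → E}

theorem iota_continuous : Continuous iota := by
  unfold iota
  exact (continuous_subtype_val.comp continuous_fst).prodMk
    ((continuous_subtype_val.comp (continuous_fst.comp continuous_snd)).prodMk
      (continuous_subtype_val.comp (continuous_snd.comp continuous_snd)))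

theorem iota_isEmbedding : IsEmbedding iota := by
  have h1 : IsEmbedding (Subtype.val : S2 → R3) := IsEmbedding.subtypeVal
  have h2 : IsEmbedding (Subtype.val : Circle → ℂ) := IsEmbedding.subtypeVal
  exact h1.prodMap (h1.prodMap h2)

theorem cont_ht : Continuous (fun p : Mf => (p.1 : R3) 2) := by
  have h1 : Continuous (fun p : Mf => (p.1 : R3)) := continuous_subtype_val.comp continuous_fst
  have h2 : Continuous (fun X : R3 => X 2) := by fun_prop
  exact h2.comp h1

theorem fmap_local (M : IsModel F H) (p : Mf) : ∃ Fx : Amb → Amb, ContDiffAt ℝ 1 Fx (iota p) ∧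
    ∀ᶠ q in 𝓝 p, iota (fmap F q) = Fx (iota q) := by
  by_cases hp : (p.1 : R3) 2 < -(1 / 2)
  · obtain ⟨θ, hθ, hθ2⟩ := exists_branch p.2.2
    set Z : Amb → E := fun a => F (zc a.1 a.2.1) (θ a.2.2) with hZ
    have hev : ∀ᶠ q : Mf in 𝓝 p, (q.1 : R3) 2 < -(1 / 2) :=
      (cont_ht.tendsto p).eventually (gt_mem_nhds hp)
    have hev2 : ∀ᶠ q : Mf in 𝓝 p, ∃ m : ℤ, ang (q.2.2 : ℂ) = θ (q.2.2 : ℂ) + m := by
      have h1 : Filter.Tendsto (fun q : Mf => q.2.2) (𝓝 p) (𝓝 p.2.2) :=
        (continuous_snd.comp continuous_snd).tendsto p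
      exact h1.eventually hθ2
    have hkey : ∀ q : Mf, (∃ m : ℤ, ang (q.2.2 : ℂ) = θ (q.2.2 : ℂ) + m) →
        F (zc q.1 q.2.1) (ang q.2.2) = Z (iota q) := by
      rintro q ⟨m, hm⟩
      rw [hm]
      exact per_int (F := F (zc q.1 q.2.1)) (M.per _) _ m
    have hfX : ∀ q : Mf, (q.1 : R3) 2 < -(1 / 2) → (∃ m : ℤ, ang (q.2.2 : ℂ) = θ (q.2.2 : ℂ) + m) →
        fX F q.1 q.2.1 q.2.2 = Psi (Z (iota q)).1 ∧ fY F q.1 q.2.1 q.2.2 = (Z (iota q)).2 := by
      intro q h1 h2
      unfold fX fY
      rw [if_pos h1, if_pos h1, hkey q h2]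
      exact ⟨rfl, rfl⟩
    have hZcd : ContDiffAt ℝ 1 Z (iota p) := by
      have h1 : ContDiffAt ℝ 1 (fun a : Amb => (zc a.1 a.2.1, θ a.2.2)) (iota p) := by
        refine ContDiffAt.prodMk ?_ ?_
        · unfold zc
          refine ContDiffAt.prodMk ?_ ?_
          · exact (hz_contDiff.comp contDiff_fst).contDiffAt
          · exact (ytil_contDiff.comp (contDiff_fst.comp contDiff_snd)).contDiffAt
        · have h2 : ContDiffAt ℝ 1 (fun a : Amb => a.2.2) (iota p) :=
            (contDiff_snd.comp contDiff_snd).contDiffAt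
          exact ContDiffAt.comp (iota p) (g := θ) hθ h2
      exact M.cd.contDiffAt.comp (iota p) h1
    refine ⟨fun a => (Psi (Z a).1, capv (Z a).2, a.2.2 * (e0 : ℂ)), ?_, ?_⟩
    · refine ContDiffAt.prodMk ?_ (ContDiffAt.prodMk ?_ ?_)
      · exact Psi_contDiff.contDiffAt.comp (iota p) (contDiffAt_fst.comp (iota p) hZcd)
      · have h3 : ‖(Z (iota p)).2‖ < 1 := by
          rw [← (hfX p hp hθ2.self_of_nhds).2]
          exact lt_of_le_of_lt (norm_fY_le M _ _ _) (by norm_num)
        exact ContDiffAt.comp (iota p) (g := capv) (f := fun a => (Z a).2) (capv_contDiffAt h3)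
          (contDiffAt_snd.comp (iota p) hZcd)
      · exact ((contDiff_snd.comp contDiff_snd).mul contDiff_const).contDiffAt
    · filter_upwards [hev, hev2] with q h1 h2
      have h3 := hfX q h1 h2
      unfold iota
      refine Prod.ext ?_ (Prod.ext ?_ ?_)
      · change (((fmap F q).1 : S2) : R3) = Psi (Z (iota q)).1
        rw [fmap_fst, h3.1]
      · change (((fmap F q).2.1 : S2) : R3) = capv (Z (iota q)).2
        rw [fmap_snd M, h3.2]
      · change (((fmap F q).2.2 : Circle) : ℂ) = (q.2.2 : ℂ) * (e0 : ℂ)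
        rw [fmap_thd, Circle.coe_mul]
  · have hs3 : (1 : ℝ) < Real.sqrt 3 := by
      rw [Real.lt_sqrt (by norm_num)]; norm_num
    have hp' : -(Real.sqrt 3 / 2) < (p.1 : R3) 2 := by
      have := not_lt.1 hp
      linarith
    have hev : ∀ᶠ q : Mf in 𝓝 p, -(Real.sqrt 3 / 2) < (q.1 : R3) 2 :=
      (cont_ht.tendsto p).eventually (lt_mem_nhds hp')
    refine ⟨fun a => (mk3 0 1, capv (hz a.1 / 16), a.2.2 * (e0 : ℂ)), ?_, ?_⟩
    · refine ContDiffAt.prodMk contDiffAt_const (ContDiffAt.prodMk ?_ ?_)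
      · have h3 : ‖hz (p.1 : R3) / 16‖ < 1 := by
          have h4 := S2_norm_sq p.1
          rw [norm_div]
          norm_num
          nlinarith [norm_nonneg (hz (p.1 : R3)), sq_nonneg ((p.1 : R3) 2)]
        have h5 : ContDiffAt ℝ 1 (fun a : Amb => hz a.1 / 16) (iota p) :=
          ((hz_contDiff.comp contDiff_fst).div_const 16).contDiffAt
        exact ContDiffAt.comp (iota p) (g := capv) (f := fun a : Amb => hz a.1 / 16)
          (capv_contDiffAt h3) h5
      · exact ((contDiff_snd.comp contDiff_snd).mul contDiff_const).contDiffAt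
    · filter_upwards [hev] with q h1
      refine Prod.ext ?_ (Prod.ext ?_ ?_)
      · change (((fmap F q).1 : S2) : R3) = mk3 0 1
        rw [fmap_fst, fX_out M _ _ _ h1.le]
      · change (((fmap F q).2.1 : S2) : R3) = capv (hz (q.1 : R3) / 16)
        rw [fmap_snd M, fY_out M _ _ _ h1.le]
      · change (((fmap F q).2.2 : Circle) : ℂ) = (q.2.2 : ℂ) * (e0 : ℂ)
        rw [fmap_thd, Circle.coe_mul]

theorem fmap_continuous (M : IsModel F H) : Continuous (fmap F) := by
  rw [iota_isEmbedding.continuous_iff, continuous_iff_continuousAt]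
  intro p
  obtain ⟨Fx, h1, h2⟩ := fmap_local M p
  have h3 : ContinuousAt (fun q => Fx (iota q)) p :=
    ContinuousAt.comp (g := Fx) h1.continuousAt iota_continuous.continuousAt
  exact h3.congr (h2.mono fun q hq => hq.symm)

end Crest.Agent.R123
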