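/-
ROW 123 (S0163), piece GlobE: dynamics of the global map.

* `step`: `p` inside, `fmap F p` inside.  `v = (F (zc p) t).1`; `fX = Psi v` (as `-√3/2 < -1/2`), `Psi_inside` gives
  `‖v‖ < 1/2`, so `Psi v = capv v`, `hz = v`.  `‖fY‖ ≤ 1/32` (`norm_fY_inside`), `ytil (capv (fY)) = fY` (`ytil_capv`).  Hence
  `zc (fmap F p) = F (zc p) (ang τ)`, and `H … (ang (τ e0)) = H … (ang τ + al)` (`per_ang`), `semi`.
* `outside_two`: `fX_out`: `(fmap F p).1 = npole`, whose height `1` is outside, `hz npole = 0`, so the second image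
  has `fX = mk3 0 1`, `fY = 0`.
* `nrm_Pc_le`: inside, `‖hz X‖ < 1/2`, `‖ytil Y‖ ≤ 1/16`, so `nrm zc ≤ 1`; `large`/`small`.
* core: `hz spole = 0`, `ytil spole = 0`, `F 0 t = 0`, `Psi 0 = capv 0 = mk3 0 (-1)`.
-/
import Crest.Agent.R123.GlobC

set_option autoImplicit false

namespace Crest.Agent.R123

variable {F H : E → ℝ → E}

theorem globE_sqrt3 : (1 : ℝ) / 2 < Real.sqrt 3 / 2 := by
  have : (1 : ℝ) < Real.sqrt 3 := by
    rw [Real.lt_sqrt (by norm_num)]
    norm_num
  linarith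

theorem step_zc (M : IsModel F H) {p : Mf} (hp : inside p) (hq : inside (fmap F p)) :
    zc ((fmap F p).1 : R3) ((fmap F p).2.1 : R3) = F (zc p.1 p.2.1) (ang p.2.2) := by
  have h3 := globE_sqrt3
  have hX : (p.1 : R3) 2 < -(1 / 2) := by
    have : (p.1 : R3) 2 < -(Real.sqrt 3 / 2) := hp
    linarith
  have hfX : fX F p.1 p.2.1 p.2.2 = Psi (F (zc p.1 p.2.1) (ang p.2.2)).1 := if_pos hX
  have hfY : fY F p.1 p.2.1 p.2.2 = (F (zc p.1 p.2.1) (ang p.2.2)).2 := if_pos hX
  have hq' : (Psi (F (zc p.1 p.2.1) (ang p.2.2)).1) 2 < -(Real.sqrt 3 / 2) := by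
    have : (((fmap F p).1 : S2) : R3) 2 < -(Real.sqrt 3 / 2) := hq
    rwa [fmap_fst, hfX] at this
  have hv := Psi_inside hq'
  unfold zc
  rw [fmap_fst, fmap_snd M, hfX, Psi_small hv.le, hz_capv, ytil_capv, hfY]
  · rfl
  · exact norm_fY_inside M p.1 p.2.1 p.2.2 hp

theorem step (M : IsModel F H) {p : Mf} (hp : inside p) (hq : inside (fmap F p)) :
    Pc H (fmap F p) = g (Pc H p) := by
  unfold Pc
  rw [step_zc M hp hq, fmap_thd]
  rw [per_ang (F := fun t => H (F (zc p.1 p.2.1) (ang p.2.2)) t)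
    (fun t => M.Hper _ t) p.2.2]
  exact M.semi _ _

theorem globE_npole_two : (npole : R3) 2 = 1 := mk3_two 0 1

theorem globE_npole_out : -(Real.sqrt 3 / 2) ≤ (npole : R3) 2 := by
  rw [globE_npole_two]
  have := Real.sqrt_nonneg 3
  linarith

theorem globE_npole (M : IsModel F H) (Y : S2) (b : Circle) :
    fmap F (npole, Y, b) = sink (b * e0) := by
  refine Prod.ext ?_ (Prod.ext ?_ ?_)
  · apply Subtype.ext
    rw [fmap_fst, fX_out M npole _ _ globE_npole_out]
    rfl
  · apply Subtype.ext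
    rw [fmap_snd M, fY_out M npole _ _ globE_npole_out]
    have : hz (npole : R3) = 0 := hz_mk3 0 1
    rw [this, zero_div, capv_zero]
    rfl
  · rw [fmap_thd]
    rfl

theorem outside_two (M : IsModel F H) {p : Mf} (hp : ¬ inside p) :
    fmap F (fmap F p) = sink (p.2.2 * e0 * e0) := by
  have hp' : -(Real.sqrt 3 / 2) ≤ (p.1 : R3) 2 := not_lt.1 hp
  have h1 : (fmap F p).1 = npole := by
    apply Subtype.ext
    rw [fmap_fst, fX_out M p.1 _ _ hp']
    rfl
  have h2 : fmap F p = (npole, (fmap F p).2.1, p.2.2 * e0) := by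
    refine Prod.ext h1 (Prod.ext rfl ?_)
    rw [fmap_thd]
  rw [h2, globE_npole M]

theorem fmap_sink (M : IsModel F H) (b : Circle) : fmap F (sink b) = sink (b * e0) :=
  globE_npole M spole b

theorem fmap_core (M : IsModel F H) (b : Circle) : fmap F (core b) = core (b * e0) := by
  have h2 : (spole : R3) 2 = -1 := mk3_two 0 (-1)
  have hlt : (spole : R3) 2 < -(1 / 2) := by rw [h2]; norm_num
  have hhz : hz (spole : R3) = 0 := hz_mk3 0 (-1)
  have hz0 : zc (spole : R3) (spole : R3) = 0 := by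
    unfold zc
    rw [hhz, ytil_spole]
    rfl
  refine Prod.ext ?_ (Prod.ext ?_ ?_)
  · apply Subtype.ext
    rw [fmap_fst]
    have : fX F (core b).1 (core b).2.1 (core b).2.2 =
        Psi (F (zc (spole : R3) (spole : R3)) (ang b)).1 := if_pos hlt
    rw [this, hz0, M.zero, Prod.fst_zero, Psi_small (by simp), capv_zero]
    rfl
  · apply Subtype.ext
    rw [fmap_snd M]
    have : fY F (core b).1 (core b).2.1 (core b).2.2 =
        (F (zc (spole : R3) (spole : R3)) (ang b)).2 := if_pos hlt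
    rw [this, hz0, M.zero, Prod.snd_zero, capv_zero]
    rfl
  · rw [fmap_thd]
    rfl

theorem nrm_Pc_le (M : IsModel F H) {p : Mf} (hp : inside p) : nrm (Pc H p) ≤ 1 := by
  unfold Pc
  rcases le_total (1 / 1000) (nrm (zc p.1 p.2.1)) with h | h
  · rw [(M.large _ (ang p.2.2) h).2]
    unfold nrm zc
    rw [Real.sqrt_le_one]
    have h1 := S2_norm_sq p.1
    have h2 := norm_ytil_le (p.2.1 : R3)
    have h3 : (p.1 : R3) 2 < -(Real.sqrt 3 / 2) := hp
    have h4 : Real.sqrt 3 ^ 2 = 3 := Real.sq_sqrt (by norm_num)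
    have h5 := Real.sqrt_nonneg 3
    have h6 := norm_nonneg (ytil (p.2.1 : R3))
    nlinarith
  · exact ((M.small _ (ang p.2.2) h).2).trans (by norm_num)

end Crest.Agent.R123
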