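/-
ROW 123 (S0163), piece GlobF: small `Pc` means close to the core section.

* `H_proper`: may assume `ε ≤ 1/1000`.  On the compact set `{ε ≤ nrm z ≤ 1/1000} × [0,1]` the continuous function
  `nrm (H z t)` is positive (`Hzero`), so `≥ δ`; periodicity (`Int.fract`); for `nrm z ≥ 1/1000`, `H z t = z`.
* `Pc_close`: `q = fmap F p`, both inside.  If `nrm (Pc H q) < δ` then `nrm (zc q) < ε'`, so `‖hz X‖ < ε'` with `X 2 < 0`,
  so `X` is near `spole` (`dist² = ‖hz X‖² + (X 2 + 1)²`, `X 2 = -√(1-‖hz X‖²)`), and `ytil Y = fY` has norm `< ε'` where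
  `Y = capv (fY)` (`fmap_snd`, `norm_fY_inside`, `ytil_capv`), near `spole` too.  The third coordinates agree.
-/
import Crest.Agent.R123.GlobE

set_option autoImplicit false

namespace Crest.Agent.R123

variable {F H : E → ℝ → E}

theorem H_proper (M : IsModel F H) {ε : ℝ} (hε : 0 < ε) :
    ∃ δ : ℝ, 0 < δ ∧ ∀ z t, nrm (H z t) < δ → nrm z < ε := by
  set ε' := min ε (1 / 1000) with hε'
  have hε'0 : 0 < ε' := by positivity
  let K : Set (E × ℝ) := {z : E | ε' ≤ nrm z ∧ nrm z ≤ 1 / 1000} ×ˢ Set.Icc (0 : ℝ) 1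
  have hK1 : IsCompact {z : E | ε' ≤ nrm z ∧ nrm z ≤ 1 / 1000} := by
    apply Metric.isCompact_of_isClosed_isBounded
    · exact (isClosed_le continuous_const nrm_continuous).inter
        (isClosed_le nrm_continuous continuous_const)
    · refine (Metric.isBounded_closedBall (x := (0 : E)) (r := 1 / 1000)).subset ?_
      intro z hz
      rw [mem_closedBall_zero_iff]
      exact (norm_le_nrm z).trans hz.2
  have hK : IsCompact K := hK1.prod isCompact_Icc
  have hf : Continuous (fun q : E × ℝ => nrm (H q.1 q.2)) := nrm_continuous.comp M.Hc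
  obtain ⟨δ, hδ, hδK⟩ : ∃ δ : ℝ, 0 < δ ∧ ∀ q ∈ K, δ ≤ nrm (H q.1 q.2) := by
    rcases K.eq_empty_or_nonempty with h | h
    · exact ⟨1, one_pos, by rw [h]; intro q hq; exact absurd hq (Set.notMem_empty q)⟩
    · obtain ⟨q₀, hq₀, hmin⟩ := hK.exists_isMinOn h hf.continuousOn
      refine ⟨nrm (H q₀.1 q₀.2), ?_, fun q hq => hmin hq⟩
      apply nrm_pos
      intro h0
      rw [M.Hzero] at h0
      have h1 : ε' ≤ nrm q₀.1 := hq₀.1.1
      rw [h0, (nrm_eq_zero_iff 0).2 rfl] at h1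
      linarith
  have hfract : ∀ z t, H z t = H z (Int.fract t) := by
    intro z t
    have := per_int (F := fun t => H z t) (M.Hper z) (Int.fract t) ⌊t⌋
    rw [Int.fract_add_floor] at this
    exact this
  refine ⟨min δ ε', by positivity, fun z t hlt => ?_⟩
  by_contra hz
  push Not at hz
  rcases le_or_gt (nrm z) (1 / 1000) with h1 | h1
  · have h2 := hδK (z, Int.fract t) ⟨⟨(min_le_left _ _).trans hz, h1⟩,
      Int.fract_nonneg t, (Int.fract_lt_one t).le⟩
    simp only at h2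
    rw [← hfract] at h2
    have := hlt.trans_le (min_le_left _ _)
    linarith
  · have h2 := (M.large z t h1.le).2
    rw [h2] at hlt
    have := hlt.trans_le (min_le_right _ _)
    have := min_le_left ε (1 / 1000)
    linarith

namespace GlobFaux

theorem hz_sub (X Y : R3) : hz (X - Y) = hz X - hz Y := by
  apply Complex.ext <;> simp [hz]

theorem dist_spole {X : R3} (hX : ‖X‖ = 1) (h2 : X 2 ≤ 0) :
    dist X (mk3 0 (-1)) ≤ 2 * ‖hz X‖ := by
  have h1 := norm_sq_R3 X
  rw [hX] at h1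
  have h3 := norm_sq_R3 (X - mk3 0 (-1))
  rw [hz_sub, hz_mk3, sub_zero] at h3
  have h4 : (X - mk3 0 (-1)) 2 = X 2 + 1 := by simp
  rw [h4] at h3
  rw [dist_eq_norm]
  have h5 := norm_nonneg (hz X)
  have h6 : ‖hz X‖ ≤ 1 := by nlinarith [sq_nonneg (X 2)]
  have h7 : -1 ≤ X 2 := by nlinarith
  have h8 : 1 + X 2 ≤ ‖hz X‖ ^ 2 := by nlinarith
  have h9 : (X 2 + 1) ^ 2 ≤ ‖hz X‖ ^ 2 := by
    have : ‖hz X‖ ^ 2 ≤ ‖hz X‖ := by nlinarith
    exact pow_le_pow_left₀ (by linarith) (by linarith) 2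
  refine (sq_le_sq₀ (norm_nonneg _) (by positivity)).1 ?_
  rw [h3]
  nlinarith

end GlobFaux

open GlobFaux

theorem Pc_close (M : IsModel F H) {ε : ℝ} (hε : 0 < ε) :
    ∃ δ : ℝ, 0 < δ ∧ ∀ p : Mf, inside p → inside (fmap F p) → nrm (Pc H (fmap F p)) < δ →
      dist (fmap F p) (core (fmap F p).2.2) < ε := by
  obtain ⟨δ, hδ, hP⟩ := H_proper M (half_pos hε)
  refine ⟨δ, hδ, fun p hp hq hlt => ?_⟩
  have h1 := hP _ _ hlt
  have hx : ‖hz ((fmap F p).1 : R3)‖ < ε / 2 :=
    ((norm_fst_le (zc (fmap F p).1 (fmap F p).2.1)).trans (norm_le_nrm _)).trans_lt h1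
  have hy : ‖ytil ((fmap F p).2.1 : R3)‖ < ε / 2 :=
    ((norm_snd_le (zc (fmap F p).1 (fmap F p).2.1)).trans (norm_le_nrm _)).trans_lt h1
  have hsqrt : 0 ≤ Real.sqrt 3 := Real.sqrt_nonneg 3
  have hx2 : ((fmap F p).1 : R3) 2 ≤ 0 := by
    have : ((fmap F p).1 : R3) 2 < -(Real.sqrt 3 / 2) := hq
    linarith
  have d1 : dist (fmap F p).1 spole < ε := by
    have h3 := dist_spole (mem_sphere_zero_iff_norm.1 (fmap F p).1.2) hx2
    have : dist ((fmap F p).1 : R3) (spole : R3) < ε := by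
      refine h3.trans_lt ?_
      linarith
    exact this
  have d2 : dist (fmap F p).2.1 spole < ε := by
    have h3 := fmap_snd M p
    have hw := norm_fY_inside M p.1 p.2.1 p.2.2 hp
    set w := fY F p.1 p.2.1 p.2.2 with hwdef
    rw [h3, ytil_capv hw] at hy
    have hwn : ‖capv w‖ = 1 := norm_capv (by linarith)
    have h4 : (capv w) 2 ≤ 0 := by
      unfold capv
      rw [mk3_two]
      have := Real.sqrt_nonneg (1 - ‖w‖ ^ 2)
      linarith
    have h5 := dist_spole hwn h4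
    rw [hz_capv] at h5
    have : dist ((fmap F p).2.1 : R3) (spole : R3) < ε := by
      rw [h3]
      refine h5.trans_lt ?_
      linarith
    exact this
  have d3 : dist (fmap F p).2.2 (fmap F p).2.2 < ε := by rw [dist_self]; exact hε
  rw [Prod.dist_eq, Prod.dist_eq]
  exact max_lt d1 (max_lt d2 d3)

end Crest.Agent.R123
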