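/-
ROW 123 (S0163), piece GlobG: a `g`-orbit segment of bounded size spends a bounded time outside of `{nrm < δ}`.

Let `P : ℕ → E`, `P (k+1) = g (P k)` for `k < n`, `nrm (P k) ≤ 1` for `k ≤ n`.  Call `k` a cone time if
`4‖(P k).2‖ ≤ ‖(P k).1‖`; cone times are upward closed (`g_cone`).
* non-cone times `k` form an initial segment; there `‖(P k).2‖ ≤ 4^{-k}` (`g_outside`, `nrm ≤ 1` at the start) and
  `nrm (P k) ≤ √17 ‖(P k).2‖ ≤ 5·4^{-k}`: at most `K₁` of them have `nrm ≥ δ`.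
* cone times: `‖(P (k+1)).1‖ ≥ 2‖(P k).1‖`, `nrm (P k) ≤ 2‖(P k).1‖`: if `k₁` is the first cone time with `nrm (P k) ≥ δ`
  then `‖(P k).1‖ ≥ 2^{k-k₁} δ/2` for later `k ≤ n`, and `≤ 1`: `k - k₁ ≤ log₂(2/δ)`.
-/
import Crest.Agent.R123.HenD

set_option autoImplicit false

namespace Crest.Agent.R123

theorem countg_fst_le (z : E) : ‖z.1‖ ≤ nrm z :=
  (norm_fst_le z).trans (norm_le_nrm z)

theorem countg_snd_le (z : E) : ‖z.2‖ ≤ nrm z :=
  (norm_snd_le z).trans (norm_le_nrm z)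

theorem count_g {δ : ℝ} (hδ : 0 < δ) : ∃ K : ℕ, ∀ (n : ℕ) (P : ℕ → E),
    (∀ k < n, P (k + 1) = g (P k)) → (∀ k ≤ n, nrm (P k) ≤ 1) →
    ∀ A : Finset ℕ, (∀ k ∈ A, k ≤ n ∧ δ ≤ nrm (P k)) → A.card ≤ K := by
  obtain ⟨K1, hK1⟩ := pow_unbounded_of_one_lt (5 / δ) (by norm_num : (1 : ℝ) < 4)
  obtain ⟨K2, hK2⟩ := pow_unbounded_of_one_lt (2 / δ) (by norm_num : (1 : ℝ) < 2)
  refine ⟨K1 + K2, fun n P hP h1 A hA => ?_⟩
  classical
  have hcone : ∀ j d : ℕ, j + d ≤ n → 4 * ‖(P j).2‖ ≤ ‖(P j).1‖ →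
      4 * ‖(P (j + d)).2‖ ≤ ‖(P (j + d)).1‖ ∧ 2 ^ d * ‖(P j).1‖ ≤ ‖(P (j + d)).1‖ := by
    intro j d
    induction d with
    | zero => intro _ h; simpa using h
    | succ d ih =>
      intro hd h
      obtain ⟨i1, i2⟩ := ih (by omega) h
      have h2 := g_cone i1
      have h3 : P (j + (d + 1)) = g (P (j + d)) := hP (j + d) (by omega)
      rw [h3]
      refine ⟨h2.1, ?_⟩
      have h4 := h2.2
      rw [pow_succ]
      linarith
  have hnon : ∀ k : ℕ, k ≤ n → (∀ j < k, ¬ 4 * ‖(P j).2‖ ≤ ‖(P j).1‖) →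
      4 ^ k * ‖(P k).2‖ ≤ 1 := by
    intro k
    induction k with
    | zero =>
      intro hk _
      simpa using (countg_snd_le (P 0)).trans (h1 0 hk)
    | succ k ih =>
      intro hk h
      have i1 := ih (by omega) fun j hj => h j (by omega)
      have h2 := g_outside (lt_of_not_ge (h k (by omega)))
      rw [hP k (by omega), pow_succ]
      have h3 : (0 : ℝ) < 4 ^ k := by positivity
      nlinarith
  set A1 := A.filter fun k => ¬ 4 * ‖(P k).2‖ ≤ ‖(P k).1‖ with hA1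
  set A2 := A.filter fun k => 4 * ‖(P k).2‖ ≤ ‖(P k).1‖ with hA2
  have hc1 : A1.card ≤ K1 := by
    have hsub : A1 ⊆ Finset.range K1 := by
      intro k hk
      rw [hA1, Finset.mem_filter] at hk
      obtain ⟨hkA, hkc⟩ := hk
      obtain ⟨hkn, hkδ⟩ := hA k hkA
      rw [Finset.mem_range]
      by_contra hge
      have hge' : K1 ≤ k := not_lt.1 hge
      have hpre : ∀ j < k, ¬ 4 * ‖(P j).2‖ ≤ ‖(P j).1‖ := by
        intro j hj hc
        apply hkc
        have := (hcone j (k - j) (by omega) hc).1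
        rwa [Nat.add_sub_cancel' hj.le] at this
      have h2 := hnon k hkn hpre
      have h3 : ‖(P k).1‖ < 4 * ‖(P k).2‖ := lt_of_not_ge hkc
      have h4 : nrm (P k) ≤ 5 * ‖(P k).2‖ := by
        refine (sq_le_sq₀ (nrm_nonneg _) (by positivity)).1 ?_
        rw [nrm_sq]
        nlinarith [norm_nonneg (P k).1, norm_nonneg (P k).2]
      have h5 : (4 : ℝ) ^ K1 ≤ 4 ^ k := pow_le_pow_right₀ (by norm_num) hge'
      have h6 : 5 / δ < 4 ^ k := lt_of_lt_of_le hK1 h5
      rw [div_lt_iff₀ hδ] at h6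
      have h7 : (0 : ℝ) < 4 ^ k := by positivity
      nlinarith
    simpa using Finset.card_le_card hsub
  have hc2 : A2.card ≤ K2 := by
    rcases A2.eq_empty_or_nonempty with he | hne
    · rw [he]; simp
    · set j := A2.min' hne with hj
      have hjm : j ∈ A2 := A2.min'_mem hne
      rw [hA2, Finset.mem_filter] at hjm
      obtain ⟨hjA, hjc⟩ := hjm
      obtain ⟨hjn, hjδ⟩ := hA j hjA
      have hsub : A2 ⊆ Finset.Ico j (j + K2) := by
        intro k hk
        have hjk : j ≤ k := A2.min'_le k hk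
        rw [Finset.mem_Ico]
        refine ⟨hjk, ?_⟩
        by_contra hge
        rw [hA2, Finset.mem_filter] at hk
        obtain ⟨hkA, hkc⟩ := hk
        obtain ⟨hkn, hkδ⟩ := hA k hkA
        have h2 := (hcone j (k - j) (by omega) hjc).2
        rw [Nat.add_sub_cancel' hjk] at h2
        have h3 : ‖(P k).1‖ ≤ 1 := (countg_fst_le _).trans (h1 k hkn)
        have h4 : nrm (P j) ≤ 2 * ‖(P j).1‖ := by
          refine (sq_le_sq₀ (nrm_nonneg _) (by positivity)).1 ?_
          rw [nrm_sq]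
          nlinarith [norm_nonneg (P j).1, norm_nonneg (P j).2]
        have h5 : (2 : ℝ) ^ K2 ≤ 2 ^ (k - j) := pow_le_pow_right₀ (by norm_num) (by omega)
        have h6 : 2 / δ < 2 ^ (k - j) := lt_of_lt_of_le hK2 h5
        rw [div_lt_iff₀ hδ] at h6
        have h7 : (0 : ℝ) < 2 ^ (k - j) := by positivity
        nlinarith
      simpa using Finset.card_le_card hsub
  have hsum : A.card = A2.card + A1.card := by
    rw [hA1, hA2]
    exact (Finset.card_filter_add_card_filter_not _).symm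
  omega

end Crest.Agent.R123
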