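/-
ROW 123 (S0163), piece GlobH: the global map has zero topological entropy.

`entropy_zero` with `M = Mf`, `B = Circle`, `R b = b * e0` (isometry), `π p = p.2.2`, `s₀ = core`, `s₁ = sink`.
`hbad`: given `ε`, `δ` from `Pc_close`, `K` from `count_g`; claim: the bound `K + 4` works.  Let `p_k = (fmap F)^[k] x`, and
let `A` be a finite set of bad times.
* If some `p_m` is not inside let `m` be the first; for `k ≥ m+2`, `p_k` is in the sink section (`outside_two`,
  `fmap_sink`), `dist = 0 < ε`, not bad.  So `A ⊆ {k < m} ∪ {m, m+1}`; if all are inside take `m` larger than every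
  element of `A`.
* For `k < m` all `p_k` are inside; `P k = Pc H (p_k)` satisfies `P (k+1) = g (P k)` for `k+1 < m` (`step`),
  `nrm (P k) ≤ 1` (`nrm_Pc_le`).  If `1 ≤ k < m` is bad then `nrm (P k) ≥ δ` (`Pc_close` at `p_{k-1}`): at most `K` such.
-/
import Crest.Agent.R123.GlobD
import Crest.Agent.R123.GlobF
import Crest.Agent.R123.GlobG
import Crest.Agent.R123.EntB

set_option autoImplicit false

namespace Crest.Agent.R123

variable {F H : E → ℝ → E}

namespace GlobHaux

theorem isometry_mul_e0 : Isometry (fun b : Circle => b * e0) := by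
  apply Isometry.of_dist_eq
  intro b b'
  change dist ((b * e0 : Circle) : ℂ) ((b' * e0 : Circle) : ℂ) = dist (b : ℂ) (b' : ℂ)
  rw [dist_eq_norm, dist_eq_norm]
  have h1 : ((b * e0 : Circle) : ℂ) - ((b' * e0 : Circle) : ℂ) = ((b : ℂ) - (b' : ℂ)) * (e0 : ℂ) := by
    rw [Circle.coe_mul, Circle.coe_mul]
    ring
  have h2 : ‖(e0 : ℂ)‖ = 1 := Circle.norm_coe e0
  rw [h1, norm_mul, h2, mul_one]

theorem card_bad (M : IsModel F H) {ε : ℝ} (hε : 0 < ε) : ∃ K : ℕ, ∀ x : Mf, ∀ A : Finset ℕ,
      (∀ k ∈ A, ε ≤ dist ((fmap F)^[k] x) (core ((fmap F)^[k] x).2.2) ∧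
        ε ≤ dist ((fmap F)^[k] x) (sink ((fmap F)^[k] x).2.2)) →
      A.card ≤ K := by
  obtain ⟨δ, hδ, hclose⟩ := Pc_close M hε
  obtain ⟨K, hK⟩ := count_g hδ
  refine ⟨K + 3, fun x A hA => ?_⟩
  -- choose `m`
  obtain ⟨m, hm1, hm2⟩ : ∃ m : ℕ, (∀ k < m, inside ((fmap F)^[k] x)) ∧ ∀ k ∈ A, k < m + 2 := by
    by_cases hex : ∃ m, ¬ inside ((fmap F)^[m] x)
    · classical
      refine ⟨Nat.find hex, fun k hk => ?_, fun k hk => ?_⟩
      · by_contra hcon
        exact Nat.find_min hex hk hcon
      · by_contra hcon
        push Not at hcon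
        have h0 := Nat.find_spec hex
        set m := Nat.find hex with hm
        -- all later points are in the sink section
        have hs : ∀ j, ∃ b, (fmap F)^[m + 2 + j] x = sink b := by
          intro j
          induction j with
          | zero =>
            refine ⟨((fmap F)^[m] x).2.2 * e0 * e0, ?_⟩
            rw [add_zero, Function.iterate_succ_apply', Function.iterate_succ_apply']
            exact outside_two M h0
          | succ j ih =>
            obtain ⟨b, hb⟩ := ih
            refine ⟨b * e0, ?_⟩
            rw [← add_assoc, Function.iterate_succ_apply', hb]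
            exact fmap_sink M b
        obtain ⟨b, hb⟩ := hs (k - (m + 2))
        have hk2 : m + 2 + (k - (m + 2)) = k := by omega
        rw [hk2] at hb
        have h1 := (hA k hk).2
        rw [hb] at h1
        have h2 : (sink b).2.2 = b := rfl
        rw [h2, dist_self] at h1
        linarith
    · push Not at hex
      refine ⟨A.sup id + 1, fun k _ => hex k, fun k hk => ?_⟩
      have := Finset.le_sup (f := id) hk
      simp only [id] at this
      omega
  set A' := A.filter (fun k => 1 ≤ k ∧ k < m) with hA'
  have hcard : A'.card ≤ K := by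
    rcases Nat.eq_zero_or_pos m with h0 | h0
    · have : A' = ∅ := by
        rw [hA', Finset.filter_eq_empty_iff]
        intro k _
        omega
      rw [this]
      simp
    · apply hK (m - 1) (fun k => Pc H ((fmap F)^[k] x))
      · intro k hk
        have h1 := hm1 k (by omega)
        have h2 := hm1 (k + 1) (by omega)
        rw [Function.iterate_succ_apply'] at h2
        rw [Function.iterate_succ_apply']
        exact step M h1 h2
      · intro k hk
        exact nrm_Pc_le M (hm1 k (by omega))
      · intro k hk
        rw [hA', Finset.mem_filter] at hk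
        obtain ⟨hkA, hk1, hkm⟩ := hk
        refine ⟨by omega, ?_⟩
        by_contra hcon
        push Not at hcon
        obtain ⟨j, rfl⟩ : ∃ j, k = j + 1 := ⟨k - 1, by omega⟩
        have h1 := hm1 j (by omega)
        have h2 := hm1 (j + 1) (by omega)
        have h3 := (hA (j + 1) hkA).1
        simp only [Function.iterate_succ_apply'] at h2 h3 hcon
        have h4 := hclose _ h1 h2 hcon
        linarith
  have hsub : A ⊆ A' ∪ {0, m, m + 1} := by
    intro k hk
    have h1 := hm2 k hk
    rw [Finset.mem_union, hA', Finset.mem_filter]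
    by_cases h2 : 1 ≤ k ∧ k < m
    · exact Or.inl ⟨hk, h2⟩
    · right
      simp only [Finset.mem_insert, Finset.mem_singleton]
      omega
  calc A.card ≤ (A' ∪ {0, m, m + 1}).card := Finset.card_le_card hsub
    _ ≤ A'.card + ({0, m, m + 1} : Finset ℕ).card := Finset.card_union_le _ _
    _ ≤ K + 3 := by
      have := Finset.card_le_three (a := 0) (b := m) (c := m + 1)
      omega

end GlobHaux

open GlobHaux in
theorem fmap_entropy (M : IsModel F H) : Dynamics.coverEntropy (fmap F) Set.univ = 0 := by
  have : Nonempty Mf := ⟨(spole, spole, 1)⟩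
  refine entropy_zero (M := Mf) (B := Circle) (fmap_continuous M) isometry_mul_e0
    (π := fun p : Mf => p.2.2) (by fun_prop) (fun x => fmap_thd F x)
    (s₀ := core) (s₁ := sink) ?_ ?_ (fun b => fmap_core M b) (fun b => fmap_sink M b) ?_
    (fun ε hε => card_bad M hε)
  · unfold core
    fun_prop
  · unfold sink
    fun_prop
  · intro b h
    have h1 : (spole : S2) = npole := congrArg Prod.fst h
    have h2 : ((spole : S2) : R3) 2 = ((npole : S2) : R3) 2 := by rw [h1]
    simp only [spole, npole, mk3_two] at h2
    norm_num at h2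

end Crest.Agent.R123
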