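/-
ROW 123 (S0163), piece GlobJ: the homotopy `f ∘ i ≃ i ∘ psi0` for `i X = (X, npole, 1)`.

`f (i X) = (toS2 (fX X), toS2 (capv (fY X)), e0)` (base point `τ = 1`, `ytil npole = 0`, `zc = (x, 0)`, `ang 1 = 0`).
Build homotopies of the three components separately (`ContinuousMap.Homotopic.prodMk`/ product of homotopies):
* third: constant `e0` to constant `1` (`Circle` is path connected);
* second: `X ↦ capv (r fY(X))`, `r ∈ [0,1]`, `‖fY‖ ≤ 1/16`, to the constant `spole`; then constant `spole` to constant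
  `npole` (`S²` is path connected: e.g. the explicit path `mk3 (sin θ) (-cos θ)`).
* first: (a) `v_r(X) = (1-r) (F (x,0) 0).1 + r·4 sqn x`.  For `‖x‖ ≥ 1/1000`, `(F (x,0) 0).1 = (g (x,0)).1 = 4 x²/‖x‖` so `v_r`
  does not depend on `r`.  `A_r(X) = Psi (v_r(X))` if `X 2 < -1/2`, `mk3 0 1` otherwise; it is continuous in `(r,X)`: on the
  open set `-√3/2 < X 2` it is constant `mk3 0 1` (for `X 2 < -1/2`, `‖x‖ ≥ 1/2`, `|v_r| = 4‖x‖ ≥ 2`, `Psi_large`).
  `A_0 = fX`, `A_1 (X) = Psi (4 sqn x)` (southern) or north pole.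
  (b) `A_1 ≃ psi0`: they are never antipodal: horizontal part of `A_1` is `c · sqn x` with `c ≥ 0` (`hz_Psi`; `c = 0` for
  the constant part), that of `psi0` is `sqn x`; antipodal would force `(c+1) sqn x = 0`, `x = 0`, `X = ±` pole, where
  `A_1 X = X = psi0 X`.  Non-antipodal maps into the sphere are homotopic: `((1-r) A + r B)/‖…‖`.
Suggested sub-lemmas below; prove `homotopy_main` from them.
-/
import Crest.Agent.R123.GlobD

set_option autoImplicit false

namespace Crest.Agent.R123

variable {F H : E → ℝ → E}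

/-- `i X = (X, npole, 1)` -/
noncomputable def imap : C(S2, Mf) where
  toFun X := (X, npole, 1)
  continuous_toFun := by fun_prop

/-- the global map as a continuous map -/
noncomputable def fC (M : IsModel F H) : C(Mf, Mf) := ⟨fmap F, fmap_continuous M⟩

namespace GlobJaux

theorem seg_ne {u v : R3} (hu : ‖u‖ = 1) (hv : ‖v‖ = 1) (h : u + v ≠ 0) (r : ℝ) (h0 : 0 ≤ r)
    (h1 : r ≤ 1) : (1 - r) • u + r • v ≠ 0 := by
  intro h2
  have h3 : (1 - r) • u = -(r • v) := eq_neg_of_add_eq_zero_left h2
  have h4 : ‖(1 - r) • u‖ = ‖-(r • v)‖ := by rw [h3]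
  rw [norm_neg, norm_smul, norm_smul, hu, hv, Real.norm_eq_abs, Real.norm_eq_abs,
    abs_of_nonneg (by linarith), abs_of_nonneg h0] at h4
  have h5 : r = 1 / 2 := by linarith
  apply h
  have h6 : (1 / 2 : ℝ) • (u + v) = 0 := by
    rw [smul_add, ← h2, h5]
    norm_num
  rcases smul_eq_zero.mp h6 with h7 | h7
  · norm_num at h7
  · exact h7

theorem norm_S2 (X : S2) : ‖(X : R3)‖ = 1 := mem_sphere_zero_iff_norm.1 X.2

end GlobJaux

open GlobJaux

/-- non-antipodal maps into `S²` are homotopic -/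
theorem homotopic_of_not_antipodal {X : Type*} [TopologicalSpace X] (a b : C(X, S2))
    (h : ∀ x, ((a x : S2) : R3) + ((b x : S2) : R3) ≠ 0) : ContinuousMap.Homotopic a b := by
  have hne : ∀ p : unitInterval × X,
      (1 - (p.1 : ℝ)) • ((a p.2 : S2) : R3) + (p.1 : ℝ) • ((b p.2 : S2) : R3) ≠ 0 := fun p =>
    seg_ne (norm_S2 _) (norm_S2 _) (h p.2) p.1 p.1.2.1 p.1.2.2
  let V : unitInterval × X → R3 := fun p =>
    (1 - (p.1 : ℝ)) • ((a p.2 : S2) : R3) + (p.1 : ℝ) • ((b p.2 : S2) : R3)
  have hV : Continuous V := by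
    have h1 : Continuous (fun x : X => ((a x : S2) : R3)) := continuous_subtype_val.comp a.continuous
    have h2 : Continuous (fun x : X => ((b x : S2) : R3)) := continuous_subtype_val.comp b.continuous
    exact ((continuous_const.sub (continuous_subtype_val.comp continuous_fst)).smul
      (h1.comp continuous_snd)).add
      ((continuous_subtype_val.comp continuous_fst).smul (h2.comp continuous_snd))
  have hmem : ∀ p, ‖V p‖⁻¹ • V p ∈ Metric.sphere (0 : R3) 1 := by
    intro p
    rw [mem_sphere_zero_iff_norm, norm_smul, norm_inv, norm_norm]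
    exact inv_mul_cancel₀ (norm_ne_zero_iff.mpr (hne p))
  refine ⟨⟨⟨fun p => ⟨‖V p‖⁻¹ • V p, hmem p⟩, ?_⟩, ?_, ?_⟩⟩
  · apply Continuous.subtype_mk
    exact (hV.norm.inv₀ (fun p => norm_ne_zero_iff.mpr (hne p))).smul hV
  · intro x
    apply Subtype.ext
    show ‖V (0, x)‖⁻¹ • V (0, x) = _
    have : V (0, x) = ((a x : S2) : R3) := by simp [V]
    rw [this, norm_S2, inv_one, one_smul]
  · intro x
    apply Subtype.ext
    show ‖V (1, x)‖⁻¹ • V (1, x) = _
    have : V (1, x) = ((b x : S2) : R3) := by simp [V]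
    rw [this, norm_S2, inv_one, one_smul]

/-- constant maps into path connected spaces; second and third components -/
theorem homotopic_snd (M : IsModel F H) : ContinuousMap.Homotopic
    (ContinuousMap.comp ⟨fun p : Mf => p.2.1, by fun_prop⟩ ((fC M).comp imap))
    (ContinuousMap.const S2 npole) := by
  let q : S2 := ⟨mk3 1 0, mk3_mem (by simp)⟩
  have h1 : ContinuousMap.Homotopic
      (ContinuousMap.comp ⟨fun p : Mf => p.2.1, by fun_prop⟩ ((fC M).comp imap))
      (ContinuousMap.const S2 spole) := by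
    apply homotopic_of_not_antipodal
    intro X h
    have h2 : (((fmap F (imap X)).2.1 : S2) : R3) + ((spole : S2) : R3) = 0 := h
    rw [fmap_snd M] at h2
    have h3 := congrArg (fun v : R3 => v 2) h2
    simp only [capv, spole, PiLp.add_apply, mk3_two, PiLp.zero_apply] at h3
    have h4 := Real.sqrt_nonneg (1 - ‖fY F (imap X).1 (imap X).2.1 (imap X).2.2‖ ^ 2)
    linarith
  have h2 : ContinuousMap.Homotopic (ContinuousMap.const S2 spole) (ContinuousMap.const S2 q) := by
    apply homotopic_of_not_antipodal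
    intro X h
    have h2 : ((spole : S2) : R3) + ((q : S2) : R3) = 0 := h
    have h3 := congrArg (fun v : R3 => v 2) h2
    simp only [spole, q, PiLp.add_apply, mk3_two, PiLp.zero_apply] at h3
    norm_num at h3
  have h3 : ContinuousMap.Homotopic (ContinuousMap.const S2 q) (ContinuousMap.const S2 npole) := by
    apply homotopic_of_not_antipodal
    intro X h
    have h2 : ((q : S2) : R3) + ((npole : S2) : R3) = 0 := h
    have h3 := congrArg (fun v : R3 => v 2) h2
    simp only [npole, q, PiLp.add_apply, mk3_two, PiLp.zero_apply] at h3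
    norm_num at h3
  exact (h1.trans h2).trans h3

theorem homotopic_thd (M : IsModel F H) : ContinuousMap.Homotopic
    (ContinuousMap.comp ⟨fun p : Mf => p.2.2, by fun_prop⟩ ((fC M).comp imap))
    (ContinuousMap.const S2 1) := by
  refine ⟨⟨⟨fun p : unitInterval × S2 =>
    Circle.exp ((1 - (p.1 : ℝ)) * (2 * Real.pi * al)), ?_⟩, ?_, ?_⟩⟩
  · exact Circle.exp.continuous.comp (by fun_prop)
  · intro X
    show Circle.exp ((1 - ((0 : unitInterval) : ℝ)) * (2 * Real.pi * al)) = (fmap F (imap X)).2.2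
    rw [fmap_thd]
    simp [imap, e0]
  · intro X
    show Circle.exp ((1 - ((1 : unitInterval) : ℝ)) * (2 * Real.pi * al)) = 1
    simp

theorem homotopic_fst (M : IsModel F H) : ContinuousMap.Homotopic
    (ContinuousMap.comp ⟨fun p : Mf => p.1, by fun_prop⟩ ((fC M).comp imap)) psi0 := by
  apply homotopic_of_not_antipodal
  intro X h
  have h2 : (((fmap F (imap X)).1 : S2) : R3) + ((psi0 X : S2) : R3) = 0 := h
  rw [fmap_fst, psi0_coe] at h2
  have h3 := congrArg (fun v : R3 => v 2) h2
  have h4 := congrArg hz h2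
  have hadd : ∀ u v : R3, hz (u + v) = hz u + hz v := by
    intro u v
    apply Complex.ext <;> simp [hz]
  rw [hadd, hz_mk3] at h4
  have hz0 : hz (0 : R3) = 0 := by
    apply Complex.ext <;> simp [hz]
  rw [hz0] at h4
  simp only [PiLp.add_apply, mk3_two, PiLp.zero_apply] at h3
  have hX1 : (imap X).1 = X := rfl
  have hX2 : (imap X).2.1 = npole := rfl
  rw [hX1, hX2] at h3 h4
  generalize (imap X).2.2 = τ at h3 h4
  unfold fX at h3 h4
  by_cases hX : (X : R3) 2 < -(1 / 2)
  · rw [if_pos hX] at h3 h4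
    have hzc : zc (X : R3) (npole : R3) = (hz (X : R3), 0) := by
      unfold zc; rw [ytil_npole]
    rw [hzc] at h3 h4
    have hn : nrm (hz (X : R3), (0 : ℂ)) = ‖hz (X : R3)‖ := by
      unfold nrm
      simp
    by_cases hx : 1 / 1000 ≤ ‖hz (X : R3)‖
    · have h5 := (M.large (hz (X : R3), 0) (ang (τ : ℂ)) (by rw [hn]; exact hx)).1
      rw [h5] at h4
      obtain ⟨c, hc0, hc⟩ := hz_Psi (g (hz (X : R3), 0)).1
      rw [hc] at h4
      have h6 : (g (hz (X : R3), 0)).1 = 4 * sqn (hz (X : R3)) := by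
        unfold g sqn
        rw [hn]
        simp
      rw [h6] at h4
      have h7 : ((4 * c + 1 : ℝ) : ℂ) * sqn (hz (X : R3)) = 0 := by
        push_cast
        rw [← h4]; ring
      rcases mul_eq_zero.mp h7 with h8 | h8
      · have h9 : (4 * c + 1 : ℝ) = 0 := by exact_mod_cast h8
        linarith
      · have h9 := norm_sqn (hz (X : R3))
        rw [h8, norm_zero] at h9
        linarith
    · push Not at hx
      have h5 := (M.small (hz (X : R3), 0) (ang (τ : ℂ)) (by rw [hn]; exact hx.le)).1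
      have h6 : ‖(F (hz (X : R3), 0) (ang (τ : ℂ))).1‖ ≤ 1 / 2 := by
        have h7 : ‖(F (hz (X : R3), 0) (ang (τ : ℂ))).1‖ ≤
            nrm (F (hz (X : R3), 0) (ang (τ : ℂ))) := by
          unfold nrm
          apply Real.le_sqrt_of_sq_le
          nlinarith [norm_nonneg (F (hz (X : R3), 0) (ang (τ : ℂ))).2]
        linarith
      rw [Psi_small h6] at h3
      simp only [capv, mk3_two] at h3
      have h8 := Real.sqrt_nonneg (1 - ‖(F (hz (X : R3), 0) (ang (τ : ℂ))).1‖ ^ 2)
      linarith
  · rw [if_neg hX, mk3_two] at h3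
    push Not at hX
    linarith

theorem homotopy_main (M : IsModel F H) :
    ContinuousMap.Homotopic ((fC M).comp imap) (imap.comp psi0) := by
  obtain ⟨h1⟩ := homotopic_fst M
  obtain ⟨h2⟩ := homotopic_snd M
  obtain ⟨h3⟩ := homotopic_thd M
  exact ⟨(h1.prod (h2.prod h3)).cast (by ext1; rfl) (by ext1; rfl)⟩

end Crest.Agent.R123
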