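/-
ROW 123 (S0163), homology block: definitions.  `Dl n` = topological simplex, `fc i` = face inclusion, `SC X` =
Mathlib's singular chain complex with real coefficients, `eb σ` = basis chain of a singular simplex.
-/
import Crest.Agent.R123.MfDefs

set_option autoImplicit false

namespace Crest.Agent.R123

open CategoryTheory AlgebraicTopology Simplicial

noncomputable section

/-- the topological simplex -/
abbrev Dl (n : ℕ) := stdSimplex ℝ (Fin (n + 1))

/-- vertices -/
abbrev vx {n : ℕ} (i : Fin (n + 1)) : Dl n := stdSimplex.vertex i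

/-- the face inclusion opposite to the vertex `i` -/
def fc {n : ℕ} (i : Fin (n + 2)) : C(Dl n, Dl (n + 1)) :=
  ⟨stdSimplex.map (Fin.succAbove i), stdSimplex.continuous_map _⟩

theorem fc_vx {n : ℕ} (i : Fin (n + 2)) (j : Fin (n + 1)) : fc i (vx j) = vx (i.succAbove j) := by
  simp [fc]

theorem fc_succAbove {n : ℕ} (i : Fin (n + 2)) (j : Fin (n + 1)) (t : Dl n) :
    (fc i t) (i.succAbove j) = t j := by
  simp only [fc, ContinuousMap.coe_mk, stdSimplex.map_coe, FunOnFinite.linearMap_apply_apply]
  rw [Finset.sum_eq_single j]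
  · intro b hb hbj
    exact absurd (Fin.succAbove_right_injective (Finset.mem_filter.1 hb).2) hbj
  · intro h
    exact absurd (by simp) h

theorem fc_self {n : ℕ} (i : Fin (n + 2)) (t : Dl n) : (fc i t) i = 0 := by
  simp only [fc, ContinuousMap.coe_mk, stdSimplex.map_coe, FunOnFinite.linearMap_apply_apply]
  refine Finset.sum_eq_zero (fun b hb => ?_)
  exact absurd (Finset.mem_filter.1 hb).2 (Fin.succAbove_ne i b)

/-- simplicial identity -/
theorem fc_fc {n : ℕ} {i j : Fin (n + 2)} (h : i ≤ j) (t : Dl n) :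
    fc j.succ (fc i t) = fc i.castSucc (fc j t) := by
  simp only [fc, ContinuousMap.coe_mk, stdSimplex.map_comp_apply]
  congr 1
  have h2 := SimplexCategory.δ_comp_δ h
  have h3 := congrArg (fun f => ⇑(SimplexCategory.Hom.toOrderHom f)) h2
  exact h3

/-- singular chain complex with real coefficients -/
abbrev SC (X : TopCat.{0}) : ChainComplex (ModuleCat.{0} ℝ) ℕ :=
  ((singularChainComplexFunctor (ModuleCat.{0} ℝ)).obj (ModuleCat.of ℝ ℝ)).obj X

/-- induced chain map -/
abbrev SCmap {X Y : TopCat.{0}} (f : X ⟶ Y) : SC X ⟶ SC Y :=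
  ((singularChainComplexFunctor (ModuleCat.{0} ℝ)).obj (ModuleCat.of ℝ ℝ)).map f

/-- the basis chain of a singular simplex -/
def eb {X : TopCat.{0}} {n : ℕ} (σ : C(Dl n, X)) : (SC X).X n :=
  (SSet.ιChainComplex (TopCat.toSSet.obj X) (R := ModuleCat.of ℝ ℝ) (n := n)
    ((TopCat.toSSetObjEquiv X (Opposite.op ⦋n⦌)).symm σ)).hom (1 : ℝ)

end

end Crest.Agent.R123
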