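/-
ROW 123 (S0163), piece HomAbs: from chain level data on `Y` to an eigenvector on the homology of `X`.

`β` = class of the cycle `z` in `H_2(Y)` (`HomologicalComplex.homologyπ`, `cyclesMk` of
Mathlib.Algebra.Homology.ShortComplex.ConcreteCategory / ModuleCat).
* `g_* β = 2 β` because `g_# z - 2 z = d w`;
* `β ≠ 0`: otherwise `z` is a boundary `d w'`, `l z = l (d w') = 0`.
* `v = i_* β`: `p_* v = β ≠ 0`, `f_* v = (i ≫ f)_* β = (g ≫ i)_* β = i_* (2 β) = 2 v`
  (`TopCat.Homotopy.congr_homologyMap_singularChainComplexFunctor`).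
-/
import Crest.Agent.R123.HomDefs

set_option autoImplicit false

namespace Crest.Agent.R123

open CategoryTheory AlgebraicTopology Simplicial

noncomputable section

theorem eigen_core (K L : ChainComplex (ModuleCat.{0} ℝ) ℕ) (i : L ⟶ K) (p : K ⟶ L) (hip : i ≫ p = 𝟙 L)
    (f : K ⟶ K) (g : L ⟶ L)
    (H : HomologicalComplex.homologyMap (i ≫ f) 2 = HomologicalComplex.homologyMap (g ≫ i) 2)
    (z : L.X 2) (hz : (L.d 2 1).hom z = 0) (w : L.X 3)
    (hw : (g.f 2).hom z - (2 : ℝ) • z = (L.d 3 2).hom w)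
    (l : L.X 2 →ₗ[ℝ] ℝ) (hl : ∀ w' : L.X 3, l ((L.d 3 2).hom w') = 0) (hlz : l z ≠ 0) :
    Module.End.HasEigenvalue (HomologicalComplex.homologyMap f 2).hom (2 : ℝ) := by
  let kz : ModuleCat.of ℝ ℝ ⟶ L.X 2 := ModuleCat.ofHom (LinearMap.toSpanSingleton ℝ _ z)
  let kw : ModuleCat.of ℝ ℝ ⟶ L.X 3 := ModuleCat.ofHom (LinearMap.toSpanSingleton ℝ _ w)
  have hkz : kz ≫ L.d 2 1 = 0 := by
    ext
    simp [kz, hz]
  have hkw : kz ≫ g.f 2 = (2 : ℝ) • kz + kw ≫ L.d 3 2 := by
    ext
    simp only [kz, kw, ModuleCat.hom_comp, LinearMap.comp_apply, ModuleCat.hom_ofHom,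
      LinearMap.toSpanSingleton_apply, one_smul, ModuleCat.hom_add, LinearMap.add_apply,
      ModuleCat.hom_smul, LinearMap.smul_apply]
    rw [← hw]
    abel
  have h21 : (ComplexShape.down ℕ).next 2 = 1 := by simp
  have h32 : (ComplexShape.down ℕ).prev 2 = 3 := by simp
  let b : ModuleCat.of ℝ ℝ ⟶ L.homology 2 := L.liftCycles kz 1 h21 hkz ≫ L.homologyπ 2
  have hb : b ≫ HomologicalComplex.homologyMap g 2 = (2 : ℝ) • b := by
    have e1 : b ≫ HomologicalComplex.homologyMap g 2 =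
        L.liftCycles (kz ≫ g.f 2) 1 h21 (by rw [Category.assoc, g.comm, reassoc_of% hkz, Limits.zero_comp]) ≫
          L.homologyπ 2 := by
      simp only [b, Category.assoc]
      rw [HomologicalComplex.homologyπ_naturality, ← Category.assoc,
        HomologicalComplex.liftCycles_comp_cyclesMap]
    rw [e1]
    have e2 : L.liftCycles (kz ≫ g.f 2) 1 h21 (by rw [Category.assoc, g.comm, reassoc_of% hkz, Limits.zero_comp]) =
        (2 : ℝ) • L.liftCycles kz 1 h21 hkz + L.liftCycles (kw ≫ L.d 3 2) 1 h21 (by simp) := by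
      rw [← cancel_mono (L.iCycles 2)]
      simp only [Preadditive.add_comp, Linear.smul_comp, HomologicalComplex.liftCycles_i]
      exact hkw
    rw [e2, Preadditive.add_comp, Linear.smul_comp,
      L.liftCycles_homologyπ_eq_zero_of_boundary (kw ≫ L.d 3 2) 1 h21 kw rfl, add_zero]
  have hb0 : b.hom (1 : ℝ) ≠ 0 := by
    intro h0
    let kl : L.X 2 ⟶ ModuleCat.of ℝ ℝ := ModuleCat.ofHom l
    have hkl : L.d 3 2 ≫ kl = 0 := by
      ext x
      exact hl x
    have e3 : b ≫ L.homologyι 2 ≫ L.descOpcycles kl 3 h32 hkl = kz ≫ kl := by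
      simp only [b, Category.assoc]
      rw [HomologicalComplex.homology_π_ι_assoc, HomologicalComplex.p_descOpcycles,
        HomologicalComplex.liftCycles_i_assoc]
    have e4 := congrArg (fun F => F.hom (1 : ℝ)) e3
    simp only [ModuleCat.hom_comp, LinearMap.comp_apply] at e4
    rw [h0, map_zero, map_zero] at e4
    apply hlz
    rw [e4]
    simp [kz, kl]
  have hi : (HomologicalComplex.homologyMap i 2) ≫ (HomologicalComplex.homologyMap p 2) = 𝟙 _ := by
    rw [← HomologicalComplex.homologyMap_comp, hip, HomologicalComplex.homologyMap_id]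
  have hf : HomologicalComplex.homologyMap i 2 ≫ HomologicalComplex.homologyMap f 2 =
      HomologicalComplex.homologyMap g 2 ≫ HomologicalComplex.homologyMap i 2 := by
    rw [← HomologicalComplex.homologyMap_comp, ← HomologicalComplex.homologyMap_comp, H]
  let v := (b ≫ HomologicalComplex.homologyMap i 2).hom (1 : ℝ)
  have hv0 : v ≠ 0 := by
    intro h
    have e5 : ((b ≫ HomologicalComplex.homologyMap i 2) ≫ HomologicalComplex.homologyMap p 2).hom (1 : ℝ) = 0 := by
      rw [ModuleCat.hom_comp, LinearMap.comp_apply]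
      exact (congrArg _ h).trans (map_zero _)
    rw [Category.assoc, hi, Category.comp_id] at e5
    exact hb0 e5
  have hv : (HomologicalComplex.homologyMap f 2).hom v = (2 : ℝ) • v := by
    have e6 : (b ≫ HomologicalComplex.homologyMap i 2) ≫ HomologicalComplex.homologyMap f 2 =
        (2 : ℝ) • (b ≫ HomologicalComplex.homologyMap i 2) := by
      rw [Category.assoc, hf, ← Category.assoc, hb, Linear.smul_comp]
    have e7 := congrArg (fun F => F.hom (1 : ℝ)) e6
    exact e7
  exact Module.End.hasEigenvalue_of_hasEigenvector (x := v)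
    ⟨Module.End.mem_eigenspace_iff.2 hv, hv0⟩

theorem eigen_abs {X Y : TopCat.{0}} (i : Y ⟶ X) (p : X ⟶ Y) (hip : i ≫ p = 𝟙 Y) (f : X ⟶ X)
    (g : Y ⟶ Y) (H : TopCat.Homotopy (i ≫ f) (g ≫ i)) (z : (SC Y).X 2)
    (hz : ((SC Y).d 2 1).hom z = 0) (w : (SC Y).X 3)
    (hw : ((SCmap g).f 2).hom z - (2 : ℝ) • z = ((SC Y).d 3 2).hom w)
    (l : (SC Y).X 2 →ₗ[ℝ] ℝ) (hl : ∀ w' : (SC Y).X 3, l (((SC Y).d 3 2).hom w') = 0)
    (hlz : l z ≠ 0) :
    Module.End.HasEigenvalue
      (((singularHomologyFunctor (ModuleCat.{0} ℝ) 2).obj (ModuleCat.of ℝ ℝ)).map f).hom (2 : ℝ) := by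
  refine eigen_core (SC X) (SC Y) (SCmap i) (SCmap p) ?_ (SCmap f) (SCmap g) ?_ z hz w hw l hl hlz
  · rw [← Functor.map_comp, hip, CategoryTheory.Functor.map_id]
  · rw [← Functor.map_comp, ← Functor.map_comp]
    exact H.congr_homologyMap_singularChainComplexFunctor (ModuleCat.of ℝ ℝ) 2

end

end Crest.Agent.R123
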