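/-
ROW 123 (S0163), piece HomApi: singular chains in terms of basis chains `eb σ`.

Use `SSet.ιChainComplex_d`, `SSet.ι_chainComplexMap_f`, `SSet.chainComplex_hom_ext`, `SSet.isColimitChainComplexXCofan` (or
`Limits.Sigma.desc`) of Mathlib.AlgebraicTopology.SimplicialSet.Homology.Basic, and
`TopCat.toSSetObjEquiv`: the face `(TopCat.toSSet.obj X).δ i` is precomposition with `fc i` (definitional unfolding),
`TopCat.toSSet.map f` is postcomposition.
-/
import Crest.Agent.R123.HomDefs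

set_option autoImplicit false

namespace Crest.Agent.R123

open CategoryTheory AlgebraicTopology Simplicial

noncomputable section

theorem face_symm {X : TopCat.{0}} {n : ℕ} (σ : C(Dl (n + 1), X)) (i : Fin (n + 2)) :
    (TopCat.toSSet.obj X).δ i ((TopCat.toSSetObjEquiv X (Opposite.op ⦋n + 1⦌)).symm σ) =
      (TopCat.toSSetObjEquiv X (Opposite.op ⦋n⦌)).symm (σ.comp (fc i)) := by
  apply (TopCat.toSSetObjEquiv X (Opposite.op ⦋n⦌)).injective
  rw [Equiv.apply_symm_apply]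
  rfl

theorem sum_hom_apply {M N : ModuleCat.{0} ℝ} {ι : Type} (s : Finset ι) (F : ι → (M ⟶ N)) (x : M) :
    (∑ i ∈ s, F i).hom x = ∑ i ∈ s, (F i).hom x := by
  classical
  induction s using Finset.induction_on with
  | empty => simp
  | insert a s ha ih => rw [Finset.sum_insert ha, Finset.sum_insert ha, ModuleCat.hom_add, LinearMap.add_apply, ih]

theorem zpow_smul_hom {M N : ModuleCat.{0} ℝ} (k : ℕ) (F : M ⟶ N) (x : M) :
    (((-1 : ℤ) ^ k) • F).hom x = ((-1 : ℝ) ^ k) • F.hom x := by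
  rw [ModuleCat.hom_zsmul, LinearMap.smul_apply, ← Int.cast_smul_eq_zsmul ℝ]
  push_cast
  rfl

theorem d_eb {X : TopCat.{0}} {n : ℕ} (σ : C(Dl (n + 1), X)) :
    ((SC X).d (n + 1) n).hom (eb σ) =
      ∑ i : Fin (n + 2), (-1 : ℝ) ^ (i : ℕ) • eb (σ.comp (fc i)) := by
  have h := SSet.ιChainComplex_d (TopCat.toSSet.obj X) (ModuleCat.of ℝ ℝ)
    (x := (TopCat.toSSetObjEquiv X (Opposite.op ⦋n + 1⦌)).symm σ)
  have h2 := congrArg (fun f => f.hom (1 : ℝ)) h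
  simp only [ModuleCat.hom_comp, LinearMap.comp_apply] at h2
  rw [sum_hom_apply] at h2
  simp only [face_symm] at h2
  refine h2.trans (Finset.sum_congr rfl (fun i _ => ?_))
  exact zpow_smul_hom _ _ _

theorem map_symm {X Y : TopCat.{0}} (f : X ⟶ Y) {n : ℕ} (σ : C(Dl n, X)) :
    (TopCat.toSSet.map f).app (Opposite.op ⦋n⦌) ((TopCat.toSSetObjEquiv X (Opposite.op ⦋n⦌)).symm σ) =
      (TopCat.toSSetObjEquiv Y (Opposite.op ⦋n⦌)).symm (f.hom.comp σ) := by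
  apply (TopCat.toSSetObjEquiv Y (Opposite.op ⦋n⦌)).injective
  rw [Equiv.apply_symm_apply]
  rfl

theorem map_eb {X Y : TopCat.{0}} (f : X ⟶ Y) {n : ℕ} (σ : C(Dl n, X)) :
    ((SCmap f).f n).hom (eb σ) = eb (f.hom.comp σ) := by
  have h := SSet.ι_chainComplexMap_f (TopCat.toSSet.obj X) (TopCat.toSSet.obj Y) (TopCat.toSSet.map f)
    (ModuleCat.of ℝ ℝ) (x := (TopCat.toSSetObjEquiv X (Opposite.op ⦋n⦌)).symm σ)
  have h2 := congrArg (fun f => f.hom (1 : ℝ)) h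
  simp only [ModuleCat.hom_comp, LinearMap.comp_apply, map_symm] at h2
  exact h2

theorem hom_ext_eb {X : TopCat.{0}} {n : ℕ} (a b : (SC X).X n →ₗ[ℝ] ℝ)
    (h : ∀ σ, a (eb σ) = b (eb σ)) : a = b := by
  have h1 : (ModuleCat.ofHom a : (SC X).X n ⟶ ModuleCat.of ℝ ℝ) = ModuleCat.ofHom b := by
    refine SSet.chainComplex_hom_ext (X := TopCat.toSSet.obj X) (R := ModuleCat.of ℝ ℝ) (fun x => ?_)
    ext
    have h2 := h ((TopCat.toSSetObjEquiv X (Opposite.op ⦋n⦌)) x)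
    simp only [eb, Equiv.symm_apply_apply] at h2
    exact h2
  exact congrArg ModuleCat.Hom.hom h1

theorem exists_functional {X : TopCat.{0}} {n : ℕ} (φ : C(Dl n, X) → ℝ) :
    ∃ l : (SC X).X n →ₗ[ℝ] ℝ, ∀ σ, l (eb σ) = φ σ := by
  let l : (SC X).X n ⟶ ModuleCat.of ℝ ℝ :=
    Limits.Sigma.desc (fun x : (TopCat.toSSet.obj X).obj (Opposite.op ⦋n⦌) =>
      (φ ((TopCat.toSSetObjEquiv X (Opposite.op ⦋n⦌)) x)) • (𝟙 (ModuleCat.of ℝ ℝ)))
  refine ⟨l.hom, fun σ => ?_⟩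
  have h : (SSet.ιChainComplex (TopCat.toSSet.obj X) (R := ModuleCat.of ℝ ℝ) (n := n)
      ((TopCat.toSSetObjEquiv X (Opposite.op ⦋n⦌)).symm σ)) ≫ l = (φ σ) • (𝟙 (ModuleCat.of ℝ ℝ)) := by
    have := Limits.Sigma.ι_desc (fun x : (TopCat.toSSet.obj X).obj (Opposite.op ⦋n⦌) =>
      (φ ((TopCat.toSSetObjEquiv X (Opposite.op ⦋n⦌)) x)) • (𝟙 (ModuleCat.of ℝ ℝ)))
      ((TopCat.toSSetObjEquiv X (Opposite.op ⦋n⦌)).symm σ)
    simp only [Equiv.apply_symm_apply] at this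
    exact this
  have h2 := congrArg (fun f => f.hom (1 : ℝ)) h
  refine h2.trans ?_
  simp

end

end Crest.Agent.R123
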