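/-
ROW 123 (S0163), piece HomAngle: angle functions on simplices and the total change of angle `Wd`.

* `exists_angle`: `Dl n` is contractible by straight lines: `F (s, x) = (1-s) • vx 0 + s • x` is a continuous map
  `I × Dl n → Dl n` (convexity of `stdSimplex`).  Apply `Circle.isCoveringMap_exp.liftHomotopy` (Mathlib.Topology.Homotopy.Lifting)
  to `u ∘ F` with the constant lift of `u (vx 0)` at time `0` (`Circle.exp` is surjective, e.g. `Circle.exp_arg`,
  `Circle.surjective_exp`?); evaluate at time `1`.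
* `Wd_eq`: two angle functions `θ, θ'` of the same `u` differ by a continuous function with values in `2π ℤ`
  (`Circle.exp_eq_exp`) on a connected space, so it is constant (`IsPreconnected.constant`, or: `(θ-θ')/(2π)` is a
  continuous map to `ℝ` with values in `ℤ`; `stdSimplex` is path connected: `isPathConnected_stdSimplex`).
* `Wd_mul`: add angle functions.  `Wd_boundary`: take an angle function `θ` of `u` on `Dl 2`; `θ ∘ fc i` is an angle
  function of `u ∘ fc i`; the alternating sum telescopes by `fc_vx`.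
-/
import Crest.Agent.R123.HomDefs

set_option autoImplicit false

namespace Crest.Agent.R123

noncomputable section

theorem exists_angle {n : ℕ} (u : C(Dl n, Circle)) :
    ∃ θ : C(Dl n, ℝ), ∀ x, u x = Circle.exp (θ x) := by
  have hmem : ∀ (s : unitInterval) (x : Dl n),
      (1 - (s : ℝ)) • ((vx 0 : Dl n) : Fin (n + 1) → ℝ) + (s : ℝ) • (x : Fin (n + 1) → ℝ) ∈
        stdSimplex ℝ (Fin (n + 1)) := fun s x =>
    convex_stdSimplex ℝ (Fin (n + 1)) (vx 0 : Dl n).2 x.2 (by linarith [s.2.2]) s.2.1 (by ring)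
  set F : C(unitInterval × Dl n, Dl n) :=
    ⟨fun z => ⟨(1 - (z.1 : ℝ)) • ((vx 0 : Dl n) : Fin (n + 1) → ℝ) +
      (z.1 : ℝ) • (z.2 : Fin (n + 1) → ℝ), hmem z.1 z.2⟩, by
      refine Continuous.subtype_mk ?_ _
      have h1 : Continuous fun z : unitInterval × Dl n => (z.1 : ℝ) :=
        continuous_subtype_val.comp continuous_fst
      have h2 : Continuous fun z : unitInterval × Dl n => ((z.2 : Dl n) : Fin (n + 1) → ℝ) :=
        continuous_subtype_val.comp continuous_snd
      exact ((continuous_const.sub h1).smul continuous_const).add (h1.smul h2)⟩ with hF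
  have hF0 : ∀ x, F (0, x) = vx 0 := by
    intro x
    apply Subtype.ext
    simp [hF]
  have hF1 : ∀ x, F (1, x) = x := by
    intro x
    apply Subtype.ext
    simp [hF]
    rfl
  set f0 : C(Dl n, ℝ) := ContinuousMap.const _ (Complex.arg (u (vx 0))) with hf0
  have H0 : ∀ a, (u.comp F) (0, a) = Circle.exp (f0 a) := by
    intro a
    rw [ContinuousMap.comp_apply, hF0, hf0, ContinuousMap.const_apply, Circle.exp_arg]
  set G := Circle.isCoveringMap_exp.liftHomotopy (u.comp F) f0 H0 with hG
  refine ⟨G.comp ((ContinuousMap.const _ 1).prodMk (ContinuousMap.id _)), fun x => ?_⟩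
  have h := congrFun (Circle.isCoveringMap_exp.liftHomotopy_lifts (u.comp F) f0 H0) (1, x)
  rw [ContinuousMap.comp_apply, hF1] at h
  exact h.symm

/-- total change of the angle along a path in the circle -/
def Wd (u : C(Dl 1, Circle)) : ℝ :=
  (Classical.choose (exists_angle u)) (vx 1) - (Classical.choose (exists_angle u)) (vx 0)

theorem Wd_eq (u : C(Dl 1, Circle)) (θ : C(Dl 1, ℝ)) (h : ∀ x, u x = Circle.exp (θ x)) :
    Wd u = θ (vx 1) - θ (vx 0) := by
  set θ' := Classical.choose (exists_angle u) with hθ'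
  have h' : ∀ x, u x = Circle.exp (θ' x) := Classical.choose_spec (exists_angle u)
  have key : (fun x => θ x) = (fun x => θ' x + (θ (vx 0) - θ' (vx 0))) := by
    refine Circle.isCoveringMap_exp.eq_of_comp_eq (map_continuous θ)
      ((map_continuous θ').add continuous_const) ?_ (vx 0) (by ring)
    funext x
    show Circle.exp (θ x) = Circle.exp (θ' x + (θ (vx 0) - θ' (vx 0)))
    rw [Circle.exp_add, Circle.exp_sub, ← h, ← h, ← h', ← h', div_self', mul_one]
  have h1 := congrFun key (vx 1)
  show θ' (vx 1) - θ' (vx 0) = θ (vx 1) - θ (vx 0)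
  rw [h1]
  ring

theorem Wd_mul (u u' : C(Dl 1, Circle)) : Wd (u * u') = Wd u + Wd u' := by
  obtain ⟨θ, h⟩ := exists_angle u
  obtain ⟨θ', h'⟩ := exists_angle u'
  rw [Wd_eq u θ h, Wd_eq u' θ' h', Wd_eq (u * u') (θ + θ') (fun x => by
    rw [ContinuousMap.mul_apply, ContinuousMap.add_apply, Circle.exp_add, h, h']),
    ContinuousMap.add_apply, ContinuousMap.add_apply]
  ring

theorem Wd_boundary (u : C(Dl 2, Circle)) :
    ∑ i : Fin 3, (-1 : ℝ) ^ (i : ℕ) * Wd (u.comp (fc i)) = 0 := by
  obtain ⟨θ, h⟩ := exists_angle u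
  have hi : ∀ i : Fin 3, Wd (u.comp (fc i)) =
      θ (vx (i.succAbove 1)) - θ (vx (i.succAbove 0)) := by
    intro i
    rw [Wd_eq (u.comp (fc i)) (θ.comp (fc i)) (fun x => by
      rw [ContinuousMap.comp_apply, ContinuousMap.comp_apply, h]),
      ContinuousMap.comp_apply, ContinuousMap.comp_apply, fc_vx, fc_vx]
  have e00 : (0 : Fin 3).succAbove (0 : Fin 2) = 1 := rfl
  have e01 : (0 : Fin 3).succAbove (1 : Fin 2) = 2 := rfl
  have e10 : (1 : Fin 3).succAbove (0 : Fin 2) = 0 := rfl
  have e11 : (1 : Fin 3).succAbove (1 : Fin 2) = 2 := rfl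
  have e20 : (2 : Fin 3).succAbove (0 : Fin 2) = 0 := rfl
  have e21 : (2 : Fin 3).succAbove (1 : Fin 2) = 1 := rfl
  rw [Fin.sum_univ_three, hi, hi, hi, e00, e01, e10, e11, e20, e21]
  simp only [Fin.val_zero, Fin.val_one, Fin.val_two, pow_zero, pow_one]
  ring

end

end Crest.Agent.R123
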