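/-
ROW 123 (S0163), piece HomLift: every singular simplex of `S²` lifts through the Hopf fibration.

For `y ∈ S²`, `x = hz y ∈ ℂ`, `h = y 2`, and `v = (a,b) ∈ ℂ²` let `Π_y v = (1/2) ((1+h) a + x̄ b, x a + (1-h) b)` (`proj`).
With `w = Π_y v` one has the polynomial identities (using `|x|² + h² = 1`):
  `2 w̄₁ w₂ = x ‖w‖²`, `|w₁|² - |w₂|² = h ‖w‖²`, `‖w‖² = (1/2)((1+h)|a|² + (1-h)|b|² + 2 Re (x a b̄))`
so `w/‖w‖` is a unit lift of `y` when `w ≠ 0`, and if `v` is a unit lift of `y'`: `‖w‖² = (1 + ⟨y,y'⟩)/2`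
  `= 1 - ‖y-y'‖²/4`.
* `lift_step`: if `σ` has a lift and `‖σ x - σ' x‖ ≤ 1` for all `x`, then `σ'` has the lift `Π_{σ' x} v(x)/‖…‖`.
* `exists_lift`: `F s x = σ ((1-s) vx0 + s x)` is uniformly continuous on `[0,1] × Dl n` (compact), so there is `N` with
  `‖F ((j+1)/N) x - F (j/N) x‖ ≤ 1`; `F 0` is constant (has a constant lift: `((1+h), x)/√(2(1+h))` or, if `h = -1`,
  `(0,1)`); induction on `j`.
* `exists_ratio`: `u x = conj(v₁) v₁' + conj(v₂) v₂'`; two unit lifts of the same point are proportional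
  (if `v, v'` have the same `2 v̄₁v₂ = 2 v̄₁'v₂'` and `|v₁|²-|v₂|²`, then `v' = ⟨v,v'⟩ v`: polynomial identity).
-/
import Crest.Agent.R123.HomDefs

set_option autoImplicit false

namespace Crest.Agent.R123

noncomputable section

/-- `v` is a unit lift of `y` through the Hopf fibration -/
def IsLiftPt (y : S2) (v : ℂ × ℂ) : Prop :=
  ‖v.1‖ ^ 2 + ‖v.2‖ ^ 2 = 1 ∧ 2 * (starRingEnd ℂ v.1) * v.2 = hz (y : R3) ∧
    ‖v.1‖ ^ 2 - ‖v.2‖ ^ 2 = (y : R3) 2

/-- `v` is a unit lift of the map `σ` -/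
def IsLift {A : Type} [TopologicalSpace A] (σ : C(A, S2)) (v : C(A, ℂ × ℂ)) : Prop :=
  ∀ x, IsLiftPt (σ x) (v x)

theorem IsLift.comp {A B : Type} [TopologicalSpace A] [TopologicalSpace B] {σ : C(A, S2)}
    {v : C(A, ℂ × ℂ)} (h : IsLift σ v) (f : C(B, A)) : IsLift (σ.comp f) (v.comp f) :=
  fun x => h (f x)

/-- the projection onto the line of `y` -/
def proj (y : R3) (v : ℂ × ℂ) : ℂ × ℂ :=
  ((1 / 2 : ℂ) * ((1 + (y 2 : ℂ)) * v.1 + starRingEnd ℂ (hz y) * v.2),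
   (1 / 2 : ℂ) * (hz y * v.1 + (1 - (y 2 : ℂ)) * v.2))

theorem exists_liftPt (y : S2) : ∃ v : ℂ × ℂ, IsLiftPt y v := by
  have hy := S2_norm_sq y
  set h : ℝ := (y : R3) 2 with hh
  by_cases h1 : h = -1
  · refine ⟨(0, 1), ?_, ?_, ?_⟩
    · simp
    · have : hz (y : R3) = 0 := by
        rw [h1] at hy
        have h2 : ‖hz (y : R3)‖ ^ 2 = 0 := by linarith
        exact norm_eq_zero.1 (pow_eq_zero_iff (two_ne_zero) |>.1 h2)
      rw [this]; simp
    · rw [← hh, h1]; simp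
  · have hle : -1 ≤ h := by nlinarith [sq_nonneg ‖hz (y : R3)‖]
    have hpos : 0 < 2 * (1 + h) := by
      have : -1 < h := lt_of_le_of_ne hle (Ne.symm h1)
      linarith
    set r : ℝ := Real.sqrt (2 * (1 + h)) with hr
    have hr2 : r ^ 2 = 2 * (1 + h) := Real.sq_sqrt hpos.le
    have hr0 : 0 < r := Real.sqrt_pos.2 hpos
    have hr0' : (r : ℂ) ≠ 0 := by exact_mod_cast hr0.ne'
    have e1 : ‖(((1 + h) / r : ℝ) : ℂ)‖ ^ 2 = (1 + h) / 2 := by
      rw [Complex.norm_real, Real.norm_eq_abs, sq_abs, div_pow, hr2]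
      field_simp
    have e2 : ‖hz (y : R3) / (r : ℂ)‖ ^ 2 = (1 - h) / 2 := by
      rw [norm_div, div_pow, Complex.norm_real, Real.norm_eq_abs, sq_abs, hr2]
      have : ‖hz (y : R3)‖ ^ 2 = (1 - h) * (1 + h) := by linarith
      rw [this]
      have h3 : (1 + h) ≠ 0 := by linarith
      field_simp
    refine ⟨((((1 + h) / r : ℝ) : ℂ), hz (y : R3) / (r : ℂ)), ?_, ?_, ?_⟩
    · simp only [e1, e2]; ring
    · simp only [Complex.conj_ofReal]
      push_cast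
      have h4 : (r : ℂ) ^ 2 = 2 * (1 + (h : ℂ)) := by exact_mod_cast congrArg (fun t : ℝ => (t : ℂ)) hr2
      have h5 : 2 * ((1 + (h : ℂ)) / r) * (hz (y : R3) / r) = (2 * (1 + (h : ℂ))) * hz (y : R3) / (r : ℂ) ^ 2 := by
        field_simp
      rw [h5, h4]
      have h6 : (2 * (1 + (h : ℂ))) ≠ 0 := by
        rw [← h4]; exact pow_ne_zero 2 hr0'
      rw [mul_div_cancel_left₀ _ h6]
    · simp only [e1, e2]; rw [← hh]; ring

/-- the algebra behind `lift_step` -/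
theorem proj_alg (y y' : S2) (v : ℂ × ℂ) (hv : IsLiftPt y v)
    (hd : ‖(y : R3) - (y' : R3)‖ ≤ 1) :
    1 / 2 < ‖(proj y' v).1‖ ^ 2 + ‖(proj y' v).2‖ ^ 2 ∧
    2 * (starRingEnd ℂ (proj y' v).1) * (proj y' v).2 =
      ((‖(proj y' v).1‖ ^ 2 + ‖(proj y' v).2‖ ^ 2 : ℝ) : ℂ) * hz (y' : R3) ∧
    ‖(proj y' v).1‖ ^ 2 - ‖(proj y' v).2‖ ^ 2 =
      (‖(proj y' v).1‖ ^ 2 + ‖(proj y' v).2‖ ^ 2) * (y' : R3) 2 := by
  obtain ⟨hv1, hv2, hv3⟩ := hv
  have hy := S2_norm_sq y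
  have hy' := S2_norm_sq y'
  have hdd : ‖(y : R3) - (y' : R3)‖ ^ 2 ≤ 1 := by
    have := norm_nonneg ((y : R3) - (y' : R3))
    nlinarith
  rw [norm_sq_R3] at hdd
  rw [Complex.sq_norm, Complex.normSq_apply] at hy hy' hdd
  rw [Complex.sq_norm, Complex.sq_norm, Complex.normSq_apply, Complex.normSq_apply] at hv1 hv3
  have hv2r := congrArg Complex.re hv2
  have hv2i := congrArg Complex.im hv2
  clear hv2
  obtain ⟨⟨a1, a2⟩, ⟨b1, b2⟩⟩ := v
  simp only [hz, Complex.mul_re, Complex.mul_im, Complex.conj_re, Complex.conj_im,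
    PiLp.sub_apply] at hv1 hv3 hy hy' hdd hv2r hv2i
  norm_num at hv2r hv2i
  have hz' : hz (y' : R3) = ⟨(y' : R3) 0, (y' : R3) 1⟩ := rfl
  generalize (y : R3) 0 = x1 at *
  generalize (y : R3) 1 = x2 at *
  generalize (y : R3) 2 = h at *
  have hw1 : (proj y' (⟨a1, a2⟩, ⟨b1, b2⟩)).1 =
      ⟨((1 + (y' : R3) 2) * a1 + ((y' : R3) 0 * b1 + (y' : R3) 1 * b2)) / 2,
       ((1 + (y' : R3) 2) * a2 + ((y' : R3) 0 * b2 - (y' : R3) 1 * b1)) / 2⟩ := by
    apply Complex.ext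
    · simp [proj, hz]; ring
    · simp [proj, hz]; ring
  have hw2 : (proj y' (⟨a1, a2⟩, ⟨b1, b2⟩)).2 =
      ⟨((y' : R3) 0 * a1 - (y' : R3) 1 * a2 + (1 - (y' : R3) 2) * b1) / 2,
       ((y' : R3) 0 * a2 + (y' : R3) 1 * a1 + (1 - (y' : R3) 2) * b2) / 2⟩ := by
    apply Complex.ext
    · simp [proj, hz]; ring
    · simp [proj, hz]; ring
  rw [hw1, hw2, hz', Complex.sq_norm, Complex.sq_norm, Complex.normSq_mk, Complex.normSq_mk]
  generalize (y' : R3) 0 = z1 at *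
  generalize (y' : R3) 1 = z2 at *
  generalize (y' : R3) 2 = k at *
  refine ⟨?_, ?_, ?_⟩
  · have e1 : ((1 + k) * a1 + (z1 * b1 + z2 * b2)) / 2 * (((1 + k) * a1 + (z1 * b1 + z2 * b2)) / 2) +
        ((1 + k) * a2 + (z1 * b2 - z2 * b1)) / 2 * (((1 + k) * a2 + (z1 * b2 - z2 * b1)) / 2) +
        ((z1 * a1 - z2 * a2 + (1 - k) * b1) / 2 * ((z1 * a1 - z2 * a2 + (1 - k) * b1) / 2) +
        (z1 * a2 + z2 * a1 + (1 - k) * b2) / 2 * ((z1 * a2 + z2 * a1 + (1 - k) * b2) / 2)) =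
        1 / 2 * ((1 + k) * (a1 * a1 + a2 * a2) + (1 - k) * (b1 * b1 + b2 * b2) +
          2 * (z1 * (a1 * b1 + a2 * b2) - z2 * (a2 * b1 - a1 * b2))) := by
      linear_combination ((a1 * a1 + a2 * a2 + (b1 * b1 + b2 * b2)) / 4) * hy'
    rw [e1]
    have e2 : a1 * a1 + a2 * a2 = (1 + h) / 2 := by linarith
    have e3 : b1 * b1 + b2 * b2 = (1 - h) / 2 := by linarith
    have e4 : a1 * b1 + a2 * b2 = x1 / 2 := by linarith
    have e5 : a2 * b1 - a1 * b2 = - x2 / 2 := by linarith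
    rw [e2, e3, e4, e5]
    nlinarith
  · apply Complex.ext
    · simp
      linear_combination (-((a1 * a1 + a2 * a2 + (b1 * b1 + b2 * b2)) * z1 / 4 +
        (a1 * b1 + a2 * b2) / 2)) * hy'
    · simp
      linear_combination (-((a1 * a1 + a2 * a2 + (b1 * b1 + b2 * b2)) * z2 / 4 +
        (a1 * b2 - a2 * b1) / 2)) * hy'
  · linear_combination ((b1 * b1 + b2 * b2 - (a1 * a1 + a2 * a2)) / 4 -
      k * (a1 * a1 + a2 * a2 + (b1 * b1 + b2 * b2)) / 4) * hy'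

theorem proj_continuous : Continuous fun p : R3 × (ℂ × ℂ) => proj p.1 p.2 := by
  have h1 : Continuous fun p : R3 × (ℂ × ℂ) => hz p.1 := continuous_hz.comp continuous_fst
  have h2 : Continuous fun p : R3 × (ℂ × ℂ) => starRingEnd ℂ (hz p.1) :=
    Complex.continuous_conj.comp h1
  have h3 : Continuous fun p : R3 × (ℂ × ℂ) => ((p.1 2 : ℝ) : ℂ) := by fun_prop
  unfold proj
  exact Continuous.prodMk
    (continuous_const.mul (((continuous_const.add h3).mul (continuous_fst.comp continuous_snd)).add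
      (h2.mul (continuous_snd.comp continuous_snd))))
    (continuous_const.mul ((h1.mul (continuous_fst.comp continuous_snd)).add
      ((continuous_const.sub h3).mul (continuous_snd.comp continuous_snd))))

theorem lift_step {A : Type} [TopologicalSpace A] {σ σ' : C(A, S2)} {v : C(A, ℂ × ℂ)}
    (h : IsLift σ v) (hd : ∀ x, ‖(σ x : R3) - (σ' x : R3)‖ ≤ 1) : ∃ v', IsLift σ' v' := by
  have hw : Continuous fun x => proj (σ' x : R3) (v x) :=
    proj_continuous.comp ((continuous_subtype_val.comp σ'.continuous).prodMk v.continuous)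
  set n : A → ℝ := fun x => ‖(proj (σ' x : R3) (v x)).1‖ ^ 2 + ‖(proj (σ' x : R3) (v x)).2‖ ^ 2
    with hn
  have hnc : Continuous n :=
    ((continuous_fst.comp hw).norm.pow 2).add ((continuous_snd.comp hw).norm.pow 2)
  have halg := fun x => proj_alg (σ x) (σ' x) (v x) (h x) (hd x)
  have hnpos : ∀ x, 0 < n x := fun x => by have := (halg x).1; linarith
  set c : A → ℝ := fun x => (Real.sqrt (n x))⁻¹ with hc
  have hcc : Continuous c := (Real.continuous_sqrt.comp hnc).inv₀ fun x =>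
    (Real.sqrt_pos.2 (hnpos x)).ne'
  have hc2 : ∀ x, c x ^ 2 * n x = 1 := by
    intro x
    simp only [hc]
    rw [inv_pow, Real.sq_sqrt (hnpos x).le, inv_mul_cancel₀ (hnpos x).ne']
  refine ⟨⟨fun x => ((c x : ℂ) * (proj (σ' x : R3) (v x)).1, (c x : ℂ) * (proj (σ' x : R3) (v x)).2),
    ((Complex.continuous_ofReal.comp hcc).mul (continuous_fst.comp hw)).prodMk
      ((Complex.continuous_ofReal.comp hcc).mul (continuous_snd.comp hw))⟩, fun x => ?_⟩
  obtain ⟨-, h2, h3⟩ := halg x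
  have hcx := hc2 x
  refine ⟨?_, ?_, ?_⟩
  · simp only [ContinuousMap.coe_mk, norm_mul, Complex.norm_real, Real.norm_eq_abs, mul_pow, sq_abs]
    rw [← mul_add]; exact hcx
  · simp only [ContinuousMap.coe_mk, map_mul, Complex.conj_ofReal]
    have : 2 * ((c x : ℂ) * (starRingEnd ℂ) (proj (σ' x : R3) (v x)).1) *
        ((c x : ℂ) * (proj (σ' x : R3) (v x)).2) =
        (c x : ℂ) ^ 2 * (2 * (starRingEnd ℂ) (proj (σ' x : R3) (v x)).1 *
          (proj (σ' x : R3) (v x)).2) := by ring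
    rw [this, h2, ← mul_assoc]
    have h4 : (c x : ℂ) ^ 2 * ((‖(proj (σ' x : R3) (v x)).1‖ ^ 2 +
        ‖(proj (σ' x : R3) (v x)).2‖ ^ 2 : ℝ) : ℂ) = 1 := by
      have := congrArg (fun t : ℝ => (t : ℂ)) hcx
      simpa [hn] using this
    rw [h4, one_mul]
  · simp only [ContinuousMap.coe_mk, norm_mul, Complex.norm_real, Real.norm_eq_abs, mul_pow, sq_abs]
    rw [← mul_sub, h3, ← mul_assoc]
    have : c x ^ 2 * (‖(proj (σ' x : R3) (v x)).1‖ ^ 2 + ‖(proj (σ' x : R3) (v x)).2‖ ^ 2) = 1 := hcx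
    rw [this, one_mul]

/-- contraction of the simplex to its vertex `0` -/
def ctr {n : ℕ} (s : unitInterval) : C(Dl n, Dl n) :=
  ⟨fun x => ⟨(1 - (s : ℝ)) • ((vx 0 : Dl n) : Fin (n + 1) → ℝ) + (s : ℝ) • (x : Fin (n + 1) → ℝ),
    convex_stdSimplex ℝ (Fin (n + 1)) (vx 0 : Dl n).2 x.2 (by linarith [s.2.2]) s.2.1 (by ring)⟩,
    by fun_prop⟩

theorem ctr_one {n : ℕ} (x : Dl n) : ctr 1 x = x := by
  apply Subtype.ext
  simp [ctr]
  rfl

theorem ctr_zero {n : ℕ} (x : Dl n) : ctr 0 x = vx 0 := by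
  apply Subtype.ext
  simp [ctr]

theorem ctr_dist {n : ℕ} (s s' : unitInterval) (x : Dl n) :
    dist (ctr s x) (ctr s' x) ≤ |(s : ℝ) - s'| := by
  rw [Subtype.dist_eq, dist_pi_le_iff (abs_nonneg _)]
  intro i
  simp only [ctr, ContinuousMap.coe_mk, Pi.add_apply, Pi.smul_apply, smul_eq_mul, Real.dist_eq]
  have e1 : (1 - (s : ℝ)) * ((vx 0 : Dl n) : Fin (n + 1) → ℝ) i + (s : ℝ) * (x : Fin (n + 1) → ℝ) i -
      ((1 - (s' : ℝ)) * ((vx 0 : Dl n) : Fin (n + 1) → ℝ) i + (s' : ℝ) * (x : Fin (n + 1) → ℝ) i) =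
      ((s : ℝ) - s') * ((x : Fin (n + 1) → ℝ) i - ((vx 0 : Dl n) : Fin (n + 1) → ℝ) i) := by ring
  rw [e1, abs_mul]
  have hb : ∀ z : Dl n, 0 ≤ (z : Fin (n + 1) → ℝ) i ∧ (z : Fin (n + 1) → ℝ) i ≤ 1 := by
    intro z
    refine ⟨z.2.1 i, ?_⟩
    rw [← z.2.2]
    exact Finset.single_le_sum (fun j _ => z.2.1 j) (Finset.mem_univ i)
  have h1 : |(x : Fin (n + 1) → ℝ) i - ((vx 0 : Dl n) : Fin (n + 1) → ℝ) i| ≤ 1 := by
    rw [abs_le]
    have h2 := hb x
    have h3 := hb (vx 0)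
    constructor <;> linarith [h2.1, h2.2, h3.1, h3.2]
  exact mul_le_of_le_one_right (abs_nonneg _) h1

theorem exists_lift {n : ℕ} (σ : C(Dl n, S2)) : ∃ v : C(Dl n, ℂ × ℂ), IsLift σ v := by
  haveI : CompactSpace (Dl n) := isCompact_iff_compactSpace.1 (isCompact_stdSimplex ℝ (Fin (n + 1)))
  have huc := CompactSpace.uniformContinuous_of_continuous σ.continuous
  obtain ⟨δ, hδ, hδ'⟩ := Metric.uniformContinuous_iff.1 huc 1 one_pos
  obtain ⟨N, hN⟩ := exists_nat_gt (1 / δ)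
  have hN0 : (0 : ℝ) < N := lt_trans (by positivity) hN
  have hmem : ∀ j : ℕ, j ≤ N → (j : ℝ) / N ∈ unitInterval := by
    intro j hj
    refine ⟨by positivity, ?_⟩
    rw [div_le_one hN0]
    exact_mod_cast hj
  have key : ∀ j : ℕ, ∀ hj : j ≤ N, ∃ v, IsLift (σ.comp (ctr ⟨(j : ℝ) / N, hmem j hj⟩)) v := by
    intro j
    induction j with
    | zero =>
      intro hj
      obtain ⟨v, hv⟩ := exists_liftPt (σ (vx 0))
      refine ⟨ContinuousMap.const _ v, fun x => ?_⟩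
      have e1 : (⟨((0 : ℕ) : ℝ) / N, hmem 0 hj⟩ : unitInterval) = 0 := by
        apply Subtype.ext; simp
      rw [ContinuousMap.comp_apply, e1, ctr_zero]
      exact hv
    | succ j ih =>
      intro hj
      obtain ⟨v, hv⟩ := ih (by omega)
      refine lift_step hv fun x => ?_
      have h1 : dist (ctr ⟨(j : ℝ) / N, hmem j (by omega)⟩ x)
          (ctr ⟨((j + 1 : ℕ) : ℝ) / N, hmem (j + 1) hj⟩ x) < δ := by
        refine (ctr_dist _ _ x).trans_lt ?_
        simp only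
        have : (j : ℝ) / N - ((j + 1 : ℕ) : ℝ) / N = - (1 / N) := by
          push_cast; ring
        rw [this, abs_neg, abs_of_pos (by positivity)]
        rw [one_div, inv_lt_comm₀ hN0 hδ]
        simpa using hN
      have h2 := hδ' h1
      rw [Subtype.dist_eq, dist_eq_norm] at h2
      exact h2.le
  obtain ⟨v, hv⟩ := key N le_rfl
  refine ⟨v, fun x => ?_⟩
  have e1 : (⟨(N : ℝ) / N, hmem N le_rfl⟩ : unitInterval) = 1 := by
    apply Subtype.ext; simp [hN0.ne']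
  have := hv x
  rw [ContinuousMap.comp_apply, e1, ctr_one] at this
  exact this

end

end Crest.Agent.R123

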