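/-
ROW 123 (S0163), piece HomRatio: the ratio of two lifts.

`exists_ratio`: for two unit lifts `v, v'` of the same point, `u = conj(v₁) v₁' + conj(v₂) v₂'` satisfies `v' = u v`,
`|u| = 1` (polynomial identities: `v₁' v₂ = v₁ v₂'` follows from equal Hopf images: with `P = |v₁|² = |v₁'|²`,
`Q = |v₂|²`, `v̄₁ v₂ = v̄₁' v₂'`.  E.g. `u v₁ = P v₁' + v₁ v̄₂ v₂' `, and `v₁ v̄₂ = conj (v̄₁ v₂) = conj (v̄₁' v₂') = v₁' v̄₂'`, so
`u v₁ = P v₁' + Q v₁' = v₁'`; similarly `u v₂ = v̄₁ v₂ v₁' + Q v₂' = v̄₁' v₂' v₁' + Q v₂' = v₂'`.)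
`ratio_eq`: uniqueness, `v x ≠ 0`.  The other lemmas follow from `exists_ratio` and `ratio_eq`.
-/
import Crest.Agent.R123.HomLift

set_option autoImplicit false

namespace Crest.Agent.R123

noncomputable section

variable {A B : Type} [TopologicalSpace A] [TopologicalSpace B]

namespace HomRatio_aux

theorem key {y : S2} {v v' : ℂ × ℂ} (h : IsLiftPt y v) (h' : IsLiftPt y v') :
    (starRingEnd ℂ v.1 * v'.1 + starRingEnd ℂ v.2 * v'.2) * v.1 = v'.1 ∧
    (starRingEnd ℂ v.1 * v'.1 + starRingEnd ℂ v.2 * v'.2) * v.2 = v'.2 := by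
  obtain ⟨a, b⟩ := v
  obtain ⟨a', b'⟩ := v'
  obtain ⟨h1, h2, h3⟩ := h
  obtain ⟨h1', h2', h3'⟩ := h'
  simp only at h1 h2 h3 h1' h2' h3' ⊢
  have e1 : ‖a‖ ^ 2 = ‖a'‖ ^ 2 := by linarith
  have e2 : ‖b‖ ^ 2 = ‖b'‖ ^ 2 := by linarith
  have e3 : starRingEnd ℂ a * b = starRingEnd ℂ a' * b' := by
    have : 2 * (starRingEnd ℂ a * b) = 2 * (starRingEnd ℂ a' * b') := by
      rw [← mul_assoc, ← mul_assoc, h2, h2']
    exact mul_left_cancel₀ two_ne_zero this
  have e4 : a * starRingEnd ℂ b = a' * starRingEnd ℂ b' := by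
    have := congrArg (starRingEnd ℂ) e3
    simpa [map_mul, Complex.conj_conj] using this
  have c1 : starRingEnd ℂ a * a = ((‖a'‖ ^ 2 : ℝ) : ℂ) := by
    rw [← e1, Complex.conj_mul']; push_cast; rfl
  have c2 : starRingEnd ℂ b * b = ((‖b'‖ ^ 2 : ℝ) : ℂ) := by
    rw [← e2, Complex.conj_mul']; push_cast; rfl
  have c1' : starRingEnd ℂ a' * a' = ((‖a'‖ ^ 2 : ℝ) : ℂ) := by
    rw [Complex.conj_mul']; push_cast; rfl
  have c2' : starRingEnd ℂ b' * b' = ((‖b'‖ ^ 2 : ℝ) : ℂ) := by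
    rw [Complex.conj_mul']; push_cast; rfl
  have c3 : ((‖a'‖ ^ 2 : ℝ) : ℂ) + ((‖b'‖ ^ 2 : ℝ) : ℂ) = 1 := by
    rw [← Complex.ofReal_add, h1', Complex.ofReal_one]
  constructor
  · calc (starRingEnd ℂ a * a' + starRingEnd ℂ b * b') * a
        = (starRingEnd ℂ a * a) * a' + (a * starRingEnd ℂ b) * b' := by ring
      _ = (((‖a'‖ ^ 2 : ℝ) : ℂ) + starRingEnd ℂ b' * b') * a' := by rw [c1, e4]; ring
      _ = a' := by rw [c2', c3, one_mul]
  · calc (starRingEnd ℂ a * a' + starRingEnd ℂ b * b') * b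
        = (starRingEnd ℂ a * b) * a' + (starRingEnd ℂ b * b) * b' := by ring
      _ = (starRingEnd ℂ a' * a' + ((‖b'‖ ^ 2 : ℝ) : ℂ)) * b' := by rw [c2, e3]; ring
      _ = b' := by rw [c1', c3, one_mul]

theorem norm_one {y : S2} {v v' : ℂ × ℂ} (h : IsLiftPt y v) (h' : IsLiftPt y v') :
    ‖starRingEnd ℂ v.1 * v'.1 + starRingEnd ℂ v.2 * v'.2‖ = 1 := by
  obtain ⟨k1, k2⟩ := key h h'
  have h1 := h.1
  have h1' := h'.1
  generalize starRingEnd ℂ v.1 * v'.1 + starRingEnd ℂ v.2 * v'.2 = w at k1 k2 ⊢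
  rw [← k1, ← k2, norm_mul, norm_mul, mul_pow, mul_pow, ← mul_add, h1, mul_one] at h1'
  exact (pow_eq_one_iff_of_nonneg (norm_nonneg _) two_ne_zero).1 h1'

theorem ne_zero {y : S2} {v : ℂ × ℂ} (h : IsLiftPt y v) : v ≠ 0 := by
  rintro rfl
  have := h.1
  simp at this

end HomRatio_aux

open HomRatio_aux in
theorem exists_ratio {σ : C(A, S2)} {v v' : C(A, ℂ × ℂ)} (h : IsLift σ v) (h' : IsLift σ v') :
    ∃ u : C(A, Circle), ∀ x, v' x = (u x : ℂ) • v x := by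
  refine ⟨⟨fun x => ⟨starRingEnd ℂ (v x).1 * (v' x).1 + starRingEnd ℂ (v x).2 * (v' x).2,
    mem_sphere_zero_iff_norm.2 (norm_one (h x) (h' x))⟩, ?_⟩, fun x => ?_⟩
  · refine Continuous.subtype_mk ?_ _
    have c1 : Continuous fun x => starRingEnd ℂ (v x).1 :=
      Complex.continuous_conj.comp (continuous_fst.comp v.continuous)
    have c2 : Continuous fun x => starRingEnd ℂ (v x).2 :=
      Complex.continuous_conj.comp (continuous_snd.comp v.continuous)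
    exact (c1.mul (continuous_fst.comp v'.continuous)).add
      (c2.mul (continuous_snd.comp v'.continuous))
  · obtain ⟨k1, k2⟩ := key (h x) (h' x)
    apply Prod.ext
    · exact k1.symm
    · exact k2.symm

open Classical in
/-- the ratio `v' / v` of two lifts -/
def ratio (v v' : C(A, ℂ × ℂ)) : C(A, Circle) :=
  if h : ∃ u : C(A, Circle), ∀ x, v' x = (u x : ℂ) • v x then Classical.choose h else 1

theorem ratio_spec {σ : C(A, S2)} {v v' : C(A, ℂ × ℂ)} (h : IsLift σ v) (h' : IsLift σ v') (x : A) :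
    v' x = (ratio v v' x : ℂ) • v x := by
  have hex := exists_ratio h h'
  rw [ratio, dif_pos hex]
  exact Classical.choose_spec hex x

theorem ratio_eq {σ : C(A, S2)} {v v' : C(A, ℂ × ℂ)} (h : IsLift σ v) (u : C(A, Circle))
    (hu : ∀ x, v' x = (u x : ℂ) • v x) : ratio v v' = u := by
  have hex : ∃ u : C(A, Circle), ∀ x, v' x = (u x : ℂ) • v x := ⟨u, hu⟩
  rw [ratio, dif_pos hex]
  ext x
  have h1 := Classical.choose_spec hex x
  rw [hu x] at h1
  exact (smul_left_injective ℂ (HomRatio_aux.ne_zero (h x)) h1).symm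

theorem ratio_mul {σ : C(A, S2)} {v v' v'' : C(A, ℂ × ℂ)} (h : IsLift σ v) (h' : IsLift σ v')
    (h'' : IsLift σ v'') : ratio v v'' = ratio v v' * ratio v' v'' := by
  apply ratio_eq h
  intro x
  rw [ratio_spec h' h'' x, ratio_spec h h' x, smul_smul]
  simp [mul_comm]

theorem ratio_comp {σ : C(A, S2)} {v v' : C(A, ℂ × ℂ)} (h : IsLift σ v) (h' : IsLift σ v')
    (f : C(B, A)) : ratio (v.comp f) (v'.comp f) = (ratio v v').comp f := by
  apply ratio_eq (h.comp f)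
  intro x
  exact ratio_spec h h' (f x)

end

end Crest.Agent.R123
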