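/-
ROW 123 (S0163), piece HomCoc: the Chern cocycle `phi` on singular 2-simplices of `S²`.

* `phi_eq`: independence of the lift: with `u = ratio (lf σ) v` on `Dl 2`,
  `ratio (lf (σ∘fc i)) (v∘fc i) = ratio (lf (σ∘fc i)) (lf σ ∘ fc i) * (u ∘ fc i)` (`ratio_mul`, `ratio_comp`), then `Wd_mul` and
  `Wd_boundary u`.
* `phi_coc`: take `v = lf ρ` on `Dl 3`; `phi (ρ∘fc j) = ∑ i (-1)^i Wd (ratio (lf (ρ∘fc j∘fc i)) (v∘fc j∘fc i))` by `phi_eq`; the double
  sum over `(j,i)` cancels in pairs by the simplicial identity `fc_fc` (4 x 3 = 12 explicit terms: `Fin.sum_univ_four`,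
  `Fin.sum_univ_three`; the pairs: `fc j.succ ∘ fc i = fc i.castSucc ∘ fc j`, `i ≤ j`).
-/
import Crest.Agent.R123.HomAngle
import Crest.Agent.R123.HomRatio

set_option autoImplicit false

namespace Crest.Agent.R123

noncomputable section

/-- a chosen lift -/
def lf {n : ℕ} (σ : C(Dl n, S2)) : C(Dl n, ℂ × ℂ) := Classical.choose (exists_lift σ)

theorem lf_isLift {n : ℕ} (σ : C(Dl n, S2)) : IsLift σ (lf σ) := Classical.choose_spec (exists_lift σ)

/-- the Chern cocycle -/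
def phi (σ : C(Dl 2, S2)) : ℝ :=
  ∑ i : Fin 3, (-1 : ℝ) ^ (i : ℕ) * Wd (ratio (lf (σ.comp (fc i))) ((lf σ).comp (fc i)))

theorem phi_eq (σ : C(Dl 2, S2)) (v : C(Dl 2, ℂ × ℂ)) (h : IsLift σ v) :
    phi σ = ∑ i : Fin 3, (-1 : ℝ) ^ (i : ℕ) * Wd (ratio (lf (σ.comp (fc i))) (v.comp (fc i))) := by
  have key : ∀ i : Fin 3, Wd (ratio (lf (σ.comp (fc i))) (v.comp (fc i))) =
      Wd (ratio (lf (σ.comp (fc i))) ((lf σ).comp (fc i))) + Wd ((ratio (lf σ) v).comp (fc i)) := by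
    intro i
    rw [ratio_mul (lf_isLift (σ.comp (fc i))) ((lf_isLift σ).comp (fc i)) (h.comp (fc i)),
      ratio_comp (lf_isLift σ) h (fc i), Wd_mul]
  simp only [key, mul_add, Finset.sum_add_distrib, Wd_boundary, add_zero]
  rfl

theorem phi_coc (ρ : C(Dl 3, S2)) :
    ∑ j : Fin 4, (-1 : ℝ) ^ (j : ℕ) * phi (ρ.comp (fc j)) = 0 := by
  have h1 : ∀ j : Fin 4, phi (ρ.comp (fc j)) = ∑ i : Fin 3, (-1 : ℝ) ^ (i : ℕ) *
      Wd (ratio (lf ((ρ.comp (fc j)).comp (fc i))) (((lf ρ).comp (fc j)).comp (fc i))) :=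
    fun j => phi_eq (ρ.comp (fc j)) ((lf ρ).comp (fc j)) ((lf_isLift ρ).comp (fc j))
  have h2 : ∀ i j : Fin 3, i ≤ j →
      Wd (ratio (lf ((ρ.comp (fc j.succ)).comp (fc i))) (((lf ρ).comp (fc j.succ)).comp (fc i))) =
      Wd (ratio (lf ((ρ.comp (fc i.castSucc)).comp (fc j)))
        (((lf ρ).comp (fc i.castSucc)).comp (fc j))) := by
    intro i j hij
    have e1 : (ρ.comp (fc j.succ)).comp (fc i) = (ρ.comp (fc i.castSucc)).comp (fc j) := by
      ext1 t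
      simp only [ContinuousMap.comp_apply]
      rw [fc_fc hij t]
    have e2 : ((lf ρ).comp (fc j.succ)).comp (fc i) = ((lf ρ).comp (fc i.castSucc)).comp (fc j) := by
      ext1 t
      simp only [ContinuousMap.comp_apply]
      rw [fc_fc hij t]
    rw [e1, e2]
  simp only [h1]
  generalize hG : (fun (j : Fin 4) (i : Fin 3) =>
    Wd (ratio (lf ((ρ.comp (fc j)).comp (fc i))) (((lf ρ).comp (fc j)).comp (fc i)))) = G at *
  have hG' : ∀ j i, Wd (ratio (lf ((ρ.comp (fc j)).comp (fc i)))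
      (((lf ρ).comp (fc j)).comp (fc i))) = G j i := by
    intro j i
    rw [← hG]
  simp only [hG'] at h2 ⊢
  have a1 := h2 0 0 (le_refl _)
  have a2 := h2 0 1 (by decide)
  have a3 := h2 0 2 (by decide)
  have a4 := h2 1 1 (le_refl _)
  have a5 := h2 1 2 (by decide)
  have a6 := h2 2 2 (le_refl _)
  simp only [Fin.sum_univ_four, Fin.sum_univ_three]
  simp only [Fin.isValue, show (0 : Fin 3).succ = 1 from rfl, show (1 : Fin 3).succ = 2 from rfl,
    show (2 : Fin 3).succ = 3 from rfl, show (0 : Fin 3).castSucc = 0 from rfl,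
    show (1 : Fin 3).castSucc = 1 from rfl, show (2 : Fin 3).castSucc = 2 from rfl] at a1 a2 a3 a4 a5 a6
  simp only [show ((0 : Fin 4) : ℕ) = 0 from rfl, show ((1 : Fin 4) : ℕ) = 1 from rfl,
    show ((2 : Fin 4) : ℕ) = 2 from rfl, show ((3 : Fin 4) : ℕ) = 3 from rfl,
    show ((0 : Fin 3) : ℕ) = 0 from rfl, show ((1 : Fin 3) : ℕ) = 1 from rfl,
    show ((2 : Fin 3) : ℕ) = 2 from rfl]
  rw [a1, a2, a3, a4, a5, a6]
  ring

end

end Crest.Agent.R123
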