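/-
ROW 123 (S0163), piece HomCone: cones (from the poles) over phase simplices.

For `g : Dl m → Circle`: `coneFun g t = (1-t₀) g(rest/(1-t₀))` (`0` at `t₀ = 1`), `ht t = √(1-(1-t₀)²)`, and
`Kc b g t = (coneFun g t, ± ht t) ∈ S²`.
* `coneFun_continuous`: at `t₀ = 1`: squeeze with `‖coneFun g t‖ = 1 - t₀`; elsewhere `tl` is continuous (locally given by
  the formula).
* faces: `Kc_fc_zero`: `t₀ = 0`, `tl (fc 0 t) = t`, `ht = 0`.  `Kc_fc_succ`: `(fc i.succ t) 0 = t 0` (as `0 = i.succ.succAbove 0`),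
  `tl (fc i.succ t) = fc i (tl t)` if `t₀ ≠ 1` (`fc_succAbove`, `fc_self`, `Fin.succ_succAbove_succ`); both sides have
  `coneFun = 0` if `t₀ = 1`.
* `psi0_Kc`: `sqn (r u) = r u²` for `r ≥ 0`, `|u| = 1`.
-/
import Crest.Agent.R123.HomDefs

set_option autoImplicit false

namespace Crest.Agent.R123

noncomputable section

theorem tl_aux {m : ℕ} (t : Dl (m + 1)) (h : t 0 ≠ 1) :
    (fun j : Fin (m + 1) => t j.succ / (1 - t 0)) ∈ stdSimplex ℝ (Fin (m + 1)) := by
  have h1 : 0 < 1 - t 0 := by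
    have := stdSimplex.le_one t 0
    exact sub_pos.2 (lt_of_le_of_ne this h)
  refine ⟨fun j => div_nonneg (stdSimplex.zero_le t _) h1.le, ?_⟩
  rw [← Finset.sum_div]
  have h2 := stdSimplex.sum_eq_one t
  rw [Fin.sum_univ_succ] at h2
  rw [show ∑ i : Fin (m + 1), t i.succ = 1 - t 0 by linarith]
  exact div_self h1.ne'

open Classical in
/-- `rest/(1-t₀)` (junk if `t₀ = 1`) -/
def tl {m : ℕ} (t : Dl (m + 1)) : Dl m :=
  if h : t 0 ≠ 1 then ⟨fun j => t j.succ / (1 - t 0), tl_aux t h⟩ else vx 0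

/-- complex cone coordinate -/
def coneFun {m : ℕ} (g : C(Dl m, Circle)) (t : Dl (m + 1)) : ℂ := ((1 - t 0 : ℝ) : ℂ) * (g (tl t) : ℂ)

/-- the height -/
def ht {m : ℕ} (t : Dl (m + 1)) : ℝ := Real.sqrt (1 - (1 - t 0) ^ 2)

/-- sign -/
def sg (b : Bool) : ℝ := if b then 1 else -1

theorem sg_sq (b : Bool) : sg b ^ 2 = 1 := by cases b <;> simp [sg]

theorem norm_coneFun {m : ℕ} (g : C(Dl m, Circle)) (t : Dl (m + 1)) : ‖coneFun g t‖ = 1 - t 0 := by
  have h : 0 ≤ 1 - t 0 := sub_nonneg.2 (stdSimplex.le_one t 0)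
  rw [coneFun, norm_mul, Complex.norm_real, Real.norm_of_nonneg h, Circle.norm_coe, mul_one]

theorem ht_sq {m : ℕ} (t : Dl (m + 1)) : ht t ^ 2 = 1 - (1 - t 0) ^ 2 := by
  have h1 : 0 ≤ 1 - t 0 := sub_nonneg.2 (stdSimplex.le_one t 0)
  have h2 : 0 ≤ t 0 := stdSimplex.zero_le t 0
  exact Real.sq_sqrt (by nlinarith)

theorem ht_nonneg {m : ℕ} (t : Dl (m + 1)) : 0 ≤ ht t := Real.sqrt_nonneg _

theorem Kc_aux {m : ℕ} (b : Bool) (g : C(Dl m, Circle)) (t : Dl (m + 1)) :
    mk3 (coneFun g t) (sg b * ht t) ∈ Metric.sphere (0 : R3) 1 := by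
  apply mk3_mem
  rw [norm_coneFun, mul_pow, sg_sq, ht_sq]
  ring

theorem coneFun_continuous {m : ℕ} (g : C(Dl m, Circle)) : Continuous (coneFun g) := by
  have hev : ∀ {n : ℕ} (j : Fin (n + 1)), Continuous fun t : Dl n => t j := fun j =>
    (continuous_apply j).comp continuous_subtype_val
  rw [continuous_iff_continuousAt]
  intro t
  by_cases h : t 0 = 1
  · have h0 : coneFun g t = 0 := by rw [coneFun, h]; simp
    rw [ContinuousAt, h0, tendsto_zero_iff_norm_tendsto_zero]
    simp only [norm_coneFun]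
    have h1 : Continuous fun t : Dl (m + 1) => 1 - t 0 := continuous_const.sub (hev 0)
    have h2 := h1.tendsto t
    rw [h, sub_self] at h2
    exact h2
  · have hne : ∀ᶠ t' : Dl (m + 1) in nhds t, t' 0 ≠ 1 :=
      (hev (0 : Fin (m + 1 + 1))).continuousAt.eventually_ne h
    have htl : ContinuousAt (tl (m := m)) t := by
      rw [Topology.IsInducing.subtypeVal.continuousAt_iff]
      have h1 : (fun t' : Dl (m + 1) => (fun j : Fin (m + 1) => t' j.succ / (1 - t' 0)))
          =ᶠ[nhds t] (Subtype.val ∘ tl (m := m)) := by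
        filter_upwards [hne] with t' ht'
        simp only [Function.comp_apply, tl]
        rw [dif_pos ht']
      refine ContinuousAt.congr ?_ h1
      refine continuousAt_pi.2 fun j => ?_
      refine ContinuousAt.div (hev j.succ).continuousAt
        (continuous_const.sub (hev 0)).continuousAt ?_
      exact sub_ne_zero.2 (Ne.symm h)
    unfold coneFun
    refine ContinuousAt.mul ?_ ?_
    · exact (Complex.continuous_ofReal.comp (continuous_const.sub (hev 0))).continuousAt
    · exact (continuous_subtype_val.comp g.continuous).continuousAt.comp htl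

theorem ht_continuous {m : ℕ} : Continuous (fun t : Dl (m + 1) => ht t) := by
  have hev : Continuous fun t : Dl (m + 1) => t 0 :=
    (continuous_apply 0).comp continuous_subtype_val
  exact Real.continuous_sqrt.comp (continuous_const.sub ((continuous_const.sub hev).pow 2))

/-- the cone over `g` from the north (`b = true`) or south pole -/
def Kc (b : Bool) {m : ℕ} (g : C(Dl m, Circle)) : C(Dl (m + 1), S2) where
  toFun t := ⟨mk3 (coneFun g t) (sg b * ht t), Kc_aux b g t⟩
  continuous_toFun := by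
    refine Continuous.subtype_mk ?_ _
    exact continuous_mk3.comp ((coneFun_continuous g).prodMk (continuous_const.mul ht_continuous))

theorem Kc_coe (b : Bool) {m : ℕ} (g : C(Dl m, Circle)) (t : Dl (m + 1)) :
    (Kc b g t : R3) = mk3 (coneFun g t) (sg b * ht t) := rfl

theorem coneFun_fc_zero {m : ℕ} (g : C(Dl m, Circle)) (t : Dl m) : coneFun g (fc 0 t) = g t := by
  have h0 : (fc 0 t) 0 = 0 := fc_self 0 t
  have h1 : tl (fc 0 t) = t := by
    have hne : (fc 0 t) 0 ≠ 1 := by rw [h0]; exact zero_ne_one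
    unfold tl
    rw [dif_pos hne]
    apply Subtype.ext
    funext j
    have h2 : (fc 0 t) j.succ = t j := by
      have := fc_succAbove 0 j t
      rwa [Fin.zero_succAbove] at this
    change (fc 0 t) j.succ / (1 - (fc 0 t) 0) = t j
    rw [h2, h0]; simp
  rw [coneFun, h0, h1]; simp

theorem ht_fc_zero {m : ℕ} (t : Dl m) : ht (fc 0 t) = 0 := by
  have h0 : (fc 0 t) 0 = 0 := fc_self 0 t
  rw [ht, h0]; simp

theorem coneFun_fc_succ {m : ℕ} (g : C(Dl (m + 1), Circle)) (i : Fin (m + 2)) (t : Dl (m + 1)) :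
    coneFun g (fc i.succ t) = coneFun (g.comp (fc i)) t := by
  have h0 : (fc i.succ t) 0 = t 0 := by
    have := fc_succAbove i.succ 0 t
    rwa [Fin.succ_succAbove_zero] at this
  by_cases h : t 0 = 1
  · rw [coneFun, coneFun, h0, h]; simp
  · have hne : (fc i.succ t) 0 ≠ 1 := by rw [h0]; exact h
    have h1 : tl (fc i.succ t) = fc i (tl t) := by
      apply Subtype.ext
      funext k
      change (tl (fc i.succ t)) k = (fc i (tl t)) k
      have hL : (tl (fc i.succ t)) k = (fc i.succ t) k.succ / (1 - t 0) := by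
        unfold tl
        rw [dif_pos hne]
        change (fc i.succ t) k.succ / (1 - (fc i.succ t) 0) = _
        rw [h0]
      rw [hL]
      rcases Fin.eq_self_or_eq_succAbove i k with hk | ⟨j, hk⟩
      · rw [hk, fc_self, fc_self, zero_div]
      · rw [hk, ← Fin.succ_succAbove_succ, fc_succAbove, fc_succAbove]
        unfold tl
        rw [dif_pos h]
        rfl
    rw [coneFun, coneFun, h0, h1]
    rfl

theorem ht_fc_succ {m : ℕ} (i : Fin (m + 2)) (t : Dl (m + 1)) : ht (fc i.succ t) = ht t := by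
  have h0 : (fc i.succ t) 0 = t 0 := by
    have := fc_succAbove i.succ 0 t
    rwa [Fin.succ_succAbove_zero] at this
  rw [ht, ht, h0]

/-- both cones have the same equatorial face -/
theorem Kc_fc_zero (b b' : Bool) {m : ℕ} (g : C(Dl m, Circle)) :
    (Kc b g).comp (fc 0) = (Kc b' g).comp (fc 0) := by
  ext1 t
  apply Subtype.ext
  change ((Kc b g (fc 0 t) : S2) : R3) = ((Kc b' g (fc 0 t) : S2) : R3)
  rw [Kc_coe, Kc_coe, ht_fc_zero, mul_zero, mul_zero]

theorem Kc_fc_succ (b : Bool) {m : ℕ} (g : C(Dl (m + 1), Circle)) (i : Fin (m + 2)) :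
    (Kc b g).comp (fc i.succ) = Kc b (g.comp (fc i)) := by
  ext1 t
  apply Subtype.ext
  change ((Kc b g (fc i.succ t) : S2) : R3) = ((Kc b (g.comp (fc i)) t : S2) : R3)
  rw [Kc_coe, Kc_coe, coneFun_fc_succ, ht_fc_succ]

theorem psi0_Kc (b : Bool) {m : ℕ} (g : C(Dl m, Circle)) : psi0.comp (Kc b g) = Kc b (g * g) := by
  ext1 t
  apply Subtype.ext
  change ((psi0 (Kc b g t) : S2) : R3) = ((Kc b (g * g) t : S2) : R3)
  rw [psi0_coe, Kc_coe, Kc_coe, hz_mk3, mk3_two]
  congr 1
  have hr : 0 ≤ 1 - t 0 := sub_nonneg.2 (stdSimplex.le_one t 0)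
  have hn : ‖coneFun g t‖ = 1 - t 0 := norm_coneFun g t
  unfold sqn
  rw [hn]
  unfold coneFun
  have hgg : (((g * g) (tl t) : Circle) : ℂ) = (g (tl t) : ℂ) * (g (tl t) : ℂ) := by
    rw [ContinuousMap.mul_apply, Circle.coe_mul]
  rw [hgg]
  by_cases h : (1 - t 0 : ℝ) = 0
  · rw [h]; simp
  · have h' : ((1 - t 0 : ℝ) : ℂ) ≠ 0 := by exact_mod_cast h
    field_simp

end

end Crest.Agent.R123
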