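/-
ROW 123 (S0163), piece HomEval: explicit lifts of the cones, the loops `c1`, `c2`, evaluation of the cocycle.

Lifts: north `(√((1+h)/2), x/√(2(1+h)))`, south `(x̄/√(2(1+h)), √((1+h)/2))`, `x = coneFun g t`, `h = ht t`
(`‖x‖² + h² = 1`).
`phi_diff`: `phi_eq` with `v = Lc b c1`.  The faces 1, 2 of `Kc b c1` are `Kc b (c1 ∘ fc 0) = Kc b (c1 ∘ fc 1)`
(`Kc_fc_succ`, `c1_fc`), and also `Lc b c1 ∘ fc 1 = Lc b (c1 ∘ fc 0) = Lc b c1 ∘ fc 2`, so these two terms cancel.  Face 0: with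
`w = lf ((Kc b c1).comp (fc 0))` (the same simplex for both `b`, `Kc_fc_zero`):
`phi (Kc true c1) - phi (Kc false c1) = Wd (ratio w (Lc true c1 ∘ fc 0)) - Wd (ratio w (Lc false c1 ∘ fc 0))`
`= Wd (ratio (Lc false c1 ∘ fc 0) (Lc true c1 ∘ fc 0)) = Wd c1 = 2π` (`ratio_mul`, `Wd_mul`, `Lc_fc_zero`, `ratio_eq`, `Wd_eq`).
-/
import Crest.Agent.R123.HomCone
import Crest.Agent.R123.HomCoc

set_option autoImplicit false

namespace Crest.Agent.R123

noncomputable section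

/-- lift of the cone, as a function -/
def LcFun (b : Bool) {m : ℕ} (g : C(Dl m, Circle)) (t : Dl (m + 1)) : ℂ × ℂ :=
  if b then ((Real.sqrt ((1 + ht t) / 2) : ℂ), coneFun g t / (Real.sqrt (2 * (1 + ht t)) : ℂ))
  else (starRingEnd ℂ (coneFun g t) / (Real.sqrt (2 * (1 + ht t)) : ℂ), (Real.sqrt ((1 + ht t) / 2) : ℂ))

theorem sqrt_two_ne {m : ℕ} (t : Dl (m + 1)) : (Real.sqrt (2 * (1 + ht t)) : ℂ) ≠ 0 := by
  have h := ht_nonneg t
  have : Real.sqrt (2 * (1 + ht t)) ≠ 0 := (Real.sqrt_pos.2 (by linarith)).ne'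
  exact_mod_cast this

theorem LcFun_continuous (b : Bool) {m : ℕ} (g : C(Dl m, Circle)) : Continuous (LcFun b g) := by
  have hc := coneFun_continuous g
  have hh := ht_continuous (m := m)
  have h1 : Continuous (fun t : Dl (m + 1) => (Real.sqrt ((1 + ht t) / 2) : ℂ)) :=
    Complex.continuous_ofReal.comp (Real.continuous_sqrt.comp ((continuous_const.add hh).div_const 2))
  have h2 : Continuous (fun t : Dl (m + 1) => (Real.sqrt (2 * (1 + ht t)) : ℂ)) :=
    Complex.continuous_ofReal.comp (Real.continuous_sqrt.comp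
      (continuous_const.mul (continuous_const.add hh)))
  cases b
  · unfold LcFun
    simp only [Bool.false_eq_true, if_false]
    exact ((Complex.continuous_conj.comp hc).div h2 sqrt_two_ne).prodMk h1
  · unfold LcFun
    simp only [if_true]
    exact h1.prodMk (hc.div h2 sqrt_two_ne)

/-- lift of the cone -/
def Lc (b : Bool) {m : ℕ} (g : C(Dl m, Circle)) : C(Dl (m + 1), ℂ × ℂ) := ⟨LcFun b g, LcFun_continuous b g⟩

theorem sq_norm_sqrt_half (h : ℝ) (hh : 0 ≤ h) : ‖(Real.sqrt ((1 + h) / 2) : ℂ)‖ ^ 2 = (1 + h) / 2 := by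
  rw [Complex.norm_real, Real.norm_eq_abs, sq_abs, Real.sq_sqrt (by linarith)]

theorem sq_norm_sqrt_two (h : ℝ) (hh : 0 ≤ h) :
    ‖(Real.sqrt (2 * (1 + h)) : ℂ)‖ ^ 2 = 2 * (1 + h) := by
  rw [Complex.norm_real, Real.norm_eq_abs, sq_abs, Real.sq_sqrt (by linarith)]

theorem sqrt_rel (h : ℝ) (hh : 0 ≤ h) :
    2 * (Real.sqrt ((1 + h) / 2) : ℂ) = (Real.sqrt (2 * (1 + h)) : ℂ) := by
  have h1 : Real.sqrt (2 * (1 + h)) = 2 * Real.sqrt ((1 + h) / 2) := by
    rw [show 2 * (1 + h) = 2 ^ 2 * ((1 + h) / 2) by ring, Real.sqrt_mul (by norm_num),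
      Real.sqrt_sq (by norm_num)]
  rw [h1]; push_cast; ring

theorem Lc_isLift (b : Bool) {m : ℕ} (g : C(Dl m, Circle)) : IsLift (Kc b g) (Lc b g) := by
  intro t
  have hh := ht_nonneg t
  have hx : ‖coneFun g t‖ ^ 2 = 1 - ht t ^ 2 := by rw [norm_coneFun, ht_sq]; ring
  have e1 := sq_norm_sqrt_half (ht t) hh
  have e2 : ‖coneFun g t / (Real.sqrt (2 * (1 + ht t)) : ℂ)‖ ^ 2 = (1 - ht t) / 2 := by
    rw [norm_div, div_pow, sq_norm_sqrt_two _ hh, hx]
    have : 1 + ht t ≠ 0 := by linarith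
    field_simp
    ring
  have e2' : ‖starRingEnd ℂ (coneFun g t) / (Real.sqrt (2 * (1 + ht t)) : ℂ)‖ ^ 2 =
      (1 - ht t) / 2 := by
    rw [norm_div, RCLike.norm_conj, ← norm_div, e2]
  have e3 := sqrt_rel (ht t) hh
  have e4 := sqrt_two_ne t
  unfold IsLiftPt
  rw [Kc_coe, hz_mk3, mk3_two]
  cases b
  · have hv : (Lc false g) t = (starRingEnd ℂ (coneFun g t) / (Real.sqrt (2 * (1 + ht t)) : ℂ),
        (Real.sqrt ((1 + ht t) / 2) : ℂ)) := by
      change LcFun false g t = _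
      simp [LcFun]
    rw [hv]
    refine ⟨?_, ?_, ?_⟩
    · change ‖starRingEnd ℂ (coneFun g t) / (Real.sqrt (2 * (1 + ht t)) : ℂ)‖ ^ 2 +
        ‖(Real.sqrt ((1 + ht t) / 2) : ℂ)‖ ^ 2 = 1
      rw [e2', e1]; ring
    · change 2 * (starRingEnd ℂ (starRingEnd ℂ (coneFun g t) / (Real.sqrt (2 * (1 + ht t)) : ℂ))) *
        (Real.sqrt ((1 + ht t) / 2) : ℂ) = coneFun g t
      rw [map_div₀, Complex.conj_conj, Complex.conj_ofReal]
      rw [show 2 * (coneFun g t / (Real.sqrt (2 * (1 + ht t)) : ℂ)) *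
        (Real.sqrt ((1 + ht t) / 2) : ℂ) = coneFun g t *
          ((2 * (Real.sqrt ((1 + ht t) / 2) : ℂ)) / (Real.sqrt (2 * (1 + ht t)) : ℂ)) by ring,
        e3, div_self e4, mul_one]
    · change ‖starRingEnd ℂ (coneFun g t) / (Real.sqrt (2 * (1 + ht t)) : ℂ)‖ ^ 2 -
        ‖(Real.sqrt ((1 + ht t) / 2) : ℂ)‖ ^ 2 = sg false * ht t
      rw [e2', e1]; simp [sg]; ring
  · have hv : (Lc true g) t = ((Real.sqrt ((1 + ht t) / 2) : ℂ),
        coneFun g t / (Real.sqrt (2 * (1 + ht t)) : ℂ)) := by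
      change LcFun true g t = _
      simp [LcFun]
    rw [hv]
    refine ⟨?_, ?_, ?_⟩
    · change ‖(Real.sqrt ((1 + ht t) / 2) : ℂ)‖ ^ 2 +
        ‖coneFun g t / (Real.sqrt (2 * (1 + ht t)) : ℂ)‖ ^ 2 = 1
      rw [e2, e1]; ring
    · change 2 * (starRingEnd ℂ (Real.sqrt ((1 + ht t) / 2) : ℂ)) *
        (coneFun g t / (Real.sqrt (2 * (1 + ht t)) : ℂ)) = coneFun g t
      rw [Complex.conj_ofReal]
      rw [show 2 * (Real.sqrt ((1 + ht t) / 2) : ℂ) *
        (coneFun g t / (Real.sqrt (2 * (1 + ht t)) : ℂ)) = coneFun g t *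
          ((2 * (Real.sqrt ((1 + ht t) / 2) : ℂ)) / (Real.sqrt (2 * (1 + ht t)) : ℂ)) by ring,
        e3, div_self e4, mul_one]
    · change ‖(Real.sqrt ((1 + ht t) / 2) : ℂ)‖ ^ 2 -
        ‖coneFun g t / (Real.sqrt (2 * (1 + ht t)) : ℂ)‖ ^ 2 = sg true * ht t
      rw [e2, e1]; simp [sg]; ring

theorem Lc_fc_succ (b : Bool) {m : ℕ} (g : C(Dl (m + 1), Circle)) (i : Fin (m + 2)) :
    (Lc b g).comp (fc i.succ) = Lc b (g.comp (fc i)) := by
  ext t : 1
  change LcFun b g (fc i.succ t) = LcFun b (g.comp (fc i)) t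
  unfold LcFun
  rw [coneFun_fc_succ, ht_fc_succ]

theorem Lc_fc_zero {m : ℕ} (g : C(Dl m, Circle)) (t : Dl m) :
    (Lc true g) (fc 0 t) = (g t : ℂ) • (Lc false g) (fc 0 t) := by
  change LcFun true g (fc 0 t) = (g t : ℂ) • LcFun false g (fc 0 t)
  have e3 := sqrt_rel 0 le_rfl
  have e4 := sqrt_two_ne (fc 0 t)
  have hg : (g t : ℂ) * starRingEnd ℂ (g t : ℂ) = 1 := by
    rw [Complex.mul_conj, Complex.normSq_eq_norm_sq, Circle.norm_coe]; norm_num
  unfold LcFun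
  rw [ht_fc_zero] at e4
  simp only [if_true, Bool.false_eq_true, if_false]
  rw [coneFun_fc_zero, ht_fc_zero]
  have e5 : (Real.sqrt ((1 + 0) / 2) : ℂ) = 1 / (Real.sqrt (2 * (1 + 0)) : ℂ) := by
    rw [eq_div_iff e4]
    have h1 : (Real.sqrt ((1 + 0) / 2) : ℝ) * Real.sqrt (2 * (1 + 0)) = 1 := by
      rw [← Real.sqrt_mul (by norm_num)]; norm_num
    exact_mod_cast h1
  ext1
  · change (Real.sqrt ((1 + 0) / 2) : ℂ) =
      (g t : ℂ) * (starRingEnd ℂ (g t : ℂ) / (Real.sqrt (2 * (1 + 0)) : ℂ))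
    rw [← mul_div_assoc, hg, e5]
  · change (g t : ℂ) / (Real.sqrt (2 * (1 + 0)) : ℂ) = (g t : ℂ) * (Real.sqrt ((1 + 0) / 2) : ℂ)
    rw [e5]; ring

/-- the loop `exp(2πi t₁)` -/
def c1 : C(Dl 1, Circle) where
  toFun t := Circle.exp (2 * Real.pi * t 1)
  continuous_toFun := by
    refine Circle.exp.continuous.comp (continuous_const.mul ?_)
    exact (continuous_apply (1 : Fin 2)).comp continuous_subtype_val

/-- the filling `exp(2πi (t₁ + 2 t₂))` of `c1 - c1² + c1` -/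
def c2 : C(Dl 2, Circle) where
  toFun t := Circle.exp (2 * Real.pi * (t 1 + 2 * t 2))
  continuous_toFun := by
    refine Circle.exp.continuous.comp (continuous_const.mul ?_)
    exact ((continuous_apply (1 : Fin 3)).comp continuous_subtype_val).add
      (continuous_const.mul ((continuous_apply (2 : Fin 3)).comp continuous_subtype_val))

theorem c1_apply (t : Dl 1) : c1 t = Circle.exp (2 * Real.pi * t 1) := rfl

theorem c2_apply (t : Dl 2) : c2 t = Circle.exp (2 * Real.pi * (t 1 + 2 * t 2)) := rfl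

theorem c1_fc (i : Fin 2) : c1.comp (fc i) = 1 := by
  ext t : 1
  change c1 (fc i t) = 1
  rw [c1_apply]
  fin_cases i
  · have h : (fc (0 : Fin 2) t) 1 = t 0 := fc_succAbove (0 : Fin 2) (0 : Fin 1) t
    have h0 : t 0 = 1 := by
      have := stdSimplex.sum_eq_one t
      simpa using this
    change Circle.exp (2 * Real.pi * (fc (0 : Fin 2) t) 1) = 1
    rw [h, h0, mul_one, Circle.exp_two_pi]
  · change Circle.exp (2 * Real.pi * (fc (1 : Fin 2) t) 1) = 1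
    rw [fc_self, mul_zero, Circle.exp_zero]

theorem c2_fc_zero : c2.comp (fc 0) = c1 := by
  ext t : 1
  change c2 (fc 0 t) = c1 t
  rw [c2_apply, c1_apply]
  have h1 : (fc (0 : Fin 3) t) 1 = t 0 := fc_succAbove (0 : Fin 3) (0 : Fin 2) t
  have h2 : (fc (0 : Fin 3) t) 2 = t 1 := fc_succAbove (0 : Fin 3) (1 : Fin 2) t
  have h3 := stdSimplex.sum_eq_one t
  rw [Fin.sum_univ_two] at h3
  rw [h1, h2, show 2 * Real.pi * (t 0 + 2 * t 1) = 2 * Real.pi * t 1 + 2 * Real.pi by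
    rw [show t 0 = 1 - t 1 by linarith]; ring, Circle.exp_add, Circle.exp_two_pi, mul_one]

theorem c2_fc_one : c2.comp (fc 1) = c1 * c1 := by
  ext t : 1
  change c2 (fc 1 t) = c1 t * c1 t
  rw [c2_apply, c1_apply]
  have h2 : (fc (1 : Fin 3) t) 2 = t 1 := fc_succAbove (1 : Fin 3) (1 : Fin 2) t
  rw [fc_self, h2, ← Circle.exp_add]
  congr 1
  ring

theorem c2_fc_two : c2.comp (fc 2) = c1 := by
  ext t : 1
  change c2 (fc 2 t) = c1 t
  rw [c2_apply, c1_apply]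
  have h1 : (fc (2 : Fin 3) t) 1 = t 1 := fc_succAbove (2 : Fin 3) (1 : Fin 2) t
  rw [fc_self, h1, mul_zero, add_zero]

theorem Wd_c1 : Wd c1 = 2 * Real.pi := by
  rw [Wd_eq c1 ⟨fun t => 2 * Real.pi * t 1, continuous_const.mul
    ((continuous_apply (1 : Fin 2)).comp continuous_subtype_val)⟩ (fun t => c1_apply t)]
  change 2 * Real.pi * (vx (1 : Fin 2) : Dl 1) 1 - 2 * Real.pi * (vx (0 : Fin 2) : Dl 1) 1 = _
  have h1 : (vx (1 : Fin 2) : Dl 1) 1 = 1 := by simp [vx]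
  have h2 : (vx (0 : Fin 2) : Dl 1) 1 = 0 := by simp [vx]
  rw [h1, h2]; ring

theorem phi_Kc (b : Bool) : phi (Kc b c1) =
    Wd (ratio (lf ((Kc b c1).comp (fc 0))) ((Lc b c1).comp (fc 0))) := by
  rw [phi_eq _ _ (Lc_isLift b c1), Fin.sum_univ_three]
  have e1 : (Kc b c1).comp (fc 1) = Kc b 1 := by
    have := Kc_fc_succ b c1 0
    rw [c1_fc] at this
    exact this
  have e2 : (Kc b c1).comp (fc 2) = Kc b 1 := by
    have := Kc_fc_succ b c1 1
    rw [c1_fc] at this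
    exact this
  have e3 : (Lc b c1).comp (fc 1) = Lc b 1 := by
    have := Lc_fc_succ b c1 0
    rw [c1_fc] at this
    exact this
  have e4 : (Lc b c1).comp (fc 2) = Lc b 1 := by
    have := Lc_fc_succ b c1 1
    rw [c1_fc] at this
    exact this
  rw [e1, e2, e3, e4]
  simp

theorem phi_diff : phi (Kc true c1) - phi (Kc false c1) = 2 * Real.pi := by
  rw [phi_Kc, phi_Kc, Kc_fc_zero true false c1]
  have hw := lf_isLift ((Kc false c1).comp (fc 0))
  have hF : IsLift ((Kc false c1).comp (fc 0)) ((Lc false c1).comp (fc 0)) :=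
    (Lc_isLift false c1).comp _
  have hT : IsLift ((Kc false c1).comp (fc 0)) ((Lc true c1).comp (fc 0)) := by
    rw [← Kc_fc_zero true false c1]
    exact (Lc_isLift true c1).comp _
  rw [ratio_mul hw hF hT, Wd_mul]
  have : ratio ((Lc false c1).comp (fc 0)) ((Lc true c1).comp (fc 0)) = c1 :=
    ratio_eq hF c1 (fun x => Lc_fc_zero c1 x)
  rw [this, Wd_c1]
  ring

end

end Crest.Agent.R123
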