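/-
ROW 123 (S0163), piece HomMain: assembly of the homology block.
`z = eb (Kc true c1) - eb (Kc false c1)`, `w = eb (Kc true c2) - eb (Kc false c2)`, functional `phi`.
-/
import Crest.Agent.R123.HomApi
import Crest.Agent.R123.HomAbs
import Crest.Agent.R123.HomEval

set_option autoImplicit false

namespace Crest.Agent.R123

open CategoryTheory AlgebraicTopology Simplicial

noncomputable section

/-- boundary of the cone over a loop -/
theorem d_Kc1 (b : Bool) : ((SC (TopCat.of S2)).d 2 1).hom (eb (X := TopCat.of S2) (Kc b c1)) =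
    eb (X := TopCat.of S2) ((Kc true c1).comp (fc 0)) := by
  rw [d_eb (X := TopCat.of S2), Fin.sum_univ_three]
  have h1 : (Kc b c1).comp (fc 1) = Kc b 1 := by
    rw [← c1_fc 0]; exact Kc_fc_succ b c1 0
  have h2 : (Kc b c1).comp (fc 2) = Kc b 1 := by
    rw [← c1_fc 1]; exact Kc_fc_succ b c1 1
  have h0 : (Kc b c1).comp (fc 0) = (Kc true c1).comp (fc 0) := Kc_fc_zero b true c1
  rw [h1, h2, h0]
  simp

/-- boundary of the cone over the filling -/
theorem d_Kc2 (b : Bool) : ((SC (TopCat.of S2)).d 3 2).hom (eb (X := TopCat.of S2) (Kc b c2)) =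
    eb (X := TopCat.of S2) ((Kc true c2).comp (fc 0)) - eb (X := TopCat.of S2) (Kc b c1)
      + eb (X := TopCat.of S2) (Kc b (c1 * c1)) - eb (X := TopCat.of S2) (Kc b c1) := by
  rw [d_eb (X := TopCat.of S2), Fin.sum_univ_four]
  have h1 : (Kc b c2).comp (fc 1) = Kc b c1 := by
    rw [← c2_fc_zero]; exact Kc_fc_succ b c2 0
  have h2 : (Kc b c2).comp (fc 2) = Kc b (c1 * c1) := by
    rw [← c2_fc_one]; exact Kc_fc_succ b c2 1
  have h3 : (Kc b c2).comp (fc 3) = Kc b c1 := by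
    rw [← c2_fc_two]; exact Kc_fc_succ b c2 2
  have h0 : (Kc b c2).comp (fc 0) = (Kc true c2).comp (fc 0) := Kc_fc_zero b true c2
  rw [h1, h2, h3, h0]
  have e1 : ((-1 : ℝ) ^ ((1 : Fin 4) : ℕ)) = -1 := by norm_num
  have e2 : ((-1 : ℝ) ^ ((2 : Fin 4) : ℕ)) = 1 := by norm_num
  have e3 : ((-1 : ℝ) ^ ((3 : Fin 4) : ℕ)) = -1 := by norm_num [show ((3 : Fin 4) : ℕ) = 3 from rfl]
  have e0 : ((-1 : ℝ) ^ ((0 : Fin 4) : ℕ)) = 1 := by norm_num
  rw [e0, e1, e2, e3, one_smul, one_smul, neg_one_smul]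
  abel

theorem hom_eigen {X : Type} [TopologicalSpace X] (i : C(S2, X)) (pr : C(X, S2))
    (hpi : ∀ p, pr (i p) = p) (f : C(X, X))
    (hf : ContinuousMap.Homotopic (f.comp i) (i.comp psi0)) :
    Module.End.HasEigenvalue
      (((AlgebraicTopology.singularHomologyFunctor (ModuleCat.{0} ℝ) 2).obj (ModuleCat.of ℝ ℝ)).map
        (TopCat.ofHom f)).hom (2 : ℝ) := by
  obtain ⟨H⟩ := hf
  obtain ⟨l, hl⟩ := exists_functional (X := TopCat.of S2) phi
  refine eigen_abs (X := TopCat.of X) (Y := TopCat.of S2) (TopCat.ofHom i) (TopCat.ofHom pr) ?_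
    (TopCat.ofHom f) (TopCat.ofHom psi0) H
    (eb (X := TopCat.of S2) (Kc true c1) - eb (X := TopCat.of S2) (Kc false c1)) ?_
    (eb (X := TopCat.of S2) (Kc true c2) - eb (X := TopCat.of S2) (Kc false c2)) ?_ l ?_ ?_
  · exact TopCat.hom_ext (ContinuousMap.ext (fun x => hpi x))
  · rw [map_sub, d_Kc1, d_Kc1, sub_self]
  · rw [map_sub, map_sub, d_Kc2, d_Kc2, map_eb, map_eb]
    have h1 : ∀ b, (TopCat.ofHom psi0).hom.comp (Kc b c1) = Kc b (c1 * c1) := fun b => psi0_Kc b c1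
    rw [h1, h1]
    module
  · have h2 : l ∘ₗ ((SC (TopCat.of S2)).d 3 2).hom = 0 := by
      refine hom_ext_eb (X := TopCat.of S2) _ _ (fun ρ => ?_)
      rw [LinearMap.comp_apply, d_eb (X := TopCat.of S2), map_sum, LinearMap.zero_apply]
      have h3 := phi_coc ρ
      rw [← h3]
      refine Finset.sum_congr rfl (fun j _ => ?_)
      rw [map_smul, hl, smul_eq_mul]
    intro w'
    exact congrArg (fun F => F w') h2
  · rw [map_sub, hl, hl, phi_diff]
    positivity

end

end Crest.Agent.R123
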