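/-
ROW 123 (S0163), manifold block, part A: maps of `Mf` with local ambient `C¹` extensions are `C¹` for the product
manifold structure.
-/
import Crest.Agent.R123.MfDefs

set_option autoImplicit false

open scoped Manifold ContDiff
open Topology

namespace Crest.Agent.R123

attribute [local instance] finrank_real_complex_fact'

theorem fact_R3 : Fact (Module.finrank ℝ R3 = 2 + 1) := ⟨by simp⟩

attribute [local instance] fact_R3

/-- product model with corners -/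
noncomputable abbrev I5 := (𝓡 2).prod ((𝓡 2).prod (𝓡 1))

theorem contMDiff_iota : ContMDiff I5 𝓘(ℝ, Amb) 1 iota := by
  have h1 : ContMDiff (𝓡 2) 𝓘(ℝ, R3) 1 (fun X : S2 => (X : R3)) := contMDiff_coe_sphere
  have h2 : ContMDiff (𝓡 1) 𝓘(ℝ, ℂ) 1 (fun X : Circle => (X : ℂ)) := contMDiff_coe_sphere
  have ha : ContMDiff I5 𝓘(ℝ, R3) 1 (fun p : Mf => (p.1 : R3)) := h1.comp contMDiff_fst
  have hb : ContMDiff I5 𝓘(ℝ, R3) 1 (fun p : Mf => (p.2.1 : R3)) :=
    h1.comp (contMDiff_fst.comp contMDiff_snd)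
  have hc : ContMDiff I5 𝓘(ℝ, ℂ) 1 (fun p : Mf => (p.2.2 : ℂ)) :=
    h2.comp (contMDiff_snd.comp contMDiff_snd)
  exact ha.prodMk_space (hb.prodMk_space hc)

theorem contMDiff_of_local {f : Mf → Mf}
    (h : ∀ p : Mf, ∃ Fx : Amb → Amb, ContDiffAt ℝ 1 Fx (iota p) ∧
      ∀ᶠ q in 𝓝 p, iota (f q) = Fx (iota q)) :
    ContMDiff I5 I5 1 f := by
  have hi : ContMDiff I5 𝓘(ℝ, Amb) 1 (fun q => iota (f q)) := by
    intro p
    obtain ⟨Fx, hF, he⟩ := h p
    have h1 : ContMDiffAt I5 𝓘(ℝ, Amb) 1 (fun q => Fx (iota q)) p :=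
      hF.contMDiffAt.comp p (contMDiff_iota p)
    exact h1.congr_of_eventuallyEq he
  have hfst : ContMDiff 𝓘(ℝ, Amb) 𝓘(ℝ, R3) 1 (fun a : Amb => a.1) :=
    (contDiff_fst).contMDiff
  have hsnd : ContMDiff 𝓘(ℝ, Amb) 𝓘(ℝ, R3) 1 (fun a : Amb => a.2.1) :=
    (contDiff_fst.comp contDiff_snd).contMDiff
  have hthd : ContMDiff 𝓘(ℝ, Amb) 𝓘(ℝ, ℂ) 1 (fun a : Amb => a.2.2) :=
    (contDiff_snd.comp contDiff_snd).contMDiff
  have c1 : ContMDiff I5 (𝓡 2) 1 (fun q => (f q).1) := by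
    have := (hfst.comp hi)
    exact this.codRestrict_sphere (fun q => (f q).1.2)
  have c2 : ContMDiff I5 (𝓡 2) 1 (fun q => (f q).2.1) := by
    have := (hsnd.comp hi)
    exact this.codRestrict_sphere (fun q => (f q).2.1.2)
  have c3 : ContMDiff I5 (𝓡 1) 1 (fun q => (f q).2.2) := by
    have := (hthd.comp hi)
    exact this.codRestrict_sphere (fun q => (f q).2.2.2)
  exact c1.prodMk (c2.prodMk c3)

end Crest.Agent.R123
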