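/-
ROW 123 (S0163), manifold block, part B: transfer of a manifold structure along a homeomorphism of the model space
with a vector space.
-/
import Mathlib

set_option autoImplicit false

open scoped Manifold ContDiff
open Topology Set

namespace Crest.Agent.R123

section transfer

variable {E' : Type*} [NormedAddCommGroup E'] [NormedSpace ℝ E'] {H' : Type*} [TopologicalSpace H']
  {V : Type*} [NormedAddCommGroup V] [NormedSpace ℝ V] {M : Type*} [TopologicalSpace M]

/-- the transferred charted space -/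
@[instance_reducible]
noncomputable def csTransfer (Φ : H' ≃ₜ V) [ChartedSpace H' M] : ChartedSpace V M where
  atlas := {e | ∃ e₀ ∈ atlas H' M, e = e₀.trans Φ.toOpenPartialHomeomorph}
  chartAt x := (chartAt H' x).trans Φ.toOpenPartialHomeomorph
  mem_chart_source x := by simp
  chart_mem_atlas x := ⟨_, chart_mem_atlas _ _, rfl⟩

theorem isManifold_transfer (I : ModelWithCorners ℝ E' H') (hI : range I = univ) (Φ : H' ≃ₜ V) (L : E' ≃L[ℝ] V)
    (hL : ∀ x, Φ x = L (I x)) [ChartedSpace H' M] [IsManifold I ∞ M] :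
    @IsManifold ℝ _ V _ _ V _ (modelWithCornersSelf ℝ V) ∞ M _ (csTransfer Φ) := by
  letI := csTransfer (M := M) Φ
  have hsymm : ∀ y, Φ.symm y = I.symm (L.symm y) := by
    intro y
    rw [Homeomorph.symm_apply_eq, hL, I.right_inv (by rw [hI]; trivial)]
    simp
  apply isManifold_of_contDiffOn
  rintro e e' ⟨e₀, he₀, rfl⟩ ⟨e₁, he₁, rfl⟩
  have hold := (contDiffGroupoid ∞ I).compatible he₀ he₁
  rw [contDiffGroupoid, mem_groupoid_of_pregroupoid] at hold
  have h1 : ContDiffOn ℝ ∞ (I ∘ (e₀.symm ≫ₕ e₁) ∘ I.symm)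
      (I.symm ⁻¹' (e₀.symm ≫ₕ e₁).source ∩ range I) := hold.1
  have h2 : ContDiffOn ℝ ∞ (L ∘ (I ∘ (e₀.symm ≫ₕ e₁) ∘ I.symm) ∘ L.symm)
      (L.symm ⁻¹' (I.symm ⁻¹' (e₀.symm ≫ₕ e₁).source ∩ range I)) := by
    exact (L.contDiff.comp_contDiffOn h1).comp (L.symm.contDiff.contDiffOn) (fun x hx => hx)
  refine (h2.congr ?_).mono ?_
  · intro x hx
    simp [hsymm, hL]
  · intro x hx
    simp [hsymm, hI] at hx ⊢
    exact hx

theorem contMDiff_transfer (I : ModelWithCorners ℝ E' H') (hI : range I = univ) (Φ : H' ≃ₜ V) (L : E' ≃L[ℝ] V)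
    (hL : ∀ x, Φ x = L (I x)) [ChartedSpace H' M] [IsManifold I ∞ M] {f : M → M}
    (hf : ContMDiff I I 1 f) :
    @ContMDiff ℝ _ V _ _ V _ (modelWithCornersSelf ℝ V) M _ (csTransfer Φ) V _ _ V _
      (modelWithCornersSelf ℝ V) M _ (csTransfer Φ) 1 f := by
  letI := csTransfer (M := M) Φ
  haveI := isManifold_transfer (M := M) I hI Φ L hL
  haveI : IsManifold (modelWithCornersSelf ℝ V) 1 M :=
    IsManifold.of_le (n := ∞) (by exact_mod_cast le_top)
  haveI : IsManifold I 1 M := IsManifold.of_le (n := ∞) (by exact_mod_cast le_top)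
  have hsymm : ∀ y, Φ.symm y = I.symm (L.symm y) := by
    intro y
    rw [Homeomorph.symm_apply_eq, hL, I.right_inv (by rw [hI]; trivial)]
    simp
  rw [contMDiff_iff] at hf ⊢
  refine ⟨hf.1, fun x y => ?_⟩
  have h1 := hf.2 x y
  have h2 : ContDiffOn ℝ 1 (L ∘ (extChartAt I y ∘ f ∘ (extChartAt I x).symm) ∘ L.symm)
      (L.symm ⁻¹' ((extChartAt I x).target ∩
              (extChartAt I x).symm ⁻¹' (f ⁻¹' (extChartAt I y).source))) :=
    (L.contDiff.comp_contDiffOn h1).comp (L.symm.contDiff.contDiffOn) (fun x hx => hx)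
  have e1 : ∀ z, (extChartAt (modelWithCornersSelf ℝ V) y) z = L (extChartAt I y z) := by
    intro z
    change Φ (chartAt H' y z) = _
    rw [hL]; rfl
  have e2 : ∀ z, (extChartAt (modelWithCornersSelf ℝ V) x).symm z = (extChartAt I x).symm (L.symm z) := by
    intro z
    change (chartAt H' x).symm (Φ.symm z) = _
    rw [hsymm]; rfl
  refine (h2.congr ?_).mono ?_
  · intro z hz
    change (extChartAt (modelWithCornersSelf ℝ V) y)
      (f ((extChartAt (modelWithCornersSelf ℝ V) x).symm z)) = _
    rw [e1, e2]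
    rfl
  · intro z hz
    simp only [mem_inter_iff, mem_preimage] at hz ⊢
    obtain ⟨hz1, hz2⟩ := hz
    rw [e2] at hz2
    refine ⟨?_, ?_⟩
    · have h3 : z ∈ ((chartAt H' x).trans Φ.toOpenPartialHomeomorph).target := by
        have := hz1
        simp only [extChartAt, OpenPartialHomeomorph.extend, mfld_simps] at this
        exact this
      simp only [mfld_simps] at h3
      rw [extChartAt_target, hI, inter_univ, mem_preimage, ← hsymm]
      simpa using h3
    · have h3 : f ((extChartAt I x).symm (L.symm z)) ∈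
          ((chartAt H' y).trans Φ.toOpenPartialHomeomorph).source := by
        have := hz2
        rw [extChartAt_source] at this
        exact this
      rw [extChartAt_source]
      simpa using h3

end transfer

end Crest.Agent.R123
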