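/-
ROW 123 (S0163), manifold block: `Mf` is a smooth compact 5-manifold modelled on `EuclideanSpace ℝ (Fin 5)`
and maps with local ambient `C¹` extensions are `ContMDiff 1`.
-/
import Crest.Agent.R123.MfDefs
import Crest.Agent.R123.MfdA
import Crest.Agent.R123.MfdB

set_option autoImplicit false

open scoped Manifold ContDiff
open Topology Set

namespace Crest.Agent.R123

attribute [local instance] finrank_real_complex_fact' fact_R3

/-- the model space as a homeomorph of the model vector space -/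
noncomputable def hmI5 : ModelProd (EuclideanSpace ℝ (Fin 2))
    (ModelProd (EuclideanSpace ℝ (Fin 2)) (EuclideanSpace ℝ (Fin 1))) ≃ₜ
    (EuclideanSpace ℝ (Fin 2) × (EuclideanSpace ℝ (Fin 2) × EuclideanSpace ℝ (Fin 1))) where
  toFun := I5
  invFun := I5.symm
  left_inv := I5.left_inv
  right_inv x := I5.right_inv (by rw [I5.range_eq_univ]; trivial)
  continuous_toFun := I5.continuous
  continuous_invFun := I5.continuous_symm

/-- linear equivalence with the Euclidean 5-space -/
noncomputable def L5 : (EuclideanSpace ℝ (Fin 2) × (EuclideanSpace ℝ (Fin 2) × EuclideanSpace ℝ (Fin 1)))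
    ≃L[ℝ] EuclideanSpace ℝ (Fin 5) :=
  ContinuousLinearEquiv.ofFinrankEq (by simp)

theorem mfd : ∃ (cs : ChartedSpace (EuclideanSpace ℝ (Fin 5)) Mf),
    IsManifold (modelWithCornersSelf ℝ (EuclideanSpace ℝ (Fin 5))) ∞ Mf ∧
    ∀ f : Mf → Mf, Continuous f →
      (∀ p : Mf, ∃ Fx : Amb → Amb, ContDiffAt ℝ 1 Fx (iota p) ∧ ∀ᶠ q in 𝓝 p, iota (f q) = Fx (iota q)) →
      ContMDiff (modelWithCornersSelf ℝ (EuclideanSpace ℝ (Fin 5)))
        (modelWithCornersSelf ℝ (EuclideanSpace ℝ (Fin 5))) 1 f := by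
  have hL : ∀ x, (hmI5.trans L5.toHomeomorph) x = L5 (I5 x) := fun x => rfl
  haveI : IsManifold I5 ∞ Mf := IsManifold.of_le (n := ω) le_top
  refine ⟨csTransfer (hmI5.trans L5.toHomeomorph),
    isManifold_transfer I5 I5.range_eq_univ _ L5 hL, ?_⟩
  intro f _ hf
  exact contMDiff_transfer I5 I5.range_eq_univ _ L5 hL (contMDiff_of_local hf)

end Crest.Agent.R123
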