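/-
ROW 123 (S0163), piece Impl: global implicit function lemma for perturbations of the identity.

For `w ∈ U` the map `x ↦ -h(x,w)` is a contraction with constant `K < 1` of the Banach space `X`: unique
fixed point `S w` (`ContractingWith.fixedPoint`).  Continuity:
`‖S w - S w'‖ ≤ ‖h(S w', w) - h(S w', w')‖/(1-K)`.  `C¹`: at `(S w, w)` the partial derivative in `x` of
`x + h` is `id + ∂_x h`, `‖∂_x h‖ ≤ K < 1` (`HasFDerivAt.le_of_lip`), invertible; the implicit function theorem
(`ContDiffAt` version, or `ContDiffAt.toOpenPartialHomeomorph`/`HasStrictFDerivAt.implicitFunction`/local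
inverse of `(x,w) ↦ (x + h(x,w), w)` which is `C¹` by `ContDiffAt.to_localInverse`) gives a `C¹` local
solution, equal to `S` near `w` by uniqueness (and continuity of `S`).
-/
import Mathlib

set_option autoImplicit false

namespace Crest.Agent.R123

open Topology

theorem impl {X W : Type*} [NormedAddCommGroup X] [NormedSpace ℝ X] [CompleteSpace X]
    [NormedAddCommGroup W] [NormedSpace ℝ W] [CompleteSpace W] {U : Set W} (hU : IsOpen U)
    {h : X × W → X} {K : ℝ} (hK0 : 0 ≤ K) (hK : K < 1)
    (hL : ∀ w ∈ U, ∀ x x' : X, ‖h (x, w) - h (x', w)‖ ≤ K * ‖x - x'‖)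
    (hc : ∀ w ∈ U, ∀ x : X, ContinuousAt h (x, w)) :
    ∃ S : W → X, (∀ w ∈ U, S w + h (S w, w) = 0) ∧ (∀ w ∈ U, ∀ x : X, x + h (x, w) = 0 → x = S w) ∧
      (∀ w ∈ U, ContinuousAt S w) ∧
      (∀ w ∈ U, ContDiffAt ℝ 1 h (S w, w) → ContDiffAt ℝ 1 S w) := by
  classical
  have hex : ∀ w ∈ U, ∃ x : X, x + h (x, w) = 0 := by
    intro w hw
    have hc' : ContractingWith (⟨K, hK0⟩ : NNReal) (fun x : X => - h (x, w)) := by
      refine ⟨by exact_mod_cast hK, ?_⟩
      refine LipschitzWith.of_dist_le_mul fun x x' => ?_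
      rw [dist_eq_norm, dist_eq_norm]
      have h1 := hL w hw x x'
      have h2 : - h (x, w) - - h (x', w) = - (h (x, w) - h (x', w)) := by abel
      rw [h2, norm_neg]
      exact h1
    have : Nonempty X := ⟨0⟩
    refine ⟨ContractingWith.fixedPoint _ hc', ?_⟩
    have h1 := hc'.fixedPoint_isFixedPt
    have h2 : - h (ContractingWith.fixedPoint (fun x : X => - h (x, w)) hc', w)
      = ContractingWith.fixedPoint (fun x : X => - h (x, w)) hc' := h1
    nth_rewrite 1 [← h2]
    exact neg_add_cancel _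
  have huniq : ∀ w ∈ U, ∀ x x' : X, x + h (x, w) = 0 → x' + h (x', w) = 0 → x = x' := by
    intro w hw x x' hx hx'
    have h1 := hL w hw x x'
    have hx2 : x = - h (x, w) := eq_neg_of_add_eq_zero_left hx
    have hx2' : x' = - h (x', w) := eq_neg_of_add_eq_zero_left hx'
    have h2 : ‖x - x'‖ = ‖h (x, w) - h (x', w)‖ := by
      have h3 : x - x' = - (h (x, w) - h (x', w)) := by
        calc x - x' = - h (x, w) - - h (x', w) := by rw [← hx2, ← hx2']
          _ = - (h (x, w) - h (x', w)) := by abel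
      rw [h3, norm_neg]
    have h4 : ‖x - x'‖ ≤ K * ‖x - x'‖ := h2.le.trans h1
    have h5 : ‖x - x'‖ ≤ 0 := by nlinarith [norm_nonneg (x - x')]
    exact sub_eq_zero.1 (norm_le_zero_iff.1 h5)
  let S : W → X := fun w => if hw : w ∈ U then (hex w hw).choose else 0
  have hS : ∀ w ∈ U, S w + h (S w, w) = 0 := by
    intro w hw
    simp only [S, dif_pos hw]
    exact (hex w hw).choose_spec
  have hcont : ∀ w ∈ U, ContinuousAt S w := by
    intro w hw
    have hc2 : ContinuousAt (fun w' => h (S w, w')) w :=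
      ContinuousAt.comp (f := fun w' : W => (S w, w')) (g := h) (hc w hw (S w))
        (continuousAt_const.prodMk continuousAt_id)
    have hlim : Filter.Tendsto (fun w' => ‖h (S w, w') - h (S w, w)‖ / (1 - K)) (𝓝 w) (𝓝 0) := by
      have h1 : Filter.Tendsto (fun w' => h (S w, w') - h (S w, w)) (𝓝 w) (𝓝 0) := by
        have := hc2.tendsto.sub_const (h (S w, w))
        simpa using this
      have h2 := h1.norm.div_const (1 - K)
      simpa using h2
    rw [ContinuousAt, tendsto_iff_norm_sub_tendsto_zero]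
    refine squeeze_zero' (Filter.Eventually.of_forall fun _ => norm_nonneg _) ?_ hlim
    filter_upwards [hU.mem_nhds hw] with w' hw'
    rw [le_div_iff₀ (by linarith)]
    have h3 := hL w' hw' (S w') (S w)
    have h4 : S w' = - h (S w', w') := eq_neg_of_add_eq_zero_left (hS w' hw')
    have h5 : S w = - h (S w, w) := eq_neg_of_add_eq_zero_left (hS w hw)
    have h6 : S w' - S w = - (h (S w', w') - h (S w, w')) - (h (S w, w') - h (S w, w)) := by
      calc S w' - S w = - h (S w', w') - - h (S w, w) := by rw [← h4, ← h5]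
        _ = _ := by abel
    have h7 : ‖S w' - S w‖ ≤ ‖h (S w', w') - h (S w, w')‖ + ‖h (S w, w') - h (S w, w)‖ := by
      calc ‖S w' - S w‖ = ‖- (h (S w', w') - h (S w, w')) - (h (S w, w') - h (S w, w))‖ := by
            rw [← h6]
        _ ≤ ‖- (h (S w', w') - h (S w, w'))‖ + ‖h (S w, w') - h (S w, w)‖ := norm_sub_le _ _
        _ = _ := by rw [norm_neg]
    nlinarith
  refine ⟨S, hS, fun w hw x hx => huniq w hw x (S w) hx (hS w hw), hcont, ?_⟩
  intro w hw hcd
  let f : W × X → X := fun p => p.2 + h (p.2, p.1)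
  have hf : ContDiffAt ℝ 1 f (w, S w) := by
    have h1 : ContDiffAt ℝ 1 (fun p : W × X => (p.2, p.1)) (w, S w) :=
      contDiffAt_snd.prodMk contDiffAt_fst
    have h2 : ContDiffAt ℝ 1 (fun p : W × X => h (p.2, p.1)) (w, S w) :=
      ContDiffAt.comp (g := h) (f := fun p : W × X => (p.2, p.1)) (w, S w) hcd h1
    exact contDiffAt_snd.add h2
  have hfd : HasFDerivAt f (fderiv ℝ f (w, S w)) (w, S w) :=
    (hf.differentiableAt (by norm_num)).hasFDerivAt
  let A : X →L[ℝ] X := fderiv ℝ (fun x => h (x, w)) (S w)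
  have hA : ‖A‖ ≤ K := by
    refine norm_fderiv_le_of_lip' ℝ hK0 ?_
    exact Filter.Eventually.of_forall fun x => hL w hw x (S w)
  have hinr : HasFDerivAt (fun x : X => f (w, x))
      ((fderiv ℝ f (w, S w)) ∘L (ContinuousLinearMap.inr ℝ W X)) (S w) := by
    have h1 : HasFDerivAt (fun x : X => (w, x)) (ContinuousLinearMap.inr ℝ W X) (S w) :=
      hasFDerivAt_prodMk_right w (S w)
    exact HasFDerivAt.comp (S w) (g := f) (f := fun x : X => (w, x)) hfd h1
  have hhx : DifferentiableAt ℝ (fun x => h (x, w)) (S w) := by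
    have h1 : DifferentiableAt ℝ (fun x : X => (x, w)) (S w) :=
      differentiableAt_id.prodMk (differentiableAt_const w)
    exact DifferentiableAt.comp (S w) (g := h) (f := fun x : X => (x, w))
      (hcd.differentiableAt (by norm_num)) h1
  have hinr2 : HasFDerivAt (fun x : X => f (w, x)) (ContinuousLinearMap.id ℝ X + A) (S w) :=
    (hasFDerivAt_id (S w)).add hhx.hasFDerivAt
  have heq : (fderiv ℝ f (w, S w)) ∘L (ContinuousLinearMap.inr ℝ W X)
      = ContinuousLinearMap.id ℝ X + A := hinr.unique hinr2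
  have hinv : ((fderiv ℝ f (w, S w)) ∘L (ContinuousLinearMap.inr ℝ W X)).IsInvertible := by
    rw [heq]
    have hlt : ‖-A‖ < 1 := by rw [norm_neg]; linarith
    refine ⟨ContinuousLinearEquiv.unitsEquiv ℝ X (Units.oneSub (-A) hlt), ?_⟩
    ext x
    simp [Units.oneSub]
  have hψ := hf.contDiffAt_implicitFunction (by norm_num) hinv
  have hev := hf.eventually_apply_implicitFunction (by norm_num) hinv
  refine hψ.congr_of_eventuallyEq ?_
  have hev' : ∀ᶠ w' in 𝓝 w, f (w', hf.implicitFunction (by norm_num) hinv w') = f (w, S w) := hev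
  filter_upwards [hev', hU.mem_nhds hw] with w' h1 hw'
  refine huniq w' hw' _ _ (hS w' hw') ?_
  have h2 : f (w, S w) = 0 := hS w hw
  rw [h2] at h1
  exact h1

end Crest.Agent.R123
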