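/-
ROW 123 (S0163), piece NT3: average of `log (1/s)` along backward orbits of the rotation.

Proof of `cnt`.  For `m = 0,1,2,…` let `A_m = #{i < k : s(t-(i+1)α) < 4^{-m}}`.  If two indices
`i < i'` are in `A_m` then both points are within `2^{-m}/2` of integers (`exists_int_near`), so
`|(i'-i)α - integer| ≤ 2^{-m}`, and `nt1` gives `i' - i ≥ c₁ 2^m`; hence `A_m ≤ 1 + k/(c₁ 2^m)` (points of
`[0,k)` that are pairwise `≥ c₁2^m` apart).
For `u = max (s …) x₀ ∈ [x₀, 1]`: `log (1/u) ≤ log 4 * #{m : ℕ | m < M, u < 4^{-m}}+ log 4`, where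
`M` is such that `4^{-M} ≤ x₀` i.e. `M = ⌈log(1/x₀)/log 4⌉ + 1`  (if `4^{-(q+1)} ≤ u < 4^{-q}` then
`log(1/u) ≤ (q+1) log 4`, and `m = 0..q` all satisfy `u < 4^{-m}`).  `u < 4^{-m}` implies `s < 4^{-m}`.  Sum:
`Σ_i log(1/u_i) ≤ log 4 * (k + Σ_{m<M} A_m) ≤ log 4 * (k + M + 2k/c₁)`.
-/
import Crest.Agent.R123.NT1

set_option autoImplicit false

namespace Crest.Agent.R123

namespace NT3aux

theorem card_sep (A : Finset ℕ) (k : ℕ) (hA : A ⊆ Finset.range k) (d : ℝ) (hd : 0 < d)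
    (h : ∀ i ∈ A, ∀ j ∈ A, i < j → d ≤ (j : ℝ) - i) : (A.card : ℝ) ≤ 1 + k / d := by
  have hinj : Set.InjOn (fun i : ℕ => ⌊(i : ℝ) / d⌋₊) (A : Set ℕ) := by
    have key : ∀ i ∈ A, ∀ j ∈ A, i < j → ⌊(i : ℝ) / d⌋₊ ≠ ⌊(j : ℝ) / d⌋₊ := by
      intro i hi j hj hij heq
      have h1 := h i hi j hj hij
      have h2 : (j : ℝ) / d < ⌊(j : ℝ) / d⌋₊ + 1 := Nat.lt_floor_add_one _
      have h3 : (⌊(i : ℝ) / d⌋₊ : ℝ) ≤ (i : ℝ) / d :=
        Nat.floor_le (div_nonneg (Nat.cast_nonneg _) hd.le)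
      rw [heq] at h3
      have h4 : (j : ℝ) / d - (i : ℝ) / d < 1 := by linarith
      rw [← sub_div, div_lt_one hd] at h4
      linarith
    intro i hi j hj hij
    by_contra hne
    rcases lt_or_gt_of_ne hne with hlt | hlt
    · exact key i hi j hj hlt hij
    · exact key j hj i hi hlt hij.symm
  have hmaps : Set.MapsTo (fun i : ℕ => ⌊(i : ℝ) / d⌋₊) (A : Set ℕ)
      (Finset.range (⌊(k : ℝ) / d⌋₊ + 1) : Set ℕ) := by
    intro i hi
    have hik : i < k := Finset.mem_range.1 (hA hi)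
    simp only [Finset.coe_range, Set.mem_Iio]
    have : (i : ℝ) / d ≤ (k : ℝ) / d := by
      apply div_le_div_of_nonneg_right _ hd.le
      exact_mod_cast hik.le
    exact Nat.lt_succ_of_le (Nat.floor_le_floor this)
  have h5 := Finset.card_le_card_of_injOn _ hmaps hinj
  rw [Finset.card_range] at h5
  have h6 : (⌊(k : ℝ) / d⌋₊ : ℝ) ≤ (k : ℝ) / d :=
    Nat.floor_le (div_nonneg (Nat.cast_nonneg _) hd.le)
  have h7 : (A.card : ℝ) ≤ (⌊(k : ℝ) / d⌋₊ : ℝ) + 1 := by exact_mod_cast h5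
  linarith

theorem near_of_lt (t : ℝ) (m : ℕ) (h : s t < (1 / 4) ^ m) :
    ∃ n : ℤ, 2 * |t - n| ≤ (1 / 2) ^ m := by
  obtain ⟨n, hn⟩ := exists_int_near t
  refine ⟨n, hn.trans ?_⟩
  have h1 : ((1 / 2 : ℝ) ^ m) ^ 2 = (1 / 4) ^ m := by
    rw [← pow_mul, mul_comm, pow_mul]; norm_num
  have h2 : Real.sqrt ((1 / 4 : ℝ) ^ m) = (1 / 2) ^ m := by
    rw [← h1, Real.sqrt_sq (by positivity)]
  rw [← h2]
  exact Real.sqrt_le_sqrt h.le

theorem card_A (c₁ : ℝ) (hc : 0 < c₁)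
    (hnt : ∀ j : ℕ, 1 ≤ j → ∀ m : ℤ, c₁ / j ≤ |(j : ℝ) * al - m|) (k : ℕ) (t : ℝ) (m : ℕ) :
    (((Finset.range k).filter (fun i : ℕ => s (t - ((i : ℝ) + 1) * al) < (1 / 4) ^ m)).card : ℝ) ≤
      1 + k / (c₁ * 2 ^ m) := by
  refine card_sep _ k (Finset.filter_subset _ _) _ (by positivity) ?_
  intro i hi j hj hij
  obtain ⟨n, hn⟩ := near_of_lt _ m (Finset.mem_filter.1 hi).2
  obtain ⟨n', hn'⟩ := near_of_lt _ m (Finset.mem_filter.1 hj).2
  have h1 := hnt (j - i) (by omega) (n - n')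
  have hcast : ((j - i : ℕ) : ℝ) = (j : ℝ) - i := by
    rw [Nat.cast_sub hij.le]
  rw [hcast] at h1
  have hji : (0 : ℝ) < (j : ℝ) - i := by
    have : (i : ℝ) < j := by exact_mod_cast hij
    linarith
  have h2 : |((j : ℝ) - i) * al - ((n - n' : ℤ) : ℝ)| ≤ (1 / 2) ^ m := by
    have e1 : ((j : ℝ) - i) * al - ((n - n' : ℤ) : ℝ) =
        (t - ((i : ℝ) + 1) * al - n) - (t - ((j : ℝ) + 1) * al - n') := by
      push_cast; ring
    rw [e1]
    refine (abs_sub _ _).trans ?_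
    linarith
  have h3 : c₁ / ((j : ℝ) - i) ≤ (1 / 2) ^ m := h1.trans h2
  rw [div_le_iff₀ hji] at h3
  have h4 : (1 / 2 : ℝ) ^ m * 2 ^ m = 1 := by
    rw [← mul_pow]; norm_num
  calc c₁ * 2 ^ m ≤ ((1 / 2) ^ m * ((j : ℝ) - i)) * 2 ^ m :=
        mul_le_mul_of_nonneg_right h3 (by positivity)
    _ = ((1 / 2 : ℝ) ^ m * 2 ^ m) * ((j : ℝ) - i) := by ring
    _ = (j : ℝ) - i := by rw [h4, one_mul]

theorem log_le (u : ℝ) (M : ℕ) : Real.log (1 / max u ((1 / 4) ^ M)) ≤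
    Real.log 4 * ∑ m ∈ Finset.range M, (if u < (1 / 4) ^ m then (1 : ℝ) else 0) := by
  have hl4 : 0 < Real.log 4 := Real.log_pos (by norm_num)
  induction M with
  | zero =>
    simp only [pow_zero, Finset.range_zero, Finset.sum_empty, mul_zero]
    have h1 : (1 : ℝ) ≤ max u 1 := le_max_right _ _
    have h2 : 1 / max u 1 ≤ 1 := by
      rw [div_le_one (by linarith)]; exact h1
    exact Real.log_nonpos (by positivity) h2
  | succ M ih =>
    by_cases hu : u < (1 / 4) ^ M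
    · have hall : ∀ m ∈ Finset.range (M + 1), (if u < (1 / 4) ^ m then (1 : ℝ) else 0) = 1 := by
        intro m hm
        have hm' : m ≤ M := Nat.lt_succ_iff.1 (Finset.mem_range.1 hm)
        rw [if_pos]
        exact hu.trans_le (pow_le_pow_of_le_one (by norm_num) (by norm_num) hm')
      rw [Finset.sum_congr rfl hall, Finset.sum_const, Finset.card_range, nsmul_eq_mul, mul_one]
      have h1 : ((1 / 4 : ℝ)) ^ (M + 1) ≤ max u ((1 / 4) ^ (M + 1)) := le_max_right _ _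
      have h2 : (0 : ℝ) < (1 / 4) ^ (M + 1) := by positivity
      have h3 : 1 / max u ((1 / 4) ^ (M + 1)) ≤ 4 ^ (M + 1) := by
        rw [div_le_iff₀ (h2.trans_le h1)]
        have h4 : (4 : ℝ) ^ (M + 1) * (1 / 4) ^ (M + 1) = 1 := by
          rw [← mul_pow]; norm_num
        calc (1 : ℝ) = (4 : ℝ) ^ (M + 1) * (1 / 4) ^ (M + 1) := h4.symm
          _ ≤ _ := mul_le_mul_of_nonneg_left h1 (by positivity)
      have h5 := Real.log_le_log (by positivity) h3
      rw [Real.log_pow] at h5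
      rw [mul_comm]
      exact h5
    · have hu' : (1 / 4 : ℝ) ^ M ≤ u := not_lt.1 hu
      have h1 : max u ((1 / 4) ^ (M + 1)) = max u ((1 / 4) ^ M) := by
        rw [max_eq_left hu', max_eq_left]
        exact (pow_le_pow_of_le_one (by norm_num) (by norm_num) (Nat.le_succ M)).trans hu'
      rw [h1, Finset.sum_range_succ, if_neg hu, add_zero]
      exact ih

end NT3aux

open NT3aux in
theorem cnt : ∃ C : ℝ, 0 < C ∧ ∀ (k : ℕ) (t x₀ : ℝ), 0 < x₀ → x₀ ≤ 1 →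
    ∑ i ∈ Finset.range k, Real.log (1 / max (s (t - ((i : ℝ) + 1) * al)) x₀) ≤
      C * (k + 1 + Real.log (1 / x₀)) := by
  obtain ⟨c₁, hc, hnt⟩ := nt1
  have hl4 : 0 < Real.log 4 := Real.log_pos (by norm_num)
  refine ⟨1 + Real.log 4 + 2 * Real.log 4 / c₁, by positivity, ?_⟩
  intro k t x₀ hx0 hx1
  set L := Real.log (1 / x₀) with hL
  have hL0 : 0 ≤ L := Real.log_nonneg (by rw [le_div_iff₀ hx0]; linarith)
  set M := ⌈L / Real.log 4⌉₊ with hM
  have hM1 : L / Real.log 4 ≤ M := Nat.le_ceil _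
  have hM2 : (M : ℝ) < L / Real.log 4 + 1 := Nat.ceil_lt_add_one (by positivity)
  have hx0M : (1 / 4 : ℝ) ^ M ≤ x₀ := by
    have h1 : L ≤ M * Real.log 4 := by rwa [div_le_iff₀ hl4] at hM1
    have h2 : Real.log ((1 / 4 : ℝ) ^ M) ≤ Real.log x₀ := by
      rw [Real.log_pow, one_div, Real.log_inv]
      rw [hL, one_div, Real.log_inv] at h1
      linarith
    exact (Real.log_le_log_iff (by positivity) hx0).1 h2
  set u : ℕ → ℝ := fun i => s (t - ((i : ℝ) + 1) * al) with hu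
  have h1 : ∀ i ∈ Finset.range k, Real.log (1 / max (u i) x₀) ≤
      Real.log 4 * ∑ m ∈ Finset.range M, (if u i < (1 / 4) ^ m then (1 : ℝ) else 0) := by
    intro i _
    refine le_trans ?_ (log_le (u i) M)
    have h2 : max (u i) ((1 / 4) ^ M) ≤ max (u i) x₀ := max_le_max le_rfl hx0M
    have h3 : 0 < max (u i) ((1 / 4 : ℝ) ^ M) := lt_max_of_lt_right (by positivity)
    exact Real.log_le_log (by positivity) (one_div_le_one_div_of_le h3 h2)
  refine (Finset.sum_le_sum h1).trans ?_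
  rw [← Finset.mul_sum, Finset.sum_comm]
  have h4 : ∀ m ∈ Finset.range M, ∑ i ∈ Finset.range k, (if u i < (1 / 4) ^ m then (1 : ℝ) else 0) ≤
      1 + k / (c₁ * 2 ^ m) := by
    intro m _
    have := card_A c₁ hc hnt k t m
    rw [Finset.card_filter] at this
    push_cast at this
    exact this
  have h5 : ∑ m ∈ Finset.range M, (1 + (k : ℝ) / (c₁ * 2 ^ m)) ≤ M + 2 * k / c₁ := by
    rw [Finset.sum_add_distrib, Finset.sum_const, Finset.card_range, nsmul_eq_mul, mul_one]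
    have e1 : ∀ m ∈ Finset.range M, (k : ℝ) / (c₁ * 2 ^ m) = (k / c₁) * (1 / 2) ^ m := by
      intro m _
      rw [one_div, inv_pow]
      field_simp
    rw [Finset.sum_congr rfl e1, ← Finset.mul_sum]
    have e2 : ∑ m ∈ Finset.range M, (1 / 2 : ℝ) ^ m ≤ 2 := by
      have := geom_sum_eq (x := (1 / 2 : ℝ)) (by norm_num) M
      rw [this]
      have : (0 : ℝ) ≤ (1 / 2) ^ M := by positivity
      rw [div_le_iff_of_neg (by norm_num)]
      linarith
    have e3 : 0 ≤ (k : ℝ) / c₁ := by positivity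
    have e4 := mul_le_mul_of_nonneg_left e2 e3
    have e5 : 2 * (k : ℝ) / c₁ = k / c₁ * 2 := by ring
    linarith
  have h6 := (Finset.sum_le_sum h4).trans h5
  have h7 := mul_le_mul_of_nonneg_left h6 hl4.le
  refine h7.trans ?_
  have h8 : Real.log 4 * (M : ℝ) ≤ L + Real.log 4 := by
    have := mul_le_mul_of_nonneg_left hM2.le hl4.le
    have e : Real.log 4 * (L / Real.log 4 + 1) = L + Real.log 4 := by
      field_simp
    linarith
  have h9 : Real.log 4 * (2 * k / c₁) = 2 * Real.log 4 / c₁ * k := by ring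
  have hk : (0 : ℝ) ≤ k := Nat.cast_nonneg k
  have h10 : 0 ≤ 2 * Real.log 4 / c₁ := by positivity
  nlinarith [mul_nonneg hl4.le hL0, mul_nonneg h10 hL0, mul_nonneg hl4.le hk]

end Crest.Agent.R123
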