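/-
ROW 123 (S0163), piece EllLow: lower bound of `ell` at visits.

Fix `e` small, `t` with `s t ≤ 3e`.  Let `V = {u | s u ≤ 3e}` ("visits").  Let `j₁ ≥ 1` be the least `j ≥ 1` with
`t - jα ∈ V` (exists by `hit`; `j₁ ≥ c/√e` by `sep`).  For `1 ≤ i < j₁`: `bt (t-iα) e = 0`, so by `ell_rec`
   `ell t = ell (t-(j₁-1)α) + Σ_{1≤i<j₁} log (Λ s(t-iα))`,
   `ell (t-(j₁-1)α) = (1 - bt t' e)(ell t' + log(Λ s t'))`, `t' = t - j₁α ∈ V`.
By `cnt` with `x₀ = e` (all those `s ≥ 3 e ≥ e`) the sum is `≥ (j₁-1) log Λ - C(j₁ + 1 + log(1/e))`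
`≥ (c/√e - 1)(log Λ - C) - 2C - C log (1/e) ≥ c₃ (log Λ - C₅)/√e` for `e ≤ e₀(Λ)`, with e.g. `c₃ = c/2`,
`C₅ = C+1` so that `log Λ - C₅ ≥ 0` gives `log Λ - C ≥ 1` (absorb `log(1/e) ≤ small/√e`).
It remains to see `ell (t-(j₁-1)α) ≥ 0`: if `s t' ≤ 2e` it is `0`; else `s t' > 2e` and by STRONG INDUCTION
(on the number `m` of backward steps until the first `s ≤ e/2`-time, finite by `hit`; `m` decreases from `t` to `t'`)
`ell t' ≥ c₃ (log Λ - C₅)/√e`; and `log (Λ s t') ≥ log(2 e)`.  To have `ell t' + log(Λ s t') ≥ 0` when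
`log Λ - C₅` is close to `0` prove the induction claim with the slightly stronger bound
`c₃ (log Λ - C₅ + 1)/√e` (i.e. choose `C₅` one bigger at the end) and `e₀` with `c₃/√e ≥ log (1/(2e))`.
-/
import Crest.Agent.R123.Age
import Crest.Agent.R123.NT3

set_option autoImplicit false

namespace Crest.Agent.R123

/-- unfolding `ell` over a run of non-visits -/
theorem ell_unfold {e : ℝ} (he : 0 < e) (Λ t : ℝ) (k : ℕ)
    (h : ∀ i : ℕ, i < k → 3 * e ≤ s (t - ((i : ℝ) + 1) * al)) :
    ell Λ t e = ell Λ (t - k * al) e +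
      ∑ i ∈ Finset.range k, Real.log (Λ * s (t - ((i : ℝ) + 1) * al)) := by
  induction k with
  | zero => simp
  | succ k ih =>
    rw [ih fun i hi => h i (hi.trans (Nat.lt_succ_self k)), Finset.sum_range_succ]
    have h1 : t - (k : ℝ) * al = (t - ((k : ℝ) + 1) * al) + al := by ring
    have h2 := ell_rec he Λ (t - ((k : ℝ) + 1) * al)
    rw [bt_eq_zero he (h k (Nat.lt_succ_self k)), ← h1] at h2
    rw [h2]
    push_cast
    ring

/-- choice of `e₀` -/
theorem exists_e0 (c C : ℝ) (hc : 0 < c) (hC : 1 ≤ C) : ∃ e₀ : ℝ, 0 < e₀ ∧ ∀ e : ℝ, 0 < e → e ≤ e₀ →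
    e ≤ 1 / 16 ∧ 1 ≤ (c / 2) / Real.sqrt e ∧ C * (1 + Real.log (1 / e)) ≤ (c / 2) / Real.sqrt e := by
  have hC0 : 0 < C := by linarith
  refine ⟨min (1 / 16) (min ((c / (8 * C)) ^ 4) ((c / 2) ^ 2)), ?_, fun e he hle => ?_⟩
  · positivity
  have h1 : e ≤ 1 / 16 := hle.trans (min_le_left _ _)
  have h2 : e ≤ (c / (8 * C)) ^ 4 := hle.trans ((min_le_right _ _).trans (min_le_left _ _))
  have h3 : e ≤ (c / 2) ^ 2 := hle.trans ((min_le_right _ _).trans (min_le_right _ _))
  have hs : 0 < Real.sqrt e := Real.sqrt_pos.2 he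
  set x := Real.sqrt (Real.sqrt e) with hx
  have hx0 : 0 < x := Real.sqrt_pos.2 hs
  have hx2 : x ^ 2 = Real.sqrt e := Real.sq_sqrt hs.le
  have hx4 : x ^ 4 = e := by
    have : x ^ 4 = (x ^ 2) ^ 2 := by ring
    rw [this, hx2, Real.sq_sqrt he.le]
  refine ⟨h1, ?_, ?_⟩
  · rw [le_div_iff₀ hs, one_mul]
    calc Real.sqrt e ≤ Real.sqrt ((c / 2) ^ 2) := Real.sqrt_le_sqrt h3
      _ = c / 2 := Real.sqrt_sq (by positivity)
  · have hxle : x ≤ c / (8 * C) := by
      have : x ^ 4 ≤ (c / (8 * C)) ^ 4 := by rw [hx4]; exact h2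
      exact le_of_pow_le_pow_left₀ (by norm_num) (by positivity) this
    have hlog : Real.log (1 / e) = 4 * Real.log (1 / x) := by
      rw [← hx4, one_div, one_div, Real.log_inv, Real.log_inv, Real.log_pow]
      push_cast
      ring
    have hlog2 : Real.log (1 / x) ≤ 1 / x - 1 := Real.log_le_sub_one_of_pos (by positivity)
    have h4 : C * (1 + Real.log (1 / e)) ≤ C * (4 / x) := by
      apply mul_le_mul_of_nonneg_left _ hC0.le
      rw [hlog]
      have : (4 : ℝ) / x = 4 * (1 / x) := by ring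
      rw [this]
      linarith
    refine h4.trans ?_
    rw [← hx2, mul_div_assoc', div_le_div_iff₀ hx0 (by positivity)]
    have h5 : x * (8 * C) ≤ c := (le_div_iff₀ (by positivity)).1 hxle
    nlinarith [mul_le_mul_of_nonneg_left h5 hx0.le]

theorem ell_lower : ∃ c₃ C₅ : ℝ, 0 < c₃ ∧ ∀ Λ : ℝ, 1 ≤ Λ → C₅ ≤ Real.log Λ →
    ∃ e₀ : ℝ, 0 < e₀ ∧ ∀ e : ℝ, 0 < e → e ≤ e₀ → ∀ t : ℝ, s t ≤ 3 * e →
      c₃ * (Real.log Λ - C₅) / Real.sqrt e ≤ ell Λ t e := by
  classical
  obtain ⟨c, hc, hsep⟩ := sep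
  obtain ⟨Ch, hCh, hhit⟩ := hit
  obtain ⟨C₀, hC₀, hcnt⟩ := cnt
  set C : ℝ := max C₀ 1 with hCdef
  have hC1 : 1 ≤ C := le_max_right _ _
  have hCC : C₀ ≤ C := le_max_left _ _
  refine ⟨c / 2, C + 2, by positivity, fun Λ hΛ hC5 => ?_⟩
  obtain ⟨e₀, he₀, hE⟩ := exists_e0 c C hc hC1
  refine ⟨e₀, he₀, fun e he hee₀ t₀ ht₀ => ?_⟩
  obtain ⟨he16, hA1, hA2⟩ := hE e he hee₀
  have hs : 0 < Real.sqrt e := Real.sqrt_pos.2 he
  have hlogpos : 0 ≤ Real.log (1 / e) := Real.log_nonneg (by
    rw [le_div_iff₀ he]; linarith)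
  set B : ℝ := (c / 2) * (Real.log Λ - C - 1) / Real.sqrt e with hB
  have hBlow : (c / 2) / Real.sqrt e ≤ B := by
    rw [hB]
    gcongr
    nlinarith
  have key : ∀ m : ℕ, ∀ t : ℝ, s t ≤ 3 * e →
      (∃ j : ℕ, 1 ≤ j ∧ j ≤ m ∧ s (t - j * al) ≤ e / 2) → B ≤ ell Λ t e := by
    intro m
    induction m with
    | zero =>
      rintro t _ ⟨j, h1, h2, _⟩
      omega
    | succ m ih =>
      rintro t ht ⟨j, hj1, hjm, hj⟩
      have hex : ∃ j : ℕ, 1 ≤ j ∧ s (t - j * al) ≤ 3 * e := ⟨j, hj1, hj.trans (by linarith)⟩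
      obtain ⟨hf1, hf2⟩ := Nat.find_spec hex
      set j₁ := Nat.find hex with hj₁
      have hmin : ∀ i : ℕ, 1 ≤ i → i < j₁ → 3 * e < s (t - i * al) := by
        intro i hi hij
        have := Nat.find_min hex hij
        push Not at this
        exact this hi
      have hj₁j : j₁ ≤ j := Nat.find_min' hex ⟨hj1, hj.trans (by linarith)⟩
      obtain ⟨k, hk⟩ : ∃ k, j₁ = k + 1 := ⟨j₁ - 1, by omega⟩
      have hun := ell_unfold he Λ t k (fun i hi => by
        have := hmin (i + 1) (by omega) (by omega)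
        push_cast at this
        exact this.le)
      -- the value after the previous visit is nonnegative
      have hprev : 0 ≤ ell Λ (t - k * al) e := by
        have h1 : t - (k : ℝ) * al = (t - (j₁ : ℝ) * al) + al := by
          rw [hk]; push_cast; ring
        rw [h1, ell_rec he]
        by_cases h2 : s (t - (j₁ : ℝ) * al) ≤ 2 * e
        · rw [bt_eq_one he h2]
          simp
        · push Not at h2
          have hne : j₁ ≠ j := by
            intro h
            rw [h] at h2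
            linarith
          have h3 : B ≤ ell Λ (t - (j₁ : ℝ) * al) e := by
            refine ih _ hf2 ⟨j - j₁, by omega, by omega, ?_⟩
            have h4 : t - (j₁ : ℝ) * al - ((j - j₁ : ℕ) : ℝ) * al = t - j * al := by
              rw [Nat.cast_sub hj₁j]; ring
            rw [h4]
            exact hj
          have h4 : Real.log e ≤ Real.log (Λ * s (t - (j₁ : ℝ) * al)) := by
            apply Real.log_le_log he
            nlinarith
          have h5 : Real.log (1 / e) = - Real.log e := by rw [one_div, Real.log_inv]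
          have h6 : Real.log (1 / e) ≤ C * (1 + Real.log (1 / e)) := by nlinarith
          exact mul_nonneg (by linarith [(bt_mem (t - (j₁ : ℝ) * al) e).2]) (by linarith)
      -- the sum
      have hsum : ∑ i ∈ Finset.range k, Real.log (Λ * s (t - ((i : ℝ) + 1) * al)) =
          k * Real.log Λ - ∑ i ∈ Finset.range k,
            Real.log (1 / max (s (t - ((i : ℝ) + 1) * al)) e) := by
        rw [eq_sub_iff_add_eq, ← Finset.sum_add_distrib]
        have : ∀ i ∈ Finset.range k, Real.log (Λ * s (t - ((i : ℝ) + 1) * al)) +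
            Real.log (1 / max (s (t - ((i : ℝ) + 1) * al)) e) = Real.log Λ := by
          intro i hi
          have h1 := hmin (i + 1) (by omega) (by have := Finset.mem_range.1 hi; omega)
          push_cast at h1
          have h2 : max (s (t - ((i : ℝ) + 1) * al)) e = s (t - ((i : ℝ) + 1) * al) :=
            max_eq_left (by linarith)
          have h3 : 0 < s (t - ((i : ℝ) + 1) * al) := by linarith
          rw [h2, one_div, Real.log_inv, Real.log_mul (by positivity) h3.ne']
          ring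
        rw [Finset.sum_congr rfl this]
        simp
      have hcnt' := hcnt k t e he (by linarith)
      have hk1 : c / Real.sqrt e - 1 ≤ k := by
        have := hsep e he t j₁ hf1 (by linarith) (by linarith)
        rw [hk] at this
        push_cast at this
        linarith
      have hk0 : (0 : ℝ) ≤ k := Nat.cast_nonneg k
      rw [hun, hsum]
      have hcnt2 : C₀ * ((k : ℝ) + 1 + Real.log (1 / e)) ≤ C * ((k : ℝ) + 1 + Real.log (1 / e)) := by
        gcongr
      have hmain : B + C * ((k : ℝ) + 1 + Real.log (1 / e)) ≤ k * Real.log Λ := by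
        have e1 : B = (c / 2 / Real.sqrt e) * (Real.log Λ - C) - (c / 2) / Real.sqrt e := by
          rw [hB]; ring
        have e2 : (c / Real.sqrt e - 1) * (Real.log Λ - C) ≤ k * (Real.log Λ - C) :=
          mul_le_mul_of_nonneg_right hk1 (by linarith)
        have e3 : c / Real.sqrt e = 2 * (c / 2 / Real.sqrt e) := by ring
        rw [e3] at e2
        set D := c / 2 / Real.sqrt e with hD
        have e4 : (Real.log Λ - C) * 1 ≤ (Real.log Λ - C) * D :=
          mul_le_mul_of_nonneg_left hA1 (by linarith)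
        rw [e1]
        nlinarith
      linarith
  obtain ⟨j, -, hj2⟩ := hhit e he (by linarith) t₀
  have h1 := key (j + 1) t₀ ht₀ ⟨j + 1, by omega, le_refl _, by push_cast; exact hj2⟩
  refine le_trans ?_ h1
  rw [hB]
  have h2 : c / 2 * (Real.log Λ - (C + 2)) ≤ c / 2 * (Real.log Λ - C - 1) := by nlinarith
  exact div_le_div_of_nonneg_right h2 hs.le

end Crest.Agent.R123
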