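/-
ROW 123 (S0163), piece EllReg: joint `C¹` regularity of `ell Λ` in `(t,e)`, `e > 0`, and derivative bounds.

Same as AgeReg.  `L(t,e) = (1 - bt t e) log (Λ s t)` is `C^∞` in `(t,e)`, `e>0`: where `s t > 0` clear, where
`s t < 2 e` it vanishes identically nearby.  `|L| ≤ log Λ + log(1/(2e))⁺`, `|∂L| ≤ C/e · (log Λ + log (1/e) + 1)
+ |s'|/s ≤ C_Λ/e²` (supported in `s ≥ 2e`, `|s'| ≤ 7`), `N ≤ C/√e`, so `|∂ ell| ≤ N²·(C/e)·sup|L| + N·sup|∂L| ≤
C_Λ / e^3`, weaker bound `C/e^4` claimed.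
-/
import Crest.Agent.R123.AgeReg

set_option autoImplicit false

namespace Crest.Agent.R123

open Topology

theorem bt_eq_cut (p : ℝ × ℝ) : bt p.1 p.2 = Real.smoothTransition (3 - 1 * (s p.1 / p.2)) := by
  rw [bt, one_mul]

theorem bt_contDiffAt {n : ℕ∞} {e : ℝ} (he : 0 < e) (t : ℝ) :
    ContDiffAt ℝ n (fun p : ℝ × ℝ => bt p.1 p.2) (t, e) := by
  have : (fun p : ℝ × ℝ => bt p.1 p.2)
      = fun p : ℝ × ℝ => Real.smoothTransition (3 - 1 * (s p.1 / p.2)) := by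
    funext p; exact bt_eq_cut p
  rw [this]
  exact cut_contDiffAt 3 1 he t

/-- the source term of `ell` -/
noncomputable def srcL (Λ u e : ℝ) : ℝ := (1 - bt u e) * Real.log (Λ * s u)

theorem srcL_eventually_zero {Λ u e : ℝ} (he : 0 < e) (h : s u < 2 * e) :
    (fun p : ℝ × ℝ => srcL Λ p.1 p.2) =ᶠ[𝓝 (u, e)] fun _ => (0 : ℝ) := by
  have hs : Continuous s := (s_contDiff (n := 0)).continuous
  have h1 : ∀ᶠ p : ℝ × ℝ in 𝓝 (u, e), s p.1 < 2 * p.2 := by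
    have hc1 : Continuous fun p : ℝ × ℝ => s p.1 := hs.comp continuous_fst
    have hc2 : Continuous fun p : ℝ × ℝ => 2 * p.2 := continuous_const.mul continuous_snd
    exact (isOpen_lt hc1 hc2).mem_nhds h
  have h2 : ∀ᶠ p : ℝ × ℝ in 𝓝 (u, e), 0 < p.2 :=
    (continuous_snd.tendsto (u, e)).eventually (lt_mem_nhds he)
  filter_upwards [h1, h2] with p hp1 hp2
  rw [srcL, bt_eq_one hp2 hp1.le, sub_self, zero_mul]

theorem log_contDiffAt {n : ℕ∞} {Λ u e : ℝ} (hΛ : 1 ≤ Λ) (hs : 0 < s u) :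
    ContDiffAt ℝ n (fun p : ℝ × ℝ => Real.log (Λ * s p.1)) (u, e) := by
  refine ContDiffAt.log ?_ (by positivity)
  exact contDiffAt_const.mul (ContDiffAt.comp (g := s) (f := fun p : ℝ × ℝ => p.1) (u, e)
    s_contDiff.contDiffAt contDiffAt_fst)

theorem srcL_contDiffAt {Λ : ℝ} (hΛ : 1 ≤ Λ) {e : ℝ} (he : 0 < e) (u : ℝ) :
    ContDiffAt ℝ 1 (fun p : ℝ × ℝ => srcL Λ p.1 p.2) (u, e) := by
  rcases (s_nonneg u).eq_or_lt with h0 | hpos
  · exact contDiffAt_const.congr_of_eventuallyEq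
      (srcL_eventually_zero he (by rw [← h0]; positivity))
  · exact ContDiffAt.mul (contDiffAt_const.sub (bt_contDiffAt (n := 1) he u))
      (log_contDiffAt (n := 1) hΛ hpos)

theorem abs_log_le {Λ u e : ℝ} (hΛ : 1 ≤ Λ) (he : 0 < e) (h : 2 * e ≤ s u) :
    |Real.log (Λ * s u)| ≤ Real.log Λ + 1 / (2 * e) := by
  have hs : 0 < s u := by linarith
  have hs1 := s_le_one u
  have hlog : 0 ≤ Real.log Λ := Real.log_nonneg hΛ
  have h1 : Real.log (Λ * s u) ≤ Real.log Λ := Real.log_le_log (by positivity) (by nlinarith)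
  have h2 : Real.log (2 * e) ≤ Real.log (Λ * s u) := Real.log_le_log (by positivity) (by nlinarith)
  have h3 : 1 - (2 * e)⁻¹ ≤ Real.log (2 * e) := Real.one_sub_inv_le_log_of_pos (by positivity)
  have h4 : 0 < 1 / (2 * e) := by positivity
  rw [abs_le]
  rw [← one_div] at h3
  constructor <;> linarith

theorem abs_srcL_le {Λ : ℝ} (hΛ : 1 ≤ Λ) {e : ℝ} (he : 0 < e) (u : ℝ) :
    |srcL Λ u e| ≤ Real.log Λ + 1 / (2 * e) := by
  have hlog : 0 ≤ Real.log Λ := Real.log_nonneg hΛ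
  rcases le_or_gt (s u) (2 * e) with h | h
  · rw [srcL, bt_eq_one he h, sub_self, zero_mul, abs_zero]
    positivity
  · rw [srcL, abs_mul]
    have h1 := abs_log_le hΛ he h.le
    have h2 : |1 - bt u e| ≤ 1 := by
      rw [abs_le]; constructor <;> linarith [(bt_mem u e).1, (bt_mem u e).2]
    calc |1 - bt u e| * |Real.log (Λ * s u)| ≤ 1 * (Real.log Λ + 1 / (2 * e)) :=
          mul_le_mul h2 h1 (abs_nonneg _) zero_le_one
      _ = _ := one_mul _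

theorem srcL_fderiv_le {Λ : ℝ} (hΛ : 1 ≤ Λ) {e K : ℝ} (he : 0 < e) (u : ℝ)
    (hK : ‖fderiv ℝ (fun p : ℝ × ℝ => bt p.1 p.2) (u, e)‖ ≤ K) :
    ‖fderiv ℝ (fun p : ℝ × ℝ => srcL Λ p.1 p.2) (u, e)‖
      ≤ 7 / (2 * e) + (Real.log Λ + 1 / (2 * e)) * K := by
  have hlog : 0 ≤ Real.log Λ := Real.log_nonneg hΛ
  have hK0 : 0 ≤ K := (norm_nonneg _).trans hK
  rcases lt_or_ge (s u) (2 * e) with h | h
  · rw [(srcL_eventually_zero he h).fderiv_eq]
    simp only [fderiv_fun_const, Pi.zero_apply, norm_zero]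
    positivity
  · have hs : 0 < s u := by linarith
    have hb : HasFDerivAt (fun p : ℝ × ℝ => bt p.1 p.2)
        (fderiv ℝ (fun p : ℝ × ℝ => bt p.1 p.2) (u, e)) (u, e) :=
      ((bt_contDiffAt (n := 1) he u).differentiableAt (by norm_num)).hasFDerivAt
    have hsd : HasFDerivAt (fun p : ℝ × ℝ => s p.1)
        (deriv s u • (ContinuousLinearMap.fst ℝ ℝ ℝ : ℝ × ℝ →L[ℝ] ℝ)) (u, e) := by
      have h1 : HasDerivAt s (deriv s u) u :=
        ((s_contDiff (n := 1)).differentiable (by norm_num)).differentiableAt.hasDerivAt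
      exact HasDerivAt.comp_hasFDerivAt (h₂ := s) (f := fun p : ℝ × ℝ => p.1) (u, e) h1
        hasFDerivAt_fst
    have hΛs : HasFDerivAt (fun p : ℝ × ℝ => Λ * s p.1)
        (Λ • (deriv s u • (ContinuousLinearMap.fst ℝ ℝ ℝ : ℝ × ℝ →L[ℝ] ℝ))) (u, e) :=
      hsd.const_mul Λ
    have hlg : HasFDerivAt (fun p : ℝ × ℝ => Real.log (Λ * s p.1))
        ((Λ * s u)⁻¹ • (Λ • (deriv s u • (ContinuousLinearMap.fst ℝ ℝ ℝ : ℝ × ℝ →L[ℝ] ℝ)))) (u, e) :=
      HasDerivAt.comp_hasFDerivAt (h₂ := Real.log) (f := fun p : ℝ × ℝ => Λ * s p.1) (u, e)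
        (Real.hasDerivAt_log (by positivity : Λ * s u ≠ 0)) hΛs
    have hm := (hb.const_sub 1).mul hlg
    have hfd : fderiv ℝ (fun p : ℝ × ℝ => srcL Λ p.1 p.2) (u, e)
        = (1 - bt u e) • ((Λ * s u)⁻¹ •
            (Λ • (deriv s u • (ContinuousLinearMap.fst ℝ ℝ ℝ : ℝ × ℝ →L[ℝ] ℝ))))
          + Real.log (Λ * s u) • (-fderiv ℝ (fun p : ℝ × ℝ => bt p.1 p.2) (u, e)) := hm.fderiv
    rw [hfd]
    refine (norm_add_le _ _).trans ?_
    have h2 : |1 - bt u e| ≤ 1 := by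
      rw [abs_le]; constructor <;> linarith [(bt_mem u e).1, (bt_mem u e).2]
    refine add_le_add ?_ ?_
    · rw [norm_smul, norm_smul, norm_smul, norm_smul]
      simp only [Real.norm_eq_abs]
      have hfn : ‖(ContinuousLinearMap.fst ℝ ℝ ℝ : ℝ × ℝ →L[ℝ] ℝ)‖ ≤ 1 :=
        ContinuousLinearMap.norm_fst_le ℝ ℝ ℝ
      have hd := abs_deriv_s_le u
      have hΛ0 : 0 < Λ := by linarith
      rw [abs_of_pos (inv_pos.2 (by positivity : 0 < Λ * s u)), abs_of_pos hΛ0]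
      have h3 : |deriv s u| * ‖(ContinuousLinearMap.fst ℝ ℝ ℝ : ℝ × ℝ →L[ℝ] ℝ)‖ ≤ 7 * 1 :=
        mul_le_mul hd hfn (norm_nonneg _) (by norm_num)
      calc |1 - bt u e| * ((Λ * s u)⁻¹ * (Λ * (|deriv s u| *
            ‖(ContinuousLinearMap.fst ℝ ℝ ℝ : ℝ × ℝ →L[ℝ] ℝ)‖)))
          ≤ 1 * ((Λ * s u)⁻¹ * (Λ * (7 * 1))) := by
            refine mul_le_mul h2 ?_ (by positivity) zero_le_one
            exact mul_le_mul_of_nonneg_left (mul_le_mul_of_nonneg_left h3 hΛ0.le) (by positivity)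
        _ = 7 / s u := by field_simp
        _ ≤ 7 / (2 * e) := div_le_div_of_nonneg_left (by norm_num) (by positivity) h
    · rw [norm_smul, norm_neg, Real.norm_eq_abs]
      exact mul_le_mul (abs_log_le hΛ he h) hK (norm_nonneg _) (by positivity)

theorem ell_contDiffAt {Λ : ℝ} (hΛ : 1 ≤ Λ) {e : ℝ} (he : 0 < e) (t : ℝ) :
    ContDiffAt ℝ 1 (fun p : ℝ × ℝ => ell Λ p.1 p.2) (t, e) := by
  obtain ⟨C, hC0, hC⟩ := hit_nhds
  obtain ⟨N, -, hN⟩ := hC e he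
  refine sol_contDiffAt (B := bt) (L := srcL Λ) (N := N)
    (fun u => bt_contDiffAt he u) (fun u => srcL_contDiffAt hΛ he u) ?_
  filter_upwards [hN t] with p hp
  obtain ⟨j, hj, hp0, hs⟩ := hp
  exact ⟨j, hj, bt_eq_one hp0 (by linarith)⟩

theorem ell_fderiv_le {Λ : ℝ} (hΛ : 1 ≤ Λ) : ∃ C : ℝ, 0 < C ∧ ∀ t e : ℝ, 0 < e → e ≤ 3 →
    ‖fderiv ℝ (fun p : ℝ × ℝ => ell Λ p.1 p.2) (t, e)‖ ≤ C / e ^ 4 := by
  obtain ⟨C, hC0, hC⟩ := hit_nhds
  obtain ⟨K, hK0, hK⟩ := cut_fderiv_le 3 1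
  have hlog : 0 ≤ Real.log Λ := Real.log_nonneg hΛ
  set A : ℝ := 3 * Real.log Λ + 1 / 2 with hA
  have hA0 : 0 < A := by positivity
  refine ⟨C ^ 2 * K * A + 2 * C * (32 + A * K), by positivity, fun t e he he3 => ?_⟩
  obtain ⟨N, hNe, hN⟩ := hC e he
  have hbd : ∀ u, DifferentiableAt ℝ (fun p : ℝ × ℝ => bt p.1 p.2) (u, e) := fun u =>
    (bt_contDiffAt (n := 1) he u).differentiableAt (by norm_num)
  have hbn : ∀ u, ‖fderiv ℝ (fun p : ℝ × ℝ => bt p.1 p.2) (u, e)‖ ≤ K / e ^ 2 := fun u => by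
    have h1 : (fun p : ℝ × ℝ => bt p.1 p.2)
        = fun p : ℝ × ℝ => Real.smoothTransition (3 - 1 * (s p.1 / p.2)) := by
      funext p; exact bt_eq_cut p
    rw [h1]
    exact hK u e he he3
  have h := sol_fderiv_le (B := bt) (L := srcL Λ) (t := t) (e := e) (N := N)
    (DB := K / e ^ 2) (DL := 7 / (2 * e) + (Real.log Λ + 1 / (2 * e)) * (K / e ^ 2))
    (M := Real.log Λ + 1 / (2 * e))
    (fun u => (bt_mem u e).1) (fun u => (bt_mem u e).2) hbd hbn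
    (fun u => (srcL_contDiffAt hΛ he u).differentiableAt (by norm_num))
    (fun u => srcL_fderiv_le hΛ he u (hbn u))
    (fun u => abs_srcL_le hΛ he u)
    (by
      filter_upwards [hN t] with p hp
      obtain ⟨j, hj, hp0, hs⟩ := hp
      exact ⟨j, hj, bt_eq_one hp0 (by linarith)⟩)
  refine le_trans h ?_
  have hNN := hNe he3
  have hse : 0 < Real.sqrt e := Real.sqrt_pos.2 he
  have hsq : Real.sqrt e ^ 2 = e := Real.sq_sqrt he.le
  have hN2 : (N : ℝ) ^ 2 ≤ C ^ 2 / e := by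
    calc (N : ℝ) ^ 2 ≤ (C / Real.sqrt e) ^ 2 := pow_le_pow_left₀ (Nat.cast_nonneg _) hNN 2
      _ = C ^ 2 / e := by rw [div_pow, hsq]
  have hs2 : Real.sqrt e ≤ 2 := by
    rw [show (2 : ℝ) = Real.sqrt 4 by
      rw [show (4 : ℝ) = 2 ^ 2 by norm_num, Real.sqrt_sq (by norm_num)]]
    exact Real.sqrt_le_sqrt (by linarith)
  have hN1 : (N : ℝ) ≤ 2 * C / e := by
    refine hNN.trans ?_
    rw [div_le_div_iff₀ hse he]
    nlinarith [mul_pos hC0 hse]
  have hM : Real.log Λ + 1 / (2 * e) ≤ A / e := by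
    rw [hA, le_div_iff₀ he]
    have : (Real.log Λ + 1 / (2 * e)) * e = Real.log Λ * e + 1 / 2 := by field_simp
    rw [this]
    nlinarith
  have hM0 : 0 ≤ Real.log Λ + 1 / (2 * e) := by positivity
  have hKe : 0 ≤ K / e ^ 2 := by positivity
  have hDL : 7 / (2 * e) + (Real.log Λ + 1 / (2 * e)) * (K / e ^ 2) ≤ (32 + A * K) / e ^ 3 := by
    have h1 : 7 / (2 * e) ≤ 32 / e ^ 3 := by
      rw [div_le_div_iff₀ (by positivity) (by positivity)]
      have : e ^ 3 = e * e ^ 2 := by ring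
      rw [this]
      have : e ^ 2 ≤ 9 := by nlinarith
      nlinarith
    have h2 : (Real.log Λ + 1 / (2 * e)) * (K / e ^ 2) ≤ A / e * (K / e ^ 2) :=
      mul_le_mul_of_nonneg_right hM hKe
    have h3 : A / e * (K / e ^ 2) = A * K / e ^ 3 := by field_simp
    rw [add_div]
    linarith
  have hDL0 : 0 ≤ 7 / (2 * e) + (Real.log Λ + 1 / (2 * e)) * (K / e ^ 2) := by positivity
  calc (N : ℝ) ^ 2 * (K / e ^ 2) * (Real.log Λ + 1 / (2 * e))
        + N * (7 / (2 * e) + (Real.log Λ + 1 / (2 * e)) * (K / e ^ 2))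
      ≤ C ^ 2 / e * (K / e ^ 2) * (A / e) + 2 * C / e * ((32 + A * K) / e ^ 3) := by
        refine add_le_add ?_ ?_
        · exact mul_le_mul (mul_le_mul_of_nonneg_right hN2 hKe) hM hM0 (by positivity)
        · exact mul_le_mul hN1 hDL hDL0 (by positivity)
    _ = _ := by field_simp

end Crest.Agent.R123
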