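/-
ROW 123 (S0163), piece Eps: the slowly varying scale `ee κ σ` (`→ 0` very slowly as `σ → -∞`).

`uu σ = √(1+σ²) - σ > 0`, decreasing, `|uu'| ≤ 2`, `uu σ ≤ 2|σ| + 1`.  With `w = uu/κ`,
`ee = 3 (1+w²)^{-1/16}`, `ee' = -(3/8) w w' (1+w²)^{-17/16} ≥ 0`, `|ee'| ≤ (3/(4κ)) (1+w²)^{-9/16} = (3/(4κ)) (ee/3)^9`.
`(1/ee)^8 = (1+w²)^{1/2}/3^8 ≤ 1+w ≤ 2+|σ|` for `κ ≥ 2`, `σ ≤ 0`.
`ee ≥ 2` iff `1+w² ≤ 1.5^16 = 656.8…`; for `σ ≥ -κ`: `w ≤ (2κ+1)/κ ≤ 3`.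
-/
import Mathlib

set_option autoImplicit false

namespace Crest.Agent.R123

open Filter Topology

noncomputable section

/-- `uu σ = √(1+σ²) - σ` -/
def uu (σ : ℝ) : ℝ := Real.sqrt (1 + σ ^ 2) - σ

/-- the slowly varying scale -/
def ee (κ σ : ℝ) : ℝ := 3 * (1 + (uu σ / κ) ^ 2) ^ (-(1 / 16) : ℝ)

end

namespace Epsaux

lemma sqrt_ge (σ : ℝ) : |σ| ≤ Real.sqrt (1 + σ ^ 2) := by
  rw [← Real.sqrt_sq_eq_abs]
  exact Real.sqrt_le_sqrt (by linarith)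

lemma sqrt_le (σ : ℝ) : Real.sqrt (1 + σ ^ 2) ≤ 1 + |σ| := by
  rw [Real.sqrt_le_left (by positivity)]
  nlinarith [sq_abs σ, abs_nonneg σ]

lemma uu_nonneg (σ : ℝ) : 0 ≤ uu σ := by
  unfold uu
  have := sqrt_ge σ
  have := le_abs_self σ
  linarith

lemma B_ge (κ σ : ℝ) : 1 ≤ 1 + (uu σ / κ) ^ 2 := by
  have := sq_nonneg (uu σ / κ)
  linarith

lemma uu_hasDerivAt (σ : ℝ) : HasDerivAt uu (σ / Real.sqrt (1 + σ ^ 2) - 1) σ := by
  unfold uu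
  have h1 : HasDerivAt (fun σ : ℝ => 1 + σ ^ 2) (2 * σ) σ := by
    have := (hasDerivAt_pow 2 σ).const_add 1
    refine this.congr_deriv ?_
    norm_num
  have h0 : (1 + σ ^ 2) ≠ 0 := by positivity
  have h2 := h1.sqrt h0
  have h3 := h2.sub (hasDerivAt_id' σ)
  refine h3.congr_deriv ?_
  have : Real.sqrt (1 + σ ^ 2) ≠ 0 := by positivity
  field_simp

/-- the derivative of `uu` is in `[-2, 0]` -/
lemma duu (σ : ℝ) : -2 ≤ σ / Real.sqrt (1 + σ ^ 2) - 1 ∧ σ / Real.sqrt (1 + σ ^ 2) - 1 ≤ 0 := by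
  have hp : 0 < Real.sqrt (1 + σ ^ 2) := by positivity
  have h1 := sqrt_ge σ
  have h2 := abs_le.mp h1
  constructor
  · have : -1 ≤ σ / Real.sqrt (1 + σ ^ 2) := by
      rw [le_div_iff₀ hp]; linarith
    linarith
  · have : σ / Real.sqrt (1 + σ ^ 2) ≤ 1 := by
      rw [div_le_one hp]; linarith
    linarith

lemma ee_hasDerivAt (κ σ : ℝ) :
    HasDerivAt (ee κ) (3 / 16 * (2 * (uu σ / κ) * ((1 - σ / Real.sqrt (1 + σ ^ 2)) / κ)) *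
      (1 + (uu σ / κ) ^ 2) ^ (-(17 / 16) : ℝ)) σ := by
  unfold ee
  have h1 := ((uu_hasDerivAt σ).div_const κ).pow 2
  have h2 := h1.const_add 1
  have hB : (1 + (uu σ / κ) ^ 2) ≠ 0 := by
    have := B_ge κ σ
    linarith
  have h3 := h2.rpow_const (p := (-(1 / 16) : ℝ)) (Or.inl hB)
  have h4 := h3.const_mul 3
  refine h4.congr_deriv ?_
  have he : (-(1 / 16) : ℝ) - 1 = -(17 / 16) := by norm_num
  simp only [Pi.add_apply, Pi.pow_apply, he]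
  simp
  ring

lemma ee_rpow (κ σ : ℝ) (n : ℕ) : (ee κ σ) ^ n =
    3 ^ n * (1 + (uu σ / κ) ^ 2) ^ (-(n / 16) : ℝ) := by
  unfold ee
  rw [mul_pow, ← Real.rpow_natCast ((1 + (uu σ / κ) ^ 2) ^ (-(1 / 16) : ℝ)) n, ← Real.rpow_mul (by
    have := B_ge κ σ
    linarith)]
  congr 2
  ring

end Epsaux

open Epsaux

theorem ee_pos (κ σ : ℝ) : 0 < ee κ σ := by
  unfold ee
  have := B_ge κ σ
  positivity

theorem ee_le (κ σ : ℝ) : ee κ σ ≤ 3 := by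
  unfold ee
  have h := Real.rpow_le_one_of_one_le_of_nonpos (B_ge κ σ) (show (-(1 / 16) : ℝ) ≤ 0 by norm_num)
  linarith

theorem ee_contDiff {n : WithTop ℕ∞} {κ : ℝ} (hκ : 0 < κ) : ContDiff ℝ n (ee κ) := by
  have h1 : ContDiff ℝ n uu := by
    unfold uu
    apply ContDiff.sub _ contDiff_id
    apply ContDiff.sqrt
    · fun_prop
    · intro x
      positivity
  unfold ee
  apply ContDiff.mul contDiff_const
  apply ContDiff.rpow_const_of_ne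
  · apply ContDiff.add contDiff_const
    apply ContDiff.pow
    exact h1.div_const κ
  · intro x
    have := B_ge κ x
    linarith

theorem ee_deriv_nonneg {κ : ℝ} (hκ : 0 < κ) (σ : ℝ) : 0 ≤ deriv (ee κ) σ := by
  rw [(ee_hasDerivAt κ σ).deriv]
  have h1 := duu σ
  have h2 := uu_nonneg σ
  have h3 : 0 ≤ 1 - σ / Real.sqrt (1 + σ ^ 2) := by linarith
  have h4 := B_ge κ σ
  positivity

theorem ee_deriv_le {κ : ℝ} (hκ : 0 < κ) (σ : ℝ) : deriv (ee κ) σ ≤ (ee κ σ) ^ 9 / κ := by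
  rw [(ee_hasDerivAt κ σ).deriv, ee_rpow]
  set B := 1 + (uu σ / κ) ^ 2 with hBdef
  have hB := B_ge κ σ
  rw [← hBdef] at hB
  have hB0 : 0 < B := by linarith
  have h1 := duu σ
  have h2 := uu_nonneg σ
  have hw0 : 0 ≤ uu σ / κ := by positivity
  have hw : uu σ / κ ≤ B ^ (1 / 2 : ℝ) := by
    rw [← Real.sqrt_eq_rpow]
    apply Real.le_sqrt_of_sq_le
    rw [hBdef]
    linarith
  have h3 : (1 - σ / Real.sqrt (1 + σ ^ 2)) ≤ 2 := by linarith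
  have h3' : 0 ≤ (1 - σ / Real.sqrt (1 + σ ^ 2)) := by linarith
  have h4 : B ^ (1 / 2 : ℝ) * B ^ (-(17 / 16) : ℝ) = B ^ (-((9 : ℕ) / 16) : ℝ) := by
    rw [← Real.rpow_add hB0]
    congr 1
    norm_num
  calc 3 / 16 * (2 * (uu σ / κ) * ((1 - σ / Real.sqrt (1 + σ ^ 2)) / κ)) * B ^ (-(17 / 16) : ℝ)
      ≤ 3 / 16 * (2 * (B ^ (1 / 2 : ℝ)) * (2 / κ)) * B ^ (-(17 / 16) : ℝ) := by gcongr
    _ = 3 / 4 * (B ^ (1 / 2 : ℝ) * B ^ (-(17 / 16) : ℝ)) / κ := by ring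
    _ = 3 / 4 * B ^ (-((9 : ℕ) / 16) : ℝ) / κ := by rw [h4]
    _ ≤ 3 ^ 9 * B ^ (-((9 : ℕ) / 16) : ℝ) / κ := by
        have : 0 < B ^ (-((9 : ℕ) / 16) : ℝ) := Real.rpow_pos_of_pos hB0 _
        gcongr
        norm_num

namespace Epsaux

lemma ee_mono {κ : ℝ} (hκ : 0 < κ) : Monotone (ee κ) :=
  monotone_of_deriv_nonneg (fun x => (ee_hasDerivAt κ x).differentiableAt)
    (ee_deriv_nonneg hκ)

lemma slow_aux {κ : ℝ} (hκ : 1 ≤ κ) {a b : ℝ} (hab : a ≤ b) :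
    ee κ b - ee κ a ≤ (ee κ b) ^ 9 * (b - a) := by
  have hκ0 : 0 < κ := by linarith
  rcases hab.eq_or_lt with h | h
  · subst h; simp
  obtain ⟨c, hc, hc2⟩ := exists_deriv_eq_slope (ee κ) h
    (fun x _ => (ee_hasDerivAt κ x).continuousAt.continuousWithinAt)
    (fun x _ => (ee_hasDerivAt κ x).differentiableAt.differentiableWithinAt)
  have h1 := ee_deriv_le hκ0 c
  have h2 : (ee κ c) ^ 9 / κ ≤ (ee κ b) ^ 9 := by
    rw [div_le_iff₀ hκ0]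
    have h3 : (ee κ c) ^ 9 ≤ (ee κ b) ^ 9 :=
      pow_le_pow_left₀ (ee_pos κ c).le (ee_mono hκ0 hc.2.le) 9
    have h4 : 0 < (ee κ b) ^ 9 := pow_pos (ee_pos κ b) 9
    nlinarith
  rw [hc2, div_le_iff₀ (by linarith)] at h1
  have h5 : (ee κ c) ^ 9 / κ * (b - a) ≤ (ee κ b) ^ 9 * (b - a) :=
    mul_le_mul_of_nonneg_right h2 (by linarith)
  linarith

lemma ee_inv_pow8 (κ σ : ℝ) :
    (1 / ee κ σ) ^ 8 = Real.sqrt (1 + (uu σ / κ) ^ 2) / 3 ^ 8 := by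
  rw [div_pow, one_pow, ee_rpow]
  set B := 1 + (uu σ / κ) ^ 2 with hBdef
  have hB := B_ge κ σ
  rw [← hBdef] at hB
  have hB0 : 0 < B := by linarith
  have h1 : B ^ (-((8 : ℕ) / 16) : ℝ) = 1 / Real.sqrt B := by
    rw [Real.sqrt_eq_rpow, Real.rpow_neg hB0.le, one_div]
    norm_num
  rw [h1]
  have hs : 0 < Real.sqrt B := Real.sqrt_pos.mpr hB0
  field_simp

lemma sqrt1_lip (a b : ℝ) :
    |Real.sqrt (1 + a ^ 2) - Real.sqrt (1 + b ^ 2)| ≤ |a - b| := by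
  have ha := sqrt_ge a
  have hb := sqrt_ge b
  have hsa : 0 < Real.sqrt (1 + a ^ 2) := Real.sqrt_pos.2 (by positivity)
  have hsb : 0 < Real.sqrt (1 + b ^ 2) := Real.sqrt_pos.2 (by positivity)
  have h1 : (Real.sqrt (1 + a ^ 2) - Real.sqrt (1 + b ^ 2)) *
      (Real.sqrt (1 + a ^ 2) + Real.sqrt (1 + b ^ 2)) = (a - b) * (a + b) := by
    have e1 := Real.sq_sqrt (show 0 ≤ 1 + a ^ 2 by positivity)
    have e2 := Real.sq_sqrt (show 0 ≤ 1 + b ^ 2 by positivity)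
    nlinarith
  have h2 : |Real.sqrt (1 + a ^ 2) - Real.sqrt (1 + b ^ 2)| *
      (Real.sqrt (1 + a ^ 2) + Real.sqrt (1 + b ^ 2)) = |a - b| * |a + b| := by
    rw [← abs_mul, ← h1, abs_mul, abs_of_pos (show 0 < Real.sqrt (1 + a ^ 2) +
      Real.sqrt (1 + b ^ 2) by linarith)]
  have h3 : |a + b| ≤ Real.sqrt (1 + a ^ 2) + Real.sqrt (1 + b ^ 2) :=
    (abs_add_le a b).trans (add_le_add ha hb)
  have h4 : |a - b| * |a + b| ≤ |a - b| * (Real.sqrt (1 + a ^ 2) + Real.sqrt (1 + b ^ 2)) :=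
    mul_le_mul_of_nonneg_left h3 (abs_nonneg _)
  rw [← h2] at h4
  exact le_of_mul_le_mul_right h4 (by linarith)

lemma uu_lip (σ σ' : ℝ) : |uu σ - uu σ'| ≤ 2 * |σ - σ'| := by
  have h := sqrt1_lip σ σ'
  unfold uu
  have e : Real.sqrt (1 + σ ^ 2) - σ - (Real.sqrt (1 + σ' ^ 2) - σ') =
      (Real.sqrt (1 + σ ^ 2) - Real.sqrt (1 + σ' ^ 2)) - (σ - σ') := by ring
  rw [e]
  have := abs_sub (Real.sqrt (1 + σ ^ 2) - Real.sqrt (1 + σ' ^ 2)) (σ - σ')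
  linarith

end Epsaux

theorem ee_slow {κ : ℝ} (hκ : 1 ≤ κ) (σ σ' : ℝ) :
    |(1 / ee κ σ) ^ 8 - (1 / ee κ σ') ^ 8| ≤ |σ - σ'| := by
  rw [ee_inv_pow8, ee_inv_pow8, ← sub_div, abs_div, abs_of_pos (show (0 : ℝ) < 3 ^ 8 by norm_num),
    div_le_iff₀ (by norm_num)]
  have h1 := sqrt1_lip (uu σ / κ) (uu σ' / κ)
  have h2 : |uu σ / κ - uu σ' / κ| ≤ 2 * |σ - σ'| := by
    rw [← sub_div, abs_div, abs_of_pos (show (0 : ℝ) < κ by linarith)]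
    rw [div_le_iff₀ (by linarith)]
    have h3 := uu_lip σ σ'
    have h4 := abs_nonneg (σ - σ')
    nlinarith
  have h5 := abs_nonneg (σ - σ')
  linarith

theorem ee_slow' {κ : ℝ} (hκ : 1 ≤ κ) (σ σ' : ℝ) :
    |ee κ σ - ee κ σ'| ≤ (max (ee κ σ) (ee κ σ')) ^ 9 * |σ - σ'| := by
  have hκ0 : 0 < κ := by linarith
  rcases le_total σ σ' with h | h
  · have hm := ee_mono hκ0 h
    rw [max_eq_right hm, abs_sub_comm, abs_of_nonneg (by linarith), abs_sub_comm σ σ',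
      abs_of_nonneg (by linarith : (0:ℝ) ≤ σ' - σ)]
    exact slow_aux hκ h
  · have hm := ee_mono hκ0 h
    rw [max_eq_left hm, abs_of_nonneg (by linarith), abs_of_nonneg (by linarith : (0:ℝ) ≤ σ - σ')]
    exact slow_aux hκ h

theorem ee_tendsto {κ : ℝ} (hκ : 0 < κ) : Tendsto (ee κ) atBot (𝓝 0) := by
  have h1 : Tendsto (fun σ : ℝ => 1 + (uu σ / κ) ^ 2) atBot atTop := by
    have h2 : Tendsto (fun σ : ℝ => uu σ / κ) atBot atTop := by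
      apply Tendsto.atTop_div_const hκ
      apply tendsto_atTop_mono (fun σ => ?_) tendsto_neg_atBot_atTop
      unfold uu
      have := Real.sqrt_nonneg (1 + σ ^ 2)
      linarith
    exact tendsto_atTop_add_const_left _ _ ((tendsto_pow_atTop (by norm_num)).comp h2)
  have h3 := (tendsto_rpow_neg_atTop (show (0:ℝ) < 1 / 16 by norm_num)).comp h1
  have h4 := h3.const_mul 3
  rw [mul_zero] at h4
  exact h4

theorem ee_pow {κ : ℝ} (hκ : 2 ≤ κ) {σ : ℝ} (hσ : σ ≤ 0) : (1 / ee κ σ) ^ 8 ≤ 2 + |σ| := by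
  have hκ0 : 0 < κ := by linarith
  rw [div_pow, one_pow, ee_rpow]
  set B := 1 + (uu σ / κ) ^ 2 with hBdef
  have hB := B_ge κ σ
  rw [← hBdef] at hB
  have hB0 : 0 < B := by linarith
  have h1 : B ^ (-((8 : ℕ) / 16) : ℝ) = 1 / Real.sqrt B := by
    rw [Real.sqrt_eq_rpow, Real.rpow_neg hB0.le, one_div]
    norm_num
  rw [h1]
  have hs : 0 < Real.sqrt B := Real.sqrt_pos.mpr hB0
  have h2 : 1 / (3 ^ 8 * (1 / Real.sqrt B)) = Real.sqrt B / 3 ^ 8 := by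
    field_simp
  rw [h2]
  have hu := uu_nonneg σ
  have hw0 : 0 ≤ uu σ / κ := by positivity
  have h3 : Real.sqrt B ≤ 1 + uu σ / κ := by
    rw [Real.sqrt_le_left (by positivity), hBdef]
    nlinarith
  have h4 : uu σ / κ ≤ uu σ / 2 := by gcongr
  have h5 : uu σ ≤ 1 + 2 * |σ| := by
    unfold uu
    have := sqrt_le σ
    rw [abs_of_nonpos hσ] at *
    linarith
  have h6 : Real.sqrt B ≤ 2 + |σ| := by linarith
  have h7 : 0 ≤ |σ| := abs_nonneg σ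
  rw [div_le_iff₀ (by norm_num)]
  nlinarith

theorem ee_ge {κ : ℝ} (hκ : 2 ≤ κ) {σ : ℝ} (hσ : -κ ≤ σ) : 2 ≤ ee κ σ := by
  have hκ0 : 0 < κ := by linarith
  unfold ee
  set B := 1 + (uu σ / κ) ^ 2 with hBdef
  have hB := B_ge κ σ
  rw [← hBdef] at hB
  have hB0 : 0 < B := by linarith
  have h5 : uu σ ≤ 1 + 2 * κ := by
    unfold uu
    have h := sqrt_le σ
    rcases le_total 0 σ with h0 | h0
    · rw [abs_of_nonneg h0] at h; linarith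
    · rw [abs_of_nonpos h0] at h; linarith
  have hu := uu_nonneg σ
  have hw0 : 0 ≤ uu σ / κ := by positivity
  have h6 : uu σ / κ ≤ 3 := by
    rw [div_le_iff₀ hκ0]; linarith
  have h7 : B ≤ (3 / 2 : ℝ) ^ 16 := by
    rw [hBdef]
    have : (uu σ / κ) ^ 2 ≤ 3 ^ 2 := pow_le_pow_left₀ hw0 h6 2
    norm_num at this ⊢
    linarith
  have h8 : ((3 / 2 : ℝ) ^ 16) ^ (-(1 / 16) : ℝ) ≤ B ^ (-(1 / 16) : ℝ) :=
    Real.rpow_le_rpow_of_nonpos hB0 h7 (by norm_num)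
  have h9 : ((3 / 2 : ℝ) ^ 16) ^ (-(1 / 16) : ℝ) = 2 / 3 := by
    rw [← Real.rpow_natCast (3 / 2 : ℝ) 16, ← Real.rpow_mul (by norm_num)]
    norm_num
  rw [h9] at h8
  linarith

end Crest.Agent.R123
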