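/-
ROW 123 (S0163), piece Dat: the age and the conformal correction as functions of `(t, σ)`, `e = e(σ)`, with all
constants.

Proof of `exists_dat`: `Cn` from `age_le`.  Given `Cw, K, σ₀`: choose `Λ ≥ 1` with `log Λ ≥ C₅`,
`c₃ (log Λ - C₅) ≥ K` (`ell_lower`).  Let `C` be the derivative constants of `age_fderiv_le`, `ell_fderiv_le`.
`N t σ = age t (ee κ σ)`, `L t σ = ell Λ t (ee κ σ)`, `e = ee κ`, `κ ≥ max 2 σ₀`, and
`C · 3^5/κ ≤ min (1/2) (1/(2Cw))`: `|∂_σ N| ≤ (C/e⁴)(e⁹/κ) ≤ C 3⁵/κ` (mean value).  `N_tlip`: mean value in `t` with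
`e` fixed.  `N_zero, L_zero`: `e σ ≥ 2` for `σ ≥ -κ` (`ee_ge`).  `L_next_mid`: `θ = bt t (e σ)`.
-/
import Crest.Agent.R123.AgeReg
import Crest.Agent.R123.EllReg
import Crest.Agent.R123.EllLow
import Crest.Agent.R123.Eps

set_option autoImplicit false

namespace Crest.Agent.R123

open Filter Topology

/-- all properties of the age `N t σ` and the logarithmic correction `L t σ` used later -/
structure Dat (Cn Cw K σ₀ : ℝ) where
  N : ℝ → ℝ → ℝ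
  L : ℝ → ℝ → ℝ
  e : ℝ → ℝ
  Λ : ℝ
  CΛ : ℝ
  one_le_Λ : 1 ≤ Λ
  CΛ_pos : 0 < CΛ
  e_pos : ∀ σ, 0 < e σ
  e_le : ∀ σ, e σ ≤ 3
  e_cont : Continuous e
  e_tendsto : Tendsto e atBot (𝓝 0)
  e_pow : ∀ σ ≤ 0, (1 / e σ) ^ 8 ≤ 2 + |σ|
  e_slow : ∀ σ σ', |(1 / e σ) ^ 8 - (1 / e σ') ^ 8| ≤ |σ - σ'|
  N_cd : ContDiff ℝ 1 (fun p : ℝ × ℝ => N p.1 p.2)
  L_cd : ContDiff ℝ 1 (fun p : ℝ × ℝ => L p.1 p.2)
  N_per : ∀ t σ, N (t + 1) σ = N t σ
  L_per : ∀ t σ, L (t + 1) σ = L t σ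
  N_nonneg : ∀ t σ, 0 ≤ N t σ
  N_zero : ∀ t σ, -σ₀ ≤ σ → N t σ = 0
  L_zero : ∀ t σ, -σ₀ ≤ σ → L t σ = 0
  N_lip : ∀ t σ σ', |N t σ - N t σ'| ≤ 1 / (2 * Cw) * |σ - σ'|
  L_lip : ∀ t σ σ', |L t σ - L t σ'| ≤ 1 / 2 * |σ - σ'|
  N_le : ∀ t σ, N t σ ≤ Cn / Real.sqrt (e σ)
  N_tlip : ∀ t t' σ, |N t σ - N t' σ| ≤ CΛ / (e σ) ^ 4 * |t - t'|
  L_tlip : ∀ t t' σ, |L t σ - L t' σ| ≤ CΛ / (e σ) ^ 4 * |t - t'|
  N_next : ∀ t σ, e σ ≤ s t → N (t + al) σ = 1 + N t σ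
  L_next_low : ∀ t σ, s t ≤ 2 * e σ → L (t + al) σ = 0
  L_next_high : ∀ t σ, 3 * e σ ≤ s t → L (t + al) σ = L t σ + Real.log (Λ * s t)
  L_next_mid : ∀ t σ, ∃ θ : ℝ, 0 ≤ θ ∧ θ ≤ 1 ∧
    L (t + al) σ = (1 - θ) * (L t σ + Real.log (Λ * s t))
  L_low : ∃ σl : ℝ, ∀ σ ≤ σl, ∀ t, s t ≤ 3 * e σ → K / Real.sqrt (e σ) ≤ L t σ

/-- mean value estimates for `F t (ee κ σ)` -/
theorem dat_lip (F : ℝ → ℝ → ℝ)
    (hF : ∀ e : ℝ, 0 < e → ∀ t, ContDiffAt ℝ 1 (fun p : ℝ × ℝ => F p.1 p.2) (t, e)) (C : ℝ)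
    (hC0 : 0 < C)
    (hC : ∀ t e : ℝ, 0 < e → e ≤ 3 → ‖fderiv ℝ (fun p : ℝ × ℝ => F p.1 p.2) (t, e)‖ ≤ C / e ^ 4)
    (κ : ℝ) (hκ : 0 < κ) :
    ContDiff ℝ 1 (fun p : ℝ × ℝ => F p.1 (ee κ p.2)) ∧
    (∀ t σ σ', |F t (ee κ σ) - F t (ee κ σ')| ≤ C * 243 / κ * |σ - σ'|) ∧
    (∀ t t' σ, |F t (ee κ σ) - F t' (ee κ σ)| ≤ C / (ee κ σ) ^ 4 * |t - t'|) := by
  have hee : ContDiff ℝ 1 (ee κ) := ee_contDiff hκ
  have hD : ∀ t σ, HasFDerivAt (fun p : ℝ × ℝ => F p.1 p.2)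
      (fderiv ℝ (fun p : ℝ × ℝ => F p.1 p.2) (t, ee κ σ)) (t, ee κ σ) := fun t σ =>
    ((hF _ (ee_pos κ σ) t).differentiableAt (by simp)).hasFDerivAt
  refine ⟨?_, ?_, ?_⟩
  · rw [contDiff_iff_contDiffAt]
    intro p
    have h1 : ContDiffAt ℝ 1 (fun p : ℝ × ℝ => (p.1, ee κ p.2)) p :=
      (contDiff_fst.prodMk (hee.comp contDiff_snd)).contDiffAt
    exact ContDiffAt.comp p (g := fun p : ℝ × ℝ => F p.1 p.2) (hF _ (ee_pos κ p.2) p.1) h1
  · intro t σ σ'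
    have hder : ∀ x, HasDerivAt (fun x => F t (ee κ x))
        ((fderiv ℝ (fun p : ℝ × ℝ => F p.1 p.2) (t, ee κ x)) (0, deriv (ee κ) x)) x := by
      intro x
      have h1 : HasDerivAt (fun x => ((t, ee κ x) : ℝ × ℝ)) (0, deriv (ee κ) x) x :=
        (hasDerivAt_const x t).prodMk ((hee.differentiable (by simp)) x).hasDerivAt
      exact (hD t x).comp_hasDerivAt x h1
    have hb : ∀ x ∈ (Set.univ : Set ℝ), ‖deriv (fun x => F t (ee κ x)) x‖ ≤ C * 243 / κ := by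
      intro x _
      rw [(hder x).deriv]
      have he := ee_pos κ x
      have he3 := ee_le κ x
      have h1 := hC t (ee κ x) he he3
      have h2 : ‖((0 : ℝ), deriv (ee κ) x)‖ ≤ (ee κ x) ^ 9 / κ := by
        rw [Prod.norm_def, norm_zero, Real.norm_eq_abs, abs_of_nonneg (ee_deriv_nonneg hκ x)]
        exact max_le (div_nonneg (pow_nonneg he.le 9) hκ.le) (ee_deriv_le hκ x)
      calc ‖(fderiv ℝ (fun p : ℝ × ℝ => F p.1 p.2) (t, ee κ x)) (0, deriv (ee κ) x)‖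
          ≤ ‖fderiv ℝ (fun p : ℝ × ℝ => F p.1 p.2) (t, ee κ x)‖ * ‖((0 : ℝ), deriv (ee κ) x)‖ :=
            ContinuousLinearMap.le_opNorm _ _
        _ ≤ (C / (ee κ x) ^ 4) * ((ee κ x) ^ 9 / κ) :=
            mul_le_mul h1 h2 (norm_nonneg _) (div_nonneg hC0.le (pow_nonneg he.le 4))
        _ = C * (ee κ x) ^ 5 / κ := by field_simp
        _ ≤ C * 243 / κ := by
            have h5 : (ee κ x) ^ 5 ≤ 243 := by
              calc (ee κ x) ^ 5 ≤ 3 ^ 5 := pow_le_pow_left₀ he.le he3 5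
                _ = 243 := by norm_num
            gcongr
    have h := Convex.norm_image_sub_le_of_norm_deriv_le (f := fun x => F t (ee κ x))
      (fun x _ => (hder x).differentiableAt) hb convex_univ (Set.mem_univ σ') (Set.mem_univ σ)
    simpa only [Real.norm_eq_abs] using h
  · intro t t' σ
    have hder : ∀ x, HasDerivAt (fun x => F x (ee κ σ))
        ((fderiv ℝ (fun p : ℝ × ℝ => F p.1 p.2) (x, ee κ σ)) (1, 0)) x := by
      intro x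
      have h1 : HasDerivAt (fun x : ℝ => ((x, ee κ σ) : ℝ × ℝ)) (1, 0) x :=
        (hasDerivAt_id x).prodMk (hasDerivAt_const x _)
      exact (hD x σ).comp_hasDerivAt x h1
    have hb : ∀ x ∈ (Set.univ : Set ℝ), ‖deriv (fun x => F x (ee κ σ)) x‖ ≤
        C / (ee κ σ) ^ 4 := by
      intro x _
      rw [(hder x).deriv]
      have he := ee_pos κ σ
      have h1 := hC x (ee κ σ) he (ee_le κ σ)
      have h2 : ‖((1 : ℝ), (0 : ℝ))‖ = 1 := by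
        rw [Prod.norm_def, norm_zero, norm_one]
        norm_num
      calc ‖(fderiv ℝ (fun p : ℝ × ℝ => F p.1 p.2) (x, ee κ σ)) (1, 0)‖
          ≤ ‖fderiv ℝ (fun p : ℝ × ℝ => F p.1 p.2) (x, ee κ σ)‖ * ‖((1 : ℝ), (0 : ℝ))‖ :=
            ContinuousLinearMap.le_opNorm _ _
        _ ≤ C / (ee κ σ) ^ 4 := by rw [h2, mul_one]; exact h1
    have h := Convex.norm_image_sub_le_of_norm_deriv_le (f := fun x => F x (ee κ σ))
      (fun x _ => (hder x).differentiableAt) hb convex_univ (Set.mem_univ t') (Set.mem_univ t)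
    simpa only [Real.norm_eq_abs] using h

theorem exists_dat : ∃ Cn : ℝ, 0 < Cn ∧ ∀ Cw K σ₀ : ℝ, 0 < Cw → 0 < K → 0 < σ₀ →
    Nonempty (Dat Cn Cw K σ₀) := by
  obtain ⟨Cn, hCn, hage⟩ := age_le
  refine ⟨Cn, hCn, fun Cw K σ₀ hCw hK hσ₀ => ?_⟩
  obtain ⟨c₃, C₅, hc₃, hlow⟩ := ell_lower
  obtain ⟨Ca, hCa, hCa'⟩ := age_fderiv_le
  set Λ : ℝ := Real.exp (max 0 (C₅ + K / c₃)) with hΛdef
  have hlogΛ : Real.log Λ = max 0 (C₅ + K / c₃) := Real.log_exp _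
  have hΛ1 : 1 ≤ Λ := Real.one_le_exp (le_max_left _ _)
  have hΛ5 : C₅ + K / c₃ ≤ Real.log Λ := by rw [hlogΛ]; exact le_max_right _ _
  have hKc : 0 < K / c₃ := div_pos hK hc₃
  obtain ⟨Cl, hCl, hCl'⟩ := ell_fderiv_le hΛ1
  obtain ⟨e₀, he₀, hell⟩ := hlow Λ hΛ1 (by linarith)
  set C := max Ca Cl with hCdef
  have hC0 : 0 < C := lt_of_lt_of_le hCa (le_max_left _ _)
  set κ := max (max 2 σ₀) (C * 243 * (2 + 2 * Cw)) with hκdef
  have hκ2 : 2 ≤ κ := (le_max_left _ _).trans (le_max_left _ _)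
  have hκσ : σ₀ ≤ κ := (le_max_right _ _).trans (le_max_left _ _)
  have hκC : C * 243 * (2 + 2 * Cw) ≤ κ := le_max_right _ _
  have hκ0 : 0 < κ := by linarith
  have hA := dat_lip age (fun e he t => age_contDiffAt he t) C hC0
    (fun t e he he3 => (hCa' t e he he3).trans (by
      have : 0 < e ^ 4 := pow_pos he 4
      gcongr
      exact le_max_left _ _)) κ hκ0
  have hL := dat_lip (ell Λ) (fun e he t => ell_contDiffAt hΛ1 he t) C hC0
    (fun t e he he3 => (hCl' t e he he3).trans (by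
      have : 0 < e ^ 4 := pow_pos he 4
      gcongr
      exact le_max_right _ _)) κ hκ0
  have hCκ : C * 243 / κ ≤ 1 / (2 + 2 * Cw) := by
    rw [div_le_div_iff₀ hκ0 (by positivity)]
    linarith
  obtain ⟨σl, hσl⟩ := (Filter.eventually_atBot.1
    ((ee_tendsto hκ0).eventually (eventually_lt_nhds he₀)))
  refine ⟨{
    N := fun t σ => age t (ee κ σ)
    L := fun t σ => ell Λ t (ee κ σ)
    e := ee κ
    Λ := Λ
    CΛ := C
    one_le_Λ := hΛ1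
    CΛ_pos := hC0
    e_pos := ee_pos κ
    e_le := ee_le κ
    e_cont := (ee_contDiff (n := 1) hκ0).continuous
    e_tendsto := ee_tendsto hκ0
    e_pow := fun σ hσ => ee_pow hκ2 hσ
    e_slow := fun σ σ' => ee_slow (by linarith) σ σ'
    N_cd := hA.1
    L_cd := hL.1
    N_per := fun t σ => age_add_one t _
    L_per := fun t σ => ell_add_one Λ t _
    N_nonneg := fun t σ => age_nonneg t _
    N_zero := fun t σ hσ => age_eq_zero (ee_ge hκ2 (by linarith)) t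
    L_zero := fun t σ hσ => ell_eq_zero (by
      have := ee_ge hκ2 (show -κ ≤ σ by linarith)
      linarith) Λ t
    N_lip := fun t σ σ' => (hA.2.1 t σ σ').trans (mul_le_mul_of_nonneg_right
      (hCκ.trans (one_div_le_one_div_of_le (by positivity) (by linarith))) (abs_nonneg _))
    L_lip := fun t σ σ' => (hL.2.1 t σ σ').trans (mul_le_mul_of_nonneg_right
      (hCκ.trans (one_div_le_one_div_of_le (by positivity) (by linarith))) (abs_nonneg _))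
    N_le := fun t σ => hage t _ (ee_pos κ σ) (ee_le κ σ)
    N_tlip := hA.2.2
    L_tlip := hL.2.2
    N_next := fun t σ h => by
      rw [age_rec (ee_pos κ σ), bb_eq_zero (ee_pos κ σ) h]
      ring
    L_next_low := fun t σ h => by
      rw [ell_rec (ee_pos κ σ), bt_eq_one (ee_pos κ σ) h]
      ring
    L_next_high := fun t σ h => by
      rw [ell_rec (ee_pos κ σ), bt_eq_zero (ee_pos κ σ) h]
      ring
    L_next_mid := fun t σ => ⟨bt t (ee κ σ), (bt_mem _ _).1, (bt_mem _ _).2,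
      ell_rec (ee_pos κ σ) Λ t⟩
    L_low := ⟨σl, fun σ hσ t ht => ?_⟩ }⟩
  have h1 := hell (ee κ σ) (ee_pos κ σ) (hσl σ hσ).le t ht
  refine le_trans ?_ h1
  have h2 : 0 < Real.sqrt (ee κ σ) := Real.sqrt_pos.2 (ee_pos κ σ)
  gcongr
  have h3 : K / c₃ ≤ Real.log Λ - C₅ := by linarith
  calc K = c₃ * (K / c₃) := by field_simp
    _ ≤ c₃ * (Real.log Λ - C₅) := by gcongr

end Crest.Agent.R123
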