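/-
ROW 123 (S0163), piece HomLip: `C¹` families of positively homogeneous maps are uniformly Lipschitz.

The derivative `D f(u,z)` is continuous on the compact set `[0,1] × {1/2 ≤ ‖z‖ ≤ 3/2}`, so bounded by `M` there,
and `f` is bounded by `B` there.  Two unit vectors at distance `≤ 1/2` are joined by a segment inside this
annulus (mean value inequality); otherwise use `2B ≤ 4B ‖z - z'‖`.  The general case follows by homogeneity.
-/
import Crest.Agent.R123.BaseS

set_option autoImplicit false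

namespace Crest.Agent.R123

theorem homLip {f : ℝ → E → E} (h0 : ∀ u ≤ 0, ∀ z, f u z = f 0 z) (h1 : ∀ u ≥ 1, ∀ z, f u z = f 1 z)
    (hh : ∀ (u : ℝ) (z : E) (r : ℝ), 0 ≤ r → f u (r • z) = r • f u z)
    (hc : ∀ (u : ℝ) (z : E), z ≠ 0 → ContDiffAt ℝ 1 (fun q : ℝ × E => f q.1 q.2) (u, z)) :
    ∃ C : ℝ, 1 ≤ C ∧ ∀ (u u' : ℝ) (z z' : E),
      nrm (f u z - f u' z') ≤ C * (nrm (z - z') + |u - u'| * nrm z) := by
  set F : ℝ × E → E := fun q => f q.1 q.2 with hF
  set K : Set (ℝ × E) := Set.Icc (0 : ℝ) 1 ×ˢ (Metric.closedBall (0 : E) (3 / 2) \ Metric.ball 0 (1 / 2))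
    with hK
  have hKc : IsCompact K :=
    isCompact_Icc.prod ((isCompact_closedBall _ _).diff Metric.isOpen_ball)
  have hKcd : ∀ q ∈ K, ContDiffAt ℝ 1 F q := by
    rintro ⟨u, z⟩ ⟨-, -, hz⟩
    refine hc u z ?_
    rintro rfl
    apply hz
    simp
  obtain ⟨M, hM⟩ := hKc.exists_bound_of_continuousOn (f := fderiv ℝ F) (fun q hq =>
    ((hKcd q hq).fderiv_right (m := 0) (by norm_num)).continuousAt.continuousWithinAt)
  obtain ⟨B, hB⟩ := hKc.exists_bound_of_continuousOn (f := F) (fun q hq =>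
    (hKcd q hq).continuousAt.continuousWithinAt)
  have hunit : ∀ u ∈ Set.Icc (0 : ℝ) 1, ∀ z : E, ‖z‖ = 1 → (u, z) ∈ K := by
    intro u hu z hz
    refine ⟨hu, ?_, ?_⟩
    · simp [hz]; norm_num
    · simp [hz]; norm_num
  -- unit vectors
  have hz1 : ‖((1 : ℂ), (0 : ℂ))‖ = 1 := by simp [Prod.norm_def]
  have hM0 : 0 ≤ M := (norm_nonneg _).trans (hM _ (hunit 0 (by simp) (1, 0) hz1))
  have hB0 : 0 ≤ B := (norm_nonneg _).trans (hB _ (hunit 0 (by simp) (1, 0) hz1))
  set L : ℝ := M + 4 * B with hL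
  have hL0 : 0 ≤ L := by positivity
  have hU : ∀ u ∈ Set.Icc (0 : ℝ) 1, ∀ u' ∈ Set.Icc (0 : ℝ) 1, ∀ z z' : E, ‖z‖ = 1 → ‖z'‖ = 1 →
      ‖f u z - f u' z'‖ ≤ L * (|u - u'| + ‖z - z'‖) := by
    intro u hu u' hu' z z' hz hz'
    by_cases hd : ‖z - z'‖ ≤ 1 / 2
    · have hsub : Set.Icc (0 : ℝ) 1 ×ˢ segment ℝ z' z ⊆ K := by
        rintro ⟨v, w⟩ ⟨hv, hw⟩
        have hw' : ‖w - z'‖ ≤ 1 / 2 := by
          obtain ⟨a, b, ha, hb, hab, rfl⟩ := hw
          have : a • z' + b • z - z' = b • (z - z') := by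
            have : a = 1 - b := by linarith
            rw [this]; module
          rw [this, norm_smul, Real.norm_eq_abs, abs_of_nonneg hb]
          have hb1 : b ≤ 1 := by linarith
          nlinarith [norm_nonneg (z - z')]
        refine ⟨hv, ?_, ?_⟩
        · rw [Metric.mem_closedBall, dist_zero_right]
          have : ‖w‖ ≤ ‖w - z'‖ + ‖z'‖ := by
            simpa using norm_add_le (w - z') z'
          linarith
        · rw [Metric.mem_ball, dist_zero_right, not_lt]
          have : ‖z'‖ ≤ ‖z' - w‖ + ‖w‖ := by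
            simpa using norm_add_le (z' - w) w
          rw [norm_sub_rev] at this
          linarith
      have hmv := Convex.norm_image_sub_le_of_norm_hasFDerivWithin_le (𝕜 := ℝ) (f := F)
        (f' := fderiv ℝ F) (C := M) (s := Set.Icc (0 : ℝ) 1 ×ˢ segment ℝ z' z)
        (x := (u', z')) (y := (u, z))
        (fun q hq => ((hKcd q (hsub hq)).differentiableAt (by norm_num)).hasFDerivAt.hasFDerivWithinAt)
        (fun q hq => hM q (hsub hq)) ((convex_Icc _ _).prod (convex_segment _ _))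
        ⟨hu', left_mem_segment ℝ _ _⟩ ⟨hu, right_mem_segment ℝ _ _⟩
      have h2 : ‖((u, z) : ℝ × E) - (u', z')‖ ≤ |u - u'| + ‖z - z'‖ := by
        rw [Prod.mk_sub_mk, Prod.norm_mk, Real.norm_eq_abs]
        exact max_le (by linarith [norm_nonneg (z - z')]) (by linarith [abs_nonneg (u - u')])
      calc ‖f u z - f u' z'‖ ≤ M * ‖((u, z) : ℝ × E) - (u', z')‖ := hmv
        _ ≤ M * (|u - u'| + ‖z - z'‖) := mul_le_mul_of_nonneg_left h2 hM0
        _ ≤ L * (|u - u'| + ‖z - z'‖) := by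
            refine mul_le_mul_of_nonneg_right (by rw [hL]; linarith) (by positivity)
    · push Not at hd
      have h3 : ‖f u z‖ ≤ B := hB _ (hunit u hu z hz)
      have h4 : ‖f u' z'‖ ≤ B := hB _ (hunit u' hu' z' hz')
      have h5 := norm_sub_le (f u z) (f u' z')
      have h6 : 0 ≤ M * (|u - u'| + ‖z - z'‖) := by positivity
      have h7 : 2 * B ≤ 4 * B * (|u - u'| + ‖z - z'‖) := by
        nlinarith [abs_nonneg (u - u')]
      rw [hL]
      linarith [add_mul M (4 * B) (|u - u'| + ‖z - z'‖)]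
  have hzero : ∀ u, f u 0 = 0 := by
    intro u
    have := hh u 0 0 le_rfl
    simpa using this
  have hscale : ∀ u (z : E), z ≠ 0 → f u z = ‖z‖ • f u (‖z‖⁻¹ • z) := by
    intro u z hz
    rw [← hh u _ _ (norm_nonneg z), smul_smul, mul_inv_cancel₀ (norm_ne_zero_iff.2 hz), one_smul]
  have hnu : ∀ z : E, z ≠ 0 → ‖‖z‖⁻¹ • z‖ = 1 := by
    intro z hz
    rw [norm_smul, norm_inv, norm_norm, inv_mul_cancel₀ (norm_ne_zero_iff.2 hz)]
  have hbd : ∀ u ∈ Set.Icc (0 : ℝ) 1, ∀ z, ‖f u z‖ ≤ B * ‖z‖ := by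
    intro u hu z
    by_cases hz : z = 0
    · rw [hz, hzero]; simp
    · rw [hscale u z hz, norm_smul, norm_norm, mul_comm]
      exact mul_le_mul_of_nonneg_right (hB _ (hunit u hu _ (hnu z hz))) (norm_nonneg _)
  have hmain : ∀ u ∈ Set.Icc (0 : ℝ) 1, ∀ u' ∈ Set.Icc (0 : ℝ) 1, ∀ z z' : E,
      ‖f u z - f u' z'‖ ≤ (2 * L + B) * (‖z - z'‖ + |u - u'| * ‖z‖) := by
    intro u hu u' hu' z z'
    by_cases hz : z = 0
    · rw [hz, hzero, zero_sub, norm_neg, zero_sub, norm_neg, norm_zero, mul_zero, add_zero]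
      refine (hbd u' hu' z').trans (mul_le_mul_of_nonneg_right (by linarith) (norm_nonneg _))
    by_cases hz' : z' = 0
    · rw [hz', hzero, sub_zero, sub_zero]
      have := hbd u hu z
      have h2 : 0 ≤ (2 * L + B) * (|u - u'| * ‖z‖) := by positivity
      nlinarith [norm_nonneg z, mul_nonneg hL0 (norm_nonneg z)]
    set a := ‖z‖⁻¹ • z with ha
    set a' := ‖z'‖⁻¹ • z' with ha'
    have e1 : f u z - f u' z' = ‖z‖ • (f u a - f u' a') + (‖z‖ - ‖z'‖) • f u' a' := by
      rw [hscale u z hz, hscale u' z' hz', ← ha, ← ha']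
      module
    have e2 : ‖z‖ * ‖a - a'‖ ≤ 2 * ‖z - z'‖ := by
      have e3 : ‖z‖ • (a - a') = (z - z') + (‖z'‖ - ‖z‖) • a' := by
        have h3 : ‖z‖ • a = z := by
          rw [ha, smul_smul, mul_inv_cancel₀ (norm_ne_zero_iff.2 hz), one_smul]
        have h4 : ‖z'‖ • a' = z' := by
          rw [ha', smul_smul, mul_inv_cancel₀ (norm_ne_zero_iff.2 hz'), one_smul]
        rw [smul_sub, h3, sub_smul, h4]
        abel
      have e4 : ‖z‖ * ‖a - a'‖ = ‖‖z‖ • (a - a')‖ := by rw [norm_smul, norm_norm]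
      rw [e4, e3]
      refine (norm_add_le _ _).trans ?_
      rw [norm_smul, hnu z' hz', mul_one, Real.norm_eq_abs]
      have := abs_norm_sub_norm_le z' z
      rw [norm_sub_rev] at this
      linarith
    have e5 : ‖f u a - f u' a'‖ ≤ L * (|u - u'| + ‖a - a'‖) :=
      hU u hu u' hu' a a' (hnu z hz) (hnu z' hz')
    have e6 : ‖f u' a'‖ ≤ B := hB _ (hunit u' hu' a' (hnu z' hz'))
    have e7 : |‖z‖ - ‖z'‖| ≤ ‖z - z'‖ := abs_norm_sub_norm_le z z'
    rw [e1]
    refine (norm_add_le _ _).trans ?_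
    rw [norm_smul, norm_smul, norm_norm, Real.norm_eq_abs]
    have e8 : ‖z‖ * ‖f u a - f u' a'‖ ≤ L * (|u - u'| * ‖z‖) + L * (2 * ‖z - z'‖) := by
      calc ‖z‖ * ‖f u a - f u' a'‖ ≤ ‖z‖ * (L * (|u - u'| + ‖a - a'‖)) :=
            mul_le_mul_of_nonneg_left e5 (norm_nonneg _)
        _ = L * (|u - u'| * ‖z‖) + L * (‖z‖ * ‖a - a'‖) := by ring
        _ ≤ _ := by
            have := mul_le_mul_of_nonneg_left e2 hL0
            linarith
    have e9 : |‖z‖ - ‖z'‖| * ‖f u' a'‖ ≤ ‖z - z'‖ * B :=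
      mul_le_mul e7 e6 (norm_nonneg _) (norm_nonneg _)
    have e10 : 0 ≤ (L + B) * (|u - u'| * ‖z‖) := by positivity
    nlinarith
  -- clamp
  set c : ℝ → ℝ := fun u => max 0 (min 1 u) with hcdef
  have hcm : ∀ u, c u ∈ Set.Icc (0 : ℝ) 1 := fun u =>
    ⟨le_max_left _ _, max_le zero_le_one (min_le_left _ _)⟩
  have hcf : ∀ u z, f u z = f (c u) z := by
    intro u z
    rcases le_total u 0 with hu | hu
    · have : c u = 0 := by
        simp only [hcdef]; rw [min_eq_right (by linarith), max_eq_left hu]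
      rw [this]; exact h0 u hu z
    · rcases le_total u 1 with hu1 | hu1
      · have : c u = u := by
          simp only [hcdef]; rw [min_eq_right hu1, max_eq_right hu]
        rw [this]
      · have : c u = 1 := by
          simp only [hcdef]; rw [min_eq_left hu1, max_eq_right zero_le_one]
        rw [this]; exact h1 u hu1 z
  have hcl : ∀ u u', |c u - c u'| ≤ |u - u'| := by
    intro u u'
    have h := abs_le.1 (le_refl |u - u'|)
    rw [abs_le]
    simp only [hcdef, max_def, min_def]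
    constructor <;> split_ifs <;> linarith [h.1, h.2, abs_nonneg (u - u')]
  refine ⟨Real.sqrt 2 * (2 * L + B) + 1, by
    have : 0 ≤ Real.sqrt 2 * (2 * L + B) := by positivity
    linarith, ?_⟩
  intro u u' z z'
  rw [hcf u z, hcf u' z']
  have h2 := nrm_le_norm (f (c u) z - f (c u') z')
  have h3 := hmain (c u) (hcm u) (c u') (hcm u') z z'
  have h4 : ‖z - z'‖ + |c u - c u'| * ‖z‖ ≤ nrm (z - z') + |u - u'| * nrm z := by
    have := mul_le_mul (hcl u u') (norm_le_nrm z) (norm_nonneg _) (abs_nonneg _)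
    have := norm_le_nrm (z - z')
    linarith
  have h5 : 0 ≤ nrm (z - z') + |u - u'| * nrm z := by
    have := nrm_nonneg (z - z')
    have := nrm_nonneg z
    positivity
  calc nrm (f (c u) z - f (c u') z') ≤ Real.sqrt 2 * ‖f (c u) z - f (c u') z'‖ := h2
    _ ≤ Real.sqrt 2 * ((2 * L + B) * (‖z - z'‖ + |c u - c u'| * ‖z‖)) :=
        mul_le_mul_of_nonneg_left h3 (Real.sqrt_nonneg _)
    _ ≤ Real.sqrt 2 * ((2 * L + B) * (nrm (z - z') + |u - u'| * nrm z)) := by
        refine mul_le_mul_of_nonneg_left (mul_le_mul_of_nonneg_left h4 (by positivity))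
          (Real.sqrt_nonneg _)
    _ ≤ _ := by nlinarith

end Crest.Agent.R123
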