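/-
ROW 123 (S0163), piece GsB: exponential growth and Lipschitz bounds of `gs`, `gi`, and the UNIFORM Lipschitz bound
in `u` of `log nrm (gi u z)`.

`homLip` applies to `gam` and to `gamInv` (HenB): constant `C₀ ≥ 1`.  With `u' = u`, `z' = 0`: `nrm (gam u z) ≤ C₀ nrm z`.
* induction on `k`: `nrm (gsN k u z) ≤ C₀^k nrm z`,
  `nrm (gsN k u z - gsN k u' z') ≤ (2 C₀)^(2k) (nrm (z-z') + |u-u'| nrm z)` (step: apply `homLip` with the points
  `gsN k (u-1) z`, `gsN k (u'-1) z'`); then `k = ⌈max u u'⌉₊ ≤ max (max u u') 0 + 1`; the same for `giN`.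
* `gi_log_lip`: for `k ≤ u ≤ k+1`: `gi u z = gamInv (u-k) (w)`, `w = (gamInv 1)^[k] z` (unfold `giN (k+1)`,
  `gamInv_of_one_le`).  By `homLip` for `gamInv`, `nrm (gamInv v w - gamInv v' w) ≤ C₀ |v-v'| nrm w`, and
  `nrm (gamInv v w) ≥ nrm w/C₀` (`gam_gamInv`), so `|log nrm (gamInv v w) - log nrm (gamInv v' w)| ≤ C₀² |v-v'|`
  (`|log a - log b| ≤ |a-b|/min a b`).  Constant on `u ≤ 0`.  A function that is `C`-Lipschitz on every `[k,k+1]` and on
  `(-∞,0]` is `C`-Lipschitz.
-/
import Crest.Agent.R123.GsA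
import Crest.Agent.R123.HomLip

set_option autoImplicit false

namespace Crest.Agent.R123

/-- growth constant statement -/
structure GsBound (Cg Cw : ℝ) : Prop where
  one_le_Cg : 1 ≤ Cg
  one_le_Cw : 1 ≤ Cw
  Cg_le_Cw : Cg ≤ Cw
  gs_le : ∀ (u : ℝ) (z : E), nrm (gs u z) ≤ Real.exp (Cg * (max u 0 + 1)) * nrm z
  gi_le : ∀ (u : ℝ) (z : E), nrm (gi u z) ≤ Real.exp (Cg * (max u 0 + 1)) * nrm z
  gs_lip : ∀ (u u' : ℝ) (z z' : E), nrm (gs u z - gs u' z') ≤
    Real.exp (Cg * (max (max u u') 0 + 1)) * (nrm (z - z') + |u - u'| * nrm z)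
  gi_lip : ∀ (u u' : ℝ) (z z' : E), nrm (gi u z - gi u' z') ≤
    Real.exp (Cg * (max (max u u') 0 + 1)) * (nrm (z - z') + |u - u'| * nrm z)
  gi_log_lip : ∀ (u u' : ℝ) (z : E), z ≠ 0 →
    |Real.log (nrm (gi u z)) - Real.log (nrm (gi u' z))| ≤ Cw * |u - u'|

theorem gam_lip : ∃ C : ℝ, 1 ≤ C ∧ ∀ (u u' : ℝ) (z z' : E),
    nrm (gam u z - gam u' z') ≤ C * (nrm (z - z') + |u - u'| * nrm z) := by
  refine homLip (f := gam) ?_ ?_ ?_ ?_
  · intro u hu z
    rw [gam_of_nonpos hu, gam_of_nonpos le_rfl]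
  · intro u hu z
    rw [gam_of_one_le hu, gam_of_one_le le_rfl]
  · intro u z r hr
    exact gam_smul u hr z
  · intro u z hz
    exact gam_contDiffAt u hz

theorem gamInv_lip : ∃ C : ℝ, 1 ≤ C ∧ ∀ (u u' : ℝ) (z z' : E),
    nrm (gamInv u z - gamInv u' z') ≤ C * (nrm (z - z') + |u - u'| * nrm z) := by
  refine homLip (f := gamInv) ?_ ?_ ?_ ?_
  · intro u hu z
    rw [gamInv_of_nonpos hu, gamInv_of_nonpos le_rfl]
  · intro u hu z
    rw [gamInv_of_one_le hu]
  · intro u z r hr
    exact gamInv_smul u hr z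
  · intro u z hz
    exact gamInv_contDiffAt u hz

namespace GsBaux

theorem pow_le_exp {x t : ℝ} (hx : 1 ≤ x) {k : ℕ} (hk : (k : ℝ) ≤ t + 1) :
    x ^ k ≤ Real.exp (x * (t + 1)) := by
  have h1 : x ≤ Real.exp x := by linarith [Real.add_one_le_exp x]
  calc x ^ k ≤ (Real.exp x) ^ k := pow_le_pow_left₀ (by linarith) h1 k
    _ = Real.exp (k * x) := by rw [← Real.exp_nat_mul]
    _ ≤ Real.exp (x * (t + 1)) := by
        apply Real.exp_le_exp.2
        rw [mul_comm]
        exact mul_le_mul_of_nonneg_left hk (by linarith)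

/-- common proof -/
theorem bounds_of (G : ℕ → ℝ → E → E) (f : ℝ → E → E) (C : ℝ) (hC : 1 ≤ C)
    (hG : ∀ (k : ℕ) (u u' : ℝ) (z z' : E), nrm (G k u z - G k u' z') ≤
      (2 * C) ^ k * (nrm (z - z') + |u - u'| * nrm z))
    (hf : ∀ (k : ℕ) (u : ℝ), u ≤ k → ∀ z, f u z = G k u z) (hf0 : ∀ u, f u 0 = 0) :
    ∃ C : ℝ, 1 ≤ C ∧
    (∀ (u : ℝ) (z : E), nrm (f u z) ≤ Real.exp (C * (max u 0 + 1)) * nrm z) ∧
    (∀ (u u' : ℝ) (z z' : E), nrm (f u z - f u' z') ≤
      Real.exp (C * (max (max u u') 0 + 1)) * (nrm (z - z') + |u - u'| * nrm z)) := by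
  have key : ∀ (u u' : ℝ) (z z' : E), nrm (f u z - f u' z') ≤
      Real.exp ((2 * C) * (max (max u u') 0 + 1)) * (nrm (z - z') + |u - u'| * nrm z) := by
    intro u u' z z'
    have hk : u ≤ (⌈max (max u u') 0⌉₊ : ℝ) :=
      ((le_max_left _ _).trans (le_max_left _ _)).trans (Nat.le_ceil _)
    have hk' : u' ≤ (⌈max (max u u') 0⌉₊ : ℝ) :=
      ((le_max_right _ _).trans (le_max_left _ _)).trans (Nat.le_ceil _)
    rw [hf _ u hk, hf _ u' hk']
    refine (hG _ u u' z z').trans (mul_le_mul_of_nonneg_right ?_ ?_)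
    · exact pow_le_exp (by linarith) (Nat.ceil_lt_add_one (le_max_right _ _)).le
    · have := nrm_nonneg z
      have := nrm_nonneg (z - z')
      positivity
  refine ⟨2 * C, by linarith, ?_, key⟩
  intro u z
  have := key u u z 0
  rwa [hf0, sub_zero, sub_zero, sub_self, abs_zero, zero_mul, add_zero, max_self] at this

theorem gsN_lip (C : ℝ) (hC : 1 ≤ C) (h : ∀ (u u' : ℝ) (z z' : E),
    nrm (gam u z - gam u' z') ≤ C * (nrm (z - z') + |u - u'| * nrm z)) (k : ℕ) :
    (∀ (u : ℝ) (z : E), nrm (gsN k u z) ≤ C ^ k * nrm z) ∧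
    ∀ (u u' : ℝ) (z z' : E), nrm (gsN k u z - gsN k u' z') ≤
      (2 * C) ^ k * (nrm (z - z') + |u - u'| * nrm z) := by
  induction k with
  | zero =>
    refine ⟨fun u z => by simp [gsN], fun u u' z z' => ?_⟩
    simp only [gsN, pow_zero, one_mul]
    have := nrm_nonneg z
    have : 0 ≤ |u - u'| * nrm z := by positivity
    linarith
  | succ k ih =>
    obtain ⟨ih1, ih2⟩ := ih
    constructor
    · intro u z
      have h1 := h u u (gsN k (u - 1) z) 0
      rw [gam_zero, sub_zero, sub_zero, sub_self, abs_zero, zero_mul, add_zero] at h1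
      calc nrm (gsN (k + 1) u z) ≤ C * nrm (gsN k (u - 1) z) := h1
        _ ≤ C * (C ^ k * nrm z) := mul_le_mul_of_nonneg_left (ih1 _ _) (by linarith)
        _ = C ^ (k + 1) * nrm z := by ring
    · intro u u' z z'
      have h1 := h u u' (gsN k (u - 1) z) (gsN k (u' - 1) z')
      have h2 := ih2 (u - 1) (u' - 1) z z'
      rw [sub_sub_sub_cancel_right] at h2
      have h3 := ih1 (u - 1) z
      have h4 : C ^ k ≤ (2 * C) ^ k := pow_le_pow_left₀ (by linarith) (by linarith) k
      have hz := nrm_nonneg z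
      have hzz := nrm_nonneg (z - z')
      have hu : 0 ≤ |u - u'| * nrm z := by positivity
      have h5 : |u - u'| * nrm (gsN k (u - 1) z) ≤ (2 * C) ^ k * (|u - u'| * nrm z) := by
        calc |u - u'| * nrm (gsN k (u - 1) z) ≤ |u - u'| * (C ^ k * nrm z) :=
              mul_le_mul_of_nonneg_left h3 (abs_nonneg _)
          _ = C ^ k * (|u - u'| * nrm z) := by ring
          _ ≤ (2 * C) ^ k * (|u - u'| * nrm z) := mul_le_mul_of_nonneg_right h4 hu
      have h6 : 0 ≤ (2 * C) ^ k := by positivity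
      calc nrm (gsN (k + 1) u z - gsN (k + 1) u' z')
          ≤ C * (nrm (gsN k (u - 1) z - gsN k (u' - 1) z') +
            |u - u'| * nrm (gsN k (u - 1) z)) := h1
        _ ≤ C * ((2 * C) ^ k * (nrm (z - z') + |u - u'| * nrm z) +
            (2 * C) ^ k * (|u - u'| * nrm z)) :=
              mul_le_mul_of_nonneg_left (add_le_add h2 h5) (by linarith)
        _ ≤ C * ((2 * C) ^ k * (nrm (z - z') + |u - u'| * nrm z) +
            (2 * C) ^ k * (nrm (z - z') + |u - u'| * nrm z)) := by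
              refine mul_le_mul_of_nonneg_left ?_ (by linarith)
              have := mul_le_mul_of_nonneg_left
                (show |u - u'| * nrm z ≤ nrm (z - z') + |u - u'| * nrm z by linarith) h6
              linarith
        _ = (2 * C) ^ (k + 1) * (nrm (z - z') + |u - u'| * nrm z) := by ring

theorem giN_lip (C : ℝ) (hC : 1 ≤ C) (h : ∀ (u u' : ℝ) (z z' : E),
    nrm (gamInv u z - gamInv u' z') ≤ C * (nrm (z - z') + |u - u'| * nrm z)) (k : ℕ) :
    ∀ (u u' : ℝ) (z z' : E), nrm (giN k u z - giN k u' z') ≤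
      (2 * C) ^ k * (nrm (z - z') + |u - u'| * nrm z) := by
  induction k with
  | zero =>
    intro u u' z z'
    simp only [giN, pow_zero, one_mul]
    have := nrm_nonneg z
    have : 0 ≤ |u - u'| * nrm z := by positivity
    linarith
  | succ k ih =>
    intro u u' z z'
    have h0 := h u u z 0
    rw [gamInv_zero, sub_zero, sub_zero, sub_self, abs_zero, zero_mul, add_zero] at h0
    have h1 := h u u' z z'
    have h2 := ih (u - 1) (u' - 1) (gamInv u z) (gamInv u' z')
    rw [sub_sub_sub_cancel_right] at h2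
    have hz := nrm_nonneg z
    have hzz := nrm_nonneg (z - z')
    have hu : 0 ≤ |u - u'| * nrm z := by positivity
    have h5 : |u - u'| * nrm (gamInv u z) ≤ C * (nrm (z - z') + |u - u'| * nrm z) := by
      calc |u - u'| * nrm (gamInv u z) ≤ |u - u'| * (C * nrm z) :=
            mul_le_mul_of_nonneg_left h0 (abs_nonneg _)
        _ = C * (|u - u'| * nrm z) := by ring
        _ ≤ C * (nrm (z - z') + |u - u'| * nrm z) :=
            mul_le_mul_of_nonneg_left (by linarith) (by linarith)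
    have h6 : 0 ≤ (2 * C) ^ k := by positivity
    calc nrm (giN (k + 1) u z - giN (k + 1) u' z')
        ≤ (2 * C) ^ k * (nrm (gamInv u z - gamInv u' z') + |u - u'| * nrm (gamInv u z)) := h2
      _ ≤ (2 * C) ^ k * (C * (nrm (z - z') + |u - u'| * nrm z) +
            C * (nrm (z - z') + |u - u'| * nrm z)) :=
            mul_le_mul_of_nonneg_left (add_le_add h1 h5) h6
      _ = (2 * C) ^ (k + 1) * (nrm (z - z') + |u - u'| * nrm z) := by ring

theorem giN_eq (k : ℕ) (u : ℝ) (hu : (k : ℝ) ≤ u) (z : E) :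
    giN (k + 1) u z = gamInv (u - k) ((gamInv 1)^[k] z) := by
  induction k generalizing u z with
  | zero => simp [giN]
  | succ k ih =>
    push_cast at hu
    have h1 : giN (k + 1 + 1) u z = giN (k + 1) (u - 1) (gamInv u z) := rfl
    rw [h1, ih (u - 1) (by linarith), Function.iterate_succ_apply,
      gamInv_of_one_le (u := u) (by have : (0 : ℝ) ≤ k := by positivity
                                    linarith)]
    congr 1
    push_cast
    ring

theorem log_sub_le {a b : ℝ} (ha : 0 < a) (hb : 0 < b) :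
    Real.log a - Real.log b ≤ |a - b| / b := by
  rw [← Real.log_div ha.ne' hb.ne']
  have h1 := Real.log_le_sub_one_of_pos (div_pos ha hb)
  calc Real.log (a / b) ≤ a / b - 1 := h1
    _ = (a - b) / b := by field_simp
    _ ≤ |a - b| / b := by gcongr; exact le_abs_self _

theorem glue (f : ℝ → ℝ) (C : ℝ) (hC : 0 ≤ C) (h0 : ∀ u ≤ 0, f u = f 0)
    (h : ∀ (k : ℕ) (u u' : ℝ), (k : ℝ) ≤ u → u ≤ k + 1 → (k : ℝ) ≤ u' → u' ≤ k + 1 →
      |f u - f u'| ≤ C * |u - u'|) (u u' : ℝ) : |f u - f u'| ≤ C * |u - u'| := by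
  have key : ∀ (n : ℕ) (u u' : ℝ), u ≤ u' → u' ≤ n → |f u - f u'| ≤ C * |u - u'| := by
    intro n
    induction n with
    | zero =>
      intro u u' h1 h2
      simp only [Nat.cast_zero] at h2
      rw [h0 u (h1.trans h2), h0 u' h2, sub_self, abs_zero]
      positivity
    | succ n ih =>
      intro u u' h1 h2
      push_cast at h2
      by_cases h3 : u' ≤ n
      · exact ih u u' h1 h3
      · push Not at h3
        by_cases h4 : (n : ℝ) ≤ u
        · exact h n u u' h4 (h1.trans h2) h3.le h2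
        · push Not at h4
          have e1 := ih u n h4.le le_rfl
          have e2 := h n n u' le_rfl (by linarith) h3.le h2
          have e3 := abs_sub_le (f u) (f n) (f u')
          rw [abs_of_nonpos (by linarith : u - (n : ℝ) ≤ 0)] at e1
          rw [abs_of_nonpos (by linarith : (n : ℝ) - u' ≤ 0)] at e2
          rw [abs_of_nonpos (by linarith : u - u' ≤ 0)]
          nlinarith
  rcases le_total u u' with h1 | h1
  · obtain ⟨n, hn⟩ := exists_nat_ge u'
    exact key n u u' h1 hn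
  · obtain ⟨n, hn⟩ := exists_nat_ge u
    rw [abs_sub_comm, abs_sub_comm u u']
    exact key n u' u h1 hn

end GsBaux

open GsBaux

theorem gs_bounds : ∃ C : ℝ, 1 ≤ C ∧
    (∀ (u : ℝ) (z : E), nrm (gs u z) ≤ Real.exp (C * (max u 0 + 1)) * nrm z) ∧
    (∀ (u u' : ℝ) (z z' : E), nrm (gs u z - gs u' z') ≤
      Real.exp (C * (max (max u u') 0 + 1)) * (nrm (z - z') + |u - u'| * nrm z)) := by
  obtain ⟨C, hC, h⟩ := gam_lip
  exact bounds_of gsN gs C hC (fun k => (gsN_lip C hC h k).2) (fun k u hu z => gs_eq hu z) gs_zero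

theorem gi_bounds : ∃ C : ℝ, 1 ≤ C ∧
    (∀ (u : ℝ) (z : E), nrm (gi u z) ≤ Real.exp (C * (max u 0 + 1)) * nrm z) ∧
    (∀ (u u' : ℝ) (z z' : E), nrm (gi u z - gi u' z') ≤
      Real.exp (C * (max (max u u') 0 + 1)) * (nrm (z - z') + |u - u'| * nrm z)) := by
  obtain ⟨C, hC, h⟩ := gamInv_lip
  exact bounds_of giN gi C hC (fun k => giN_lip C hC h k) (fun k u hu z => gi_eq hu z) gi_zero

theorem gi_log_lip : ∃ C : ℝ, 1 ≤ C ∧ ∀ (u u' : ℝ) (z : E), z ≠ 0 →
    |Real.log (nrm (gi u z)) - Real.log (nrm (gi u' z))| ≤ C * |u - u'| := by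
  obtain ⟨C, hC, h⟩ := gam_lip
  obtain ⟨C', hC', h'⟩ := gamInv_lip
  refine ⟨C * C', by nlinarith, ?_⟩
  intro u u' z hz
  refine glue (fun u => Real.log (nrm (gi u z))) (C * C') (by positivity) ?_ ?_ u u'
  · intro u hu
    simp only [gi_of_nonpos hu, gi_of_nonpos (le_refl (0 : ℝ))]
  · intro k u u' h1 h2 h3 h4
    have e1 : gi u z = gamInv (u - k) ((gamInv 1)^[k] z) := by
      rw [gi_eq (k := k + 1) (by push_cast; exact h2), giN_eq k u h1]
    have e2 : gi u' z = gamInv (u' - k) ((gamInv 1)^[k] z) := by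
      rw [gi_eq (k := k + 1) (by push_cast; exact h4), giN_eq k u' h3]
    have hne : gi u z ≠ 0 := gi_ne_zero hz
    have hne' : gi u' z ≠ 0 := gi_ne_zero hz
    set w := (gamInv 1)^[k] z with hw
    have hp := nrm_pos hne
    have hp' := nrm_pos hne'
    have hlow : ∀ v : ℝ, nrm w ≤ C * nrm (gamInv v w) := by
      intro v
      have := h v v (gamInv v w) 0
      rwa [gam_zero, sub_zero, sub_zero, sub_self, abs_zero, zero_mul, add_zero,
        gam_gamInv] at this
    have hd : nrm (gi u z - gi u' z) ≤ C' * (|u - u'| * nrm w) := by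
      have := h' (u - k) (u' - k) w w
      rw [sub_sub_sub_cancel_right, sub_self] at this
      have h0 : nrm (0 : E) = 0 := (nrm_eq_zero_iff 0).2 rfl
      rw [h0, zero_add] at this
      rwa [e1, e2]
    have habs : |nrm (gi u z) - nrm (gi u' z)| ≤ C' * (|u - u'| * nrm w) :=
      (abs_nrm_sub_le _ _).trans hd
    have l1 : nrm w ≤ C * nrm (gi u z) := by rw [e1]; exact hlow _
    have l2 : nrm w ≤ C * nrm (gi u' z) := by rw [e2]; exact hlow _
    have hfin : ∀ t : ℝ, 0 < t → nrm w ≤ C * t →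
        |nrm (gi u z) - nrm (gi u' z)| / t ≤ C * C' * |u - u'| := by
      intro t ht hwt
      rw [div_le_iff₀ ht]
      calc |nrm (gi u z) - nrm (gi u' z)| ≤ C' * (|u - u'| * nrm w) := habs
        _ ≤ C' * (|u - u'| * (C * t)) := by gcongr
        _ = C * C' * |u - u'| * t := by ring
    rw [abs_le]
    constructor
    · have := log_sub_le hp' hp
      rw [abs_sub_comm] at this
      have := this.trans (hfin _ hp l1)
      linarith
    · exact (log_sub_le hp hp').trans (hfin _ hp' l2)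

theorem exists_gsBound : ∃ Cg Cw : ℝ, GsBound Cg Cw := by
  obtain ⟨C1, h1, h2, h3⟩ := gs_bounds
  obtain ⟨C2, g1, g2, g3⟩ := gi_bounds
  obtain ⟨C3, k1, k2⟩ := gi_log_lip
  have mono : ∀ (a b t : ℝ), 0 ≤ t → a ≤ b → Real.exp (a * (t + 1)) ≤ Real.exp (b * (t + 1)) := by
    intro a b t ht hab
    apply Real.exp_le_exp.2
    exact mul_le_mul_of_nonneg_right hab (by linarith)
  have pos : ∀ (u u' : ℝ) (z z' : E), 0 ≤ nrm (z - z') + |u - u'| * nrm z := by
    intro u u' z z'
    have := nrm_nonneg z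
    have := nrm_nonneg (z - z')
    positivity
  refine ⟨max C1 C2, max C3 (max C1 C2), h1.trans (le_max_left _ _), k1.trans (le_max_left _ _),
    le_max_right _ _, ?_, ?_, ?_, ?_,
    fun u u' z hz => (k2 u u' z hz).trans (mul_le_mul_of_nonneg_right (le_max_left _ _) (abs_nonneg _))⟩
  · intro u z
    exact (h2 u z).trans (mul_le_mul_of_nonneg_right
      (mono _ _ _ (le_max_right _ _) (le_max_left _ _)) (nrm_nonneg z))
  · intro u z
    exact (g2 u z).trans (mul_le_mul_of_nonneg_right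
      (mono _ _ _ (le_max_right _ _) (le_max_right _ _)) (nrm_nonneg z))
  · intro u u' z z'
    exact (h3 u u' z z').trans (mul_le_mul_of_nonneg_right
      (mono _ _ _ (le_max_right _ _) (le_max_left _ _)) (pos _ _ _ _))
  · intro u u' z z'
    exact (g3 u u' z z').trans (mul_le_mul_of_nonneg_right
      (mono _ _ _ (le_max_right _ _) (le_max_right _ _)) (pos _ _ _ _))

end Crest.Agent.R123
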