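/-
ROW 123 (S0163): the local model: `σ₁ = sg1`, `ζ = zt`, the semiconjugacy `H = HH`, `σ₂ = sg2`, the map `F = FF`.
-/
import Crest.Agent.R123.Dat
import Crest.Agent.R123.GsB
import Crest.Agent.R123.HenD

set_option autoImplicit false

namespace Crest.Agent.R123

noncomputable section

variable {Cn Cw K σ₀ : ℝ}

/-- the unique `σ` with `σ + L t σ = log ‖z‖` -/
def sg1 (D : Dat Cn Cw K σ₀) (z : E) (t : ℝ) : ℝ :=
  Classical.epsilon (fun σ : ℝ => σ + D.L t σ = Real.log (nrm z))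

/-- `ζ = e^{-L} z`, so that `‖ζ‖ = e^{σ₁}` -/
def zt (D : Dat Cn Cw K σ₀) (z : E) (t : ℝ) : E := Real.exp (-(D.L t (sg1 D z t))) • z

/-- `H_t(z) = g_{N(t,σ₁)}(ζ)` -/
def HH (D : Dat Cn Cw K σ₀) (z : E) (t : ℝ) : E := gs (D.N t (sg1 D z t)) (zt D z t)

/-- the unique `σ` with `σ = log ‖g_{N(t,σ)}^{-1} p‖` -/
def sg2 (D : Dat Cn Cw K σ₀) (p : E) (t : ℝ) : ℝ :=
  Classical.epsilon (fun σ : ℝ => σ = Real.log (nrm (gi (D.N t σ) p)))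

/-- inverse of `H_t`: `p ↦ e^{L(t,σ₂)} g_{N(t,σ₂)}^{-1} p` -/
def Hi (D : Dat Cn Cw K σ₀) (p : E) (t : ℝ) : E :=
  Real.exp (D.L t (sg2 D p t)) • gi (D.N t (sg2 D p t)) p

/-- the map `F(z,t) = H_{t+α}^{-1} (g (H_t z))` -/
def FF (D : Dat Cn Cw K σ₀) (z : E) (t : ℝ) : E := Hi D (g (HH D z t)) (t + al)

end

end Crest.Agent.R123
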