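/-
ROW 123 (S0163), piece ModA: the function `σ₁ = sg1 D z t`.

`σ ↦ σ + L t σ` is continuous with slopes in `[1/2, 3/2]` (`L_lip`), hence a bijection of `ℝ`: existence and
uniqueness (also from `impl`; `Classical.epsilon_spec`).  `C¹`: `impl` with `X = ℝ`, `W = E × ℝ`,
`U = {z ≠ 0}`, `h(σ;z,t) = L t σ - log nrm z`, `K = 1/2`, and uniqueness.
* `sg1_bounds`: `L t 0 = 0` (`L_zero`), so `|L t σ| ≤ |σ|/2`.
* `sg1_diff`: `Δσ + (L t σ - L t' σ) + (L t' σ - L t' σ') = Δ log`.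
-/
import Crest.Agent.R123.ModDefs
import Crest.Agent.R123.Impl

set_option autoImplicit false

namespace Crest.Agent.R123

open Filter Topology

variable {Cn Cw K σ₀ : ℝ}

theorem ModA_impl (D : Dat Cn Cw K σ₀) : ∃ S : ℝ × ℝ → ℝ, (∀ w, S w + D.L w.1 (S w) = w.2) ∧
    (∀ w x, x + D.L w.1 x = w.2 → x = S w) ∧ ∀ w, ContDiffAt ℝ 1 S w := by
  have hcd : ContDiff ℝ 1 (fun q : ℝ × ℝ × ℝ => D.L q.2.1 q.1 - q.2.2) := by
    have h1 : ContDiff ℝ 1 (fun q : ℝ × ℝ × ℝ => ((q.2.1, q.1) : ℝ × ℝ)) :=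
      (contDiff_fst.comp contDiff_snd).prodMk contDiff_fst
    exact (D.L_cd.comp h1).sub (contDiff_snd.comp contDiff_snd)
  obtain ⟨S, h1, h2, -, h4⟩ := impl (X := ℝ) (W := ℝ × ℝ) (U := Set.univ) isOpen_univ
    (h := fun q : ℝ × ℝ × ℝ => D.L q.2.1 q.1 - q.2.2) (K := 1 / 2) (by norm_num) (by norm_num)
    (by
      intro w _ x x'
      rw [Real.norm_eq_abs, Real.norm_eq_abs, sub_sub_sub_cancel_right]
      exact D.L_lip w.1 x x')
    (fun w _ x => hcd.continuous.continuousAt)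
  refine ⟨S, fun w => ?_, fun w x hx => ?_, fun w => ?_⟩
  · have := h1 w (Set.mem_univ w)
    dsimp only at this
    linarith
  · refine h2 w (Set.mem_univ w) x ?_
    dsimp only
    linarith
  · exact h4 w (Set.mem_univ w) hcd.contDiffAt

theorem sg1_spec (D : Dat Cn Cw K σ₀) (z : E) (t : ℝ) :
    sg1 D z t + D.L t (sg1 D z t) = Real.log (nrm z) := by
  obtain ⟨S, h1, -, -⟩ := ModA_impl D
  unfold sg1
  exact Classical.epsilon_spec (p := fun σ : ℝ => σ + D.L t σ = Real.log (nrm z))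
    ⟨S (t, Real.log (nrm z)), h1 (t, Real.log (nrm z))⟩

theorem sg1_unique (D : Dat Cn Cw K σ₀) {z : E} {t σ : ℝ} (h : σ + D.L t σ = Real.log (nrm z)) :
    sg1 D z t = σ := by
  obtain ⟨S, -, h2, -⟩ := ModA_impl D
  rw [h2 (t, Real.log (nrm z)) σ h]
  exact h2 (t, Real.log (nrm z)) _ (sg1_spec D z t)

theorem sg1_contDiffAt (D : Dat Cn Cw K σ₀) {z : E} (hz : z ≠ 0) (t : ℝ) :
    ContDiffAt ℝ 1 (fun q : E × ℝ => sg1 D q.1 q.2) (z, t) := by
  obtain ⟨S, h1, h2, h3⟩ := ModA_impl D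
  have h4 : (fun q : E × ℝ => sg1 D q.1 q.2) = fun q : E × ℝ => S (q.2, Real.log (nrm q.1)) := by
    funext q
    exact sg1_unique D (h1 (q.2, Real.log (nrm q.1)))
  rw [h4]
  have h5 : ContDiffAt ℝ 1 (fun q : E × ℝ => nrm q.1) (z, t) :=
    ContDiffAt.comp (z, t) (g := nrm) (f := fun q : E × ℝ => q.1) (nrm_contDiffAt hz)
      contDiffAt_fst
  have h6 : ContDiffAt ℝ 1 (fun q : E × ℝ => Real.log (nrm q.1)) (z, t) :=
    h5.log (nrm_pos hz).ne'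
  have h7 : ContDiffAt ℝ 1 (fun q : E × ℝ => ((q.2, Real.log (nrm q.1)) : ℝ × ℝ)) (z, t) :=
    contDiffAt_snd.prodMk h6
  exact ContDiffAt.comp (z, t) (g := S) (f := fun q : E × ℝ => ((q.2, Real.log (nrm q.1)) : ℝ × ℝ))
    (h3 _) h7

theorem sg1_add_one (D : Dat Cn Cw K σ₀) (z : E) (t : ℝ) : sg1 D z (t + 1) = sg1 D z t := by
  apply sg1_unique
  rw [D.L_per]
  exact sg1_spec D z t

theorem sg1_eq_log (D : Dat Cn Cw K σ₀) {z : E} (h : -σ₀ ≤ Real.log (nrm z)) (t : ℝ) :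
    sg1 D z t = Real.log (nrm z) := by
  apply sg1_unique
  rw [D.L_zero t _ h, add_zero]

theorem sg1_bounds (D : Dat Cn Cw K σ₀) (hσ₀ : 0 < σ₀) {z : E} (hz : z ≠ 0) (hz1 : nrm z ≤ 1) (t : ℝ) :
    2 * Real.log (nrm z) ≤ sg1 D z t ∧ sg1 D z t ≤ 2 / 3 * Real.log (nrm z) := by
  have h1 := sg1_spec D z t
  have h2 := D.L_lip t (sg1 D z t) 0
  rw [D.L_zero t 0 (by linarith), sub_zero, sub_zero] at h2
  have h3 : Real.log (nrm z) ≤ 0 := Real.log_nonpos (nrm_nonneg z) hz1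
  obtain ⟨h4, h5⟩ := abs_le.1 h2
  rcases le_or_gt (sg1 D z t) 0 with h6 | h6
  · rw [abs_of_nonpos h6] at h4 h5
    constructor <;> linarith
  · rw [abs_of_pos h6] at h4 h5
    exfalso
    linarith

theorem sg1_diff (D : Dat Cn Cw K σ₀) (z z' : E) (t t' : ℝ) :
    |sg1 D z t - sg1 D z' t'| ≤ 2 * (|Real.log (nrm z) - Real.log (nrm z')| +
      D.CΛ / (D.e (sg1 D z t)) ^ 4 * |t - t'|) := by
  have h1 := sg1_spec D z t
  have h2 := sg1_spec D z' t'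
  have h3 := D.L_tlip t t' (sg1 D z t)
  have h4 := D.L_lip t' (sg1 D z t) (sg1 D z' t')
  have h5 : sg1 D z t - sg1 D z' t' = (Real.log (nrm z) - Real.log (nrm z')) -
      ((D.L t (sg1 D z t) - D.L t' (sg1 D z t)) +
        (D.L t' (sg1 D z t) - D.L t' (sg1 D z' t'))) := by linarith
  have h6 : |sg1 D z t - sg1 D z' t'| ≤ |Real.log (nrm z) - Real.log (nrm z')| +
      (|D.L t (sg1 D z t) - D.L t' (sg1 D z t)| +
        |D.L t' (sg1 D z t) - D.L t' (sg1 D z' t')|) := by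
    calc |sg1 D z t - sg1 D z' t'| = |(Real.log (nrm z) - Real.log (nrm z')) -
      ((D.L t (sg1 D z t) - D.L t' (sg1 D z t)) +
        (D.L t' (sg1 D z t) - D.L t' (sg1 D z' t')))| := by rw [← h5]
      _ ≤ _ := (abs_sub _ _).trans (add_le_add le_rfl (abs_add_le _ _))
  linarith

/-- `z = e^{L} ζ`; in particular `‖z‖ = e^{σ₁ + L}` -/
theorem nrm_eq_exp (D : Dat Cn Cw K σ₀) {z : E} (hz : z ≠ 0) (t : ℝ) :
    nrm z = Real.exp (sg1 D z t + D.L t (sg1 D z t)) := by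
  rw [sg1_spec, Real.exp_log (nrm_pos hz)]

theorem nrm_zt (D : Dat Cn Cw K σ₀) {z : E} (hz : z ≠ 0) (t : ℝ) :
    nrm (zt D z t) = Real.exp (sg1 D z t) := by
  unfold zt
  rw [nrm_smul, abs_of_pos (Real.exp_pos _)]
  conv_lhs => rw [nrm_eq_exp D hz t]
  rw [← Real.exp_add]
  congr 1
  ring

theorem zt_ne_zero (D : Dat Cn Cw K σ₀) {z : E} (hz : z ≠ 0) (t : ℝ) : zt D z t ≠ 0 := by
  unfold zt
  exact smul_ne_zero (Real.exp_pos _).ne' hz

end Crest.Agent.R123
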