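/-
ROW 123 (S0163), piece ModB: the function `σ₂ = sg2 D p t`.

For `p ≠ 0` let `Φ(σ) = log nrm (gi (N t σ) p)`; by `GsBound.gi_log_lip` and `N_lip` it is `1/2`-Lipschitz
(`Cw * (1/(2Cw)) = 1/2`), so `σ = Φ(σ)` has a unique solution.  `C¹`: `impl` with `X = ℝ`, `W = E × ℝ`, `U = {p ≠ 0}`,
`h = -Φ`, using `gi_contDiffAt`, `gi_ne_zero`, `nrm_contDiffAt`.
* `sg2_diff`: `σ-σ' = [log nrm gi(N t σ)p - log nrm gi(N t σ)p'] + [log nrm gi(N t σ)p' - log nrm gi(N t' σ')p']`.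
-/
import Crest.Agent.R123.ModDefs
import Crest.Agent.R123.Impl

set_option autoImplicit false

namespace Crest.Agent.R123

open Filter Topology

variable {Cn Cw K σ₀ Cg : ℝ}

theorem ModB_lip (hG : GsBound Cg Cw) (D : Dat Cn Cw K σ₀) {p : E} (hp : p ≠ 0) (t σ σ' : ℝ) :
    |Real.log (nrm (gi (D.N t σ) p)) - Real.log (nrm (gi (D.N t σ') p))| ≤ 1 / 2 * |σ - σ'| := by
  have hCw : 0 < Cw := lt_of_lt_of_le one_pos hG.one_le_Cw
  calc _ ≤ Cw * |D.N t σ - D.N t σ'| := hG.gi_log_lip _ _ p hp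
    _ ≤ Cw * (1 / (2 * Cw) * |σ - σ'|) := mul_le_mul_of_nonneg_left (D.N_lip t σ σ') hCw.le
    _ = 1 / 2 * |σ - σ'| := by field_simp

theorem ModB_contDiffAt (D : Dat Cn Cw K σ₀) {p : E} (hp : p ≠ 0) (t σ : ℝ) :
    ContDiffAt ℝ 1 (fun q : ℝ × E × ℝ => - Real.log (nrm (gi (D.N q.2.2 q.1) q.2.1)))
      (σ, (p, t)) := by
  have h1 : ContDiff ℝ 1 (fun q : ℝ × E × ℝ => ((q.2.2, q.1) : ℝ × ℝ)) :=
    (contDiff_snd.comp contDiff_snd).prodMk contDiff_fst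
  have h2 : ContDiff ℝ 1 (fun q : ℝ × E × ℝ => D.N q.2.2 q.1) := D.N_cd.comp h1
  have h3 : ContDiff ℝ 1 (fun q : ℝ × E × ℝ => ((D.N q.2.2 q.1, q.2.1) : ℝ × E)) :=
    h2.prodMk (contDiff_fst.comp contDiff_snd)
  have h4 : ContDiffAt ℝ 1 (fun q : ℝ × E × ℝ => gi (D.N q.2.2 q.1) q.2.1) (σ, (p, t)) :=
    ContDiffAt.comp (σ, (p, t)) (g := fun q : ℝ × E => gi q.1 q.2)
      (f := fun q : ℝ × E × ℝ => ((D.N q.2.2 q.1, q.2.1) : ℝ × E))
      (gi_contDiffAt (D.N t σ) hp) h3.contDiffAt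
  have h5 : ContDiffAt ℝ 1 (fun q : ℝ × E × ℝ => nrm (gi (D.N q.2.2 q.1) q.2.1)) (σ, (p, t)) :=
    ContDiffAt.comp (σ, (p, t)) (g := nrm)
      (f := fun q : ℝ × E × ℝ => gi (D.N q.2.2 q.1) q.2.1)
      (nrm_contDiffAt (gi_ne_zero hp)) h4
  exact (h5.log (nrm_pos (gi_ne_zero hp)).ne').neg

theorem ModB_impl (hG : GsBound Cg Cw) (D : Dat Cn Cw K σ₀) : ∃ S : E × ℝ → ℝ,
    (∀ w : E × ℝ, w.1 ≠ 0 → S w = Real.log (nrm (gi (D.N w.2 (S w)) w.1))) ∧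
    (∀ w : E × ℝ, w.1 ≠ 0 → ∀ x, x = Real.log (nrm (gi (D.N w.2 x) w.1)) → x = S w) ∧
    ∀ w : E × ℝ, w.1 ≠ 0 → ContDiffAt ℝ 1 S w := by
  have hU : IsOpen {w : E × ℝ | w.1 ≠ 0} :=
    isOpen_ne.preimage continuous_fst
  obtain ⟨S, h1, h2, -, h4⟩ := impl (X := ℝ) (W := E × ℝ) hU
    (h := fun q : ℝ × E × ℝ => - Real.log (nrm (gi (D.N q.2.2 q.1) q.2.1))) (K := 1 / 2)
    (by norm_num) (by norm_num)
    (by
      intro w hw x x'
      rw [Real.norm_eq_abs, Real.norm_eq_abs, neg_sub_neg, abs_sub_comm]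
      exact ModB_lip hG D hw w.2 x x')
    (fun w hw x => (ModB_contDiffAt D hw w.2 x).continuousAt)
  refine ⟨S, fun w hw => ?_, fun w hw x hx => ?_, fun w hw => ?_⟩
  · have := h1 w hw
    dsimp only at this
    linarith
  · refine h2 w hw x ?_
    dsimp only
    linarith
  · exact h4 w hw (ModB_contDiffAt D hw w.2 (S w))

theorem sg2_spec (hG : GsBound Cg Cw) (D : Dat Cn Cw K σ₀) {p : E} (hp : p ≠ 0) (t : ℝ) :
    sg2 D p t = Real.log (nrm (gi (D.N t (sg2 D p t)) p)) := by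
  obtain ⟨S, h1, -, -⟩ := ModB_impl hG D
  unfold sg2
  exact Classical.epsilon_spec (p := fun σ : ℝ => σ = Real.log (nrm (gi (D.N t σ) p)))
    ⟨S (p, t), h1 (p, t) hp⟩

theorem sg2_unique (hG : GsBound Cg Cw) (D : Dat Cn Cw K σ₀) {p : E} (hp : p ≠ 0) {t σ : ℝ}
    (h : σ = Real.log (nrm (gi (D.N t σ) p))) : sg2 D p t = σ := by
  obtain ⟨S, -, h2, -⟩ := ModB_impl hG D
  exact (h2 (p, t) hp _ (sg2_spec hG D hp t)).trans (h2 (p, t) hp σ h).symm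

theorem sg2_contDiffAt (hG : GsBound Cg Cw) (D : Dat Cn Cw K σ₀) {p : E} (hp : p ≠ 0) (t : ℝ) :
    ContDiffAt ℝ 1 (fun q : E × ℝ => sg2 D q.1 q.2) (p, t) := by
  obtain ⟨S, h1, h2, h3⟩ := ModB_impl hG D
  refine (h3 (p, t) hp).congr_of_eventuallyEq ?_
  have hU : IsOpen {w : E × ℝ | w.1 ≠ 0} := isOpen_ne.preimage continuous_fst
  filter_upwards [hU.mem_nhds (show (p, t) ∈ {w : E × ℝ | w.1 ≠ 0} from hp)] with q hq
  exact h2 q hq _ (sg2_spec hG D hq q.2)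

theorem sg2_add_one (D : Dat Cn Cw K σ₀) (p : E) (t : ℝ) : sg2 D p (t + 1) = sg2 D p t := by
  unfold sg2
  simp only [D.N_per]

theorem sg2_eq_log (hG : GsBound Cg Cw) (D : Dat Cn Cw K σ₀) {p : E} (hp : p ≠ 0)
    (h : -σ₀ ≤ Real.log (nrm p)) (t : ℝ) : sg2 D p t = Real.log (nrm p) := by
  apply sg2_unique hG D hp
  rw [D.N_zero t _ h, gi_of_nonpos le_rfl]

theorem sg2_diff (hG : GsBound Cg Cw) (D : Dat Cn Cw K σ₀) {p p' : E} (hp : p ≠ 0) (hp' : p' ≠ 0)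
    (t t' : ℝ) :
    |sg2 D p t - sg2 D p' t'| ≤ 2 * (|Real.log (nrm (gi (D.N t (sg2 D p t)) p)) -
        Real.log (nrm (gi (D.N t (sg2 D p t)) p'))| +
      Cw * (D.CΛ / (D.e (sg2 D p t)) ^ 4) * |t - t'|) := by
  have hCw : 0 < Cw := lt_of_lt_of_le one_pos hG.one_le_Cw
  have h1 := sg2_spec hG D hp t
  have h2 := sg2_spec hG D hp' t'
  set σ := sg2 D p t with hσ
  set σ' := sg2 D p' t' with hσ'
  have h3 : |Real.log (nrm (gi (D.N t σ) p')) - Real.log (nrm (gi (D.N t' σ) p'))| ≤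
      Cw * (D.CΛ / (D.e σ) ^ 4) * |t - t'| := by
    calc _ ≤ Cw * |D.N t σ - D.N t' σ| := hG.gi_log_lip _ _ p' hp'
      _ ≤ Cw * (D.CΛ / (D.e σ) ^ 4 * |t - t'|) :=
          mul_le_mul_of_nonneg_left (D.N_tlip t t' σ) hCw.le
      _ = _ := by ring
  have h4 := ModB_lip hG D hp' t' σ σ'
  have h5 : σ - σ' = (Real.log (nrm (gi (D.N t σ) p)) - Real.log (nrm (gi (D.N t σ) p'))) +
      ((Real.log (nrm (gi (D.N t σ) p')) - Real.log (nrm (gi (D.N t' σ) p'))) +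
      (Real.log (nrm (gi (D.N t' σ) p')) - Real.log (nrm (gi (D.N t' σ') p')))) := by
    rw [← h1, ← h2]
    ring
  have h6 : |σ - σ'| ≤
      |Real.log (nrm (gi (D.N t σ) p)) - Real.log (nrm (gi (D.N t σ) p'))| +
      (|Real.log (nrm (gi (D.N t σ) p')) - Real.log (nrm (gi (D.N t' σ) p'))| +
      |Real.log (nrm (gi (D.N t' σ) p')) - Real.log (nrm (gi (D.N t' σ') p'))|) := by
    calc |σ - σ'| = _ := congrArg abs h5
      _ ≤ _ := (abs_add_le _ _).trans (add_le_add le_rfl (abs_add_le _ _))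
  linarith

/-- distance of `σ₂` to an approximate solution -/
theorem sg2_near (hG : GsBound Cg Cw) (D : Dat Cn Cw K σ₀) {p : E} (hp : p ≠ 0) (t σ : ℝ) :
    |sg2 D p t - σ| ≤ 2 * |Real.log (nrm (gi (D.N t σ) p)) - σ| := by
  have h1 := sg2_spec hG D hp t
  have h2 := ModB_lip hG D hp t (sg2 D p t) σ
  have h3 : sg2 D p t - σ = (Real.log (nrm (gi (D.N t (sg2 D p t)) p)) -
      Real.log (nrm (gi (D.N t σ) p))) + (Real.log (nrm (gi (D.N t σ) p)) - σ) := by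
    rw [← h1]
    ring
  have h4 : |sg2 D p t - σ| ≤ |Real.log (nrm (gi (D.N t (sg2 D p t)) p)) -
      Real.log (nrm (gi (D.N t σ) p))| + |Real.log (nrm (gi (D.N t σ) p)) - σ| := by
    calc |sg2 D p t - σ| = _ := congrArg abs h3
      _ ≤ _ := abs_add_le _ _
  linarith

end Crest.Agent.R123
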