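/-
ROW 123 (S0163), piece ModC: algebra of the local model: semiconjugacy, periodicity, behaviour for large `z`.

* `sg1_Hi`: with `σ₂ = sg2 D p t`: `nrm (Hi D p t) = exp (L t σ₂) nrm (gi … p) = exp (L t σ₂ + σ₂)`, so `σ₂` solves
  the equation of `sg1 D (Hi D p t) t` (`sg1_unique`).
* `HH_Hi`: `zt D (Hi D p t) t = gi (N t σ₂) p`, apply `gs`, `gs_gi`.
* `Hi_HH`: similarly, with `sg2_unique`: `gi (N t σ₁) (gs (N t σ₁) ζ) = ζ`, `log nrm ζ = σ₁`.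
* `semiconj`: `HH_Hi` at time `t + α`.
* For `-σ₀ ≤ log nrm z`: `N = L = 0` (`N_zero`, `L_zero`, `gs_of_nonpos`, `gi_of_nonpos`).
* For `z = 0` everything is `0` (`gs_zero`, `gi_zero`, `g_zero`, `smul_zero`).
-/
import Crest.Agent.R123.ModA
import Crest.Agent.R123.ModB

set_option autoImplicit false

namespace Crest.Agent.R123

open Filter Topology

variable {Cn Cw K σ₀ Cg : ℝ}

theorem HH_zero (D : Dat Cn Cw K σ₀) (t : ℝ) : HH D 0 t = 0 := by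
  unfold HH zt
  rw [smul_zero, gs_zero]

theorem Hi_zero (D : Dat Cn Cw K σ₀) (t : ℝ) : Hi D 0 t = 0 := by
  unfold Hi
  rw [gi_zero, smul_zero]

theorem FF_zero (D : Dat Cn Cw K σ₀) (t : ℝ) : FF D 0 t = 0 := by
  unfold FF
  rw [HH_zero, g_zero, Hi_zero]

theorem HH_ne_zero (D : Dat Cn Cw K σ₀) {z : E} (hz : z ≠ 0) (t : ℝ) : HH D z t ≠ 0 :=
  gs_ne_zero (zt_ne_zero D hz t)

theorem Hi_ne_zero (D : Dat Cn Cw K σ₀) {p : E} (hp : p ≠ 0) (t : ℝ) : Hi D p t ≠ 0 :=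
  smul_ne_zero (Real.exp_pos _).ne' (gi_ne_zero hp)

theorem FF_ne_zero (D : Dat Cn Cw K σ₀) {z : E} (hz : z ≠ 0) (t : ℝ) : FF D z t ≠ 0 :=
  Hi_ne_zero D (g_ne_zero (HH_ne_zero D hz t)) _

theorem HH_add_one (D : Dat Cn Cw K σ₀) (z : E) (t : ℝ) : HH D z (t + 1) = HH D z t := by
  unfold HH zt
  rw [sg1_add_one, D.N_per, D.L_per]

theorem Hi_add_one (D : Dat Cn Cw K σ₀) (p : E) (t : ℝ) : Hi D p (t + 1) = Hi D p t := by
  unfold Hi
  rw [sg2_add_one, D.N_per, D.L_per]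

theorem FF_add_one (D : Dat Cn Cw K σ₀) (z : E) (t : ℝ) : FF D z (t + 1) = FF D z t := by
  unfold FF
  rw [HH_add_one, show t + 1 + al = t + al + 1 by ring, Hi_add_one]

theorem nrm_Hi (hG : GsBound Cg Cw) (D : Dat Cn Cw K σ₀) {p : E} (hp : p ≠ 0) (t : ℝ) :
    nrm (Hi D p t) = Real.exp (sg2 D p t + D.L t (sg2 D p t)) := by
  have h := sg2_spec hG D hp t
  have hpos : 0 < nrm (gi (D.N t (sg2 D p t)) p) := nrm_pos (gi_ne_zero hp)
  have h2 : Real.exp (sg2 D p t) = nrm (gi (D.N t (sg2 D p t)) p) := by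
    conv_lhs => rw [h]
    exact Real.exp_log hpos
  unfold Hi
  rw [nrm_smul, abs_of_pos (Real.exp_pos _), ← h2, ← Real.exp_add, add_comm]

theorem sg1_Hi (hG : GsBound Cg Cw) (D : Dat Cn Cw K σ₀) {p : E} (hp : p ≠ 0) (t : ℝ) :
    sg1 D (Hi D p t) t = sg2 D p t := by
  apply sg1_unique
  rw [nrm_Hi hG D hp t, Real.log_exp]

theorem HH_Hi (hG : GsBound Cg Cw) (D : Dat Cn Cw K σ₀) (p : E) (t : ℝ) : HH D (Hi D p t) t = p := by
  rcases eq_or_ne p 0 with hp | hp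
  · subst hp
    rw [Hi_zero, HH_zero]
  · unfold HH zt
    rw [sg1_Hi hG D hp t]
    unfold Hi
    rw [smul_smul, ← Real.exp_add, neg_add_cancel, Real.exp_zero, one_smul, gs_gi]

theorem sg2_HH (hG : GsBound Cg Cw) (D : Dat Cn Cw K σ₀) {z : E} (hz : z ≠ 0) (t : ℝ) :
    sg2 D (HH D z t) t = sg1 D z t := by
  apply sg2_unique hG D (HH_ne_zero D hz t)
  unfold HH
  rw [gi_gs, nrm_zt D hz t, Real.log_exp]

theorem Hi_HH (hG : GsBound Cg Cw) (D : Dat Cn Cw K σ₀) (z : E) (t : ℝ) : Hi D (HH D z t) t = z := by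
  rcases eq_or_ne z 0 with hz | hz
  · subst hz
    rw [HH_zero, Hi_zero]
  · unfold Hi
    rw [sg2_HH hG D hz t]
    unfold HH
    rw [gi_gs]
    unfold zt
    rw [smul_smul, ← Real.exp_add, add_neg_cancel, Real.exp_zero, one_smul]

theorem semiconj (hG : GsBound Cg Cw) (D : Dat Cn Cw K σ₀) (z : E) (t : ℝ) :
    HH D (FF D z t) (t + al) = g (HH D z t) := HH_Hi hG D _ _

theorem HH_large (D : Dat Cn Cw K σ₀) {z : E} (h : -σ₀ ≤ Real.log (nrm z)) (t : ℝ) :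
    HH D z t = z := by
  unfold HH zt
  rw [sg1_eq_log D h t, D.N_zero t _ h, D.L_zero t _ h, neg_zero, Real.exp_zero, one_smul,
    gs_of_nonpos le_rfl]

theorem FF_large (hG : GsBound Cg Cw) (D : Dat Cn Cw K σ₀) {z : E} (hz : z ≠ 0)
    (h : -σ₀ ≤ Real.log (nrm z)) (h' : -σ₀ ≤ Real.log (nrm (g z))) (t : ℝ) :
    FF D z t = g z := by
  unfold FF
  rw [HH_large D h t]
  unfold Hi
  rw [sg2_eq_log hG D (g_ne_zero hz) h' (t + al), D.N_zero _ _ h', D.L_zero _ _ h', Real.exp_zero,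
    one_smul, gi_of_nonpos le_rfl]

theorem HH_contDiffAt (D : Dat Cn Cw K σ₀) {z : E} (hz : z ≠ 0) (t : ℝ) :
    ContDiffAt ℝ 1 (fun q : E × ℝ => HH D q.1 q.2) (z, t) := by
  have h1 : ContDiffAt ℝ 1 (fun q : E × ℝ => sg1 D q.1 q.2) (z, t) := sg1_contDiffAt D hz t
  have h2 : ContDiffAt ℝ 1 (fun q : E × ℝ => (q.2, sg1 D q.1 q.2)) (z, t) :=
    contDiffAt_snd.prodMk h1
  have hN : ContDiffAt ℝ 1 (fun q : E × ℝ => D.N q.2 (sg1 D q.1 q.2)) (z, t) :=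
    ContDiffAt.comp (z, t) (g := fun p : ℝ × ℝ => D.N p.1 p.2) D.N_cd.contDiffAt h2
  have hL : ContDiffAt ℝ 1 (fun q : E × ℝ => D.L q.2 (sg1 D q.1 q.2)) (z, t) :=
    ContDiffAt.comp (z, t) (g := fun p : ℝ × ℝ => D.L p.1 p.2) D.L_cd.contDiffAt h2
  have hz' : ContDiffAt ℝ 1 (fun q : E × ℝ => zt D q.1 q.2) (z, t) :=
    (hL.neg.exp).smul contDiffAt_fst
  exact ContDiffAt.comp (z, t) (g := fun q : ℝ × E => gs q.1 q.2)
    (f := fun q : E × ℝ => (D.N q.2 (sg1 D q.1 q.2), zt D q.1 q.2))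
    (gs_contDiffAt _ (zt_ne_zero D hz t)) (hN.prodMk hz')

theorem Hi_contDiffAt (hG : GsBound Cg Cw) (D : Dat Cn Cw K σ₀) {p : E} (hp : p ≠ 0) (t : ℝ) :
    ContDiffAt ℝ 1 (fun q : E × ℝ => Hi D q.1 q.2) (p, t) := by
  have h1 : ContDiffAt ℝ 1 (fun q : E × ℝ => sg2 D q.1 q.2) (p, t) := sg2_contDiffAt hG D hp t
  have h2 : ContDiffAt ℝ 1 (fun q : E × ℝ => (q.2, sg2 D q.1 q.2)) (p, t) :=
    contDiffAt_snd.prodMk h1
  have hN : ContDiffAt ℝ 1 (fun q : E × ℝ => D.N q.2 (sg2 D q.1 q.2)) (p, t) :=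
    ContDiffAt.comp (p, t) (g := fun p : ℝ × ℝ => D.N p.1 p.2) D.N_cd.contDiffAt h2
  have hL : ContDiffAt ℝ 1 (fun q : E × ℝ => D.L q.2 (sg2 D q.1 q.2)) (p, t) :=
    ContDiffAt.comp (p, t) (g := fun p : ℝ × ℝ => D.L p.1 p.2) D.L_cd.contDiffAt h2
  have hg : ContDiffAt ℝ 1 (fun q : E × ℝ => gi (D.N q.2 (sg2 D q.1 q.2)) q.1) (p, t) :=
    ContDiffAt.comp (p, t) (g := fun q : ℝ × E => gi q.1 q.2)
      (f := fun q : E × ℝ => (D.N q.2 (sg2 D q.1 q.2), q.1))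
      (gi_contDiffAt _ hp) (hN.prodMk contDiffAt_fst)
  exact (hL.exp).smul hg

theorem FF_contDiffAt (hG : GsBound Cg Cw) (D : Dat Cn Cw K σ₀) {z : E} (hz : z ≠ 0) (t : ℝ) :
    ContDiffAt ℝ 1 (fun q : E × ℝ => FF D q.1 q.2) (z, t) := by
  have h1 : ContDiffAt ℝ 1 (fun q : E × ℝ => g (HH D q.1 q.2)) (z, t) :=
    ContDiffAt.comp (z, t) (g := g) (g_contDiffAt (HH_ne_zero D hz t)) (HH_contDiffAt D hz t)
  have h2 : ContDiffAt ℝ 1 (fun q : E × ℝ => q.2 + al) (z, t) :=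
    contDiffAt_snd.add contDiffAt_const
  exact ContDiffAt.comp (z, t) (g := fun q : E × ℝ => Hi D q.1 q.2)
    (f := fun q : E × ℝ => (g (HH D q.1 q.2), q.2 + al))
    (Hi_contDiffAt hG D (g_ne_zero (HH_ne_zero D hz t)) (t + al)) (h1.prodMk h2)

end Crest.Agent.R123
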