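/-
ROW 123 (S0163), piece ModD: size of `HH`, `FF` for small `z`; continuity of `HH`.

Let `z ≠ 0`, `σ₁ = sg1 D z t`.
* If `σ₁ ≥ -σ₀`: `N = L = 0`, `HH = z`.  If `σ₁ < -σ₀`: `N t σ₁ ≤ (-σ₀-σ₁)/(2Cw)` (`N_lip`, `N_zero` at `-σ₀`), so
  `nrm HH ≤ exp(Cg (N+1)) exp σ₁ ≤ exp(Cg + (-σ₀-σ₁)/2 + σ₁)` (`Cg ≤ Cw`) `= exp (Cg - σ₀/2 + σ₁/2)` (`HH_le`).
* continuity at `(0,t)`: `HH_le` and `sg1_bounds` (`σ₁ ≤ (2/3) log nrm z`); elsewhere `HH_contDiffAt`.
* `small`: with `σ₀ ≥ Cg + 10`: `nrm HH ≤ max (nrm z) (exp(Cg-σ₀)) ≤ 1/1000`.  `FF = Hi p`, `p = g HH`,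
  `nrm p ≤ 6/1000`; if `sg2 ≥ -σ₀` then `nrm FF = exp (σ₂ + 0) = nrm p`; else
  `nrm FF = exp(σ₂ + L) ≤ exp(σ₂ + (-σ₀-σ₂)/2) ≤ exp(-σ₀)`.
-/
import Crest.Agent.R123.ModC

set_option autoImplicit false

namespace Crest.Agent.R123

open Filter Topology

variable {Cn Cw K σ₀ Cg : ℝ}

theorem exp_neg_ten_le : Real.exp (-10) ≤ 1 / 1024 := by
  have h1 : (2 : ℝ) ≤ Real.exp 1 := by
    have := Real.add_one_le_exp (1 : ℝ)
    linarith
  have h2 : Real.exp 10 = (Real.exp 1) ^ 10 := by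
    rw [← Real.exp_nat_mul]
    norm_num
  have h3 : (1024 : ℝ) ≤ Real.exp 10 := by
    rw [h2]
    calc (1024 : ℝ) = 2 ^ 10 := by norm_num
      _ ≤ (Real.exp 1) ^ 10 := pow_le_pow_left₀ (by norm_num) h1 10
  rw [Real.exp_neg, ← one_div]
  exact one_div_le_one_div_of_le (by norm_num) h3

theorem HH_le (hG : GsBound Cg Cw) (D : Dat Cn Cw K σ₀) {z : E} (hz : z ≠ 0) {t : ℝ}
    (h : sg1 D z t ≤ -σ₀) :
    nrm (HH D z t) ≤ Real.exp (Cg - σ₀ / 2 + sg1 D z t / 2) := by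
  have h1 := hG.gs_le (D.N t (sg1 D z t)) (zt D z t)
  rw [nrm_zt D hz t, max_eq_left (D.N_nonneg _ _), ← Real.exp_add] at h1
  refine h1.trans (Real.exp_le_exp.2 ?_)
  have h2 := D.N_lip t (sg1 D z t) (-σ₀)
  rw [D.N_zero t (-σ₀) le_rfl, sub_zero, abs_of_nonneg (D.N_nonneg _ _),
    abs_of_nonpos (by linarith)] at h2
  have hCw : 0 < Cw := by linarith [hG.one_le_Cw]
  have hN := D.N_nonneg t (sg1 D z t)
  have h3 : Cg * D.N t (sg1 D z t) ≤ (-σ₀ - sg1 D z t) / 2 := by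
    calc Cg * D.N t (sg1 D z t) ≤ Cw * D.N t (sg1 D z t) :=
          mul_le_mul_of_nonneg_right hG.Cg_le_Cw hN
      _ ≤ Cw * (1 / (2 * Cw) * -(sg1 D z t - -σ₀)) := mul_le_mul_of_nonneg_left h2 hCw.le
      _ = (-σ₀ - sg1 D z t) / 2 := by field_simp; ring
  linarith

theorem HH_of_ge (D : Dat Cn Cw K σ₀) {z : E} {t : ℝ} (h : -σ₀ ≤ sg1 D z t) : HH D z t = z := by
  unfold HH zt
  rw [D.N_zero _ _ h, D.L_zero _ _ h, gs_of_nonpos le_rfl, neg_zero, Real.exp_zero, one_smul]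

theorem HH_continuous (hG : GsBound Cg Cw) (D : Dat Cn Cw K σ₀) (hσ₀ : 0 < σ₀) :
    Continuous (fun q : E × ℝ => HH D q.1 q.2) := by
  rw [continuous_iff_continuousAt]
  rintro ⟨z, t⟩
  by_cases hz : z = 0
  · subst hz
    unfold ContinuousAt
    have h0 : (fun q : E × ℝ => HH D q.1 q.2) (0, t) = 0 := HH_zero D t
    rw [h0]
    set B : E × ℝ → ℝ := fun q => Real.exp (Cg - σ₀ / 2) * nrm q.1 ^ (1 / 3 : ℝ) with hB
    have hBc : Continuous B := by
      refine continuous_const.mul ?_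
      exact (nrm_continuous.comp continuous_fst).rpow_const (fun _ => Or.inr (by norm_num))
    have hB0 : B (0, t) = 0 := by
      have : nrm (0 : E) = 0 := (nrm_eq_zero_iff 0).2 rfl
      simp only [hB, this]
      rw [Real.zero_rpow (by norm_num), mul_zero]
    have hlim : Tendsto B (𝓝 (0, t)) (𝓝 0) := by
      have := hBc.tendsto (0, t)
      rwa [hB0] at this
    refine squeeze_zero_norm' ?_ hlim
    have hopen : ∀ᶠ q : E × ℝ in 𝓝 (0, t), nrm q.1 < min 1 (Real.exp (-(3 / 2 * σ₀))) := by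
      have hc : Continuous fun q : E × ℝ => nrm q.1 := nrm_continuous.comp continuous_fst
      have h1 : nrm (((0 : E), t) : E × ℝ).1 < min 1 (Real.exp (-(3 / 2 * σ₀))) := by
        have : nrm (0 : E) = 0 := (nrm_eq_zero_iff 0).2 rfl
        show nrm (0 : E) < _
        rw [this]
        exact lt_min one_pos (Real.exp_pos _)
      exact hc.continuousAt.eventually_lt continuousAt_const h1
    filter_upwards [hopen] with q hq
    refine (norm_le_nrm _).trans ?_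
    by_cases hq0 : q.1 = 0
    · rw [hq0, HH_zero]
      have : nrm (0 : E) = 0 := (nrm_eq_zero_iff 0).2 rfl
      rw [this]
      have := nrm_nonneg q.1
      simp only [hB]
      positivity
    · have hpos := nrm_pos hq0
      have h1 : nrm q.1 ≤ 1 := (hq.trans_le (min_le_left _ _)).le
      have h2 : nrm q.1 < Real.exp (-(3 / 2 * σ₀)) := hq.trans_le (min_le_right _ _)
      have h3 : Real.log (nrm q.1) < -(3 / 2 * σ₀) := by
        rwa [Real.log_lt_iff_lt_exp hpos]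
      have h4 := (sg1_bounds D hσ₀ hq0 h1 q.2).2
      have h5 : sg1 D q.1 q.2 ≤ -σ₀ := by linarith
      refine (HH_le hG D hq0 h5).trans ?_
      simp only [hB]
      rw [Real.rpow_def_of_pos hpos, ← Real.exp_add]
      apply Real.exp_le_exp.2
      linarith
  · exact (HH_contDiffAt D hz t).continuousAt

theorem HH_small (hG : GsBound Cg Cw) (D : Dat Cn Cw K σ₀) (hσ₀ : Cg + 10 ≤ σ₀) {z : E}
    (hz : nrm z ≤ 1 / 1000) (t : ℝ) : nrm (HH D z t) ≤ 1 / 1000 := by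
  by_cases hz0 : z = 0
  · rw [hz0, HH_zero]
    have : nrm (0 : E) = 0 := (nrm_eq_zero_iff 0).2 rfl
    rw [this]; norm_num
  · rcases le_total (-σ₀) (sg1 D z t) with h | h
    · rw [HH_of_ge D h]; exact hz
    · refine (HH_le hG D hz0 h).trans ?_
      have h1 : Real.exp (Cg - σ₀ / 2 + sg1 D z t / 2) ≤ Real.exp (-10) := by
        apply Real.exp_le_exp.2
        linarith
      have h2 := exp_neg_ten_le
      have h3 : (1 : ℝ) / 1024 ≤ 1 / 1000 := by norm_num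
      linarith

theorem FF_small' (hG : GsBound Cg Cw) (D : Dat Cn Cw K σ₀) (hσ₀ : Cg + 10 ≤ σ₀) {z : E}
    (hz : nrm z ≤ 1 / 1000) (t : ℝ) : nrm (FF D z t) ≤ 1 / 64 := by
  have h0 := HH_small hG D hσ₀ hz t
  have h1 := nrm_g_le (HH D z t)
  have hCg := hG.one_le_Cg
  unfold FF
  by_cases hp : g (HH D z t) = 0
  · rw [hp, Hi_zero]
    have : nrm (0 : E) = 0 := (nrm_eq_zero_iff 0).2 rfl
    rw [this]; norm_num
  · rw [nrm_Hi hG D hp]
    rcases le_total (-σ₀) (sg2 D (g (HH D z t)) (t + al)) with h | h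
    · have h2 := sg2_spec hG D hp (t + al)
      rw [D.N_zero _ _ h, gi_of_nonpos le_rfl] at h2
      rw [D.L_zero _ _ h, add_zero, h2, Real.exp_log (nrm_pos hp)]
      have h3 : (6 : ℝ) * (1 / 1000) ≤ 1 / 64 := by norm_num
      linarith
    · have h2 := D.L_lip (t + al) (sg2 D (g (HH D z t)) (t + al)) (-σ₀)
      rw [D.L_zero (t + al) (-σ₀) le_rfl, sub_zero,
        abs_of_nonpos (a := sg2 D (g (HH D z t)) (t + al) - -σ₀) (by linarith)] at h2
      have h3 := (abs_le.1 h2).2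
      have h4 : Real.exp (sg2 D (g (HH D z t)) (t + al) + D.L (t + al) (sg2 D (g (HH D z t)) (t + al)))
          ≤ Real.exp (-10) := by
        apply Real.exp_le_exp.2
        linarith
      have h5 := exp_neg_ten_le
      have h6 : (1 : ℝ) / 1024 ≤ 1 / 64 := by norm_num
      linarith

end Crest.Agent.R123
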