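/-
ROW 123 (S0163), piece ModE: region alpha (`e(σ₁) ≤ s t`): `F` is multiplication by a positive scalar.

* `FF_alpha`: `N (t+α) σ₁ = 1 + N t σ₁` (`N_next`), `p = g (gs (N t σ₁) ζ) = gs (1 + N t σ₁) ζ` (`gs_add_one`), so
  `gi (N (t+α) σ₁) p = ζ`, `log nrm ζ = σ₁`, hence `sg2 D p (t+α) = σ₁` (`sg2_unique`) and
  `F = exp (L (t+α) σ₁) • ζ`.
* `FF_alpha_high`: `L_next_high`, `exp (log (Λ s)) = Λ s`.
* `alpha_bound`: for `(z,t)` near `(z₀,t₀)` still `e(σ₁(z,t)) < s t` (continuity of `sg1`, `e`, `s`), so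
  `F z t = exp (X) • z`, `X(z,t) = L (t+α) σ₁ - L t σ₁`, and
  `|X - X₀| ≤ |Δσ₁| + 2 CΛ/e⁴ |Δt| ≤ 2 |Δ log nrm z| + 4 CΛ/e⁴ |Δt| ≤ 4 nrm Δz/nrm z₀ + 4 CΛ/e⁴ |Δt|`
  (`sg1_diff`, `L_lip`, `L_tlip` at `σ = σ₁(z₀,t₀)`); near the point `|X-X₀| ≤ 1`, `|e^X - e^{X₀}| ≤ 2 e^{X₀} |X-X₀|`,
  `nrm z ≤ 3/2 nrm z₀`.
* `alpha_coef`: if `s t ≤ 3 e σ₁`, `σ₁ ≤ σl`: exponent `= (1-θ)(L + log(Λs)) - L = (1-θ) log (Λ s) - θ L`, a convex
  combination of `log (Λ s t)` and `-L t σ₁ ≤ -K/√e`.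
-/
import Crest.Agent.R123.ModC

set_option autoImplicit false

namespace Crest.Agent.R123

open Filter Topology

variable {Cn Cw K σ₀ Cg : ℝ}

theorem FF_alpha (hG : GsBound Cg Cw) (D : Dat Cn Cw K σ₀) {z : E} (hz : z ≠ 0) {t : ℝ}
    (h : D.e (sg1 D z t) ≤ s t) :
    FF D z t = Real.exp (D.L (t + al) (sg1 D z t) - D.L t (sg1 D z t)) • z := by
  have hN := D.N_next t (sg1 D z t) h
  have hp : g (HH D z t) = gs (D.N (t + al) (sg1 D z t)) (zt D z t) := by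
    unfold HH
    rw [← gs_add_one (D.N_nonneg t _), hN, add_comm]
  have hgi : gi (D.N (t + al) (sg1 D z t)) (g (HH D z t)) = zt D z t := by
    rw [hp, gi_gs]
  have hne : g (HH D z t) ≠ 0 := g_ne_zero (HH_ne_zero D hz t)
  have hs2 : sg2 D (g (HH D z t)) (t + al) = sg1 D z t := by
    apply sg2_unique hG D hne
    rw [hgi, nrm_zt D hz t, Real.log_exp]
  unfold FF Hi
  rw [hs2, hgi]
  unfold zt
  rw [smul_smul, ← Real.exp_add, sub_eq_add_neg]

theorem FF_alpha_high (hG : GsBound Cg Cw) (D : Dat Cn Cw K σ₀) {z : E} (hz : z ≠ 0) {t : ℝ}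
    (h : 3 * D.e (sg1 D z t) ≤ s t) : FF D z t = (D.Λ * s t) • z := by
  have he := D.e_pos (sg1 D z t)
  have hs : 0 < s t := by linarith
  have hΛ := D.one_le_Λ
  rw [FF_alpha hG D hz (by linarith), D.L_next_high t _ h, add_sub_cancel_left,
    Real.exp_log (by positivity)]

namespace ModEaux

lemma abs_exp_sub_exp {x y : ℝ} (h : |x - y| ≤ 1) :
    |Real.exp x - Real.exp y| ≤ 2 * Real.exp y * |x - y| := by
  have h1 := Real.abs_exp_sub_one_le h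
  have h2 : Real.exp x - Real.exp y = Real.exp y * (Real.exp (x - y) - 1) := by
    rw [mul_sub, ← Real.exp_add, mul_one]
    ring_nf
  rw [h2, abs_mul, abs_of_pos (Real.exp_pos y)]
  calc Real.exp y * |Real.exp (x - y) - 1| ≤ Real.exp y * (2 * |x - y|) := by
        gcongr
    _ = _ := by ring

lemma abs_log_sub_log {a b : ℝ} (ha : 0 < a) (h : |a - b| ≤ a / 2) :
    |Real.log a - Real.log b| ≤ 2 * |a - b| / a := by
  have hb : a / 2 ≤ b := by
    have := (abs_le.1 h).2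
    linarith
  have hb0 : 0 < b := by linarith
  rw [abs_le]
  constructor
  · -- log b - log a ≤ (b-a)/a
    have h1 : Real.log b - Real.log a ≤ b / a - 1 := by
      rw [← Real.log_div hb0.ne' ha.ne']
      exact Real.log_le_sub_one_of_pos (by positivity)
    have h2 : b / a - 1 ≤ |a - b| / a := by
      rw [div_sub_one ha.ne']
      gcongr
      rw [abs_sub_comm]
      exact le_abs_self _
    have h3 : |a - b| / a ≤ 2 * |a - b| / a := by
      gcongr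
      linarith [abs_nonneg (a - b)]
    linarith
  · have h1 : Real.log a - Real.log b ≤ a / b - 1 := by
      rw [← Real.log_div ha.ne' hb0.ne']
      exact Real.log_le_sub_one_of_pos (by positivity)
    have h2 : a / b - 1 ≤ |a - b| / b := by
      rw [div_sub_one hb0.ne']
      gcongr
      exact le_abs_self _
    have h3 : |a - b| / b ≤ |a - b| / (a / 2) := by
      gcongr
    have h4 : |a - b| / (a / 2) = 2 * |a - b| / a := by
      field_simp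
    linarith

lemma nrm_neg_sub (z w : E) : nrm (z - w) = nrm (w - z) := by
  have : z - w = (-1 : ℝ) • (w - z) := by simp
  rw [this, nrm_smul]
  simp

/-- the exponent -/
noncomputable def XX (D : Dat Cn Cw K σ₀) (q : E × ℝ) : ℝ :=
  D.L (q.2 + al) (sg1 D q.1 q.2) - D.L q.2 (sg1 D q.1 q.2)

lemma XX_sub (D : Dat Cn Cw K σ₀) {z₀ z : E} (hz₀ : z₀ ≠ 0) (t₀ t : ℝ)
    (h : nrm (z - z₀) ≤ nrm z₀ / 2) :
    |XX D (z, t) - XX D (z₀, t₀)| ≤ 4 * (nrm (z - z₀) / nrm z₀) +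
      4 * (D.CΛ / (D.e (sg1 D z₀ t₀)) ^ 4 * |t - t₀|) := by
  have hpos := nrm_pos hz₀
  set σ := sg1 D z t with hσ
  set σ' := sg1 D z₀ t₀ with hσ'
  have h1 := D.L_lip (t + al) σ σ'
  have h2 := D.L_tlip (t + al) (t₀ + al) σ'
  have h3 := D.L_lip t σ σ'
  have h4 := D.L_tlip t t₀ σ'
  have h5 := sg1_diff D z₀ z t₀ t
  rw [← hσ, ← hσ', abs_sub_comm σ' σ, abs_sub_comm t₀ t] at h5
  have h6 : |Real.log (nrm z₀) - Real.log (nrm z)| ≤ 2 * (nrm (z - z₀) / nrm z₀) := by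
    have h7 : |nrm z₀ - nrm z| ≤ nrm (z - z₀) := by
      rw [abs_sub_comm]
      exact abs_nrm_sub_le z z₀
    have h8 := abs_log_sub_log hpos (h7.trans h)
    refine h8.trans ?_
    rw [mul_div_assoc]
    gcongr
  have e1 : t + al - (t₀ + al) = t - t₀ := by ring
  rw [e1] at h2
  have e2 : XX D (z, t) - XX D (z₀, t₀) =
      (D.L (t + al) σ - D.L (t + al) σ') + (D.L (t + al) σ' - D.L (t₀ + al) σ') -
      (D.L t σ - D.L t σ') - (D.L t σ' - D.L t₀ σ') := by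
    unfold XX
    simp only [← hσ, ← hσ']
    ring
  rw [e2]
  have h7 : |σ - σ'| ≤ 4 * (nrm (z - z₀) / nrm z₀) +
      2 * (D.CΛ / (D.e σ') ^ 4 * |t - t₀|) := by linarith
  rw [abs_le] at h1 h2 h3 h4
  rw [abs_le]
  constructor <;> linarith [h1.1, h1.2, h2.1, h2.2, h3.1, h3.2, h4.1, h4.2, h7]

end ModEaux

open ModEaux

theorem alpha_bound (hG : GsBound Cg Cw) (D : Dat Cn Cw K σ₀) {z₀ : E} (hz : z₀ ≠ 0) {t₀ : ℝ}
    (h : D.e (sg1 D z₀ t₀) < s t₀) :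
    ∀ᶠ q : E × ℝ in 𝓝 (z₀, t₀), nrm (FF D q.1 q.2 - FF D z₀ t₀) ≤
      20 * Real.exp (D.L (t₀ + al) (sg1 D z₀ t₀) - D.L t₀ (sg1 D z₀ t₀)) *
        (nrm (q.1 - z₀) + nrm z₀ * (D.CΛ / (D.e (sg1 D z₀ t₀)) ^ 4) * |q.2 - t₀|) := by
  have hpos := nrm_pos hz
  have hsg : ContinuousAt (fun q : E × ℝ => sg1 D q.1 q.2) (z₀, t₀) :=
    (sg1_contDiffAt D hz t₀).continuousAt
  have hec : ContinuousAt (fun q : E × ℝ => D.e (sg1 D q.1 q.2)) (z₀, t₀) :=
    D.e_cont.continuousAt.comp hsg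
  have hsc : ContinuousAt (fun q : E × ℝ => s q.2) (z₀, t₀) :=
    ((s_contDiff (n := 1)).continuous.comp continuous_snd).continuousAt
  have hLc : Continuous (fun p : ℝ × ℝ => D.L p.1 p.2) := D.L_cd.continuous
  have hXc : ContinuousAt (fun q : E × ℝ => XX D q) (z₀, t₀) := by
    unfold XX
    have h1 : ContinuousAt (fun q : E × ℝ => (q.2 + al, sg1 D q.1 q.2)) (z₀, t₀) :=
      (continuous_snd.add continuous_const).continuousAt.prodMk hsg
    have h2 : ContinuousAt (fun q : E × ℝ => (q.2, sg1 D q.1 q.2)) (z₀, t₀) :=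
      continuous_snd.continuousAt.prodMk hsg
    exact (ContinuousAt.comp (x := (z₀, t₀)) (g := fun p : ℝ × ℝ => D.L p.1 p.2) hLc.continuousAt h1).sub
      (ContinuousAt.comp (x := (z₀, t₀)) (g := fun p : ℝ × ℝ => D.L p.1 p.2) hLc.continuousAt h2)
  have hnc : ContinuousAt (fun q : E × ℝ => nrm (q.1 - z₀)) (z₀, t₀) :=
    (nrm_continuous.comp (continuous_fst.sub continuous_const)).continuousAt
  have ev1 : ∀ᶠ q : E × ℝ in 𝓝 (z₀, t₀), D.e (sg1 D q.1 q.2) < s q.2 := hec.eventually_lt hsc h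
  have ev2 : ∀ᶠ q : E × ℝ in 𝓝 (z₀, t₀), |XX D q - XX D (z₀, t₀)| < 1 := by
    have : ContinuousAt (fun q : E × ℝ => |XX D q - XX D (z₀, t₀)|) (z₀, t₀) :=
      (hXc.sub continuousAt_const).abs
    exact this.eventually_lt continuousAt_const (by simp)
  have ev3 : ∀ᶠ q : E × ℝ in 𝓝 (z₀, t₀), nrm (q.1 - z₀) < nrm z₀ / 2 := by
    refine hnc.eventually_lt continuousAt_const ?_
    have : nrm (z₀ - z₀) = 0 := by
      rw [sub_self]
      exact (nrm_eq_zero_iff 0).2 rfl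
    rw [this]
    positivity
  have ev4 : ∀ᶠ q : E × ℝ in 𝓝 (z₀, t₀), q.1 ≠ 0 :=
    continuous_fst.continuousAt.eventually_ne hz
  filter_upwards [ev1, ev2, ev3, ev4] with q h1 h2 h3 h4
  rw [FF_alpha hG D h4 h1.le, FF_alpha hG D hz h.le]
  change nrm (Real.exp (XX D q) • q.1 - Real.exp (XX D (z₀, t₀)) • z₀) ≤
      20 * Real.exp (XX D (z₀, t₀)) *
        (nrm (q.1 - z₀) + nrm z₀ * (D.CΛ / (D.e (sg1 D z₀ t₀)) ^ 4) * |q.2 - t₀|)
  have e1 : Real.exp (XX D q) • q.1 - Real.exp (XX D (z₀, t₀)) • z₀ =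
      Real.exp (XX D (z₀, t₀)) • (q.1 - z₀) +
        (Real.exp (XX D q) - Real.exp (XX D (z₀, t₀))) • q.1 := by
    rw [smul_sub, sub_smul]
    abel
  rw [e1]
  refine (nrm_add_le _ _).trans ?_
  rw [nrm_smul, nrm_smul, abs_of_pos (Real.exp_pos _)]
  have h5 := abs_exp_sub_exp h2.le
  have h6 := XX_sub D hz t₀ q.2 h3.le
  have h7 : nrm q.1 ≤ 3 / 2 * nrm z₀ := by
    have := nrm_add_le (q.1 - z₀) z₀
    rw [sub_add_cancel] at this
    linarith
  set X0 := XX D (z₀, t₀) with hX0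
  set A := D.CΛ / (D.e (sg1 D z₀ t₀)) ^ 4 with hA
  have hA0 : 0 ≤ A := by
    have := D.CΛ_pos
    have := D.e_pos (sg1 D z₀ t₀)
    positivity
  have h8 : |Real.exp (XX D q) - Real.exp X0| * nrm q.1 ≤
      (2 * Real.exp X0 * (4 * (nrm (q.1 - z₀) / nrm z₀) + 4 * (A * |q.2 - t₀|))) *
        (3 / 2 * nrm z₀) := by
    apply mul_le_mul _ h7 (nrm_nonneg _) _
    · refine h5.trans ?_
      gcongr
    · have := nrm_nonneg (q.1 - z₀)
      positivity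
  have h9 : (2 * Real.exp X0 * (4 * (nrm (q.1 - z₀) / nrm z₀) + 4 * (A * |q.2 - t₀|))) *
        (3 / 2 * nrm z₀) = 12 * Real.exp X0 * (nrm (q.1 - z₀) + nrm z₀ * A * |q.2 - t₀|) := by
    field_simp
    try ring
  have h10 : 0 ≤ Real.exp X0 * (nrm z₀ * A * |q.2 - t₀|) := by positivity
  have h11 : 0 ≤ Real.exp X0 * nrm (q.1 - z₀) := by
    have := nrm_nonneg (q.1 - z₀)
    positivity
  rw [h9] at h8
  nlinarith [h8, h10, h11]

theorem alpha_coef (D : Dat Cn Cw K σ₀) (_hK : 0 < K) : ∃ σs : ℝ, ∀ σ ≤ σs, ∀ t : ℝ, 0 < s t →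
    s t ≤ 3 * D.e σ →
    Real.exp (D.L (t + al) σ - D.L t σ) ≤ max (D.Λ * s t) (Real.exp (-(K / Real.sqrt (D.e σ)))) := by
  obtain ⟨σl, hσl⟩ := D.L_low
  refine ⟨σl, fun σ hσ t hs ht => ?_⟩
  have h1 := hσl σ hσ t ht
  obtain ⟨θ, h0, h01, hθ⟩ := D.L_next_mid t σ
  have hΛ := D.one_le_Λ
  have hpos : 0 < D.Λ * s t := by positivity
  have h2 : D.L (t + al) σ - D.L t σ ≤
      max (Real.log (D.Λ * s t)) (-(K / Real.sqrt (D.e σ))) := by
    rw [hθ]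
    have h3 : (1 - θ) * Real.log (D.Λ * s t) ≤
        (1 - θ) * max (Real.log (D.Λ * s t)) (-(K / Real.sqrt (D.e σ))) :=
      mul_le_mul_of_nonneg_left (le_max_left _ _) (by linarith)
    have h4 : θ * (-(K / Real.sqrt (D.e σ))) ≤
        θ * max (Real.log (D.Λ * s t)) (-(K / Real.sqrt (D.e σ))) :=
      mul_le_mul_of_nonneg_left (le_max_right _ _) h0
    have h5 : θ * (K / Real.sqrt (D.e σ)) ≤ θ * D.L t σ := mul_le_mul_of_nonneg_left h1 h0
    nlinarith [h3, h4, h5]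
  calc Real.exp (D.L (t + al) σ - D.L t σ) ≤
        Real.exp (max (Real.log (D.Λ * s t)) (-(K / Real.sqrt (D.e σ)))) := Real.exp_le_exp.2 h2
    _ = max (D.Λ * s t) (Real.exp (-(K / Real.sqrt (D.e σ)))) := by
        rw [Real.exp_monotone.map_max, Real.exp_log hpos]

end Crest.Agent.R123
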