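/-
ROW 123 (S0163), piece ModF1: static estimates for `p = g (H_t z)`, `σ₂ = σ₂(p, t+α)`.

Write `σ = sg1 D z t`, `e = D.e σ`, `ζ = zt D z t`, `nrm ζ = exp σ`, `n = N t σ ≤ Cn/√e`, `p = g (gs n ζ)`.
(1) `exp(-Cg(n+1))/100 · e^σ ≤ nrm p ≤ 6 exp(Cg(n+1)) e^σ`: `gs_le`, `nrm_g_le`, `g_lower`, and
    `e^σ = nrm (gi n (gs n ζ)) ≤ exp(Cg (n+1)) nrm (gs n ζ)`.  As `e ≤ 3`, `1 ≤ √3/√e`: constants are absorbed in `C₁/√e`.
(2) for `m = N (t+α) σ ≤ Cn/√e`: `exp(-Cg(m+1)) nrm p ≤ nrm (gi m p) ≤ exp(Cg(m+1)) nrm p`, so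
    `|log nrm (gi m p) - σ| ≤ C/√e` and `sg2_near` gives `|σ₂ - σ| ≤ 2C/√e`.
(3) `e_slow`: `|(1/e₂)^8 - (1/e)^8| ≤ C₁/√e`, so `|(e/e₂)^8 - 1| ≤ C₁ e^{7.5}` is as small as we like for `σ ≤ σs`
    (`e_tendsto`), which gives `4/5 ≤ e₂/e ≤ 5/4`.
-/
import Crest.Agent.R123.ModC

set_option autoImplicit false

namespace Crest.Agent.R123

open Filter Topology

variable {Cn Cw Cg : ℝ}

namespace ModF1aux

theorem exp_five : (100 : ℝ) ≤ Real.exp 5 := by
  have h1 := Real.add_one_le_exp (1 : ℝ)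
  have h2 : Real.exp 5 = (Real.exp 1) ^ 5 := by
    rw [← Real.exp_nat_mul]; norm_num
  have h3 : (2.7182818283 : ℝ) < Real.exp 1 := Real.exp_one_gt_d9
  rw [h2]
  calc (100 : ℝ) ≤ (2.7182818283 : ℝ) ^ 5 := by norm_num
    _ ≤ _ := pow_le_pow_left₀ (by norm_num) h3.le 5

theorem six_le : (6 : ℝ) ≤ Real.exp 2 := by
  have h2 : Real.exp 2 = (Real.exp 1) ^ 2 := by
    rw [← Real.exp_nat_mul]; norm_num
  have h3 : (2.7182818283 : ℝ) < Real.exp 1 := Real.exp_one_gt_d9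
  rw [h2]
  calc (6 : ℝ) ≤ (2.7182818283 : ℝ) ^ 2 := by norm_num
    _ ≤ _ := pow_le_pow_left₀ (by norm_num) h3.le 2

/-- bounds for `log nrm` from two-sided bounds -/
theorem log_bounds {a b x : ℝ} (ha : 0 < a) (hb : 0 < b) (h1 : a ≤ Real.exp x * b)
    (h2 : b ≤ Real.exp x * a) : |Real.log a - Real.log b| ≤ x := by
  rw [abs_le]
  constructor
  · have := Real.log_le_log hb h2
    rw [Real.log_mul (Real.exp_pos _).ne' ha.ne', Real.log_exp] at this
    linarith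
  · have := Real.log_le_log ha h1
    rw [Real.log_mul (Real.exp_pos _).ne' hb.ne', Real.log_exp] at this
    linarith

end ModF1aux

open ModF1aux

theorem beta_static (hG : GsBound Cg Cw) (hCn : 0 < Cn) : ∃ C₁ : ℝ, 0 < C₁ ∧
    ∀ (K σ₀ : ℝ) (D : Dat Cn Cw K σ₀), ∃ σs : ℝ, ∀ (z : E) (t : ℝ), z ≠ 0 → sg1 D z t ≤ σs →
      |sg2 D (g (HH D z t)) (t + al) - sg1 D z t| ≤ C₁ / Real.sqrt (D.e (sg1 D z t)) ∧
      4 / 5 * D.e (sg1 D z t) ≤ D.e (sg2 D (g (HH D z t)) (t + al)) ∧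
      D.e (sg2 D (g (HH D z t)) (t + al)) ≤ 5 / 4 * D.e (sg1 D z t) ∧
      Real.exp (sg1 D z t - C₁ / Real.sqrt (D.e (sg1 D z t))) ≤ nrm (g (HH D z t)) ∧
      nrm (g (HH D z t)) ≤ Real.exp (sg1 D z t + C₁ / Real.sqrt (D.e (sg1 D z t))) := by
  have hCg := hG.one_le_Cg
  refine ⟨20 + 4 * Cg * (Cn + 2), by positivity, ?_⟩
  set C₁ := 20 + 4 * Cg * (Cn + 2) with hC₁
  have hC₁pos : 0 < C₁ := by positivity
  intro K σ₀ D
  -- small scale
  have hev : ∀ᶠ σ in atBot, D.e σ < min 1 (1 / (2 * C₁)) :=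
    D.e_tendsto.eventually (eventually_lt_nhds (by positivity))
  obtain ⟨σs, hσs⟩ := Filter.eventually_atBot.1 hev
  refine ⟨σs, ?_⟩
  intro z t hz hσ
  set σ := sg1 D z t with hσdef
  have hesmall := hσs σ hσ
  have he1 : D.e σ < 1 := lt_of_lt_of_le hesmall (min_le_left _ _)
  have he2 : D.e σ < 1 / (2 * C₁) := lt_of_lt_of_le hesmall (min_le_right _ _)
  have hepos := D.e_pos σ
  have hsq : 0 < Real.sqrt (D.e σ) := Real.sqrt_pos.2 hepos
  have hsq1 : Real.sqrt (D.e σ) ≤ 1 := Real.sqrt_le_one.2 he1.le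
  set R := 1 / Real.sqrt (D.e σ) with hR
  have hR1 : 1 ≤ R := by rw [hR, one_le_div hsq]; exact hsq1
  have hdiv : ∀ a : ℝ, a / Real.sqrt (D.e σ) = a * R := fun a => by rw [hR]; ring
  have hN : ∀ t, D.N t σ + 1 ≤ (Cn + 2) * R := by
    intro t
    have h1 := D.N_le t σ
    rw [hdiv] at h1
    nlinarith
  have hNn := fun t => D.N_nonneg t σ
  set ζ := zt D z t with hζ
  have hζn : nrm ζ = Real.exp σ := nrm_zt D hz t
  have hζ0 : ζ ≠ 0 := zt_ne_zero D hz t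
  set n := D.N t σ with hn
  have hH : HH D z t = gs n ζ := rfl
  set y := HH D z t with hy
  have hy0 : y ≠ 0 := by rw [hH]; exact gs_ne_zero hζ0
  set p := g y with hp
  have hp0 : p ≠ 0 := g_ne_zero hy0
  have hyp := nrm_pos hy0
  have hpp := nrm_pos hp0
  have hmax : max n 0 = n := max_eq_left (hNn t)
  -- y vs ζ
  have y1 : nrm y ≤ Real.exp (Cg * (n + 1)) * nrm ζ := by
    have := hG.gs_le n ζ
    rwa [hmax] at this
  have y2 : nrm ζ ≤ Real.exp (Cg * (n + 1)) * nrm y := by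
    have := hG.gi_le n y
    rw [hmax, hH, gi_gs, ← hH] at this
    exact this
  have ylog : |Real.log (nrm y) - σ| ≤ Cg * (n + 1) := by
    have := log_bounds hyp (nrm_pos hζ0) y1 y2
    rwa [hζn, Real.log_exp] at this
  have plog : |Real.log (nrm p) - Real.log (nrm y)| ≤ 5 := by
    apply log_bounds hpp hyp
    · have h1 := nrm_g_le y
      have h2 : (6 : ℝ) ≤ Real.exp 5 := by linarith [exp_five]
      exact h1.trans (mul_le_mul_of_nonneg_right h2 hyp.le)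
    · have h1 := g_lower y
      have h2 := exp_five
      have h3 : nrm y ≤ 100 * nrm p := by linarith
      exact h3.trans (mul_le_mul_of_nonneg_right h2 hpp.le)
  have hn1 : Cg * (n + 1) ≤ Cg * (Cn + 2) * R := by
    rw [mul_assoc]
    exact mul_le_mul_of_nonneg_left (hN t) (by linarith)
  have plog2 : |Real.log (nrm p) - σ| ≤ (5 + Cg * (Cn + 2)) * R := by
    have h1 : Real.log (nrm p) - σ = (Real.log (nrm p) - Real.log (nrm y)) +
        (Real.log (nrm y) - σ) := by ring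
    rw [h1]
    refine (abs_add_le _ _).trans ?_
    nlinarith
  set m := D.N (t + al) σ with hm
  have hmm : max m 0 = m := max_eq_left (hNn (t + al))
  have hq0 : gi m p ≠ 0 := gi_ne_zero hp0
  have qlog : |Real.log (nrm (gi m p)) - Real.log (nrm p)| ≤ Cg * (m + 1) := by
    apply log_bounds (nrm_pos hq0) hpp
    · have := hG.gi_le m p
      rwa [hmm] at this
    · have := hG.gs_le m (gi m p)
      rwa [hmm, gs_gi] at this
  have hm1 : Cg * (m + 1) ≤ Cg * (Cn + 2) * R := by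
    rw [mul_assoc]
    exact mul_le_mul_of_nonneg_left (hN (t + al)) (by linarith)
  have qlog2 : |Real.log (nrm (gi m p)) - σ| ≤ (5 + 2 * (Cg * (Cn + 2))) * R := by
    have h1 : Real.log (nrm (gi m p)) - σ = (Real.log (nrm (gi m p)) - Real.log (nrm p)) +
        (Real.log (nrm p) - σ) := by ring
    rw [h1]
    refine (abs_add_le _ _).trans ?_
    nlinarith
  have hnear : |sg2 D p (t + al) - σ| ≤ C₁ * R := by
    refine (sg2_near hG D hp0 (t + al) σ).trans ?_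
    have : 2 * ((5 + 2 * (Cg * (Cn + 2))) * R) ≤ C₁ * R := by
      rw [hC₁]
      have : 0 < R := by linarith
      nlinarith
    linarith [mul_le_mul_of_nonneg_left qlog2 (by norm_num : (0 : ℝ) ≤ 2)]
  have hpC : |Real.log (nrm p) - σ| ≤ C₁ * R := by
    refine plog2.trans ?_
    have h1 : 5 + Cg * (Cn + 2) ≤ C₁ := by rw [hC₁]; nlinarith
    exact mul_le_mul_of_nonneg_right h1 (by linarith)
  -- the ratio of scales
  set e₂ := D.e (sg2 D p (t + al)) with he₂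
  have he₂pos : 0 < e₂ := D.e_pos _
  have hratio : |(D.e σ / e₂) ^ 8 - 1| ≤ 1 / 2 := by
    have h1 := (D.e_slow (sg2 D p (t + al)) σ).trans hnear
    rw [← he₂] at h1
    have h2 : (D.e σ / e₂) ^ 8 - 1 = (D.e σ) ^ 8 * ((1 / e₂) ^ 8 - (1 / D.e σ) ^ 8) := by
      field_simp
    rw [h2, abs_mul, abs_of_pos (pow_pos hepos 8)]
    have h3 : (D.e σ) ^ 8 * (C₁ * R) ≤ 1 / 2 := by
      have h4 : (D.e σ) ^ 8 * R ≤ D.e σ := by
        rw [hR, mul_one_div, div_le_iff₀ hsq]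
        have h5 : (D.e σ) ^ 8 = D.e σ * (D.e σ) ^ 7 := by ring
        rw [h5]
        apply mul_le_mul_of_nonneg_left _ hepos.le
        have h6 : (D.e σ) ^ 7 ≤ D.e σ := by
          calc (D.e σ) ^ 7 ≤ (D.e σ) ^ 1 := pow_le_pow_of_le_one hepos.le he1.le (by norm_num)
            _ = D.e σ := pow_one _
        have h7 : D.e σ ≤ Real.sqrt (D.e σ) := by
          conv_lhs => rw [← Real.mul_self_sqrt hepos.le]
          nlinarith
        exact h6.trans h7
      calc (D.e σ) ^ 8 * (C₁ * R) = C₁ * ((D.e σ) ^ 8 * R) := by ring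
        _ ≤ C₁ * D.e σ := mul_le_mul_of_nonneg_left h4 hC₁pos.le
        _ ≤ C₁ * (1 / (2 * C₁)) := mul_le_mul_of_nonneg_left he2.le hC₁pos.le
        _ = 1 / 2 := by field_simp
    exact (mul_le_mul_of_nonneg_left h1 (pow_nonneg hepos.le 8)).trans h3
  have hr0 : 0 < D.e σ / e₂ := div_pos hepos he₂pos
  have hr1 : D.e σ / e₂ ≤ 5 / 4 := by
    by_contra h
    push Not at h
    have h1 : (5 / 4 : ℝ) ^ 8 ≤ (D.e σ / e₂) ^ 8 := pow_le_pow_left₀ (by norm_num) h.le 8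
    have h2 := (abs_le.1 hratio).2
    norm_num at h1
    linarith
  have hr2 : 4 / 5 ≤ D.e σ / e₂ := by
    by_contra h
    push Not at h
    have h1 : (D.e σ / e₂) ^ 8 ≤ (4 / 5 : ℝ) ^ 8 := pow_le_pow_left₀ hr0.le h.le 8
    have h2 := (abs_le.1 hratio).1
    norm_num at h1
    linarith
  rw [div_le_iff₀ he₂pos] at hr1
  rw [le_div_iff₀ he₂pos] at hr2
  rw [hdiv]
  refine ⟨hnear, by linarith, by linarith, ?_, ?_⟩
  · rw [← Real.le_log_iff_exp_le hpp]
    have := (abs_le.1 hpC).1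
    linarith
  · rw [← Real.log_le_iff_le_exp hpp]
    have := (abs_le.1 hpC).2
    linarith

end Crest.Agent.R123
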