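/-
ROW 123 (S0163), piece ModF2: increments of `p = g (H_t z)` relative to `e^σ`.

`(z,t) → (z₀,t₀)`, `z₀ ≠ 0`; `σ = sg1 D z₀ t₀`, `e = D.e σ`, `n = N t₀ σ ≤ Cn/√e`, `ω = nrm(z-z₀)/nrm z₀ + |t-t₀|`.
Eventually: `|Δ log nrm z| ≤ 2 nrm Δz/nrm z₀`; `|Δσ₁| ≤ R ω` (`sg1_diff`), `|ΔL|, |ΔN| ≤ R ω` (`L_lip`, `L_tlip`, `N_lip`,
`N_tlip` with the `t`-estimate at `σ`), where `R = poly(CΛ/e⁴)`; `ζ = e^{-L} z`, `nrm Δζ ≤ e^σ R ω` (`e^{-L₀} nrm z₀ = e^σ`);
`nrm (ΔH) ≤ exp(Cg(n+2)) (nrm Δζ + |ΔN| e^σ)` (`gs_lip`, eventually `max … ≤ n+1`); `g = gs 1` is Lipschitz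
(`gs_lip` with `u = u' = 1`; `gs 1 z = g (gs 0 z) = g z`).  Since `R = O(e^{-4})` with a constant depending on `D`,
and `1/√e → ∞`, `R ≤ exp(1/√e)` for `σ ≤ σs`.
-/
import Crest.Agent.R123.ModC

set_option autoImplicit false

namespace Crest.Agent.R123

open Filter Topology

variable {Cn Cw Cg : ℝ}

namespace ModF2aux

theorem growth {K σ₀ : ℝ} (D : Dat Cn Cw K σ₀) : ∃ σs : ℝ, ∀ σ ≤ σs,
    11 + 10 * (D.CΛ / (D.e σ) ^ 4) ≤ Real.exp (1 / Real.sqrt (D.e σ)) := by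
  have h1 : Tendsto (fun σ => Real.sqrt (D.e σ)) atBot (𝓝[>] 0) := by
    rw [tendsto_nhdsWithin_iff]
    refine ⟨?_, Eventually.of_forall fun σ => Real.sqrt_pos.2 (D.e_pos σ)⟩
    have := (Real.continuous_sqrt.tendsto 0).comp D.e_tendsto
    rwa [Real.sqrt_zero] at this
  have h2 : Tendsto (fun σ => 1 / Real.sqrt (D.e σ)) atBot atTop := by
    simp only [one_div]
    exact tendsto_inv_nhdsGT_zero.comp h1
  have h3 : (fun x : ℝ => 11 + 10 * D.CΛ * x ^ 8) =o[atTop] Real.exp := by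
    apply Asymptotics.IsLittleO.add
    · have := Real.isLittleO_pow_exp_atTop (n := 0)
      simp only [pow_zero] at this
      have h := this.const_mul_left 11
      simpa using h
    · exact (Real.isLittleO_pow_exp_atTop (n := 8)).const_mul_left _
  have h4 : ∀ᶠ x : ℝ in atTop, 11 + 10 * D.CΛ * x ^ 8 ≤ Real.exp x := by
    filter_upwards [h3.bound (c := 1) one_pos] with x hx
    rw [Real.norm_eq_abs, Real.norm_eq_abs, one_mul, abs_of_pos (Real.exp_pos x)] at hx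
    exact (le_abs_self _).trans hx
  have h5 := h2.eventually h4
  rw [eventually_atBot] at h5
  obtain ⟨σs, hσs⟩ := h5
  refine ⟨σs, fun σ hσ => ?_⟩
  have h6 := hσs σ hσ
  have h7 : (1 / Real.sqrt (D.e σ)) ^ 8 = 1 / (D.e σ) ^ 4 := by
    rw [div_pow, one_pow]
    congr 1
    calc Real.sqrt (D.e σ) ^ 8 = (Real.sqrt (D.e σ) ^ 2) ^ 4 := by ring
      _ = D.e σ ^ 4 := by rw [Real.sq_sqrt (D.e_pos σ).le]
  rw [h7] at h6
  calc 11 + 10 * (D.CΛ / (D.e σ) ^ 4) = 11 + 10 * D.CΛ * (1 / (D.e σ) ^ 4) := by ring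
    _ ≤ _ := h6

theorem abs_log_sub_le {a b : ℝ} (hb : 0 < b) (ha : b / 2 ≤ a) :
    |Real.log b - Real.log a| ≤ 2 * |b - a| / b := by
  have ha0 : 0 < a := by linarith
  have h1 : Real.log b - Real.log a ≤ |b - a| / a := by
    rw [← Real.log_div hb.ne' ha0.ne']
    have := Real.log_le_sub_one_of_pos (div_pos hb ha0)
    calc Real.log (b / a) ≤ b / a - 1 := this
      _ = (b - a) / a := by field_simp
      _ ≤ |b - a| / a := by gcongr; exact le_abs_self _
  have h2 : Real.log a - Real.log b ≤ |b - a| / b := by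
    rw [← Real.log_div ha0.ne' hb.ne']
    have := Real.log_le_sub_one_of_pos (div_pos ha0 hb)
    calc Real.log (a / b) ≤ a / b - 1 := this
      _ = (a - b) / b := by field_simp
      _ ≤ |b - a| / b := by gcongr; rw [abs_sub_comm]; exact le_abs_self _
  have h3 : |b - a| / a ≤ 2 * |b - a| / b := by
    rw [div_le_div_iff₀ ha0 hb]
    nlinarith [abs_nonneg (b - a)]
  have h4 : |b - a| / b ≤ 2 * |b - a| / b := by
    gcongr
    linarith [abs_nonneg (b - a)]
  rw [abs_le]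
  constructor <;> linarith

theorem g_eq_gs (z : E) : g z = gs 1 z := by
  have h := gs_add_one (u := 0) le_rfl z
  rw [zero_add, gs_of_nonpos le_rfl] at h
  exact h.symm

end ModF2aux

open ModF2aux in
theorem beta_p (hG : GsBound Cg Cw) (hCn : 0 < Cn) : ∃ C₂ : ℝ, 0 < C₂ ∧
    ∀ (K σ₀ : ℝ) (D : Dat Cn Cw K σ₀), ∃ σs : ℝ, ∀ (z₀ : E) (t₀ : ℝ), z₀ ≠ 0 → sg1 D z₀ t₀ ≤ σs →
      ∀ᶠ q : E × ℝ in 𝓝 (z₀, t₀), nrm (g (HH D q.1 q.2) - g (HH D z₀ t₀)) ≤
        Real.exp (sg1 D z₀ t₀ + C₂ / Real.sqrt (D.e (sg1 D z₀ t₀))) *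
          (nrm (q.1 - z₀) / nrm z₀ + |q.2 - t₀|) := by
  have hCg := hG.one_le_Cg
  have hCw := hG.one_le_Cw
  refine ⟨8 * Cg + Cg * Cn + 1, by positivity, fun K σ₀ D => ?_⟩
  obtain ⟨σs, hσs⟩ := growth D
  refine ⟨σs, fun z₀ t₀ hz₀ hs => ?_⟩
  have hgr := hσs _ hs
  set s0 := sg1 D z₀ t₀ with hs0
  set e0 := D.e s0 with he0
  set A := D.CΛ / e0 ^ 4 with hA
  set n0 := D.N t₀ s0 with hn0
  set L0 := D.L t₀ s0 with hL0
  have he0pos : 0 < e0 := D.e_pos _
  have hApos : 0 < A := div_pos D.CΛ_pos (pow_pos he0pos 4)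
  have hn0nn : 0 ≤ n0 := D.N_nonneg _ _
  have hr0 : 0 < nrm z₀ := nrm_pos hz₀
  have hsq : 0 < Real.sqrt e0 := Real.sqrt_pos.2 he0pos
  -- the continuity facts
  have hc1 : Continuous (fun q : E × ℝ => nrm q.1) := nrm_continuous.comp continuous_fst
  have hc2 : Continuous (fun q : E × ℝ => nrm (q.1 - z₀) / nrm z₀ + |q.2 - t₀|) := by
    have : Continuous (fun q : E × ℝ => nrm (q.1 - z₀)) :=
      nrm_continuous.comp (continuous_fst.sub continuous_const)
    exact (this.div_const _).add (continuous_snd.sub continuous_const).abs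
  have he1 : ∀ᶠ q : E × ℝ in 𝓝 (z₀, t₀), nrm z₀ / 2 < nrm q.1 :=
    hc1.continuousAt.eventually (lt_mem_nhds (by simpa using hr0))
  have he2 : ∀ᶠ q : E × ℝ in 𝓝 (z₀, t₀), nrm q.1 < 2 * nrm z₀ :=
    hc1.continuousAt.eventually (gt_mem_nhds (by simp only; linarith))
  have hz0 : nrm ((0 : E)) = 0 := (nrm_eq_zero_iff 0).2 rfl
  have he3 : ∀ᶠ q : E × ℝ in 𝓝 (z₀, t₀),
      nrm (q.1 - z₀) / nrm z₀ + |q.2 - t₀| < 1 / (2 + 2 * A) := by
    apply hc2.continuousAt.eventually (gt_mem_nhds _)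
    simp only [sub_self, hz0, zero_div, abs_zero, add_zero]
    positivity
  filter_upwards [he1, he2, he3] with q hq1 hq2 hq3
  obtain ⟨z, t⟩ := q
  simp only at hq1 hq2 hq3 ⊢
  set om := nrm (z - z₀) / nrm z₀ + |t - t₀| with hom
  have hzn : z ≠ 0 := by
    rintro rfl
    rw [hz0] at hq1
    linarith
  have hdz : nrm (z - z₀) / nrm z₀ ≤ om := by rw [hom]; linarith [abs_nonneg (t - t₀)]
  have hdt : |t - t₀| ≤ om := by
    rw [hom]
    have : 0 ≤ nrm (z - z₀) / nrm z₀ := div_nonneg (nrm_nonneg _) hr0.le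
    linarith
  have hom0 : 0 ≤ om := (abs_nonneg _).trans hdt
  have homR : (2 + 2 * A) * om ≤ 1 := by
    rw [lt_div_iff₀ (by positivity)] at hq3
    linarith
  -- symmetric version of nrm
  have hsymm : nrm (z₀ - z) = nrm (z - z₀) := by
    have := nrm_smul (-1) (z - z₀)
    rw [neg_one_smul, neg_sub] at this
    rw [this]; simp
  have hdz' : nrm (z₀ - z) / nrm z₀ ≤ om := by rw [hsymm]; exact hdz
  have hlog : |Real.log (nrm z₀) - Real.log (nrm z)| ≤ 2 * om := by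
    calc |Real.log (nrm z₀) - Real.log (nrm z)| ≤ 2 * |nrm z₀ - nrm z| / nrm z₀ :=
          abs_log_sub_le hr0 hq1.le
      _ ≤ 2 * nrm (z₀ - z) / nrm z₀ := by gcongr; exact abs_nrm_sub_le _ _
      _ = 2 * (nrm (z₀ - z) / nrm z₀) := by ring
      _ ≤ 2 * om := by gcongr
  set s1 := sg1 D z t with hs1
  have hds : |s0 - s1| ≤ (4 + 2 * A) * om := by
    have h := sg1_diff D z₀ z t₀ t
    rw [← hs0, ← hs1, ← he0, ← hA, abs_sub_comm t₀ t] at h
    calc |s0 - s1| ≤ 2 * (|Real.log (nrm z₀) - Real.log (nrm z)| + A * |t - t₀|) := h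
      _ ≤ 2 * (2 * om + A * om) := by gcongr
      _ = (4 + 2 * A) * om := by ring
  have hdL : |L0 - D.L t s1| ≤ (2 + 2 * A) * om := by
    calc |L0 - D.L t s1| ≤ |L0 - D.L t s0| + |D.L t s0 - D.L t s1| := abs_sub_le _ _ _
      _ ≤ A * |t₀ - t| + 1 / 2 * |s0 - s1| := add_le_add (D.L_tlip _ _ _) (D.L_lip _ _ _)
      _ ≤ A * om + 1 / 2 * ((4 + 2 * A) * om) := by
          rw [abs_sub_comm t₀ t]; gcongr
      _ = (2 + 2 * A) * om := by ring
  have hdN : |n0 - D.N t s1| ≤ (2 + 2 * A) * om := by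
    calc |n0 - D.N t s1| ≤ |n0 - D.N t s0| + |D.N t s0 - D.N t s1| := abs_sub_le _ _ _
      _ ≤ A * |t₀ - t| + 1 / (2 * Cw) * |s0 - s1| := add_le_add (D.N_tlip _ _ _) (D.N_lip _ _ _)
      _ ≤ A * |t₀ - t| + 1 / 2 * |s0 - s1| := by
          gcongr
          linarith
      _ ≤ A * om + 1 / 2 * ((4 + 2 * A) * om) := by
          rw [abs_sub_comm t₀ t]; gcongr
      _ = (2 + 2 * A) * om := by ring
  have hdL1 : |L0 - D.L t s1| ≤ 1 := hdL.trans homR
  have hdN1 : |n0 - D.N t s1| ≤ 1 := hdN.trans homR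
  -- `e^{-L₀} nrm z₀ = e^{s0}`
  have hE : Real.exp (-L0) * nrm z₀ = Real.exp s0 := by
    have h := nrm_zt D hz₀ t₀
    unfold zt at h
    rw [nrm_smul, abs_of_pos (Real.exp_pos _)] at h
    exact h
  have hexp : |Real.exp (-L0) - Real.exp (-(D.L t s1))| ≤ Real.exp (-L0) * (2 * |L0 - D.L t s1|) := by
    have h1 : Real.exp (-(D.L t s1)) = Real.exp (-L0) * Real.exp (L0 - D.L t s1) := by
      rw [← Real.exp_add]; congr 1; ring
    have h2 : |Real.exp (L0 - D.L t s1) - 1| ≤ 2 * |L0 - D.L t s1| := Real.abs_exp_sub_one_le hdL1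
    calc |Real.exp (-L0) - Real.exp (-(D.L t s1))|
        = Real.exp (-L0) * |Real.exp (L0 - D.L t s1) - 1| := by
          rw [h1, abs_sub_comm, ← mul_sub_one, abs_mul, abs_of_pos (Real.exp_pos _)]
      _ ≤ _ := by gcongr
  have hdzeta : nrm (zt D z₀ t₀ - zt D z t) ≤ Real.exp s0 * ((9 + 8 * A) * om) := by
    have h1 : zt D z₀ t₀ - zt D z t = Real.exp (-L0) • (z₀ - z) +
        (Real.exp (-L0) - Real.exp (-(D.L t s1))) • z := by
      unfold zt
      rw [← hs0, ← hs1, ← hL0, smul_sub, sub_smul]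
      abel
    rw [h1]
    calc nrm (Real.exp (-L0) • (z₀ - z) + (Real.exp (-L0) - Real.exp (-(D.L t s1))) • z)
        ≤ nrm (Real.exp (-L0) • (z₀ - z)) +
          nrm ((Real.exp (-L0) - Real.exp (-(D.L t s1))) • z) := nrm_add_le _ _
      _ = Real.exp (-L0) * nrm (z₀ - z) +
          |Real.exp (-L0) - Real.exp (-(D.L t s1))| * nrm z := by
          rw [nrm_smul, nrm_smul, abs_of_pos (Real.exp_pos _)]
      _ ≤ Real.exp (-L0) * (nrm z₀ * om) +
          (Real.exp (-L0) * (2 * ((2 + 2 * A) * om))) * (2 * nrm z₀) := by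
          have h2 : nrm (z₀ - z) ≤ nrm z₀ * om := by
            rw [div_le_iff₀ hr0] at hdz'
            linarith
          have h3 : |Real.exp (-L0) - Real.exp (-(D.L t s1))| ≤
              Real.exp (-L0) * (2 * ((2 + 2 * A) * om)) :=
            hexp.trans (by gcongr)
          have h4 := nrm_nonneg z
          gcongr
      _ = (Real.exp (-L0) * nrm z₀) * ((9 + 8 * A) * om) := by ring
      _ = Real.exp s0 * ((9 + 8 * A) * om) := by rw [hE]
  have hdH : nrm (HH D z₀ t₀ - HH D z t) ≤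
      Real.exp (Cg * (n0 + 2)) * (Real.exp s0 * ((11 + 10 * A) * om)) := by
    unfold HH
    rw [← hs0, ← hs1, ← hn0]
    have h := hG.gs_lip n0 (D.N t s1) (zt D z₀ t₀) (zt D z t)
    have hz := nrm_zt D hz₀ t₀
    rw [← hs0] at hz
    have hmax : max (max n0 (D.N t s1)) 0 ≤ n0 + 1 := by
      apply max_le (max_le (by linarith) _) (by linarith)
      have := (abs_le.1 hdN1).1
      linarith
    calc nrm (gs n0 (zt D z₀ t₀) - gs (D.N t s1) (zt D z t))
        ≤ Real.exp (Cg * (max (max n0 (D.N t s1)) 0 + 1)) *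
          (nrm (zt D z₀ t₀ - zt D z t) + |n0 - D.N t s1| * nrm (zt D z₀ t₀)) := h
      _ ≤ Real.exp (Cg * (n0 + 2)) *
          (Real.exp s0 * ((9 + 8 * A) * om) + ((2 + 2 * A) * om) * Real.exp s0) := by
          rw [hz]
          have h1 : Real.exp (Cg * (max (max n0 (D.N t s1)) 0 + 1)) ≤ Real.exp (Cg * (n0 + 2)) := by
            apply Real.exp_le_exp.2
            apply mul_le_mul_of_nonneg_left _ (by linarith)
            linarith
          have h2 : nrm (zt D z₀ t₀ - zt D z t) + |n0 - D.N t s1| * Real.exp s0 ≤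
              Real.exp s0 * ((9 + 8 * A) * om) + ((2 + 2 * A) * om) * Real.exp s0 := by
            have := mul_le_mul_of_nonneg_right hdN (Real.exp_pos s0).le
            linarith
          have h3 : 0 ≤ nrm (zt D z₀ t₀ - zt D z t) + |n0 - D.N t s1| * Real.exp s0 := by
            have := nrm_nonneg (zt D z₀ t₀ - zt D z t)
            positivity
          exact mul_le_mul h1 h2 h3 (Real.exp_pos _).le
      _ = Real.exp (Cg * (n0 + 2)) * (Real.exp s0 * ((11 + 10 * A) * om)) := by ring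
  have hdg : nrm (g (HH D z t) - g (HH D z₀ t₀)) ≤
      Real.exp (2 * Cg) * (Real.exp (Cg * (n0 + 2)) * (Real.exp s0 * ((11 + 10 * A) * om))) := by
    rw [g_eq_gs, g_eq_gs]
    have h := hG.gs_lip 1 1 (HH D z t) (HH D z₀ t₀)
    rw [sub_self, abs_zero, zero_mul, add_zero, max_self, max_eq_left zero_le_one] at h
    have hsymm2 : nrm (HH D z t - HH D z₀ t₀) = nrm (HH D z₀ t₀ - HH D z t) := by
      have := nrm_smul (-1) (HH D z₀ t₀ - HH D z t)
      rw [neg_one_smul, neg_sub] at this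
      rw [this]; simp
    rw [hsymm2] at h
    calc _ ≤ _ := h
      _ ≤ _ := by
        have : Cg * (1 + 1) = 2 * Cg := by ring
        rw [this]
        gcongr
  refine hdg.trans ?_
  have hnx : n0 ≤ Cn / Real.sqrt e0 := D.N_le _ _
  have hx2 : Real.sqrt e0 ≤ 2 := by
    rw [Real.sqrt_le_left (by norm_num)]
    have := D.e_le s0
    linarith
  have hx : 1 / 2 ≤ 1 / Real.sqrt e0 := one_div_le_one_div_of_le hsq hx2
  calc Real.exp (2 * Cg) * (Real.exp (Cg * (n0 + 2)) * (Real.exp s0 * ((11 + 10 * A) * om)))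
      = (Real.exp (2 * Cg) * Real.exp (Cg * (n0 + 2)) * Real.exp s0) * (11 + 10 * A) * om := by ring
    _ ≤ (Real.exp (2 * Cg) * Real.exp (Cg * (n0 + 2)) * Real.exp s0) *
        Real.exp (1 / Real.sqrt e0) * om := by gcongr
    _ = Real.exp (2 * Cg + Cg * (n0 + 2) + s0 + 1 / Real.sqrt e0) * om := by
        rw [Real.exp_add, Real.exp_add, Real.exp_add]
    _ ≤ Real.exp (s0 + (8 * Cg + Cg * Cn + 1) / Real.sqrt e0) * om := by
        apply mul_le_mul_of_nonneg_right _ hom0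
        apply Real.exp_le_exp.2
        have h1 : Cg * n0 ≤ Cg * (Cn / Real.sqrt e0) := by gcongr
        have h2 : 4 * Cg ≤ 8 * Cg * (1 / Real.sqrt e0) := by nlinarith
        have h3 : (8 * Cg + Cg * Cn + 1) / Real.sqrt e0 =
            8 * Cg * (1 / Real.sqrt e0) + Cg * (Cn / Real.sqrt e0) + 1 / Real.sqrt e0 := by
          field_simp
        rw [h3]
        linarith

end Crest.Agent.R123
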