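/-
ROW 123 (S0163), piece ModF3: region beta (`s t ≤ (3/2) e(σ₁)`): relative Lipschitz bound of `F`.

`σ = sg1 D z₀ t₀`, `e = D.e σ`, `p₀ = g (HH D z₀ t₀)`, `σ₂ = sg2 D p₀ (t₀+α)`, `e₂ = D.e σ₂ ∈ [4e/5, 5e/4]`
(`beta_static`), so `s t₀ ≤ 3e/2 < 8e/5 ≤ 2 e₂`, and near `(z₀,t₀)` still `s t ≤ 2 e(σ₂(z,t))`, so
`L (t+α) σ₂(z,t) = 0` (`L_next_low`) and `F = gi (N (t+α) σ₂) p`.
* value: `nrm F₀ = e^{σ₂}` (`nrm_Hi`), `≤ e^{σ + C₁/√e}`, and `nrm z₀ = e^{σ + L₀}` (`nrm_eq_exp`).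
* `|Δσ₂|`: `sg2_diff` based at `(p₀, t₀+α)`: with `m = N (t₀+α) σ₂ ≤ Cn/√e₂`,
  `|log nrm gi(m)p - log nrm gi(m)p₀| ≤ 2 nrm(gi m p - gi m p₀)/nrm (gi m p₀) ≤ 2 exp(2Cg(m+1)) nrm Δp/nrm p₀`
  eventually (`gi_lip`, and `nrm p₀ = nrm (gs m (gi m p₀)) ≤ exp(Cg(m+1)) nrm (gi m p₀)`),
  `nrm Δp/nrm p₀ ≤ exp((C₁+C₂)/√e) ω` (`beta_p`, `beta_static`).
* `|ΔN| ≤ |Δσ₂| + CΛ/e₂⁴ |Δt|`; `nrm ΔF ≤ exp(Cg(m+2)) (nrm Δp + |ΔN| nrm p₀) ≤ e^σ exp(Cβ/√e) ω`.
* `e^σ ω = e^{-L₀} (nrm Δz + nrm z₀ |Δt|)`.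
-/
import Crest.Agent.R123.ModF1
import Crest.Agent.R123.ModF2

set_option autoImplicit false

namespace Crest.Agent.R123

open Filter Topology

variable {Cn Cw Cg : ℝ}

namespace ModF3aux

/-- `A / e⁴ ≤ exp (1/√e)` for small `e` -/
theorem inv_pow_le_exp (A : ℝ) (hA : 0 < A) : ∃ e₀ : ℝ, 0 < e₀ ∧ ∀ e : ℝ, 0 < e → e ≤ e₀ →
    A / e ^ 4 ≤ Real.exp (1 / Real.sqrt e) := by
  set B : ℝ := (Nat.factorial 9 : ℝ) * A with hB
  have hB0 : 0 < B := by positivity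
  refine ⟨(1 / B) ^ 2, by positivity, fun e he hle => ?_⟩
  set y := 1 / Real.sqrt e with hy
  have hse : 0 < Real.sqrt e := Real.sqrt_pos.2 he
  have hy0 : 0 < y := by positivity
  have h1 : Real.sqrt e ≤ 1 / B := by
    rw [Real.sqrt_le_left (by positivity)]
    exact hle
  have h2 : B ≤ y := by
    rw [hy, le_div_iff₀ hse]
    calc B * Real.sqrt e ≤ B * (1 / B) := by gcongr
      _ = 1 := by field_simp
  have h3 : A / e ^ 4 = A * y ^ 8 := by
    have : y ^ 8 = 1 / e ^ 4 := by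
      rw [hy, div_pow, one_pow]
      congr 1
      calc Real.sqrt e ^ 8 = (Real.sqrt e ^ 2) ^ 4 := by ring
        _ = e ^ 4 := by rw [Real.sq_sqrt he.le]
    rw [this]; ring
  rw [h3]
  refine le_trans ?_ (Real.pow_div_factorial_le_exp y hy0.le 9)
  rw [le_div_iff₀ (by positivity)]
  calc A * y ^ 8 * (Nat.factorial 9 : ℝ) = B * y ^ 8 := by rw [hB]; ring
    _ ≤ y * y ^ 8 := by gcongr
    _ = y ^ 9 := by ring

/-- `|log a - log b| ≤ 2 |a-b| / a` if `b ≥ a/2` -/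
theorem log_sub_le {a b : ℝ} (ha : 0 < a) (hb : a / 2 ≤ b) :
    |Real.log a - Real.log b| ≤ 2 * |a - b| / a := by
  have hb0 : 0 < b := by linarith
  have key : ∀ x y : ℝ, 0 < x → 0 < y → Real.log x - Real.log y ≤ |x - y| / y := by
    intro x y hx hy
    rw [← Real.log_div hx.ne' hy.ne']
    have := Real.log_le_sub_one_of_pos (div_pos hx hy)
    refine this.trans ?_
    rw [show x / y - 1 = (x - y) / y by field_simp]
    gcongr
    exact le_abs_self _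
  have h1 := key a b ha hb0
  have h2 := key b a hb0 ha
  rw [abs_sub_comm b a] at h2
  have h3 : |a - b| / b ≤ 2 * |a - b| / a := by
    rw [div_le_div_iff₀ hb0 ha]
    nlinarith [abs_nonneg (a - b)]
  have h4 : |a - b| / a ≤ 2 * |a - b| / a := by
    gcongr
    linarith [abs_nonneg (a - b)]
  rw [abs_le]
  constructor <;> linarith

/-- the elementary final estimate -/
theorem final_arith {A y C₁ C₂ Cw σ ω np R dm Fd a b : ℝ} (hA : 0 ≤ A) (hy : 1 ≤ 2 * y)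
    (hC₁ : 0 < C₁) (hC₂ : 0 < C₂) (hCw : 1 ≤ Cw) (hω : 0 ≤ ω)
    (hn0 : 0 < np)
    (hnp : Real.exp (σ - C₁ * y) ≤ np) (hnp' : np ≤ Real.exp (σ + C₁ * y))
    (ha : 0 ≤ a)
    (ha' : a ≤ Real.exp (σ + C₂ * y) * ω) (hR0 : 0 ≤ R) (hR : R ≤ Real.exp y)
    (hb : b ≤ 2 * (2 * Real.exp (2 * A) * (a / np) + Cw * R * ω)) 
    (hdm : dm ≤ R * ω + b)
    (hF : Fd ≤ Real.exp A * (a + dm * np)) :
    Fd ≤ Real.exp (3 * A + (2 * C₁ + C₂ + 1 + 2 * (6 + 2 * Cw)) * y + σ) * ω := by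
  have hy0 : 0 < y := by linarith
  -- a / np
  have h1 : a / np ≤ Real.exp ((C₁ + C₂) * y) * ω := by
    rw [div_le_iff₀ hn0]
    calc a ≤ Real.exp (σ + C₂ * y) * ω := ha'
      _ = Real.exp ((C₁ + C₂) * y) * ω * Real.exp (σ - C₁ * y) := by
          rw [mul_right_comm, ← Real.exp_add]
          congr 2
          ring
      _ ≤ Real.exp ((C₁ + C₂) * y) * ω * np := by gcongr
  set M : ℝ := Real.exp (2 * A + (C₁ + C₂ + 1) * y) with hM
  have hM0 : 0 < M := Real.exp_pos _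
  have h2 : Real.exp (2 * A) * (a / np) ≤ M * ω := by
    calc Real.exp (2 * A) * (a / np) ≤ Real.exp (2 * A) * (Real.exp ((C₁ + C₂) * y) * ω) := by
          gcongr
      _ = Real.exp (2 * A + (C₁ + C₂) * y) * ω := by rw [← mul_assoc, ← Real.exp_add]
      _ ≤ M * ω := by
          gcongr
          rw [hM]
          apply Real.exp_le_exp.2
          nlinarith
  have h3 : R ≤ M := hR.trans (Real.exp_le_exp.2 (by nlinarith))
  have h3' : R * ω ≤ M * ω := by gcongr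
  have hdm' : dm ≤ (5 + 2 * Cw) * M * ω := by
    have : Cw * R * ω ≤ Cw * M * ω := by gcongr
    nlinarith
  have h4 : dm * np ≤ (5 + 2 * Cw) * M * ω * Real.exp (σ + C₁ * y) := by
    calc dm * np ≤ (5 + 2 * Cw) * M * ω * np := by gcongr
      _ ≤ _ := by
        have : 0 ≤ (5 + 2 * Cw) * M * ω := by positivity
        gcongr
  have h5 : a ≤ M * ω * Real.exp (σ + C₁ * y) := by
    calc a ≤ Real.exp (σ + C₂ * y) * ω := ha'
      _ ≤ (M * Real.exp (σ + C₁ * y)) * ω := by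
          gcongr
          rw [hM, ← Real.exp_add]
          apply Real.exp_le_exp.2
          nlinarith
      _ = _ := by ring
  calc Fd ≤ Real.exp A * (a + dm * np) := hF
    _ ≤ Real.exp A * (M * ω * Real.exp (σ + C₁ * y) +
        (5 + 2 * Cw) * M * ω * Real.exp (σ + C₁ * y)) := by gcongr
    _ = (6 + 2 * Cw) * (Real.exp A * M * Real.exp (σ + C₁ * y)) * ω := by ring
    _ ≤ Real.exp (2 * (6 + 2 * Cw) * y) * (Real.exp A * M * Real.exp (σ + C₁ * y)) * ω := by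
        have h6 : 6 + 2 * Cw ≤ Real.exp (2 * (6 + 2 * Cw) * y) := by
          have h7 := Real.add_one_le_exp (2 * (6 + 2 * Cw) * y)
          have h8 : 6 + 2 * Cw ≤ 2 * (6 + 2 * Cw) * y := by nlinarith
          linarith
        gcongr
    _ = _ := by
        rw [hM, ← Real.exp_add, ← Real.exp_add, ← Real.exp_add]
        congr 2
        ring

end ModF3aux

open ModF3aux in
theorem beta_bound (hG : GsBound Cg Cw) (hCn : 0 < Cn) : ∃ Cβ : ℝ, 0 < Cβ ∧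
    ∀ (K σ₀ : ℝ) (D : Dat Cn Cw K σ₀), ∃ σs : ℝ, ∀ (z₀ : E) (t₀ : ℝ), z₀ ≠ 0 → sg1 D z₀ t₀ ≤ σs →
      s t₀ ≤ 3 / 2 * D.e (sg1 D z₀ t₀) →
      nrm (FF D z₀ t₀) ≤
        Real.exp (Cβ / Real.sqrt (D.e (sg1 D z₀ t₀)) - D.L t₀ (sg1 D z₀ t₀)) * nrm z₀ ∧
      ∀ᶠ q : E × ℝ in 𝓝 (z₀, t₀), nrm (FF D q.1 q.2 - FF D z₀ t₀) ≤
        Real.exp (Cβ / Real.sqrt (D.e (sg1 D z₀ t₀)) - D.L t₀ (sg1 D z₀ t₀)) *
          (nrm (q.1 - z₀) + nrm z₀ * |q.2 - t₀|) := by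
  obtain ⟨C₁, hC₁, hst⟩ := beta_static hG hCn
  obtain ⟨C₂, hC₂, hpp⟩ := beta_p hG hCn
  have hCg : 1 ≤ Cg := hG.one_le_Cg
  have hCw : 1 ≤ Cw := hG.one_le_Cw
  refine ⟨3 * (Cg * (2 * Cn + 4)) + (2 * C₁ + C₂ + 1 + 2 * (6 + 2 * Cw)), by positivity,
    fun K σ₀ D => ?_⟩
  obtain ⟨σs1, hst⟩ := hst K σ₀ D
  obtain ⟨σs2, hpp⟩ := hpp K σ₀ D
  obtain ⟨e₀, he₀, hexp⟩ := inv_pow_le_exp (3 * D.CΛ) (by have := D.CΛ_pos; positivity)
  obtain ⟨σs3, hσs3⟩ := Filter.eventually_atBot.1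
    (D.e_tendsto.eventually (eventually_lt_nhds he₀))
  refine ⟨min σs1 (min σs2 σs3), fun z₀ t₀ hz hσs hs => ?_⟩
  obtain ⟨hd, he1, he2, hn1, hn2⟩ := hst z₀ t₀ hz (hσs.trans (min_le_left _ _))
  have hpev := hpp z₀ t₀ hz (hσs.trans ((min_le_right _ _).trans (min_le_left _ _)))
  have hee := hexp _ (D.e_pos (sg1 D z₀ t₀))
    (hσs3 _ (hσs.trans ((min_le_right _ _).trans (min_le_right _ _)))).le
  have hzexp := nrm_eq_exp D hz t₀
  set σ := sg1 D z₀ t₀ with hσ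
  set e := D.e σ with he
  set p₀ := g (HH D z₀ t₀) with hp₀
  set σ₂ := sg2 D p₀ (t₀ + al) with hσ₂
  set L₀ := D.L t₀ σ with hL₀
  set y := 1 / Real.sqrt e with hy
  have hepos : 0 < e := D.e_pos σ
  have he2pos : 0 < D.e σ₂ := D.e_pos σ₂
  have hse : 0 < Real.sqrt e := Real.sqrt_pos.2 hepos
  have hdiv : ∀ x : ℝ, x / Real.sqrt e = x * y := fun x => by rw [hy]; ring
  have hy0 : 0 < y := by positivity
  have hy1 : 1 ≤ 2 * y := by
    have h3 : Real.sqrt e ≤ 2 := by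
      rw [Real.sqrt_le_left (by norm_num)]
      have := D.e_le σ
      linarith
    rw [hy, mul_one_div, le_div_iff₀ hse, one_mul]
    exact h3
  rw [hdiv] at hn1 hn2
  simp only [hdiv] at hpev ⊢
  have hnp0 : 0 < nrm p₀ := lt_of_lt_of_le (Real.exp_pos _) hn1
  have hp₀0 : p₀ ≠ 0 := by
    intro h
    have := (nrm_eq_zero_iff p₀).2 h
    linarith
  have hlow : s t₀ < 2 * D.e σ₂ := by linarith
  have hnz : 0 < nrm z₀ := nrm_pos hz
  set m := D.N (t₀ + al) σ₂ with hm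
  have hm0 : 0 ≤ m := D.N_nonneg _ _
  have hm1 : m ≤ 2 * Cn * y := by
    refine (D.N_le _ _).trans ?_
    rw [show 2 * Cn * y = Cn / (Real.sqrt e / 2) by rw [hy]; field_simp]
    have h3 : Real.sqrt e / 2 ≤ Real.sqrt (D.e σ₂) := by
      apply Real.le_sqrt_of_sq_le
      rw [div_pow, Real.sq_sqrt hepos.le]
      linarith
    gcongr
  have hF0 : FF D z₀ t₀ = gi m p₀ := by
    show Hi D p₀ (t₀ + al) = _
    unfold Hi
    rw [← hσ₂, D.L_next_low t₀ σ₂ hlow.le, Real.exp_zero, one_smul]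
  have hFn : nrm (FF D z₀ t₀) = Real.exp σ₂ := by
    show nrm (Hi D p₀ (t₀ + al)) = _
    rw [nrm_Hi hG D hp₀0, ← hσ₂, D.L_next_low t₀ σ₂ hlow.le, add_zero]
  have hCβ1 : C₁ ≤ 3 * (Cg * (2 * Cn + 4)) + (2 * C₁ + C₂ + 1 + 2 * (6 + 2 * Cw)) := by
    have : 0 ≤ Cg * (2 * Cn + 4) := by positivity
    linarith
  refine ⟨?_, ?_⟩
  · rw [hFn, hzexp, ← Real.exp_add]
    apply Real.exp_le_exp.2
    rw [hdiv] at hd
    have h1 := (abs_le.1 hd).2
    have h2 : C₁ * y ≤ (3 * (Cg * (2 * Cn + 4)) + (2 * C₁ + C₂ + 1 + 2 * (6 + 2 * Cw))) * y := by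
      gcongr
    linarith
  -- continuity
  have cHH : ContinuousAt (fun q : E × ℝ => HH D q.1 q.2) (z₀, t₀) :=
    (HH_contDiffAt D hz t₀).continuousAt
  have cp : ContinuousAt (fun q : E × ℝ => g (HH D q.1 q.2)) (z₀, t₀) :=
    g_continuous.continuousAt.comp cHH
  have ct : ContinuousAt (fun q : E × ℝ => q.2 + al) (z₀, t₀) := by fun_prop
  have cs2 : ContinuousAt (fun q : E × ℝ => sg2 D (g (HH D q.1 q.2)) (q.2 + al)) (z₀, t₀) := by
    have h1 : ContinuousAt (fun q : E × ℝ => sg2 D q.1 q.2) (g (HH D z₀ t₀), t₀ + al) :=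
      (sg2_contDiffAt hG D hp₀0 (t₀ + al)).continuousAt
    exact ContinuousAt.comp (f := fun q : E × ℝ => (g (HH D q.1 q.2), q.2 + al))
      (g := fun q : E × ℝ => sg2 D q.1 q.2) h1 (cp.prodMk ct)
  have cN : ContinuousAt (fun q : E × ℝ => D.N (q.2 + al) (sg2 D (g (HH D q.1 q.2)) (q.2 + al)))
      (z₀, t₀) :=
    ContinuousAt.comp (f := fun q : E × ℝ => (q.2 + al, sg2 D (g (HH D q.1 q.2)) (q.2 + al)))
      (g := fun p : ℝ × ℝ => D.N p.1 p.2) D.N_cd.continuous.continuousAt (ct.prodMk cs2)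
  have cgi : ContinuousAt (fun q : E × ℝ => nrm (gi m (g (HH D q.1 q.2)))) (z₀, t₀) := by
    have h1 : ContinuousAt (fun q : ℝ × E => gi q.1 q.2) (m, g (HH D z₀ t₀)) :=
      (gi_contDiffAt m hp₀0).continuousAt
    exact nrm_continuous.continuousAt.comp
      (ContinuousAt.comp (f := fun q : E × ℝ => (m, g (HH D q.1 q.2)))
        (g := fun q : ℝ × E => gi q.1 q.2) h1 (continuousAt_const.prodMk cp))
  have ev1 : ∀ᶠ q : E × ℝ in 𝓝 (z₀, t₀),
      s q.2 < 2 * D.e (sg2 D (g (HH D q.1 q.2)) (q.2 + al)) := by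
    have c1 : ContinuousAt (fun q : E × ℝ => s q.2) (z₀, t₀) :=
      ((s_contDiff (n := 1)).continuous.comp continuous_snd).continuousAt
    have c2 : ContinuousAt (fun q : E × ℝ => 2 * D.e (sg2 D (g (HH D q.1 q.2)) (q.2 + al)))
        (z₀, t₀) := continuousAt_const.mul (D.e_cont.continuousAt.comp cs2)
    exact c1.eventually_lt c2 hlow
  have ev2 : ∀ᶠ q : E × ℝ in 𝓝 (z₀, t₀), g (HH D q.1 q.2) ≠ 0 := cp.eventually_ne hp₀0
  have ev3 : ∀ᶠ q : E × ℝ in 𝓝 (z₀, t₀),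
      D.N (q.2 + al) (sg2 D (g (HH D q.1 q.2)) (q.2 + al)) < m + 1 :=
    cN.eventually_lt continuousAt_const (by
      show D.N (t₀ + al) (sg2 D (g (HH D z₀ t₀)) (t₀ + al)) < m + 1
      rw [← hp₀, ← hσ₂, ← hm]; linarith)
  have hgi0 : 0 < nrm (gi m p₀) := nrm_pos (gi_ne_zero hp₀0)
  have ev4 : ∀ᶠ q : E × ℝ in 𝓝 (z₀, t₀),
      nrm (gi m p₀) / 2 < nrm (gi m (g (HH D q.1 q.2))) :=
    continuousAt_const.eventually_lt cgi (by
      show nrm (gi m p₀) / 2 < nrm (gi m (g (HH D z₀ t₀)))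
      rw [← hp₀]; linarith)
  filter_upwards [hpev, ev1, ev2, ev3, ev4] with q hq1 hq2 hq3 hq4 hq5
  obtain ⟨z, t⟩ := q
  simp only at hq1 hq2 hq3 hq4 hq5 ⊢
  set p := g (HH D z t) with hp
  set σ₂' := sg2 D p (t + al) with hσ₂'
  set m' := D.N (t + al) σ₂' with hm'
  have hm'0 : 0 ≤ m' := D.N_nonneg _ _
  have hF : FF D z t = gi m' p := by
    show Hi D p (t + al) = _
    unfold Hi
    rw [← hσ₂', D.L_next_low t σ₂' hq2.le, Real.exp_zero, one_smul]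
  set ω := nrm (z - z₀) / nrm z₀ + |t - t₀| with hω
  have hω0 : 0 ≤ ω := by
    have := nrm_nonneg (z - z₀)
    positivity
  have htω : |t - t₀| ≤ ω := by
    have : 0 ≤ nrm (z - z₀) / nrm z₀ := div_nonneg (nrm_nonneg _) hnz.le
    linarith
  have hsub : ∀ a b : E, nrm (a - b) = nrm (b - a) := by
    intro a b
    have := nrm_smul (-1) (a - b)
    rw [show (-1 : ℝ) • (a - b) = b - a by module] at this
    rw [this]; norm_num
  set R := D.CΛ / (D.e σ₂) ^ 4 with hR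
  have hCΛ := D.CΛ_pos
  have hR0 : 0 ≤ R := by positivity
  have hR1 : R ≤ Real.exp y := by
    refine le_trans ?_ hee
    rw [hR, div_le_div_iff₀ (by positivity) (by positivity)]
    have h3 : (4 / 5 * e) ^ 4 ≤ (D.e σ₂) ^ 4 := pow_le_pow_left₀ (by positivity) he1 4
    have h4 : e ^ 4 ≤ 3 * (D.e σ₂) ^ 4 := by
      have : (4 / 5 * e) ^ 4 = 256 / 625 * e ^ 4 := by ring
      rw [this] at h3
      have : 0 < e ^ 4 := by positivity
      linarith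
    calc D.CΛ * e ^ 4 ≤ D.CΛ * (3 * (D.e σ₂) ^ 4) := by gcongr
      _ = 3 * D.CΛ * (D.e σ₂) ^ 4 := by ring
  set A := Cg * (m + 2) with hA
  have hA0 : 0 ≤ A := by positivity
  have hAle : A ≤ Cg * (2 * Cn + 4) * y := by
    rw [hA]
    have : m + 2 ≤ (2 * Cn + 4) * y := by linarith
    calc Cg * (m + 2) ≤ Cg * ((2 * Cn + 4) * y) := by gcongr
      _ = _ := by ring
  -- the logarithmic derivative
  have hmm : max (max m m) 0 = m := by rw [max_self, max_eq_left hm0]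
  have hlog : |Real.log (nrm (gi m p₀)) - Real.log (nrm (gi m p))| ≤
      2 * Real.exp (2 * A) * (nrm (p - p₀) / nrm p₀) := by
    refine (log_sub_le hgi0 hq5.le).trans ?_
    have h1 : |nrm (gi m p₀) - nrm (gi m p)| ≤ Real.exp A * nrm (p - p₀) := by
      refine (abs_nrm_sub_le _ _).trans ?_
      have := hG.gi_lip m m p₀ p
      rw [hmm, sub_self, abs_zero, zero_mul, add_zero, hsub p₀ p] at this
      refine this.trans ?_
      have h2 : Real.exp (Cg * (m + 1)) ≤ Real.exp A :=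
        Real.exp_le_exp.2 (by rw [hA]; gcongr; norm_num)
      exact mul_le_mul_of_nonneg_right h2 (nrm_nonneg _)
    have h2 : nrm p₀ ≤ Real.exp A * nrm (gi m p₀) := by
      have := hG.gs_le m (gi m p₀)
      rw [gs_gi, max_eq_left hm0] at this
      refine this.trans ?_
      have h2 : Real.exp (Cg * (m + 1)) ≤ Real.exp A :=
        Real.exp_le_exp.2 (by rw [hA]; gcongr; norm_num)
      exact mul_le_mul_of_nonneg_right h2 (nrm_nonneg _)
    rw [div_le_iff₀ hgi0]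
    calc 2 * |nrm (gi m p₀) - nrm (gi m p)| ≤ 2 * (Real.exp A * nrm (p - p₀)) := by gcongr
      _ = 2 * (Real.exp A * (nrm (p - p₀) / nrm p₀)) * nrm p₀ := by field_simp
      _ ≤ 2 * (Real.exp A * (nrm (p - p₀) / nrm p₀)) * (Real.exp A * nrm (gi m p₀)) := by
          have : 0 ≤ 2 * (Real.exp A * (nrm (p - p₀) / nrm p₀)) := by
            have := nrm_nonneg (p - p₀)
            positivity
          gcongr
      _ = 2 * Real.exp (2 * A) * (nrm (p - p₀) / nrm p₀) * nrm (gi m p₀) := by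
          rw [show 2 * A = A + A by ring, Real.exp_add]; ring
  have hdσ : |σ₂ - σ₂'| ≤ 2 * (2 * Real.exp (2 * A) * (nrm (p - p₀) / nrm p₀) + Cw * R * ω) := by
    have h1 := sg2_diff hG D hp₀0 hq3 (t₀ + al) (t + al)
    rw [← hσ₂, ← hσ₂', ← hm, ← hR] at h1
    refine h1.trans ?_
    have h2 : Cw * R * |t₀ + al - (t + al)| ≤ Cw * R * ω := by
      rw [show t₀ + al - (t + al) = -(t - t₀) by ring, abs_neg]
      gcongr
    linarith
  have hdm : |m - m'| ≤ R * ω + |σ₂ - σ₂'| := by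
    have h1 := D.N_tlip (t₀ + al) (t + al) σ₂
    have h2 := D.N_lip (t + al) σ₂ σ₂'
    rw [← hR, ← hm, show t₀ + al - (t + al) = -(t - t₀) by ring, abs_neg] at h1
    rw [← hm'] at h2
    have h3 : R * |t - t₀| ≤ R * ω := by gcongr
    have h4 : 1 / (2 * Cw) * |σ₂ - σ₂'| ≤ |σ₂ - σ₂'| := by
      have h5 : 1 / (2 * Cw) ≤ 1 := by
        rw [div_le_one (by positivity)]; linarith
      exact mul_le_of_le_one_left (abs_nonneg _) h5
    have h5 := abs_sub_le m (D.N (t + al) σ₂) m'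
    linarith
  have hFd : nrm (FF D z t - FF D z₀ t₀) ≤ Real.exp A * (nrm (p - p₀) + |m - m'| * nrm p₀) := by
    rw [hF, hF0, hsub]
    have h1 := hG.gi_lip m m' p₀ p
    rw [hsub p₀ p] at h1
    refine h1.trans ?_
    have h2 : max (max m m') 0 ≤ m + 1 := max_le (max_le (by linarith) hq4.le) (by linarith)
    have h3 : Real.exp (Cg * (max (max m m') 0 + 1)) ≤ Real.exp A :=
      Real.exp_le_exp.2 (by
        rw [hA]
        have : max (max m m') 0 + 1 ≤ m + 2 := by linarith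
        gcongr)
    have h4 : 0 ≤ nrm (p - p₀) + |m - m'| * nrm p₀ := by
      have := nrm_nonneg (p - p₀)
      positivity
    exact mul_le_mul_of_nonneg_right h3 h4
  have hfin := final_arith (A := A) (y := y) (C₁ := C₁) (C₂ := C₂) (Cw := Cw) (σ := σ) (ω := ω)
    (np := nrm p₀) (R := R) (dm := |m - m'|) (Fd := nrm (FF D z t - FF D z₀ t₀))
    (a := nrm (p - p₀)) (b := |σ₂ - σ₂'|) hA0 hy1 hC₁ hC₂ hCw hω0 hnp0 hn1 hn2
    (nrm_nonneg _) hq1 hR0 hR1 hdσ hdm hFd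
  refine hfin.trans ?_
  have hzω : nrm (z - z₀) + nrm z₀ * |t - t₀| = nrm z₀ * ω := by
    rw [hω]; field_simp
  have hre : ∀ X : ℝ, X * (nrm z₀ * ω) = X * nrm z₀ * ω := fun X => by ring
  rw [hzω, hre]
  refine mul_le_mul_of_nonneg_right ?_ hω0
  rw [hzexp, ← Real.exp_add]
  apply Real.exp_le_exp.2
  have : 3 * A ≤ 3 * (Cg * (2 * Cn + 4) * y) := by linarith
  linarith

end Crest.Agent.R123
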