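/-
ROW 123 (S0163), piece ModG: behaviour of `F` near `z = 0`.

`Cβ` from `beta_bound`, `K ≥ Cβ + 1`.  Let `z → 0`, `σ = sg1 D z t`, `e = D.e σ`: by `sg1_bounds`
`σ ≤ (2/3) log nrm z → -∞` uniformly in `t`, so `e → 0` (`e_tendsto`), `nrm z = exp(σ + L) ≤ exp (σ/2)`
(`|L| ≤ |σ|/2`), `(1/e)^4 nrm z ≤ √(2+|σ|) exp(σ/2) → 0` (`e_pow`).
* `FF_near_nonint`: `3 e(σ) < s t` for `(z,t)` near `(0,t₀)`, `z ≠ 0`: `FF_alpha_high`; `z = 0`: `FF_zero`.
* `FF_near_int`: near `(0,m)`, `s t → 0` (`s_le_of_int`).  Three cases: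
  (i) `3 e < s t`: `F = (Λ s t) z` near the point; derivative norm `≤ Λ s t + 7 Λ ‖z‖` (or eventual increment bound);
  (ii) `e < s t ≤ 3 e`: `alpha_bound`, `alpha_coef`: coefficient `≤ max (Λ s t) (exp(-K/√e))`;
  (iii) `s t ≤ e ≤ 3e/2`: `beta_bound` and `L_low`: `exp(Cβ/√e - L) ≤ exp(-1/√e)`.
  The eventual increment bounds give bounds of `‖fderiv‖`: `HasFDerivAt.le_of_lip'` (`FF_contDiffAt` gives
  differentiability), norms: `norm_le_nrm`, `nrm_le_norm`.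
-/
import Crest.Agent.R123.ModE
import Crest.Agent.R123.ModF3

set_option autoImplicit false

namespace Crest.Agent.R123

open Filter Topology

variable {Cn Cw K σ₀ Cg : ℝ}

theorem ModG_small (D : Dat Cn Cw K σ₀) (hσ₀ : 0 < σ₀) (σm : ℝ) : ∃ δ : ℝ, 0 < δ ∧ δ ≤ 1 ∧
    ∀ (z : E) (t : ℝ), z ≠ 0 → nrm z < δ → sg1 D z t ≤ σm := by
  refine ⟨min 1 (Real.exp (3 / 2 * σm)), lt_min one_pos (Real.exp_pos _), min_le_left _ _, ?_⟩
  intro z t hz hlt
  have h1 : nrm z < 1 := lt_of_lt_of_le hlt (min_le_left _ _)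
  have h2 : nrm z < Real.exp (3 / 2 * σm) := lt_of_lt_of_le hlt (min_le_right _ _)
  have h3 := (sg1_bounds D hσ₀ hz h1.le t).2
  have h4 : Real.log (nrm z) ≤ 3 / 2 * σm := by
    have := Real.log_le_log (nrm_pos hz) h2.le
    rwa [Real.log_exp] at this
  linarith

theorem ModG_e4 (D : Dat Cn Cw K σ₀) (hσ₀ : 0 < σ₀) {z : E} (hz : z ≠ 0) (hz1 : nrm z ≤ 1)
    (t : ℝ) :
    nrm z * (D.CΛ / (D.e (sg1 D z t)) ^ 4) ≤ 6 * D.CΛ * Real.sqrt (nrm z) := by
  obtain ⟨h1, h2⟩ := sg1_bounds D hσ₀ hz hz1 t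
  have hx := nrm_pos hz
  have hℓ : Real.log (nrm z) ≤ 0 := Real.log_nonpos hx.le hz1
  have hσ : sg1 D z t ≤ 0 := by linarith
  have h3 := D.e_pow _ hσ
  rw [abs_of_nonpos hσ] at h3
  have he := D.e_pos (sg1 D z t)
  set a := (1 / D.e (sg1 D z t)) ^ 4 with ha
  have ha0 : 0 < a := by positivity
  have h4 : a ^ 2 ≤ 2 - 2 * Real.log (nrm z) := by
    rw [ha, ← pow_mul]
    norm_num only at h3 ⊢
    linarith
  have h5 : a ≤ 2 - 2 * Real.log (nrm z) := by nlinarith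
  set y := Real.sqrt (nrm z) with hy
  have hy0 : 0 < y := Real.sqrt_pos.2 hx
  have hyy : nrm z = y ^ 2 := (Real.sq_sqrt hx.le).symm
  have hy1 : y ≤ 1 := by
    rw [hy]
    exact Real.sqrt_le_one.2 hz1
  have h6 : |Real.log y * y| < 1 := Real.abs_log_mul_self_lt y hy0 hy1
  have h7 : Real.log (nrm z) = 2 * Real.log y := by
    rw [hyy, Real.log_pow]
    norm_num
  have h8 := (abs_lt.1 h6).1
  have h9 : nrm z * a ≤ 6 * y := by
    calc nrm z * a ≤ nrm z * (2 - 2 * Real.log (nrm z)) :=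
          mul_le_mul_of_nonneg_left h5 hx.le
      _ = y * (2 * y - 4 * (Real.log y * y)) := by rw [h7, hyy]; ring
      _ ≤ y * 6 := mul_le_mul_of_nonneg_left (by linarith) hy0.le
      _ = 6 * y := by ring
  have h10 : D.CΛ / (D.e (sg1 D z t)) ^ 4 = D.CΛ * a := by
    rw [ha, div_eq_mul_one_div, one_div_pow]
  rw [h10]
  have h11 := D.CΛ_pos
  calc nrm z * (D.CΛ * a) = D.CΛ * (nrm z * a) := by ring
    _ ≤ D.CΛ * (6 * y) := mul_le_mul_of_nonneg_left h9 h11.le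
    _ = _ := by ring

theorem ModG_fderiv_le {f : E × ℝ → E} {q₀ : E × ℝ} {a b : ℝ} (ha : 0 ≤ a) (hb : 0 ≤ b)
    (h : ∀ᶠ q in 𝓝 q₀, nrm (f q - f q₀) ≤ a * (nrm (q.1 - q₀.1) + b * |q.2 - q₀.2|)) :
    ‖fderiv ℝ f q₀‖ ≤ a * (2 + b) := by
  refine norm_fderiv_le_of_lip' ℝ (by positivity) (h.mono fun q hq => ?_)
  have h1 : ‖q.1 - q₀.1‖ ≤ ‖q - q₀‖ := norm_fst_le (q - q₀)
  have h2 : |q.2 - q₀.2| ≤ ‖q - q₀‖ := norm_snd_le (q - q₀)
  have h3 : nrm (q.1 - q₀.1) ≤ 2 * ‖q - q₀‖ := by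
    refine (nrm_le_norm _).trans ?_
    have h4 : Real.sqrt 2 ≤ 2 := by
      rw [Real.sqrt_le_left (by norm_num)]
      norm_num
    exact mul_le_mul h4 h1 (norm_nonneg _) (by norm_num)
  calc ‖f q - f q₀‖ ≤ nrm (f q - f q₀) := norm_le_nrm _
    _ ≤ a * (nrm (q.1 - q₀.1) + b * |q.2 - q₀.2|) := hq
    _ ≤ a * (2 * ‖q - q₀‖ + b * ‖q - q₀‖) := by gcongr
    _ = a * (2 + b) * ‖q - q₀‖ := by ring

theorem FF_near_nonint (hG : GsBound Cg Cw) (D : Dat Cn Cw K σ₀) (hσ₀ : 0 < σ₀) {t₀ : ℝ}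
    (h : 0 < s t₀) :
    ∀ᶠ q : E × ℝ in 𝓝 (0, t₀), FF D q.1 q.2 = (D.Λ * s q.2) • q.1 := by
  have hs : Continuous s := (s_contDiff (n := 1)).continuous
  have h1 : ∀ᶠ q : E × ℝ in 𝓝 (0, t₀), s t₀ / 2 < s q.2 := by
    have h2 : ContinuousAt (fun q : E × ℝ => s q.2) (0, t₀) :=
      (hs.comp continuous_snd).continuousAt
    exact h2.eventually (lt_mem_nhds (by dsimp only; linarith))
  obtain ⟨σm, hσm⟩ := eventually_atBot.1
    (D.e_tendsto.eventually (gt_mem_nhds (show (0 : ℝ) < s t₀ / 6 by linarith)))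
  obtain ⟨δ, hδ, -, hδ'⟩ := ModG_small D hσ₀ σm
  have h3 : ∀ᶠ q : E × ℝ in 𝓝 (0, t₀), nrm q.1 < δ := by
    have h4 : ContinuousAt (fun q : E × ℝ => nrm q.1) (0, t₀) :=
      (nrm_continuous.comp continuous_fst).continuousAt
    refine h4.eventually (gt_mem_nhds ?_)
    dsimp only
    rw [(nrm_eq_zero_iff 0).2 rfl]
    exact hδ
  filter_upwards [h1, h3] with q hq1 hq2
  by_cases hz : q.1 = 0
  · rw [hz, FF_zero, smul_zero]
  · have h5 := hδ' q.1 q.2 hz hq2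
    have h6 := hσm _ h5
    exact FF_alpha_high hG D hz (by linarith)

theorem FF_near_int (hG : GsBound Cg Cw) (hCn : 0 < Cn) : ∃ Kβ : ℝ, 0 < Kβ ∧
    ∀ (K σ₀ : ℝ), Kβ ≤ K → 0 < σ₀ → ∀ (D : Dat Cn Cw K σ₀) (m : ℤ) (ε : ℝ), 0 < ε → ∃ δ : ℝ, 0 < δ ∧
      ∀ (z : E) (t : ℝ), z ≠ 0 → nrm z < δ → |t - m| < δ →
        nrm (FF D z t) ≤ ε * nrm z ∧ ‖fderiv ℝ (fun q : E × ℝ => FF D q.1 q.2) (z, t)‖ ≤ ε := by
  obtain ⟨Cβ, hCβ, hbeta⟩ := beta_bound hG hCn
  refine ⟨Cβ + 1, by linarith, ?_⟩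
  intro K σ₀ hK hσ₀ D m ε hε
  have hK0 : 0 < K := by linarith
  obtain ⟨σl, hσl⟩ := D.L_low
  obtain ⟨σa, hσa⟩ := alpha_coef D hK0
  obtain ⟨σb, hσb⟩ := hbeta K σ₀ D
  have hε60 : 0 < ε / 60 := by positivity
  obtain ⟨σe, hσe⟩ := eventually_atBot.1
    (D.e_tendsto.eventually (gt_mem_nhds (show (0 : ℝ) < (ε / 60) ^ 2 by positivity)))
  obtain ⟨δ1, hδ1, hδ1', hsmall⟩ := ModG_small D hσ₀ (min (min σl σa) (min σb σe))
  have hΛ : 0 < D.Λ := lt_of_lt_of_le one_pos D.one_le_Λ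
  have hCΛ := D.CΛ_pos
  refine ⟨min (min δ1 (ε / (600 * D.Λ))) (min 1 ((1 / (6 * D.CΛ)) ^ 2)),
    lt_min (lt_min hδ1 (by positivity)) (lt_min one_pos (by positivity)), ?_⟩
  intro z t hz hzδ htδ
  have hz1 : nrm z < δ1 := hzδ.trans_le ((min_le_left _ _).trans (min_le_left _ _))
  have hz2 : nrm z < 1 := hzδ.trans_le ((min_le_right _ _).trans (min_le_left _ _))
  have hz3 : nrm z < (1 / (6 * D.CΛ)) ^ 2 :=
    hzδ.trans_le ((min_le_right _ _).trans (min_le_right _ _))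
  have ht1 : |t - m| < ε / (600 * D.Λ) := htδ.trans_le ((min_le_left _ _).trans (min_le_right _ _))
  have ht2 : |t - m| < 1 := htδ.trans_le ((min_le_right _ _).trans (min_le_left _ _))
  have hσ := hsmall z t hz hz1
  set σ := sg1 D z t with hσdef
  have hσl' : σ ≤ σl := hσ.trans ((min_le_left _ _).trans (min_le_left _ _))
  have hσa' : σ ≤ σa := hσ.trans ((min_le_left _ _).trans (min_le_right _ _))
  have hσb' : σ ≤ σb := hσ.trans ((min_le_right _ _).trans (min_le_left _ _))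
  have hσe' : σ ≤ σe := hσ.trans ((min_le_right _ _).trans (min_le_right _ _))
  have he0 := D.e_pos σ
  have he := hσe σ hσe'
  have hse : 0 < Real.sqrt (D.e σ) := Real.sqrt_pos.2 he0
  -- the exponential is small
  have hexp : Real.exp (-(1 / Real.sqrt (D.e σ))) ≤ ε / 60 := by
    have h1 : Real.sqrt (D.e σ) ≤ ε / 60 := by
      rw [Real.sqrt_le_left hε60.le]
      exact he.le
    have h2 : 1 / Real.sqrt (D.e σ) ≤ Real.exp (1 / Real.sqrt (D.e σ)) :=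
      (lt_of_lt_of_le (lt_add_one _) (Real.add_one_le_exp _)).le
    rw [Real.exp_neg]
    refine le_trans ?_ h1
    rw [inv_le_comm₀ (Real.exp_pos _) hse, ← one_div]
    exact h2
  -- `Λ s t` is small
  have hs : D.Λ * s t ≤ ε / 60 := by
    have h1 := s_le_of_int t m
    have h2 : (t - m) ^ 2 ≤ ε / (600 * D.Λ) := by
      rw [← sq_abs]
      calc |t - (m : ℝ)| ^ 2 = |t - (m : ℝ)| * |t - (m : ℝ)| := by ring
        _ ≤ ε / (600 * D.Λ) * 1 := mul_le_mul ht1.le ht2.le (abs_nonneg _) (by positivity)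
        _ = _ := mul_one _
    calc D.Λ * s t ≤ D.Λ * (10 * (ε / (600 * D.Λ))) := by
          apply mul_le_mul_of_nonneg_left _ hΛ.le
          linarith
      _ = ε / 60 := by field_simp; ring
  have hz4 : nrm z * (D.CΛ / (D.e σ) ^ 4) ≤ 1 := by
    refine (ModG_e4 D hσ₀ hz hz2.le t).trans ?_
    have h1 : Real.sqrt (nrm z) ≤ 1 / (6 * D.CΛ) := by
      rw [Real.sqrt_le_left (by positivity)]
      exact hz3.le
    calc 6 * D.CΛ * Real.sqrt (nrm z) ≤ 6 * D.CΛ * (1 / (6 * D.CΛ)) :=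
          mul_le_mul_of_nonneg_left h1 (by positivity)
      _ = 1 := by field_simp
  have hz4' : 0 ≤ nrm z * (D.CΛ / (D.e σ) ^ 4) :=
    mul_nonneg (nrm_nonneg z) (by positivity)
  rcases lt_or_ge (D.e σ) (s t) with hcase | hcase
  · -- region alpha
    have hst : 0 < s t := he0.trans hcase
    have hc : Real.exp (D.L (t + al) σ - D.L t σ) ≤ ε / 60 := by
      rcases le_total (s t) (3 * D.e σ) with h3 | h3
      · refine (hσa σ hσa' t hst h3).trans (max_le hs ?_)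
        refine le_trans (Real.exp_le_exp.2 ?_) hexp
        rw [neg_le_neg_iff]
        exact div_le_div_of_nonneg_right (by linarith) hse.le
      · rw [D.L_next_high t σ h3, add_sub_cancel_left, Real.exp_log (mul_pos hΛ hst)]
        exact hs
    constructor
    · rw [FF_alpha hG D hz hcase.le, nrm_smul, abs_of_pos (Real.exp_pos _)]
      refine mul_le_mul_of_nonneg_right (hc.trans ?_) (nrm_nonneg z)
      linarith
    · have h5 := alpha_bound hG D hz hcase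
      have h6 := ModG_fderiv_le (f := fun q : E × ℝ => FF D q.1 q.2) (q₀ := (z, t))
        (a := 20 * Real.exp (D.L (t + al) σ - D.L t σ))
        (b := nrm z * (D.CΛ / (D.e σ) ^ 4)) (by positivity) hz4' h5
      refine h6.trans ?_
      calc 20 * Real.exp (D.L (t + al) σ - D.L t σ) * (2 + nrm z * (D.CΛ / (D.e σ) ^ 4))
          ≤ 20 * (ε / 60) * (2 + 1) := by gcongr
        _ = ε := by ring
  · -- region beta
    obtain ⟨h5, h6⟩ := hσb z t hz hσb' (by rw [← hσdef]; linarith)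
    rw [← hσdef] at h5 h6
    have hL := hσl σ hσl' t (by linarith)
    have hc : Real.exp (Cβ / Real.sqrt (D.e σ) - D.L t σ) ≤ ε / 60 := by
      refine le_trans (Real.exp_le_exp.2 ?_) hexp
      have h7 : (Cβ + 1) / Real.sqrt (D.e σ) ≤ K / Real.sqrt (D.e σ) :=
        div_le_div_of_nonneg_right hK hse.le
      rw [add_div] at h7
      linarith
    constructor
    · refine h5.trans (mul_le_mul_of_nonneg_right (hc.trans ?_) (nrm_nonneg z))
      linarith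
    · have h8 := ModG_fderiv_le (f := fun q : E × ℝ => FF D q.1 q.2) (q₀ := (z, t))
        (a := Real.exp (Cβ / Real.sqrt (D.e σ) - D.L t σ))
        (b := nrm z) (Real.exp_pos _).le (nrm_nonneg z) h6
      refine h8.trans ?_
      calc Real.exp (Cβ / Real.sqrt (D.e σ) - D.L t σ) * (2 + nrm z)
          ≤ (ε / 60) * (2 + 1) :=
            mul_le_mul hc (by linarith) (by linarith [nrm_nonneg z]) hε60.le
        _ ≤ ε := by linarith

end Crest.Agent.R123
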