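/-
ROW 123 (S0163), piece Model: the local model theorem.

Take `Cg, Cw` (`exists_gsBound`), `Cn` (`exists_dat`), `Kβ` (`FF_near_int`), `σ₀ = Cg + 20`, `D : Dat Cn Cw Kβ σ₀`,
`F = FF D`, `H = HH D`.  `C¹`: `glue` with `FF_zero`, `FF_contDiffAt`, `FF_near_nonint`, `FF_near_int`.
`nrm z ≥ 1/1000`: `log nrm z ≥ -7 ≥ -σ₀`, `log nrm (g z) ≥ log (1e-5) ≥ -12 ≥ -σ₀` (`g_lower`): `HH_large`, `FF_large`.
-/
import Crest.Agent.R123.ModD
import Crest.Agent.R123.ModG
import Crest.Agent.R123.ModH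

set_option autoImplicit false

namespace Crest.Agent.R123

theorem model : ∃ F H : E → ℝ → E,
    ContDiff ℝ 1 (fun q : E × ℝ => F q.1 q.2) ∧ Continuous (fun q : E × ℝ => H q.1 q.2) ∧
    (∀ z t, F z (t + 1) = F z t) ∧ (∀ z t, H z (t + 1) = H z t) ∧
    (∀ t, F 0 t = 0) ∧ (∀ z t, H z t = 0 ↔ z = 0) ∧
    (∀ z t, H (F z t) (t + al) = g (H z t)) ∧
    (∀ z t, 1 / 1000 ≤ nrm z → F z t = g z ∧ H z t = z) ∧
    (∀ z t, nrm z ≤ 1 / 1000 → nrm (F z t) ≤ 1 / 64 ∧ nrm (H z t) ≤ 1 / 64) := by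
  obtain ⟨Cg, Cw, hG⟩ := exists_gsBound
  obtain ⟨Cn, hCn, hdat⟩ := exists_dat
  obtain ⟨Kβ, hKβ, hnear⟩ := FF_near_int hG hCn
  have hCg := hG.one_le_Cg
  have hCw := hG.one_le_Cw
  have hσ₀ : 0 < Cg + 20 := by linarith
  obtain ⟨D⟩ := hdat Cw Kβ (Cg + 20) (by linarith) hKβ hσ₀
  have hexp : Real.exp (-(Cg + 20)) ≤ 1 / 1000 / 100 := by
    have h1 : Real.exp (-(Cg + 20)) ≤ Real.exp (-10) * Real.exp (-10) := by
      rw [← Real.exp_add]
      apply Real.exp_le_exp.2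
      linarith
    have h2 := exp_neg_ten_le
    have h3 := Real.exp_pos (-10)
    have h4 : Real.exp (-10) * Real.exp (-10) ≤ 1 / 1024 * (1 / 1024) := by gcongr
    have h5 : (1 : ℝ) / 1024 * (1 / 1024) ≤ 1 / 1000 / 100 := by norm_num
    linarith
  refine ⟨FF D, HH D, ?_, HH_continuous hG D hσ₀, FF_add_one D, HH_add_one D, FF_zero D, ?_,
    semiconj hG D, ?_, ?_⟩
  · exact glue (Λ := D.Λ) (FF_zero D) (fun z t hz => FF_contDiffAt hG D hz t)
      (fun t₀ ht₀ => FF_near_nonint hG D hσ₀ ht₀) (fun m ε hε => hnear _ _ le_rfl hσ₀ D m ε hε)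
  · intro z t
    constructor
    · intro h
      by_contra hz
      exact HH_ne_zero D hz t h
    · rintro rfl
      exact HH_zero D t
  · intro z t hz
    have hpos : 0 < nrm z := lt_of_lt_of_le (by norm_num) hz
    have hz0 : z ≠ 0 := by
      rintro rfl
      rw [(nrm_eq_zero_iff 0).2 rfl] at hpos
      exact lt_irrefl _ hpos
    have hgz := g_lower z
    have hgz0 : 0 < nrm (g z) := lt_of_lt_of_le (by positivity) hgz
    have h1 : -(Cg + 20) ≤ Real.log (nrm z) := by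
      rw [Real.le_log_iff_exp_le hpos]
      have : (1 : ℝ) / 1000 / 100 ≤ 1 / 1000 := by norm_num
      linarith
    have h2 : -(Cg + 20) ≤ Real.log (nrm (g z)) := by
      rw [Real.le_log_iff_exp_le hgz0]
      linarith
    exact ⟨FF_large hG D hz0 h1 h2 t, HH_large D h1 t⟩
  · intro z t hz
    have h1 := HH_small hG D (by linarith) hz t
    refine ⟨FF_small' hG D (by linarith) hz t, h1.trans (by norm_num)⟩

end Crest.Agent.R123
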