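/-
ROW 123 (S0163): final assembly.
-/
import Crest.Agent.R123.Model
import Crest.Agent.R123.GlobH
import Crest.Agent.R123.GlobJ
import Crest.Agent.R123.MfdMain
import Crest.Agent.R123.HomMain

set_option autoImplicit false

open scoped Manifold ContDiff

namespace Crest.Agent.R123

theorem exists_isModel : ∃ F H : E → ℝ → E, IsModel F H := by
  obtain ⟨F, H, h1, h2, h3, h4, h5, h6, h7, h8, h9⟩ := model
  exact ⟨F, H, ⟨h1, h2, h3, h4, h5, h6, h7, h8, h9⟩⟩

theorem main :
    ∃ (n : ℕ) (M : Type) (_ : MetricSpace M) (_ : CompactSpace M) (_ : Nonempty M)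
      (_ : ChartedSpace (EuclideanSpace ℝ (Fin n)) M)
      (_ : IsManifold (modelWithCornersSelf ℝ (EuclideanSpace ℝ (Fin n))) ∞ M)
      (f : C(M, M)),
      ContMDiff (modelWithCornersSelf ℝ (EuclideanSpace ℝ (Fin n)))
          (modelWithCornersSelf ℝ (EuclideanSpace ℝ (Fin n))) 1 ⇑f ∧
        Dynamics.coverEntropy ⇑f Set.univ = 0 ∧
        Module.End.HasEigenvalue
          (((AlgebraicTopology.singularHomologyFunctor (ModuleCat.{0} ℝ) 2).obj
              (ModuleCat.of ℝ ℝ)).map (TopCat.ofHom f)).hom (2 : ℝ) := by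
  obtain ⟨F, H, M⟩ := exists_isModel
  obtain ⟨cs, im, hcs⟩ := mfd
  refine ⟨5, Mf, inferInstance, inferInstance, ⟨(npole, npole, 1)⟩, cs, im, fC M, ?_, ?_, ?_⟩
  · exact hcs (fmap F) (fmap_continuous M) (fmap_local M)
  · exact fmap_entropy M
  · exact hom_eigen imap ⟨fun p : Mf => p.1, by fun_prop⟩ (fun p => rfl) (fC M) (homotopy_main M)

end Crest.Agent.R123
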