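/-
ROW 123 (S0163): the isotopy `gam u` from the identity (`u ≤ 0`) to the model map `g` (`u ≥ 1`).
-/
import Crest.Agent.R123.Base

set_option autoImplicit false

namespace Crest.Agent.R123

noncomputable section

/-- shear: `(x, y - τ x²/‖z‖)` -/
def shear (τ : ℝ) (z : E) : E := (z.1, z.2 - (τ : ℂ) * (z.1 ^ 2 / (nrm z : ℂ)))

/-- linear path from `id` (`τ = 0`) to `(x,y) ↦ (-4 y, x/16)` (`τ = 1`) -/
def jmap (τ : ℝ) (z : E) : E :=
  (((4 : ℝ) ^ τ) • (Real.cos (Real.pi * τ / 2) • z.1 - Real.sin (Real.pi * τ / 2) • z.2),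
   ((1 / 16 : ℝ) ^ τ) • (Real.sin (Real.pi * τ / 2) • z.1 + Real.cos (Real.pi * τ / 2) • z.2))

/-- inverse of `jmap τ` -/
def jinv (τ : ℝ) (z : E) : E :=
  (Real.cos (Real.pi * τ / 2) • (((4 : ℝ) ^ (-τ)) • z.1) +
      Real.sin (Real.pi * τ / 2) • (((1 / 16 : ℝ) ^ (-τ)) • z.2),
   Real.cos (Real.pi * τ / 2) • (((1 / 16 : ℝ) ^ (-τ)) • z.2) -
      Real.sin (Real.pi * τ / 2) • (((4 : ℝ) ^ (-τ)) • z.1))

/-- the isotopy -/
def gam (u : ℝ) (z : E) : E :=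
  jmap (Real.smoothTransition (2 * u - 1)) (shear (Real.smoothTransition (2 * u)) z)

/-- its inverse (`gam u` is bijective, see HenB) -/
def gamInv (u : ℝ) : E → E := Function.invFun (gam u)

end

end Crest.Agent.R123
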