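/-
ROW 123 (S0163): real iterates `gs u` of the isotopy (`gs u = id` for `u ≤ 0`, `gs u = gam u ∘ gs (u-1)`, so
`gs (u+1) = g ∘ gs u` for `u ≥ 0`) and their inverses `gi u`.
-/
import Crest.Agent.R123.HenDefs

set_option autoImplicit false

namespace Crest.Agent.R123

noncomputable section

/-- truncated recursion -/
def gsN : ℕ → ℝ → E → E
  | 0, _, z => z
  | k + 1, u, z => gam u (gsN k (u - 1) z)

/-- truncated recursion of the inverse -/
def giN : ℕ → ℝ → E → E
  | 0, _, z => z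
  | k + 1, u, z => giN k (u - 1) (gamInv u z)

/-- `g_u` -/
def gs (u : ℝ) (z : E) : E := gsN ⌈u⌉₊ u z

/-- `g_u^{-1}` -/
def gi (u : ℝ) (z : E) : E := giN ⌈u⌉₊ u z

end

end Crest.Agent.R123
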