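/-
ROW 123 (S0163), piece HenA: the shear `(x,y) ↦ (x, y - τ x²/√(|x|²+|y|²))` is invertible with `C¹` inverse.

* `shear_lip`: put `a=|x|`, `r=|y|`, `r'=|y'|`, `P=√(a²+r²)`, `Q=√(a²+r'²)`, `p=a/P`, `q=a/Q ≤ 1`:
  `a²|1/P-1/Q| = a²|r'²-r²|/(PQ(P+Q)) = |r-r'| · [(r/P)(a/Q)+(r'/Q)(a/P)] · pq/(p+q)`, the bracket is `≤ 1`
  (`sin(α+β)`, Cauchy-Schwarz) and `pq/(p+q) ≤ 1/2`.
* `exists_shearInv`: for `|τ| < 3/2` apply `impl` (file Impl) with `X = ℂ` (variable `y`), `W = ℝ × E ∋ (τ,(x,y'))`,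
  `U = {|τ| < 3/2, (x,y') ≠ 0}`, `h(y; τ,x,y') = -τ x²/nrm(x,y) - y'`, `K = 3/4`; `h` is continuous also at
  `(x,y) = 0` (`|x²/nrm| ≤ |x|`) and it is `C¹` at every point with `(x,y) ≠ 0` (if `x = 0` the solution is
  `y = y' ≠ 0`).  For `(x,y') = 0` put `si τ 0 = 0`; `shear τ 0 = 0`.
-/
import Crest.Agent.R123.HenDefs
import Crest.Agent.R123.BaseS
import Crest.Agent.R123.Impl

set_option autoImplicit false

namespace Crest.Agent.R123

open Topology

theorem real_shear_aux {a r r' P Q : ℝ} (ha : 0 ≤ a) (hr : 0 ≤ r) (hr' : 0 ≤ r') (hP : 0 < P)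
    (hQ : 0 < Q) (hP2 : P ^ 2 = a ^ 2 + r ^ 2) (hQ2 : Q ^ 2 = a ^ 2 + r' ^ 2) :
    a ^ 2 * |1 / P - 1 / Q| ≤ 1 / 2 * |r - r'| := by
  have haP : a ≤ P := by
    by_contra hcon
    push Not at hcon
    nlinarith
  have haQ : a ≤ Q := by
    by_contra hcon
    push Not at hcon
    nlinarith
  have hPQ : 0 < P * Q := mul_pos hP hQ
  have h1 : 1 / P - 1 / Q = (Q - P) / (P * Q) := by
    field_simp
  rw [h1, abs_div, abs_of_pos hPQ, mul_div_assoc', div_le_iff₀ hPQ]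
  have hsum : 0 < P + Q := by linarith
  have h2 : |Q - P| * (P + Q) = |r - r'| * (r + r') := by
    rw [← abs_of_pos hsum, ← abs_mul]
    have h3 : (Q - P) * (P + Q) = - ((r - r') * (r + r')) := by
      have : (Q - P) * (P + Q) = Q ^ 2 - P ^ 2 := by ring
      rw [this, hP2, hQ2]; ring
    rw [h3, abs_neg, abs_mul, abs_of_nonneg (add_nonneg hr hr')]
  have h4 : 2 * a ^ 2 * (r + r') ≤ P * Q * (P + Q) := by
    have h5 : 2 * (a * r) ≤ P ^ 2 := by rw [hP2]; nlinarith [sq_nonneg (a - r)]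
    have h6 : 2 * (a * r') ≤ Q ^ 2 := by rw [hQ2]; nlinarith [sq_nonneg (a - r')]
    have h7 : 2 * (a * r) * a ≤ P ^ 2 * Q :=
      mul_le_mul h5 haQ ha (sq_nonneg P)
    have h8 : 2 * (a * r') * a ≤ Q ^ 2 * P :=
      mul_le_mul h6 haP ha (sq_nonneg Q)
    nlinarith
  have h9 : a ^ 2 * |Q - P| * (P + Q) ≤ 1 / 2 * |r - r'| * (P * Q) * (P + Q) := by
    calc a ^ 2 * |Q - P| * (P + Q) = a ^ 2 * (|Q - P| * (P + Q)) := by ring
      _ = a ^ 2 * (|r - r'| * (r + r')) := by rw [h2]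
      _ = 1 / 2 * |r - r'| * (2 * a ^ 2 * (r + r')) := by ring
      _ ≤ 1 / 2 * |r - r'| * (P * Q * (P + Q)) :=
          mul_le_mul_of_nonneg_left h4 (by positivity)
      _ = 1 / 2 * |r - r'| * (P * Q) * (P + Q) := by ring
  exact le_of_mul_le_mul_right h9 hsum

theorem shear_lip (x y y' : ℂ) :
    ‖x ^ 2 / (nrm (x, y) : ℂ) - x ^ 2 / (nrm (x, y') : ℂ)‖ ≤ 1 / 2 * ‖y - y'‖ := by
  by_cases hx : x = 0
  · subst hx
    simp
  · have hP : 0 < nrm (x, y) := nrm_pos (by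
      intro h; exact hx (congrArg Prod.fst h))
    have hQ : 0 < nrm (x, y') := nrm_pos (by
      intro h; exact hx (congrArg Prod.fst h))
    have h1 : x ^ 2 / (nrm (x, y) : ℂ) - x ^ 2 / (nrm (x, y') : ℂ)
        = x ^ 2 * ((1 / nrm (x, y) - 1 / nrm (x, y') : ℝ) : ℂ) := by
      push_cast
      ring
    rw [h1, norm_mul, norm_pow, Complex.norm_real, Real.norm_eq_abs]
    have h2 := real_shear_aux (norm_nonneg x) (norm_nonneg y) (norm_nonneg y') hP hQ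
      (nrm_sq (x, y)) (nrm_sq (x, y'))
    refine h2.trans ?_
    exact mul_le_mul_of_nonneg_left (abs_norm_sub_norm_le y y') (by norm_num)

theorem quot_contDiffAt {n : WithTop ℕ∞} {z : E} (hz : z ≠ 0) :
    ContDiffAt ℝ n (fun z : E => z.1 ^ 2 / (nrm z : ℂ)) z := by
  have hn : (nrm z : ℂ) ≠ 0 := by
    exact_mod_cast (nrm_pos hz).ne'
  have h1 : ContDiffAt ℝ n (fun z : E => ((nrm z : ℝ) : ℂ)) z :=
    (Complex.ofRealCLM.contDiff.contDiffAt).comp z (nrm_contDiffAt hz)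
  have h2 : ContDiffAt ℝ n (fun z : E => ((nrm z : ℝ) : ℂ)⁻¹) z := h1.inv hn
  have h3 : ContDiffAt ℝ n (fun z : E => z.1 ^ 2) z := contDiffAt_fst.pow 2
  have h4 := h3.mul h2
  refine h4.congr_of_eventuallyEq ?_
  exact Filter.Eventually.of_forall fun w => by simp only [div_eq_mul_inv]

theorem quot_norm_le (z : E) : ‖z.1 ^ 2 / (nrm z : ℂ)‖ ≤ nrm z := by
  by_cases hz : z = 0
  · subst hz
    simp [nrm]
  · have hP := nrm_pos hz
    rw [norm_div, norm_pow, Complex.norm_real, Real.norm_eq_abs, abs_of_pos hP,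
      div_le_iff₀ hP, ← sq, nrm_sq]
    nlinarith [sq_nonneg ‖z.2‖]

theorem quot_continuous : Continuous (fun z : E => z.1 ^ 2 / (nrm z : ℂ)) := by
  rw [continuous_iff_continuousAt]
  intro z
  by_cases hz : z = 0
  · subst hz
    have h0 : (0 : E).1 ^ 2 / (nrm (0 : E) : ℂ) = 0 := by simp
    rw [ContinuousAt, h0]
    apply squeeze_zero_norm quot_norm_le
    have h1 := (nrm_continuous).tendsto (0 : E)
    have h2 : nrm (0 : E) = 0 := (nrm_eq_zero_iff 0).2 rfl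
    rwa [h2] at h1
  · exact (quot_contDiffAt (n := 1) hz).continuousAt

theorem shear_contDiffAt {n : WithTop ℕ∞} (τ : ℝ) {z : E} (hz : z ≠ 0) :
    ContDiffAt ℝ n (fun q : ℝ × E => shear q.1 q.2) (τ, z) := by
  unfold shear
  have h1 : ContDiffAt ℝ n (fun q : ℝ × E => q.2.1) (τ, z) :=
    contDiffAt_fst.comp (τ, z) contDiffAt_snd
  have h2 : ContDiffAt ℝ n (fun q : ℝ × E => q.2.2) (τ, z) :=
    contDiffAt_snd.comp (τ, z) contDiffAt_snd
  have h3 : ContDiffAt ℝ n (fun q : ℝ × E => (q.1 : ℂ)) (τ, z) :=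
    (Complex.ofRealCLM.contDiff.contDiffAt).comp (τ, z) contDiffAt_fst
  have h4 : ContDiffAt ℝ n (fun q : ℝ × E => q.2.1 ^ 2 / (nrm q.2 : ℂ)) (τ, z) :=
    ContDiffAt.comp (g := fun z : E => z.1 ^ 2 / (nrm z : ℂ)) (f := fun q : ℝ × E => q.2)
      (τ, z) (quot_contDiffAt hz) contDiffAt_snd
  exact h1.prodMk (h2.sub (h3.mul h4))

theorem shear_ne_zero {τ : ℝ} {z : E} (hτ : |τ| < 3 / 2) (hz : z ≠ 0) : shear τ z ≠ 0 := by
  intro h
  apply hz
  have h1 : z.1 = 0 := congrArg Prod.fst h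
  have h2 : z.2 - (τ : ℂ) * (z.1 ^ 2 / (nrm z : ℂ)) = 0 := congrArg Prod.snd h
  rw [h1] at h2
  simp at h2
  exact Prod.ext h1 h2

theorem shear_zero (τ : ℝ) : shear τ 0 = 0 := by
  unfold shear
  simp

theorem exists_shearInv : ∃ si : ℝ → E → E,
    (∀ τ z, |τ| < 3 / 2 → si τ (shear τ z) = z) ∧ (∀ τ z, |τ| < 3 / 2 → shear τ (si τ z) = z) ∧
    (∀ τ z, |τ| < 3 / 2 → z ≠ 0 → ContDiffAt ℝ 1 (fun q : ℝ × E => si q.1 q.2) (τ, z)) := by
  classical
  let U : Set (ℝ × E) := {w | |w.1| < 3 / 2 ∧ w.2 ≠ 0}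
  have hU : IsOpen U := by
    apply IsOpen.inter
    · exact isOpen_lt (continuous_abs.comp continuous_fst) continuous_const
    · exact isOpen_ne_fun continuous_snd continuous_const
  let h : ℂ × (ℝ × E) → ℂ := fun p =>
    -((p.2.1 : ℂ) * (p.2.2.1 ^ 2 / (nrm (p.2.2.1, p.1) : ℂ))) - p.2.2.2
  have hL : ∀ w ∈ U, ∀ x x' : ℂ, ‖h (x, w) - h (x', w)‖ ≤ 3 / 4 * ‖x - x'‖ := by
    intro w hw x x'
    have h1 : h (x, w) - h (x', w)
        = -((w.1 : ℂ) * (w.2.1 ^ 2 / (nrm (w.2.1, x) : ℂ) - w.2.1 ^ 2 / (nrm (w.2.1, x') : ℂ))) := by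
      simp only [h]; ring
    rw [h1, norm_neg, norm_mul, Complex.norm_real, Real.norm_eq_abs]
    have h2 := shear_lip w.2.1 x x'
    have h3 : |w.1| ≤ 3 / 2 := hw.1.le
    calc |w.1| * ‖w.2.1 ^ 2 / (nrm (w.2.1, x) : ℂ) - w.2.1 ^ 2 / (nrm (w.2.1, x') : ℂ)‖
        ≤ 3 / 2 * (1 / 2 * ‖x - x'‖) :=
          mul_le_mul h3 h2 (norm_nonneg _) (by norm_num)
      _ = 3 / 4 * ‖x - x'‖ := by ring
  have hcont : Continuous h := by
    have h1 : Continuous (fun p : ℂ × (ℝ × E) => ((p.2.2.1, p.1) : E)) := by fun_prop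
    have h2 : Continuous (fun p : ℂ × (ℝ × E) => p.2.2.1 ^ 2 / (nrm (p.2.2.1, p.1) : ℂ)) :=
      quot_continuous.comp h1
    have h3 : Continuous (fun p : ℂ × (ℝ × E) => (p.2.1 : ℂ)) :=
      Complex.continuous_ofReal.comp (by fun_prop)
    exact ((h3.mul h2).neg).sub (by fun_prop)
  obtain ⟨S, hS1, hS2, -, hS4⟩ := impl hU (h := h) (K := 3 / 4) (by norm_num) (by norm_num) hL
    (fun w _ x => hcont.continuousAt)
  refine ⟨fun τ z => if z = 0 then 0 else (z.1, S (τ, z)), ?_, ?_, ?_⟩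
  · intro τ z hτ
    by_cases hz : z = 0
    · subst hz
      rw [shear_zero]
      simp
    · have hsz := shear_ne_zero hτ hz
      simp only [if_neg hsz]
      have h1 := hS2 (τ, shear τ z) ⟨hτ, hsz⟩ z.2 (by
        simp only [h, shear]
        ring)
      rw [← h1]
      rfl
  · intro τ z hτ
    by_cases hz : z = 0
    · subst hz
      simp only [if_true]
      exact shear_zero τ
    · simp only [if_neg hz]
      have h1 := hS1 (τ, z) ⟨hτ, hz⟩
      simp only [h] at h1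
      apply Prod.ext
      · rfl
      · simp only [shear]
        linear_combination h1
  · intro τ z hτ hz
    have hw : (τ, z) ∈ U := ⟨hτ, hz⟩
    have hne : ((z.1, S (τ, z)) : E) ≠ 0 := by
      intro h0
      have e1 : z.1 = 0 := congrArg Prod.fst h0
      have e2 : S (τ, z) = 0 := congrArg Prod.snd h0
      have h1 := hS1 (τ, z) hw
      simp only [h] at h1
      rw [e1, e2] at h1
      simp at h1
      exact hz (Prod.ext e1 h1)
    have hcd : ContDiffAt ℝ 1 h (S (τ, z), (τ, z)) := by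
      have g1 : ContDiffAt ℝ 1 (fun p : ℂ × (ℝ × E) => ((p.2.2.1, p.1) : E))
          (S (τ, z), (τ, z)) := by fun_prop
      have g2 : ContDiffAt ℝ 1 (fun p : ℂ × (ℝ × E) => p.2.2.1 ^ 2 / (nrm (p.2.2.1, p.1) : ℂ))
          (S (τ, z), (τ, z)) :=
        ContDiffAt.comp (g := fun z : E => z.1 ^ 2 / (nrm z : ℂ))
          (f := fun p : ℂ × (ℝ × E) => ((p.2.2.1, p.1) : E)) (S (τ, z), (τ, z))
          (quot_contDiffAt hne) g1
      have g3 : ContDiffAt ℝ 1 (fun p : ℂ × (ℝ × E) => (p.2.1 : ℂ)) (S (τ, z), (τ, z)) :=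
        (Complex.ofRealCLM.contDiff.contDiffAt).comp _ (by fun_prop)
      exact ((g3.mul g2).neg).sub (by fun_prop)
    have hS := hS4 (τ, z) hw hcd
    have hfun : ContDiffAt ℝ 1 (fun q : ℝ × E => ((q.2.1, S q) : E)) (τ, z) := by
      have g1 : ContDiffAt ℝ 1 (fun q : ℝ × E => q.2.1) (τ, z) := by fun_prop
      exact g1.prodMk hS
    refine hfun.congr_of_eventuallyEq ?_
    have hev : ∀ᶠ q : ℝ × E in 𝓝 (τ, z), q.2 ≠ 0 :=
      (continuous_snd.continuousAt (x := (τ, z))).eventually_ne hz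
    filter_upwards [hev] with q hq
    simp only [if_neg hq]

end Crest.Agent.R123
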