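/-
ROW 123 (S0163), piece HenB: the isotopy `gam` and its inverse.

`Real.smoothTransition` has values in `[0,1]`, is `0` on `(-∞,0]`, `1` on `[1,∞)`, `C^∞`.  `gam u = jmap a ∘ shear b`
with `a, b ∈ [0,1]`; the inverse is `si b ∘ jinv a` (`si` from `exists_shearInv`), so `gam u` is a bijection and
`gamInv u` (`Function.invFun`) is that map (`Function.leftInverse_invFun`, `rightInverse_invFun`).
`jmap 0 = id`, `shear 0 = id`; `gam u = g` for `u ≥ 1`: `jmap 1 (x,y) = (-4y, x/16)`.
Homogeneity: `nrm (r z) = r nrm z` for `r ≥ 0` (for `r = 0` both sides are `0`; Lean: `0/0 = 0`).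
-/
import Crest.Agent.R123.HenA

set_option autoImplicit false

namespace Crest.Agent.R123

namespace HenBaux

theorem four_mul (τ : ℝ) : (4 : ℝ) ^ (-τ) * (4 : ℝ) ^ τ = 1 := by
  rw [← Real.rpow_add (by norm_num)]; simp

theorem sixteen_mul (τ : ℝ) : (1 / 16 : ℝ) ^ (-τ) * (1 / 16 : ℝ) ^ τ = 1 := by
  rw [← Real.rpow_add (by norm_num)]; simp

theorem cs (t : ℝ) : (((Real.cos t : ℝ) : ℂ)) ^ 2 + (((Real.sin t : ℝ) : ℂ)) ^ 2 = 1 := by
  rw [← Complex.ofReal_pow, ← Complex.ofReal_pow, ← Complex.ofReal_add]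
  rw [Real.cos_sq_add_sin_sq]
  simp

theorem st_abs (t : ℝ) : |Real.smoothTransition t| < 3 / 2 := by
  rw [abs_of_nonneg (Real.smoothTransition.nonneg t)]
  have := Real.smoothTransition.le_one t
  linarith

theorem rpow_contDiff {n : WithTop ℕ∞} {a : ℝ} (ha : 0 < a) :
    ContDiff ℝ n (fun τ : ℝ => a ^ τ) := by
  have h : (fun τ : ℝ => a ^ τ) = fun τ : ℝ => Real.exp (Real.log a * τ) := by
    funext τ; rw [Real.rpow_def_of_pos ha]
  rw [h]
  exact Real.contDiff_exp.comp (contDiff_const.mul contDiff_id)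

end HenBaux

open HenBaux

theorem jinv_jmap (τ : ℝ) (z : E) : jinv τ (jmap τ z) = z := by
  obtain ⟨x, y⟩ := z
  have h := cs (Real.pi * τ / 2)
  unfold jinv jmap
  simp only [smul_smul _ ((4 : ℝ) ^ τ), smul_smul _ ((1 / 16 : ℝ) ^ τ), four_mul, sixteen_mul,
    one_smul]
  ext1
  · simp only [Complex.real_smul]
    linear_combination x * h
  · simp only [Complex.real_smul]
    linear_combination y * h

theorem jmap_jinv (τ : ℝ) (z : E) : jmap τ (jinv τ z) = z := by
  obtain ⟨x, y⟩ := z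
  have h := cs (Real.pi * τ / 2)
  have h1 : (((4 : ℝ) ^ (-τ) : ℝ) : ℂ) * (((4 : ℝ) ^ τ : ℝ) : ℂ) = 1 := by
    rw [← Complex.ofReal_mul, four_mul]; simp
  have h2 : ((((1 / 16 : ℝ)) ^ (-τ) : ℝ) : ℂ) * ((((1 / 16 : ℝ)) ^ τ : ℝ) : ℂ) = 1 := by
    rw [← Complex.ofReal_mul, sixteen_mul]; simp
  unfold jinv jmap
  ext1
  · simp only [Complex.real_smul]
    linear_combination (x * (((4 : ℝ) ^ (-τ) : ℝ) : ℂ) * (((4 : ℝ) ^ τ : ℝ) : ℂ)) * h + x * h1
  · simp only [Complex.real_smul]
    linear_combination (y * (((1 / 16 : ℝ) ^ (-τ) : ℝ) : ℂ) * (((1 / 16 : ℝ) ^ τ : ℝ) : ℂ)) * h +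
      y * h2

theorem jmap_contDiff {n : WithTop ℕ∞} : ContDiff ℝ n (fun q : ℝ × E => jmap q.1 q.2) := by
  unfold jmap
  have h4 : ContDiff ℝ n (fun q : ℝ × E => (4 : ℝ) ^ q.1) :=
    (rpow_contDiff (by norm_num)).comp contDiff_fst
  have h16 : ContDiff ℝ n (fun q : ℝ × E => (1 / 16 : ℝ) ^ q.1) :=
    (rpow_contDiff (by norm_num)).comp contDiff_fst
  have hc : ContDiff ℝ n (fun q : ℝ × E => Real.cos (Real.pi * q.1 / 2)) :=
    Real.contDiff_cos.comp ((contDiff_const.mul contDiff_fst).div_const 2)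
  have hs : ContDiff ℝ n (fun q : ℝ × E => Real.sin (Real.pi * q.1 / 2)) :=
    Real.contDiff_sin.comp ((contDiff_const.mul contDiff_fst).div_const 2)
  have hx : ContDiff ℝ n (fun q : ℝ × E => q.2.1) := contDiff_fst.comp contDiff_snd
  have hy : ContDiff ℝ n (fun q : ℝ × E => q.2.2) := contDiff_snd.comp contDiff_snd
  exact (h4.smul ((hc.smul hx).sub (hs.smul hy))).prodMk (h16.smul ((hs.smul hx).add (hc.smul hy)))

theorem jinv_contDiff {n : WithTop ℕ∞} : ContDiff ℝ n (fun q : ℝ × E => jinv q.1 q.2) := by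
  unfold jinv
  have h4 : ContDiff ℝ n (fun q : ℝ × E => (4 : ℝ) ^ (-q.1)) :=
    (rpow_contDiff (by norm_num)).comp contDiff_fst.neg
  have h16 : ContDiff ℝ n (fun q : ℝ × E => (1 / 16 : ℝ) ^ (-q.1)) :=
    (rpow_contDiff (by norm_num)).comp contDiff_fst.neg
  have hc : ContDiff ℝ n (fun q : ℝ × E => Real.cos (Real.pi * q.1 / 2)) :=
    Real.contDiff_cos.comp ((contDiff_const.mul contDiff_fst).div_const 2)
  have hs : ContDiff ℝ n (fun q : ℝ × E => Real.sin (Real.pi * q.1 / 2)) :=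
    Real.contDiff_sin.comp ((contDiff_const.mul contDiff_fst).div_const 2)
  have hx : ContDiff ℝ n (fun q : ℝ × E => q.2.1) := contDiff_fst.comp contDiff_snd
  have hy : ContDiff ℝ n (fun q : ℝ × E => q.2.2) := contDiff_snd.comp contDiff_snd
  exact ((hc.smul (h4.smul hx)).add (hs.smul (h16.smul hy))).prodMk
    ((hc.smul (h16.smul hy)).sub (hs.smul (h4.smul hx)))

namespace HenBaux

/-- the inverse of the shear -/
noncomputable def si : ℝ → E → E := exists_shearInv.choose

theorem si_shear {τ : ℝ} (hτ : |τ| < 3 / 2) (z : E) : si τ (shear τ z) = z :=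
  exists_shearInv.choose_spec.1 τ z hτ

theorem shear_si {τ : ℝ} (hτ : |τ| < 3 / 2) (z : E) : shear τ (si τ z) = z :=
  exists_shearInv.choose_spec.2.1 τ z hτ

theorem si_contDiffAt {τ : ℝ} (hτ : |τ| < 3 / 2) {z : E} (hz : z ≠ 0) :
    ContDiffAt ℝ 1 (fun q : ℝ × E => si q.1 q.2) (τ, z) :=
  exists_shearInv.choose_spec.2.2 τ z hτ hz

/-- explicit inverse -/
noncomputable def ginv (u : ℝ) (z : E) : E :=
  si (Real.smoothTransition (2 * u)) (jinv (Real.smoothTransition (2 * u - 1)) z)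

theorem ginv_gam (u : ℝ) (z : E) : ginv u (gam u z) = z := by
  unfold ginv gam
  rw [jinv_jmap, si_shear (st_abs _)]

theorem gam_ginv (u : ℝ) (z : E) : gam u (ginv u z) = z := by
  unfold ginv gam
  rw [shear_si (st_abs _), jmap_jinv]

theorem jmap_zero_left (z : E) : jmap 0 z = z := by
  unfold jmap
  ext1 <;> simp

theorem shear_zero_left (z : E) : shear 0 z = z := by
  unfold shear
  ext1 <;> simp

theorem jmap_zero_right (τ : ℝ) : jmap τ 0 = 0 := by
  unfold jmap
  ext1 <;> simp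

theorem shear_zero_right (τ : ℝ) : shear τ 0 = 0 := by
  unfold shear
  ext1 <;> simp

theorem jmap_smul (τ r : ℝ) (z : E) : jmap τ (r • z) = r • jmap τ z := by
  unfold jmap
  ext1
  · simp only [Prod.smul_fst, Prod.smul_snd, Complex.real_smul]
    ring
  · simp only [Prod.smul_fst, Prod.smul_snd, Complex.real_smul]
    ring

theorem shear_smul (τ : ℝ) {r : ℝ} (hr : 0 ≤ r) (z : E) : shear τ (r • z) = r • shear τ z := by
  rcases hr.eq_or_lt with h | h
  · rw [← h, zero_smul, zero_smul, shear_zero_right]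
  · unfold shear
    ext1
    · simp only [Prod.smul_fst]
    · simp only [Prod.smul_fst, Prod.smul_snd, Complex.real_smul, nrm_smul, abs_of_pos h]
      have hr' : (r : ℂ) ≠ 0 := by exact_mod_cast h.ne'
      by_cases hn : (nrm z : ℂ) = 0
      · push_cast
        rw [hn]
        simp
      · push_cast
        field_simp

end HenBaux

theorem gam_bijective (u : ℝ) : Function.Bijective (gam u) :=
  ⟨Function.LeftInverse.injective (ginv_gam u), Function.RightInverse.surjective (gam_ginv u)⟩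

theorem gamInv_gam (u : ℝ) (z : E) : gamInv u (gam u z) = z :=
  Function.leftInverse_invFun (gam_bijective u).injective z

theorem gam_gamInv (u : ℝ) (z : E) : gam u (gamInv u z) = z :=
  Function.rightInverse_invFun (gam_bijective u).surjective z

theorem gam_of_nonpos {u : ℝ} (hu : u ≤ 0) (z : E) : gam u z = z := by
  unfold gam
  rw [Real.smoothTransition.zero_of_nonpos (by linarith : 2 * u - 1 ≤ 0),
    Real.smoothTransition.zero_of_nonpos (by linarith : 2 * u ≤ 0), jmap_zero_left, shear_zero_left]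

theorem gam_of_one_le {u : ℝ} (hu : 1 ≤ u) (z : E) : gam u z = g z := by
  unfold gam
  rw [Real.smoothTransition.one_of_one_le (by linarith : 1 ≤ 2 * u - 1),
    Real.smoothTransition.one_of_one_le (by linarith : 1 ≤ 2 * u)]
  unfold jmap shear g
  ext1
  · simp only [mul_one, Real.cos_pi_div_two, Real.sin_pi_div_two, Real.rpow_one, Complex.real_smul]
    push_cast
    ring
  · simp only [mul_one, Real.cos_pi_div_two, Real.sin_pi_div_two, Real.rpow_one, Complex.real_smul]
    push_cast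
    ring

theorem gamInv_of_nonpos {u : ℝ} (hu : u ≤ 0) (z : E) : gamInv u z = z := by
  conv_lhs => rw [← gam_of_nonpos hu z]
  exact gamInv_gam u z

theorem gamInv_of_one_le {u : ℝ} (hu : 1 ≤ u) (z : E) : gamInv u z = gamInv 1 z := by
  have h : gam u = gam 1 := by
    funext z
    rw [gam_of_one_le hu, gam_of_one_le le_rfl]
  unfold gamInv
  rw [h]

theorem gam_zero (u : ℝ) : gam u 0 = 0 := by
  unfold gam
  rw [shear_zero_right, jmap_zero_right]

theorem gamInv_zero (u : ℝ) : gamInv u 0 = 0 := by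
  conv_lhs => rw [← gam_zero u]
  exact gamInv_gam u 0

theorem gam_smul (u : ℝ) {r : ℝ} (hr : 0 ≤ r) (z : E) : gam u (r • z) = r • gam u z := by
  unfold gam
  rw [shear_smul _ hr, jmap_smul]

theorem gamInv_smul (u : ℝ) {r : ℝ} (hr : 0 ≤ r) (z : E) : gamInv u (r • z) = r • gamInv u z := by
  apply (gam_bijective u).injective
  rw [gam_gamInv, gam_smul u hr, gam_gamInv]

theorem gam_contDiffAt (u : ℝ) {z : E} (hz : z ≠ 0) :
    ContDiffAt ℝ 1 (fun q : ℝ × E => gam q.1 q.2) (u, z) := by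
  have hst : ContDiff ℝ 1 Real.smoothTransition := Real.smoothTransition.contDiff (n := 1)
  have h1 : ContDiff ℝ 1 (fun q : ℝ × E => Real.smoothTransition (2 * q.1)) :=
    hst.comp (contDiff_const.mul contDiff_fst)
  have h2 : ContDiff ℝ 1 (fun q : ℝ × E => Real.smoothTransition (2 * q.1 - 1)) :=
    hst.comp ((contDiff_const.mul contDiff_fst).sub contDiff_const)
  have h3 : ContDiffAt ℝ 1 (fun q : ℝ × E => (Real.smoothTransition (2 * q.1), q.2)) (u, z) :=
    h1.contDiffAt.prodMk contDiffAt_snd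
  have h4 : ContDiffAt ℝ 1 (fun q : ℝ × E => shear (Real.smoothTransition (2 * q.1)) q.2) (u, z) :=
    ContDiffAt.comp (g := fun q : ℝ × E => shear q.1 q.2)
      (f := fun q : ℝ × E => (Real.smoothTransition (2 * q.1), q.2)) (u, z)
      (shear_contDiffAt _ hz) h3
  exact ContDiffAt.comp (g := fun q : ℝ × E => jmap q.1 q.2)
    (f := fun q : ℝ × E => (Real.smoothTransition (2 * q.1 - 1),
      shear (Real.smoothTransition (2 * q.1)) q.2)) (u, z)
    jmap_contDiff.contDiffAt (h2.contDiffAt.prodMk h4)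

theorem gamInv_contDiffAt (u : ℝ) {z : E} (hz : z ≠ 0) :
    ContDiffAt ℝ 1 (fun q : ℝ × E => gamInv q.1 q.2) (u, z) := by
  have hst : ContDiff ℝ 1 Real.smoothTransition := Real.smoothTransition.contDiff (n := 1)
  have h1 : ContDiff ℝ 1 (fun q : ℝ × E => Real.smoothTransition (2 * q.1)) :=
    hst.comp (contDiff_const.mul contDiff_fst)
  have h2 : ContDiff ℝ 1 (fun q : ℝ × E => Real.smoothTransition (2 * q.1 - 1)) :=
    hst.comp ((contDiff_const.mul contDiff_fst).sub contDiff_const)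
  have h3 : ContDiffAt ℝ 1 (fun q : ℝ × E => jinv (Real.smoothTransition (2 * q.1 - 1)) q.2)
      (u, z) :=
    ContDiffAt.comp (g := fun q : ℝ × E => jinv q.1 q.2)
      (f := fun q : ℝ × E => (Real.smoothTransition (2 * q.1 - 1), q.2)) (u, z)
      jinv_contDiff.contDiffAt (h2.contDiffAt.prodMk contDiffAt_snd)
  have hne : jinv (Real.smoothTransition (2 * u - 1)) z ≠ 0 := by
    intro h
    apply hz
    rw [← jmap_jinv (Real.smoothTransition (2 * u - 1)) z, h, jmap_zero_right]
  have h4 : (fun q : ℝ × E => gamInv q.1 q.2) = fun q : ℝ × E => ginv q.1 q.2 := by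
    funext q
    apply (gam_bijective q.1).injective
    rw [gam_gamInv, gam_ginv]
  rw [h4]
  exact ContDiffAt.comp (g := fun q : ℝ × E => si q.1 q.2)
    (f := fun q : ℝ × E => (Real.smoothTransition (2 * q.1),
      jinv (Real.smoothTransition (2 * q.1 - 1)) q.2)) (u, z)
    (si_contDiffAt (st_abs _) hne) (h1.contDiffAt.prodMk h3)

end Crest.Agent.R123
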