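/-
ROW 123 (S0163), piece GsA: algebra and `C¹` regularity of `gs`, `gi`.

`gsN k u z = z` for `u ≤ 0` (induction, `gam_of_nonpos`), hence `gsN (k+1) u = gsN k u` when `u ≤ k` (induction), so
`gs u = gsN k u` for every `k ≥ u`; same for `gi`.  `gs_add_one`: `gs (u+1) = gsN (k+1) (u+1) = gam (u+1) ∘ gsN k u`
and `gam (u+1) = g` for `u ≥ 0`.  Near `(u,z)` use a fixed `k > u` for the regularity.
-/
import Crest.Agent.R123.GsDefs
import Crest.Agent.R123.HenB

set_option autoImplicit false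

namespace Crest.Agent.R123

theorem gsN_of_nonpos {k : ℕ} : ∀ {u : ℝ}, u ≤ 0 → ∀ z : E, gsN k u z = z := by
  induction k with
  | zero => intro u _ z; rfl
  | succ k ih =>
    intro u hu z
    change gam u (gsN k (u - 1) z) = z
    rw [ih (by linarith), gam_of_nonpos hu]

theorem gsN_succ_of_le {k : ℕ} : ∀ {u : ℝ}, u ≤ k → ∀ z : E, gsN (k + 1) u z = gsN k u z := by
  induction k with
  | zero =>
    intro u hu z
    have hu' : u ≤ 0 := by simpa using hu
    rw [gsN_of_nonpos hu', gsN_of_nonpos hu']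
  | succ k ih =>
    intro u hu z
    change gam u (gsN (k + 1) (u - 1) z) = gam u (gsN k (u - 1) z)
    rw [ih (by push_cast at hu; linarith)]

theorem giN_of_nonpos {k : ℕ} : ∀ {u : ℝ}, u ≤ 0 → ∀ z : E, giN k u z = z := by
  induction k with
  | zero => intro u _ z; rfl
  | succ k ih =>
    intro u hu z
    change giN k (u - 1) (gamInv u z) = z
    rw [ih (by linarith), gamInv_of_nonpos hu]

theorem giN_succ_of_le {k : ℕ} : ∀ {u : ℝ}, u ≤ k → ∀ z : E, giN (k + 1) u z = giN k u z := by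
  induction k with
  | zero =>
    intro u hu z
    have hu' : u ≤ 0 := by simpa using hu
    rw [giN_of_nonpos hu', giN_of_nonpos hu']
  | succ k ih =>
    intro u hu z
    change giN (k + 1) (u - 1) (gamInv u z) = giN k (u - 1) (gamInv u z)
    rw [ih (by push_cast at hu; linarith)]

theorem gsN_of_le {k m : ℕ} {u : ℝ} (hu : u ≤ k) (hkm : k ≤ m) (z : E) : gsN m u z = gsN k u z := by
  induction m, hkm using Nat.le_induction with
  | base => rfl
  | succ m hkm ih =>
    rw [gsN_succ_of_le (hu.trans (by exact_mod_cast hkm)), ih]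

theorem giN_of_le {k m : ℕ} {u : ℝ} (hu : u ≤ k) (hkm : k ≤ m) (z : E) : giN m u z = giN k u z := by
  induction m, hkm using Nat.le_induction with
  | base => rfl
  | succ m hkm ih =>
    rw [giN_succ_of_le (hu.trans (by exact_mod_cast hkm)), ih]

theorem gs_eq {k : ℕ} {u : ℝ} (hu : u ≤ k) (z : E) : gs u z = gsN k u z :=
  (gsN_of_le (Nat.le_ceil u) (Nat.ceil_le.mpr hu) z).symm

theorem gi_eq {k : ℕ} {u : ℝ} (hu : u ≤ k) (z : E) : gi u z = giN k u z :=
  (giN_of_le (Nat.le_ceil u) (Nat.ceil_le.mpr hu) z).symm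

theorem gs_of_nonpos {u : ℝ} (hu : u ≤ 0) (z : E) : gs u z = z := gsN_of_nonpos hu z

theorem gi_of_nonpos {u : ℝ} (hu : u ≤ 0) (z : E) : gi u z = z := giN_of_nonpos hu z

theorem gs_add_one {u : ℝ} (hu : 0 ≤ u) (z : E) : gs (u + 1) z = g (gs u z) := by
  have h1 : u + 1 ≤ ((⌈u⌉₊ + 1 : ℕ) : ℝ) := by
    push_cast
    linarith [Nat.le_ceil u]
  rw [gs_eq h1, gs_eq (Nat.le_ceil u)]
  change gam (u + 1) (gsN ⌈u⌉₊ (u + 1 - 1) z) = _
  rw [add_sub_cancel_right, gam_of_one_le (by linarith)]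

theorem giN_gsN (k : ℕ) : ∀ (u : ℝ) (z : E), giN k u (gsN k u z) = z := by
  induction k with
  | zero => intro u z; rfl
  | succ k ih =>
    intro u z
    change giN k (u - 1) (gamInv u (gam u (gsN k (u - 1) z))) = z
    rw [gamInv_gam, ih]

theorem gsN_giN (k : ℕ) : ∀ (u : ℝ) (z : E), gsN k u (giN k u z) = z := by
  induction k with
  | zero => intro u z; rfl
  | succ k ih =>
    intro u z
    change gam u (gsN k (u - 1) (giN k (u - 1) (gamInv u z))) = z
    rw [ih, gam_gamInv]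

theorem gi_gs (u : ℝ) (z : E) : gi u (gs u z) = z := giN_gsN _ u z

theorem gs_gi (u : ℝ) (z : E) : gs u (gi u z) = z := gsN_giN _ u z

theorem gsN_zero (k : ℕ) : ∀ u : ℝ, gsN k u 0 = 0 := by
  induction k with
  | zero => intro u; rfl
  | succ k ih =>
    intro u
    change gam u (gsN k (u - 1) 0) = 0
    rw [ih, gam_zero]

theorem giN_zero (k : ℕ) : ∀ u : ℝ, giN k u 0 = 0 := by
  induction k with
  | zero => intro u; rfl
  | succ k ih =>
    intro u
    change giN k (u - 1) (gamInv u 0) = 0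
    rw [gamInv_zero, ih]

theorem gs_zero (u : ℝ) : gs u 0 = 0 := gsN_zero _ u

theorem gi_zero (u : ℝ) : gi u 0 = 0 := giN_zero _ u

theorem gs_ne_zero {u : ℝ} {z : E} (hz : z ≠ 0) : gs u z ≠ 0 := by
  intro h
  apply hz
  rw [← gi_gs u z, h, gi_zero]

theorem gi_ne_zero {u : ℝ} {z : E} (hz : z ≠ 0) : gi u z ≠ 0 := by
  intro h
  apply hz
  rw [← gs_gi u z, h, gs_zero]

theorem gi_add_one_g {u : ℝ} (hu : 0 ≤ u) (z : E) : gi (u + 1) (g z) = gi u z := by
  have h1 : u + 1 ≤ ((⌈u⌉₊ + 1 : ℕ) : ℝ) := by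
    push_cast
    linarith [Nat.le_ceil u]
  rw [gi_eq h1, gi_eq (Nat.le_ceil u)]
  change giN ⌈u⌉₊ (u + 1 - 1) (gamInv (u + 1) (g z)) = _
  rw [add_sub_cancel_right, ← gam_of_one_le (u := u + 1) (by linarith) z, gamInv_gam]

theorem gs_smul (u : ℝ) {r : ℝ} (hr : 0 ≤ r) (z : E) : gs u (r • z) = r • gs u z := by
  have h : ∀ (k : ℕ) (u : ℝ) (z : E), gsN k u (r • z) = r • gsN k u z := by
    intro k
    induction k with
    | zero => intro u z; rfl
    | succ k ih =>
      intro u z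
      change gam u (gsN k (u - 1) (r • z)) = r • gam u (gsN k (u - 1) z)
      rw [ih, gam_smul u hr]
  exact h _ u z

theorem gi_smul (u : ℝ) {r : ℝ} (hr : 0 ≤ r) (z : E) : gi u (r • z) = r • gi u z := by
  have h : ∀ (k : ℕ) (u : ℝ) (z : E), giN k u (r • z) = r • giN k u z := by
    intro k
    induction k with
    | zero => intro u z; rfl
    | succ k ih =>
      intro u z
      change giN k (u - 1) (gamInv u (r • z)) = r • giN k (u - 1) (gamInv u z)
      rw [gamInv_smul u hr, ih]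
  exact h _ u z

theorem gsN_ne_zero (k : ℕ) (u : ℝ) {z : E} (hz : z ≠ 0) : gsN k u z ≠ 0 := by
  intro h
  apply hz
  rw [← giN_gsN k u z, h, giN_zero]

theorem gsN_contDiffAt (k : ℕ) : ∀ (u : ℝ) {z : E}, z ≠ 0 →
    ContDiffAt ℝ 1 (fun q : ℝ × E => gsN k q.1 q.2) (u, z) := by
  induction k with
  | zero => intro u z _; exact contDiffAt_snd
  | succ k ih =>
    intro u z hz
    have h1 : ContDiffAt ℝ 1 (fun q : ℝ × E => gsN k (q.1 - 1) q.2) (u, z) := by
      have h2 : ContDiffAt ℝ 1 (fun q : ℝ × E => (q.1 - 1, q.2)) (u, z) :=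
        (contDiffAt_fst.sub contDiffAt_const).prodMk contDiffAt_snd
      exact ContDiffAt.comp (g := fun q : ℝ × E => gsN k q.1 q.2) (u, z) (ih (u - 1) hz) h2
    have h3 : ContDiffAt ℝ 1 (fun q : ℝ × E => (q.1, gsN k (q.1 - 1) q.2)) (u, z) :=
      contDiffAt_fst.prodMk h1
    exact ContDiffAt.comp (g := fun q : ℝ × E => gam q.1 q.2) (u, z)
      (gam_contDiffAt u (gsN_ne_zero k (u - 1) hz)) h3

theorem giN_contDiffAt (k : ℕ) : ∀ (u : ℝ) {z : E}, z ≠ 0 →
    ContDiffAt ℝ 1 (fun q : ℝ × E => giN k q.1 q.2) (u, z) := by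
  induction k with
  | zero => intro u z _; exact contDiffAt_snd
  | succ k ih =>
    intro u z hz
    have hz' : gamInv u z ≠ 0 := by
      intro h
      apply hz
      rw [← gam_gamInv u z, h, gam_zero]
    have h1 : ContDiffAt ℝ 1 (fun q : ℝ × E => (q.1 - 1, gamInv q.1 q.2)) (u, z) :=
      (contDiffAt_fst.sub contDiffAt_const).prodMk (gamInv_contDiffAt u hz)
    exact ContDiffAt.comp (g := fun q : ℝ × E => giN k q.1 q.2) (u, z) (ih (u - 1) hz') h1

theorem gs_contDiffAt (u : ℝ) {z : E} (hz : z ≠ 0) :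
    ContDiffAt ℝ 1 (fun q : ℝ × E => gs q.1 q.2) (u, z) := by
  refine (gsN_contDiffAt (⌈u⌉₊ + 1) u hz).congr_of_eventuallyEq ?_
  have h1 : ∀ᶠ q : ℝ × E in nhds (u, z), q.1 < (⌈u⌉₊ + 1 : ℕ) := by
    have : Continuous fun q : ℝ × E => q.1 := continuous_fst
    refine this.continuousAt.eventually_lt continuousAt_const ?_
    push_cast
    linarith [Nat.le_ceil u]
  filter_upwards [h1] with q hq
  exact gs_eq hq.le q.2

theorem gi_contDiffAt (u : ℝ) {z : E} (hz : z ≠ 0) :
    ContDiffAt ℝ 1 (fun q : ℝ × E => gi q.1 q.2) (u, z) := by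
  refine (giN_contDiffAt (⌈u⌉₊ + 1) u hz).congr_of_eventuallyEq ?_
  have h1 : ∀ᶠ q : ℝ × E in nhds (u, z), q.1 < (⌈u⌉₊ + 1 : ℕ) := by
    have : Continuous fun q : ℝ × E => q.1 := continuous_fst
    refine this.continuousAt.eventually_lt continuousAt_const ?_
    push_cast
    linarith [Nat.le_ceil u]
  filter_upwards [h1] with q hq
  exact gi_eq hq.le q.2

end Crest.Agent.R123
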