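/-
ROW 123 (S0163), piece ModH: gluing lemma: a map which is `C¹` off `z = 0` and has the right behaviour at `z = 0` is
`C¹`.

Claim: `f` has derivative `D(0,t) = (Λ s t) • fst` at `(0,t)`: near `(0,t₀)`, `s t₀ > 0`, `f` coincides with the smooth
map `(Λ s t) • z`; at `(0,m)`: `‖f (z,t)‖ ≤ ε ‖z‖`, `s m = 0`, derivative `0`.  `x ↦ fderiv f x` is continuous: off
`z = 0` by `hoff`; near `(0,t₀)`, `s t₀>0` clear; at `(0,m)`: points `(z,t)` with `z ≠ 0` have `‖fderiv‖ ≤ ε`, points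
`(0,t)` have `‖fderiv‖ ≤ Λ s t → 0`.  Then `contDiff_one_iff_fderiv`.
-/
import Crest.Agent.R123.BaseS

set_option autoImplicit false

namespace Crest.Agent.R123

open Filter Topology

theorem glue {f : E × ℝ → E} {Λ : ℝ} (h0 : ∀ t, f (0, t) = 0)
    (hoff : ∀ (z : E) (t : ℝ), z ≠ 0 → ContDiffAt ℝ 1 f (z, t))
    (hnon : ∀ t₀ : ℝ, 0 < s t₀ → ∀ᶠ q : E × ℝ in 𝓝 (0, t₀), f q = (Λ * s q.2) • q.1)
    (hint : ∀ (m : ℤ) (ε : ℝ), 0 < ε → ∃ δ : ℝ, 0 < δ ∧ ∀ (z : E) (t : ℝ), z ≠ 0 → nrm z < δ →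
      |t - m| < δ → nrm (f (z, t)) ≤ ε * nrm z ∧ ‖fderiv ℝ f (z, t)‖ ≤ ε) :
    ContDiff ℝ 1 f := by
  have hsq2 : Real.sqrt 2 ≤ 2 := by
    rw [Real.sqrt_le_left (by norm_num)]; norm_num
  have hnrm2 : ∀ z : E, nrm z ≤ 2 * ‖z‖ := fun z =>
    (nrm_le_norm z).trans (mul_le_mul_of_nonneg_right hsq2 (norm_nonneg z))
  -- derivative at the integers
  have hder0 : ∀ m : ℤ, HasFDerivAt f (0 : E × ℝ →L[ℝ] E) (0, (m : ℝ)) := by
    intro m
    rw [hasFDerivAt_iff_isLittleO_nhds_zero, Asymptotics.isLittleO_iff]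
    intro ε hε
    obtain ⟨δ, hδ, hδ'⟩ := hint m (ε / 2) (by positivity)
    have hball : Metric.ball (0 : E × ℝ) (δ / 2) ∈ 𝓝 (0 : E × ℝ) := Metric.ball_mem_nhds _ (by positivity)
    filter_upwards [hball] with q hq
    obtain ⟨z, t⟩ := q
    rw [mem_ball_zero_iff] at hq
    have hz : ‖z‖ ≤ ‖((z, t) : E × ℝ)‖ := norm_fst_le (z, t)
    have ht : |t| ≤ ‖((z, t) : E × ℝ)‖ := norm_snd_le (z, t)
    simp only [Prod.mk_add_mk, zero_add, h0, sub_zero, ContinuousLinearMap.zero_apply]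
    rcases eq_or_ne z 0 with rfl | hz0
    · rw [h0, norm_zero]; positivity
    · have h1 := (hδ' z (m + t) hz0 (lt_of_le_of_lt (hnrm2 z) (by linarith))
        (by rw [add_sub_cancel_left]; linarith)).1
      calc ‖f (z, m + t)‖ ≤ nrm (f (z, m + t)) := norm_le_nrm _
        _ ≤ ε / 2 * nrm z := h1
        _ ≤ ε / 2 * (2 * ‖z‖) := by gcongr; exact hnrm2 z
        _ = ε * ‖z‖ := by ring
        _ ≤ _ := by gcongr
  -- the smooth model map
  have hmod : ContDiff ℝ 1 (fun q : E × ℝ => (Λ * s q.2) • q.1) :=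
    (contDiff_const.mul (s_contDiff.comp contDiff_snd)).smul contDiff_fst
  have hmodd : ∀ t : ℝ, HasFDerivAt (fun q : E × ℝ => (Λ * s q.2) • q.1)
      ((Λ * s t) • ContinuousLinearMap.fst ℝ E ℝ) (0, t) := by
    intro t
    have hs : DifferentiableAt ℝ (fun q : E × ℝ => Λ * s q.2) (0, t) := by
      have : ContDiff ℝ 1 (fun q : E × ℝ => Λ * s q.2) :=
        contDiff_const.mul (s_contDiff.comp contDiff_snd)
      exact this.differentiable (by simp) _
    have h1 := hs.hasFDerivAt.smul (hasFDerivAt_fst (𝕜 := ℝ) (E := E) (F := ℝ) (p := ((0 : E), t)))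
    have h2 : (Λ * s t) • ContinuousLinearMap.fst ℝ E ℝ + (fderiv ℝ (fun q : E × ℝ => Λ * s q.2)
        (0, t)).smulRight (0 : E) = (Λ * s t) • ContinuousLinearMap.fst ℝ E ℝ := by
      rw [ContinuousLinearMap.smulRight_zero, add_zero]
    rw [← h2]
    exact h1
  have hderp : ∀ t : ℝ, 0 < s t → HasFDerivAt f ((Λ * s t) • ContinuousLinearMap.fst ℝ E ℝ) (0, t) :=
    fun t ht => (hmodd t).congr_of_eventuallyEq (hnon t ht)
  have hcda : ∀ t : ℝ, 0 < s t → ContDiffAt ℝ 1 f (0, t) := fun t ht =>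
    hmod.contDiffAt.congr_of_eventuallyEq (hnon t ht)
  have hcases : ∀ t : ℝ, (0 < s t) ∨ ∃ m : ℤ, t = m := by
    intro t
    rcases (s_nonneg t).lt_or_eq with h | h
    · exact Or.inl h
    · exact Or.inr ((s_eq_zero_iff t).1 h.symm)
  have hdiff : Differentiable ℝ f := by
    rintro ⟨z, t⟩
    rcases eq_or_ne z 0 with rfl | hz
    · rcases hcases t with h | ⟨m, rfl⟩
      · exact (hderp t h).differentiableAt
      · exact (hder0 m).differentiableAt
    · exact (hoff z t hz).differentiableAt (by simp)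
  have hfd0 : ∀ t : ℝ, ‖fderiv ℝ f (0, t)‖ ≤ |Λ| * s t := by
    intro t
    rcases hcases t with h | ⟨m, rfl⟩
    · rw [(hderp t h).fderiv, norm_smul, Real.norm_eq_abs, abs_mul, abs_of_pos h]
      calc |Λ| * s t * ‖ContinuousLinearMap.fst ℝ E ℝ‖ ≤ |Λ| * s t * 1 := by
            gcongr
            exact ContinuousLinearMap.norm_fst_le ..
        _ = |Λ| * s t := mul_one _
    · rw [(hder0 m).fderiv, norm_zero]
      exact mul_nonneg (abs_nonneg _) (s_nonneg _)
  rw [contDiff_one_iff_fderiv]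
  refine ⟨hdiff, ?_⟩
  rw [continuous_iff_continuousAt]
  rintro ⟨z, t⟩
  have hgen : ∀ x : E × ℝ, ContDiffAt ℝ 1 f x → ContinuousAt (fderiv ℝ f) x := by
    intro x hx
    exact (hx.fderiv_right (m := 0) (by norm_num)).continuousAt
  rcases eq_or_ne z 0 with rfl | hz
  · rcases hcases t with h | ⟨m, rfl⟩
    · exact hgen _ (hcda t h)
    · rw [ContinuousAt, (hder0 m).fderiv, Metric.tendsto_nhds]
      intro ε hε
      obtain ⟨δ, hδ, hδ'⟩ := hint m (ε / 2) (by positivity)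
      have hball : Metric.ball ((0, (m : ℝ)) : E × ℝ) (δ / 2) ∈ 𝓝 ((0, (m : ℝ)) : E × ℝ) :=
        Metric.ball_mem_nhds _ (by positivity)
      have hcs : Continuous (fun q : E × ℝ => |Λ| * s q.2) :=
        continuous_const.mul ((s_contDiff (n := 0)).continuous.comp continuous_snd)
      have hsm : s (m : ℝ) = 0 := (s_eq_zero_iff _).2 ⟨m, rfl⟩
      have hev : ∀ᶠ q : E × ℝ in 𝓝 ((0, (m : ℝ)) : E × ℝ), |Λ| * s q.2 < ε :=
        hcs.continuousAt.eventually (gt_mem_nhds (by simp only [hsm, mul_zero]; exact hε))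
      filter_upwards [hball, hev] with q hq hq2
      obtain ⟨z, t⟩ := q
      rw [dist_zero_right]
      rcases eq_or_ne z 0 with rfl | hz0
      · exact lt_of_le_of_lt (hfd0 t) hq2
      · rw [Metric.mem_ball, Prod.dist_eq, max_lt_iff] at hq
        simp only [dist_zero_right, Real.dist_eq] at hq
        have h1 := (hδ' z t hz0 (lt_of_le_of_lt (hnrm2 z) (by linarith [hq.1]))
          (by linarith [hq.2])).2
        linarith
  · exact hgen _ (hoff z t hz)

end Crest.Agent.R123
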